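import Mathlib.LinearAlgebra.Matrix.Trace
import Mathlib.LinearAlgebra.Matrix.Symmetric
import Mathlib.Algebra.Order.Field.Basic
import Mathlib.Algebra.BigOperators.Field
import Mathlib.Data.Nat.Sqrt

/-! P049: the half-edge matching process and its potential (shared definitions).
All matrices live on a fixed index type; matched half-edges have zero rows and columns. -/

namespace Vale.Agent.P049

open Finset Matrix

variable {ι : Type} [Fintype ι] [DecidableEq ι]

section generic

variable {K : Type} [Field K]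

/-- minus the determinant of the pivot block -/
def rho (s : K) (B : Matrix ι ι K) (a b : ι) : K := (s - B a b) ^ 2 - B a a * B b b

/-- the matrix after matching the half-edges `a` and `b` -/
def step (s : K) (B : Matrix ι ι K) (a b : ι) : Matrix ι ι K := fun c e =>
  if c = a ∨ c = b ∨ e = a ∨ e = b then 0 else
    B c e + (B b b * B c a * B e a + B a a * B c b * B e b
      + (s - B a b) * (B c a * B e b + B c b * B e a)) / rho s B a b

def sU (B : Matrix ι ι K) : K := B.trace
def sT (B : Matrix ι ι K) : K := (B * B).trace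
def sM3 (B : Matrix ι ι K) : K := (B * B * B).trace
def sM4 (B : Matrix ι ι K) : K := (B * B * (B * B)).trace
def sY (B : Matrix ι ι K) : K := ∑ c, ((B * B) c c) ^ 2
def sV (B : Matrix ι ι K) : K := ∑ c, (B c c) ^ 2
def sChi (B C : Matrix ι ι K) : K := (B * B * C).trace

/-- the initial matrix on the half-edges `Fin n × Fin d` -/
def B0 (n d : ℕ) (s γ m : K) : Matrix (Fin n × Fin d) (Fin n × Fin d) K := fun c e =>
  (if c.1 = e.1 then γ else 0) - (if c = e then m else 0) + (s + m - γ * d) / (n * d)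

/-- the parameter `m` -/
def par_m (K : Type) [Field K] (d q : ℕ) : K :=
  ((Nat.sqrt ((q ^ 1902) ^ 2 / (d - 1)) : K) - 1) / (q : K) ^ 1902

/-- the parameter `γ` -/
def par_g (K : Type) [Field K] (d q : ℕ) : K := par_m K d q + 6 * d / ((q : K) ^ 1902) ^ 2

/-- the parameter `x` -/
def par_x (K : Type) [Field K] (n d q : ℕ) : K :=
  (n * d : K) + 1 - sT (B0 n d 1 (par_g K d q) (par_m K d q))

/-- the parameter `μ` -/
def par_mu (K : Type) [Field K] (n d q : ℕ) : K :=
  sM3 (B0 n d 1 (par_g K d q) (par_m K d q)) - 1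

end generic

def kEnd (q : ℕ) : ℕ := q ^ 1366
def kTwo (q : ℕ) : ℕ := q ^ 4058
def kOne (q : ℕ) : ℕ := q ^ 4750

section ordered

variable {K : Type} [Field K] [LinearOrder K]

def tau (x : K) (k : ℕ) : K := k / (k + x)

def uh (K : Type) [Field K] [LinearOrder K] (q k : ℕ) : K :=
  (q : K) ^ 2040 + (q : K) ^ 2197 * min 1 (max 0 (((k : K) - kOne q) / kOne q))

def nU (q : ℕ) (x : K) (k : ℕ) : K := uh K q k ^ 2 * tau x k
def nD (q : ℕ) (x : K) (k : ℕ) : K := x ^ 2 * tau x k ^ 3 / (q : K) ^ 2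
def nW (q : ℕ) (x : K) (k : ℕ) : K := (q : K) ^ 25 * k * tau x k * (1 - tau x k) ^ 2
def nV (q : ℕ) (x : K) (k : ℕ) : K := (q : K) ^ 37 * (tau x k + 1 / k)
def n4 (K : Type) [Field K] (q k : ℕ) : K := (q : K) ^ 12066 / k
def nC (q : ℕ) (μ : K) (k : ℕ) : K := (q : K) ^ 30 * k + μ / q

/-- deviation of the Frobenius mass from its target -/
def dev (x : K) (k : ℕ) (T : K) : K := k * tau x k + 1 - T

/-- centred second moment of the squared row norms -/
def cen (x : K) (k : ℕ) (T Y : K) : K := Y - 2 * tau x k * T + k * tau x k ^ 2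

def term3 (q : ℕ) (μ : K) (k : ℕ) (M3 : K) : K :=
  if kOne q ≤ k then (M3 - μ) ^ 2 / (μ / 2) ^ 2 else M3 ^ 2 / (20 * μ) ^ 2

/-- the potential of one side as a function of the seven statistics -/
def sidePot (q : ℕ) (x μ : K) (k : ℕ) (U T M3 M4 Y V Chi : K) : K :=
  U ^ 2 / nU q x k + dev x k T ^ 2 / nD q x k + cen x k T Y / nW q x k + V / nV q x k
    + (if kTwo q ≤ k then M4 / n4 K q k + term3 q μ k M3 else 0)
    + (if kOne q ≤ k then (Chi + T) / nC q μ k else 0)

def side (q : ℕ) (x μ : K) (k : ℕ) (B C : Matrix ι ι K) : K :=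
  sidePot q x μ k (sU B) (sT B) (sM3 B) (sM4 B) (sY B) (sV B) (sChi B C)

/-- the potential; `Bp` has sign `1`, `Bm` has sign `-1`, `k` half-edges are alive -/
def pot (q : ℕ) (x μ : K) (k : ℕ) (Bp Bm : Matrix ι ι K) : K :=
  side q x μ k Bp Bm + side q x μ k Bm Bp

/-- allowed increase of the potential in the step from `k` to `k - 2` -/
def incr (K : Type) [Field K] (q k : ℕ) : K :=
  10000 / ((q : K) * k) + if kOne q ≤ k ∧ k < kOne q + 2 then 1 / 50 else 0

/-- the structural invariant of one side -/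
structure Inv (H : Finset ι) (s m : K) (B : Matrix ι ι K) : Prop where
  symm : B.IsSymm
  supp : ∀ c e, c ∉ H → B c e = 0
  row : ∀ c ∈ H, ∑ e, B c e = s
  psd : ∀ ψ : ι → K, (∀ c, c ∉ H → ψ c = 0) →
    (s + m) * (∑ c, ψ c) ^ 2 / H.card ≤ (∑ c, ∑ e, ψ c * B c e * ψ e) + m * ∑ c, ψ c ^ 2

end ordered

end Vale.Agent.P049
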