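import Vale.Agent.P049.Rat1
import Mathlib.NumberTheory.Harmonic.Bounds

/-! P049: the total budget and the final size.
PLAN `incr_tot`.  Split `incr` (`Finset.sum_add_distrib`).  For `i < j`, `N - 2 i ≥ 2 (j - i) ≥ j - i`, so
`∑ 1 / (N - 2i) ≤ ∑ i < j, 1 / (j - i) = harmonic j ≤ 1 + log j` (`Finset.sum_range_reflect`, `harmonic_le_one_add_log`),
`log j ≤ 6001 log q`, `log q ≤ 2 sqrt q` (or `Real.log_le_rpow_div`), and `Big q` gives `10000 (1 + 12002 sqrt q) / q ≤ 1/4`.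
The jump term is nonzero for at most one `i` (`Finset.sum_ite`, `Finset.card_le_one`, `omega`).
PLAN `fin_small`.  `k ≤ 2 q^1366`, `tau ≤ k / x`, `k tau ≤ 4 q^2732 / q^4098 ≤ 1/2`,
`nD = x^2 tau^3 / q^2 ≤ k^3 / (x q^2) ≤ 8 / q^2 ≤ 1/4`, `Real.sqrt_le_left`. -/

namespace Vale.Agent.P049.An

open Finset

theorem incr_tot {q : ℕ} (hq : Big q) (N j : ℕ) (hN : N ≤ q ^ 6001) (hj : 2 * j ≤ N) :
    ∑ i ∈ range j, incr ℝ q (N - 2 * i) ≤ 1 / 2 := by
  have hqR : (10 : ℝ) ^ 18 ≤ q := le_trans (by norm_num) hq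
  have hq0 : (0 : ℝ) < q := by linarith [show (0 : ℝ) < 10 ^ 18 by norm_num]
  have h1 : ∑ i ∈ range j, (1 : ℝ) / (N - 2 * i : ℕ) ≤ 1 + Real.log N := by
    refine le_trans ?_ (harmonic_le_one_add_log N)
    rw [harmonic_eq_sum_Icc]
    push_cast
    rw [← sum_image (s := range j) (g := fun i => N - 2 * i) (f := fun k : ℕ => (1 : ℝ) / k)
      (fun a ha b hb h => by simp only [coe_range, Set.mem_Iio] at ha hb h; omega)]
    simp only [one_div]
    refine sum_le_sum_of_subset_of_nonneg (fun k hk => ?_) fun _ _ _ => by positivity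
    obtain ⟨i, hi, rfl⟩ := mem_image.1 hk
    rw [mem_range] at hi
    rw [mem_Icc]; omega
  have h2 : Real.log N ≤ 6001 * Real.log q := by
    rcases Nat.eq_zero_or_pos N with rfl | h0
    · simpa using Real.log_nonneg (by linarith [show (1 : ℝ) ≤ 10 ^ 18 by norm_num])
    · have : (N : ℝ) ≤ (q : ℝ) ^ 6001 := by exact_mod_cast hN
      have h := Real.log_le_log (by exact_mod_cast h0) this
      rwa [Real.log_pow, Nat.cast_ofNat] at h
  have h3 : Real.log q ≤ 2 * √q := by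
    have e := Real.log_le_sub_one_of_pos (Real.sqrt_pos.2 hq0)
    rw [Real.log_sqrt hq0.le] at e
    linarith
  have h4 : 10 ^ 9 ≤ √(q : ℝ) := Real.le_sqrt_of_sq_le (by linarith [hqR])
  have h5 : ∑ i ∈ range j, (if kOne q ≤ N - 2 * i ∧ N - 2 * i < kOne q + 2 then (1 / 50 : ℝ) else 0)
      ≤ 1 / 50 := by
    rw [← sum_filter, sum_const, nsmul_eq_mul]
    have : ((range j).filter fun i => kOne q ≤ N - 2 * i ∧ N - 2 * i < kOne q + 2).card ≤ 1 := by
      refine card_le_one.2 fun a ha b hb => ?_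
      simp only [mem_filter, mem_range] at ha hb
      omega
    have h : (((range j).filter fun i => kOne q ≤ N - 2 * i ∧ N - 2 * i < kOne q + 2).card : ℝ)
        ≤ 1 := by exact_mod_cast this
    linarith
  have h6 : ∑ i ∈ range j, (10000 : ℝ) / (q * (N - 2 * i : ℕ)) =
      10000 / q * ∑ i ∈ range j, (1 : ℝ) / (N - 2 * i : ℕ) := by
    rw [mul_sum]; exact sum_congr rfl fun i _ => by rw [div_mul_div_comm, mul_one]
  have h7 : 10000 / q * (1 + Real.log N) ≤ 1 / 4 := by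
    rw [div_mul_eq_mul_div, div_le_iff₀ hq0]
    nlinarith [Real.mul_self_sqrt hq0.le]
  have h8 := mul_le_mul_of_nonneg_left h1 (show (0 : ℝ) ≤ 10000 / q by positivity)
  simp only [incr, sum_add_distrib]
  linarith

theorem Rng.fin_small {q : ℕ} {x μ : ℝ} {k : ℕ} (h : Rng q x μ k) (hk : k ≤ kEnd q + 1) :
    k * tau x k + sSig q x k ≤ 1 := by
  have hqR : (16 : ℝ) ≤ q := le_trans (by norm_num) h.big.ge
  obtain ⟨Q, hQ, hx, hk'⟩ : ∃ Q : ℝ, 16 ≤ Q ∧ Q ^ 3 ≤ x ∧ (k : ℝ) ≤ 2 * Q := by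
    have e1 : 16 ≤ (q : ℝ) ^ 1366 := hqR.trans (le_self_pow₀ (by linarith) (by norm_num))
    have e3 : (k : ℝ) ≤ (q : ℝ) ^ 1366 + 1 := by unfold kEnd at hk; exact_mod_cast hk
    exact ⟨(q : ℝ) ^ 1366, e1, by rw [← pow_mul]; exact h.x_lo, by linarith⟩
  have hx0 : 0 < x := lt_of_lt_of_le (by positivity) hx
  have hk0 : (0 : ℝ) ≤ k := by positivity
  have t0 : 0 ≤ tau x k := by unfold tau; positivity
  have t1 : tau x k ≤ 2 * Q / x := by
    unfold tau; exact div_le_div₀ (by positivity) hk' hx0 (by linarith)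
  have h1 : nD q x k ≤ (1 / 2) ^ 2 := by
    unfold nD
    have e1 : x ^ 2 * tau x k ^ 3 ≤ 8 := by
      calc x ^ 2 * tau x k ^ 3 ≤ x ^ 2 * (2 * Q / x) ^ 3 := by gcongr
        _ = 8 * (Q ^ 3 / x) := by field_simp; ring
        _ ≤ 8 * 1 := by gcongr; exact div_le_one_of_le₀ hx hx0.le
        _ = 8 := by ring
    rw [div_le_iff₀ (by positivity)]
    nlinarith
  have h2 : sSig q x k ≤ 1 / 2 := (Real.sqrt_le_left (by norm_num)).2 h1
  have h3 : (k : ℝ) * tau x k ≤ 1 / 4 := by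
    calc (k : ℝ) * tau x k ≤ 2 * Q * (2 * Q / x) := by gcongr
      _ = 4 * Q ^ 2 / x := by ring
      _ ≤ 1 / 4 := by
        rw [div_le_iff₀ hx0]
        nlinarith [sq_nonneg Q]
  linarith

end Vale.Agent.P049.An
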