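import Vale.Agent.P049.Ctx

/-! P049: the statistics of the initial matrix.
PLAN.  `Sp n d p1 p2 p3` has the eigenvalues `p1` (constants), `p2` (block constant vectors), `p3` (block sum zero).
`Sp_mul`: `ext`, `Matrix.mul_apply`, expand the product of the two three-term sums; use
`∑ z : Fin n × Fin d, (if c.1 = z.1 then 1 else 0) = d`,
`∑ z, (if c.1 = z.1 then 1 else 0) * (if z.1 = e.1 then 1 else 0) = d * if c.1 = e.1 then 1 else 0` (`Fintype.sum_prod_type`),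
`Finset.sum_ite_eq`, then `field_simp; ring` in the cases `c = e`, `c.1 = e.1`, else.  (Or write `Sp = α • Eb + β • 1 + λ • J`
with `Eb * Eb = d • Eb`, `Eb * J = J * Eb = d • J`, `J * J = (n d) • J`.)  All diagonal entries of `Sp` are equal to
`trace / (n d)`. -/

namespace Vale.Agent.P049.An

open Finset Matrix

noncomputable def Sp (n d : ℕ) (p1 p2 p3 : ℝ) : Matrix (Fin n × Fin d) (Fin n × Fin d) ℝ := fun c e =>
  (if c.1 = e.1 then (p2 - p3) / d else 0) + (if c = e then p3 else 0) + (p1 - p2) / (n * d)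

variable {n d : ℕ} {s γ m : ℝ}

private def Eb (n d : ℕ) : Matrix (Fin n × Fin d) (Fin n × Fin d) ℝ := fun c e =>
  if c.1 = e.1 then 1 else 0

private def Jm (n d : ℕ) : Matrix (Fin n × Fin d) (Fin n × Fin d) ℝ := fun _ _ => 1

private theorem Sp_eq (p1 p2 p3 : ℝ) :
    Sp n d p1 p2 p3 = ((p2 - p3) / d) • Eb n d + p3 • (1 : Matrix _ _ ℝ)
      + ((p1 - p2) / (n * d)) • Jm n d := by
  ext c e
  simp only [Sp, Eb, Jm, Matrix.add_apply, Matrix.smul_apply, smul_eq_mul, Matrix.one_apply,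
    mul_ite, mul_one, mul_zero]

private theorem Eb_Eb : Eb n d * Eb n d = (d : ℝ) • Eb n d := by
  ext c e
  simp only [Eb, Matrix.mul_apply, Matrix.smul_apply, smul_eq_mul, Fintype.sum_prod_type]
  rw [Finset.sum_comm]
  simp only [ite_mul, one_mul, zero_mul, Finset.sum_ite_eq, Finset.mem_univ, if_true]
  by_cases h : c.1 = e.1 <;> simp [h]

private theorem Eb_J : Eb n d * Jm n d = (d : ℝ) • Jm n d := by
  ext c e
  simp only [Eb, Jm, Matrix.mul_apply, Matrix.smul_apply, smul_eq_mul, Fintype.sum_prod_type]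
  rw [Finset.sum_comm]
  simp

private theorem J_Eb : Jm n d * Eb n d = (d : ℝ) • Jm n d := by
  ext c e
  simp only [Eb, Jm, Matrix.mul_apply, Matrix.smul_apply, smul_eq_mul, Fintype.sum_prod_type]
  rw [Finset.sum_comm]
  simp

private theorem J_J : Jm n d * Jm n d = ((n : ℝ) * d) • Jm n d := by
  ext c e
  simp [Jm, Matrix.mul_apply]

theorem Sp_mul (hn : 0 < n) (hd : 0 < d) (p1 p2 p3 r1 r2 r3 : ℝ) :
    Sp n d p1 p2 p3 * Sp n d r1 r2 r3 = Sp n d (p1 * r1) (p2 * r2) (p3 * r3) := by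
  have hn' : (n : ℝ) ≠ 0 := by positivity
  have hd' : (d : ℝ) ≠ 0 := by positivity
  simp only [Sp_eq, Matrix.add_mul, Matrix.mul_add, Matrix.smul_mul, Matrix.mul_smul, Eb_Eb, Eb_J,
    J_Eb, J_J, Matrix.one_mul, Matrix.mul_one]
  match_scalars <;> field_simp <;> ring

theorem Sp_diag (hn : 0 < n) (hd : 0 < d) (p1 p2 p3 : ℝ) (c : Fin n × Fin d) :
    Sp n d p1 p2 p3 c c = (p1 + (n - 1) * p2 + n * (d - 1) * p3) / (n * d) := by
  have hn' : (n : ℝ) ≠ 0 := by positivity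
  have hd' : (d : ℝ) ≠ 0 := by positivity
  simp only [Sp, if_true]
  field_simp
  ring

theorem Sp_trace (hn : 0 < n) (hd : 0 < d) (p1 p2 p3 : ℝ) :
    (Sp n d p1 p2 p3).trace = p1 + (n - 1) * p2 + n * (d - 1) * p3 := by
  have hn' : (n : ℝ) ≠ 0 := by positivity
  have hd' : (d : ℝ) ≠ 0 := by positivity
  simp only [Matrix.trace, Matrix.diag, Sp_diag hn hd, Finset.sum_const, Finset.card_univ,
    Fintype.card_prod, Fintype.card_fin, nsmul_eq_mul, Nat.cast_mul]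
  field_simp

theorem B0_eq (hd : 0 < d) (s γ m : ℝ) : B0 n d s γ m = Sp n d s (γ * d - m) (-m) := by
  have hd' : (d : ℝ) ≠ 0 := by positivity
  ext c e
  have h1 : (γ * d - m - -m) / d = γ := by field_simp; ring
  have h2 : s - (γ * d - m) = s + m - γ * d := by ring
  simp only [B0, Sp, h1, h2]
  split_ifs <;> ring

private theorem sq_of_sign (hs : s = 1 ∨ s = -1) : s * s = 1 := by
  rcases hs with h | h <;> rw [h] <;> norm_num


theorem B0_U (hn : 0 < n) (hd : 0 < d) :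
    sU (B0 n d s γ m) = s + (n - 1) * (γ * d - m) - n * (d - 1) * m := by
  rw [sU, B0_eq hd, Sp_trace hn hd]
  ring

theorem B0_T (hn : 0 < n) (hd : 0 < d) (hs : s = 1 ∨ s = -1) :
    sT (B0 n d s γ m) = 1 + (n - 1) * (γ * d - m) ^ 2 + n * (d - 1) * m ^ 2 := by
  rw [sT, B0_eq hd, Sp_mul hn hd, Sp_trace hn hd, sq_of_sign hs]
  ring

theorem B0_M3 (hn : 0 < n) (hd : 0 < d) (hs : s = 1 ∨ s = -1) :
    sM3 (B0 n d s γ m) = s + (n - 1) * (γ * d - m) ^ 3 - n * (d - 1) * m ^ 3 := by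
  rw [sM3, B0_eq hd, Sp_mul hn hd, Sp_mul hn hd, Sp_trace hn hd, sq_of_sign hs]
  ring

theorem B0_M4 (hn : 0 < n) (hd : 0 < d) (hs : s = 1 ∨ s = -1) :
    sM4 (B0 n d s γ m) = 1 + (n - 1) * (γ * d - m) ^ 4 + n * (d - 1) * m ^ 4 := by
  rw [sM4, B0_eq hd, Sp_mul hn hd, Sp_mul hn hd, Sp_trace hn hd, sq_of_sign hs]
  ring

theorem B0_chi (hn : 0 < n) (hd : 0 < d) (hs : s = 1 ∨ s = -1) :
    sChi (B0 n d s γ m) (B0 n d (-s) γ m)
      = -s + (n - 1) * (γ * d - m) ^ 3 - n * (d - 1) * m ^ 3 := by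
  rw [sChi, B0_eq hd, B0_eq hd, Sp_mul hn hd, Sp_mul hn hd, Sp_trace hn hd, sq_of_sign hs]
  ring

theorem B0_Y (hn : 0 < n) (hd : 0 < d) :
    sY (B0 n d s γ m) = sT (B0 n d s γ m) ^ 2 / (n * d) := by
  have hn' : (n : ℝ) ≠ 0 := by positivity
  have hd' : (d : ℝ) ≠ 0 := by positivity
  rw [sY, sT, B0_eq hd, Sp_mul hn hd, Sp_trace hn hd]
  simp only [Sp_diag hn hd, Finset.sum_const, Finset.card_univ,
    Fintype.card_prod, Fintype.card_fin, nsmul_eq_mul, Nat.cast_mul]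
  field_simp

theorem B0_V (hn : 0 < n) (hd : 0 < d) :
    sV (B0 n d s γ m) = sU (B0 n d s γ m) ^ 2 / (n * d) := by
  have hn' : (n : ℝ) ≠ 0 := by positivity
  have hd' : (d : ℝ) ≠ 0 := by positivity
  rw [sV, sU, B0_eq hd, Sp_trace hn hd]
  simp only [Sp_diag hn hd, Finset.sum_const, Finset.card_univ,
    Fintype.card_prod, Fintype.card_fin, nsmul_eq_mul, Nat.cast_mul]
  field_simp


end Vale.Agent.P049.An
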