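import Vale.Agent.P049.Ctx

/-! P049: sizes of the explicit parameters. -/

namespace Vale.Agent.P049.An

variable {d q n : ℕ}

private theorem sq_close (D Q : ℕ) (hD : 0 < D) :
    (Nat.sqrt (Q ^ 2 / D) : ℝ) * √(D : ℝ) ≤ Q ∧ (Q : ℝ) ≤ (Nat.sqrt (Q ^ 2 / D) + 1) * √(D : ℝ) := by
  set j := Nat.sqrt (Q ^ 2 / D) with hj
  have h1 : j ^ 2 * D ≤ Q ^ 2 := (Nat.le_div_iff_mul_le hD).1 (Nat.sqrt_le' _)
  have h2 : Q ^ 2 < (j + 1) ^ 2 * D := (Nat.div_lt_iff_lt_mul hD).1 (Nat.lt_succ_sqrt' _)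
  have hs : √(D : ℝ) ^ 2 = D := Real.sq_sqrt (Nat.cast_nonneg D)
  have h1' : (j : ℝ) ^ 2 * D ≤ (Q : ℝ) ^ 2 := by exact_mod_cast h1
  have h2' : (Q : ℝ) ^ 2 ≤ ((j : ℝ) + 1) ^ 2 * D := by exact_mod_cast h2.le
  constructor
  · refine abs_le_of_sq_le_sq' ?_ (Nat.cast_nonneg Q) |>.2
    rw [mul_pow, hs]; exact h1'
  · refine abs_le_of_sq_le_sq' ?_ (by positivity) |>.2
    rw [mul_pow, hs]; exact h2'

theorem m_close (hd : 3 ≤ d) (hq : 0 < q) :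
    √((d : ℝ) - 1) / (q : ℝ) ^ 1902 ≤ 1 - √((d : ℝ) - 1) * par_m ℝ d q ∧
    1 - √((d : ℝ) - 1) * par_m ℝ d q ≤ 2 * √((d : ℝ) - 1) / (q : ℝ) ^ 1902 := by
  have hc : ((d - 1 : ℕ) : ℝ) = (d : ℝ) - 1 := by rw [Nat.cast_sub (by omega)]; simp
  obtain ⟨h1, h2⟩ := sq_close (d - 1) (q ^ 1902) (by omega)
  rw [hc, Nat.cast_pow] at h1 h2
  unfold par_m
  have hQ : (0 : ℝ) < (q : ℝ) ^ 1902 := pow_pos (by exact_mod_cast hq) _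
  generalize (q : ℝ) ^ 1902 = Q at *
  generalize (Nat.sqrt ((q ^ 1902) ^ 2 / (d - 1)) : ℝ) = j at *
  generalize √((d : ℝ) - 1) = r at *
  have e : 1 - r * ((j - 1) / Q) = (Q - j * r + r) / Q := by field_simp; ring
  rw [e]
  constructor
  · exact div_le_div_of_nonneg_right (by linarith) hQ.le
  · exact div_le_div_of_nonneg_right (by linarith) hQ.le

/-- the facts about `r, δ, Q` used below -/
private theorem base (hd : 3 ≤ d) (hq : 10 ^ 6 * d ^ 6 ≤ q) : ∃ r δ Q : ℝ, r = √((d : ℝ) - 1) ∧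
    Q = (q : ℝ) ^ 1902 ∧ r ^ 2 = d - 1 ∧ 7 / 5 ≤ r ∧ r ≤ d ∧ r * par_m ℝ d q = 1 - δ ∧
    r ≤ δ * Q ∧ δ * Q ≤ 2 * r ∧ 10 ^ 6 * (d : ℝ) ^ 6 ≤ q ∧ (q : ℝ) ≤ Q ∧ 0 < δ ∧ δ ≤ 1 / 1000 ∧
    par_g ℝ d q = par_m ℝ d q + 6 * d / Q ^ 2 := by
  have hd' : (3 : ℝ) ≤ d := by exact_mod_cast hd
  have hq' : 10 ^ 6 * (d : ℝ) ^ 6 ≤ q := by exact_mod_cast hq
  have hq0 : 0 < q := lt_of_lt_of_le (by positivity) hq
  have hd6 : (d : ℝ) ≤ (d : ℝ) ^ 6 := le_self_pow₀ (by linarith) (by norm_num)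
  have hq1 : (1 : ℝ) ≤ q := by exact_mod_cast hq0
  have hQ : (q : ℝ) ≤ (q : ℝ) ^ 1902 := le_self_pow₀ hq1 (by norm_num)
  obtain ⟨h1, h2⟩ := m_close hd hq0
  have hr2 : √((d : ℝ) - 1) ^ 2 = d - 1 := Real.sq_sqrt (by linarith)
  have hr0 := Real.sqrt_nonneg ((d : ℝ) - 1)
  have hr1 : 7 / 5 ≤ √((d : ℝ) - 1) := Real.le_sqrt_of_sq_le (by linarith)
  have hr3 : √((d : ℝ) - 1) ≤ d := by nlinarith
  have hQ0 : (0 : ℝ) < (q : ℝ) ^ 1902 := by linarith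
  rw [div_le_iff₀ hQ0] at h1
  rw [le_div_iff₀ hQ0] at h2
  refine ⟨_, 1 - √((d : ℝ) - 1) * par_m ℝ d q, _, rfl, rfl, hr2, hr1, hr3, by ring, h1, h2, hq', hQ,
    ?_, ?_, rfl⟩
  · by_contra h
    have := mul_nonpos_of_nonpos_of_nonneg (not_lt.1 h) hQ0.le
    linarith
  · by_contra h
    have := mul_le_mul_of_nonneg_right (not_le.1 h).le hQ0.le
    linarith

theorem m_bd (hd : 3 ≤ d) (hq : 10 ^ 6 * d ^ 6 ≤ q) :
    0 ≤ par_m ℝ d q ∧ par_m ℝ d q ^ 2 ≤ 1 / 2 ∧ 0 < par_g ℝ d q := by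
  obtain ⟨r, δ, Q, -, -, r2, r1, r3, hm, -, -, hq', hQ, d0, d1, hg⟩ := base hd hq
  have hd' : (3 : ℝ) ≤ d := by exact_mod_cast hd
  have hQ0 : 0 < Q := by
    have : (0 : ℝ) < 10 ^ 6 * (d : ℝ) ^ 6 := by positivity
    linarith
  generalize par_m ℝ d q = m at *
  have m0 : 0 ≤ m := by
    by_contra h
    have := mul_nonpos_of_nonneg_of_nonpos (by linarith : 0 ≤ r) (not_le.1 h).le
    linarith
  refine ⟨m0, ?_, by rw [hg]; positivity⟩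
  have e : (d - 1) * m ^ 2 = (1 - δ) ^ 2 := by rw [← r2, ← hm]; ring
  nlinarith [sq_nonneg m]

theorem g_ineq (hd : 3 ≤ d) (hq : 10 ^ 6 * d ^ 6 ≤ q) :
    1 - par_m ℝ d q ^ 2 ≤ par_g ℝ d q * (2 * √((d : ℝ) - 1) - par_m ℝ d q * d) := by
  obtain ⟨r, δ, Q, hr, -, r2, r1, r3, hm, -, h2, hq', hQ, d0, d1, hg⟩ := base hd hq
  have hd' : (3 : ℝ) ≤ d := by exact_mod_cast hd
  have hQ0 : 0 < Q := by
    have : (0 : ℝ) < 10 ^ 6 * (d : ℝ) ^ 6 := by positivity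
    linarith
  rw [hg, ← hr]
  generalize par_m ℝ d q = m at *
  have r0 : 0 < r := by linarith
  have e1 : m * (2 * r - m * d) - (1 - m ^ 2) = -δ ^ 2 := by
    have : (d : ℝ) = r ^ 2 + 1 := by linarith
    have h : δ = 1 - r * m := by linarith
    rw [this, h]; ring
  have e2 : d - 2 ≤ r * (2 * r - m * d) := by
    have : r * (2 * r - m * d) = 2 * r ^ 2 - (r * m) * d := by ring
    rw [this, hm, r2]; nlinarith
  have e3 : 2 * r ≤ 3 * (d - 2) := by nlinarith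
  have e4 : 4 * r ^ 2 ≤ 6 * d * (2 * r - m * d) := by
    refine le_of_mul_le_mul_left ?_ r0
    have : r * (6 * d * (2 * r - m * d)) = 6 * d * (r * (2 * r - m * d)) := by ring
    rw [this, r2]; nlinarith
  have e5 : δ ^ 2 ≤ 6 * d / Q ^ 2 * (2 * r - m * d) := by
    rw [div_mul_eq_mul_div, le_div_iff₀ (by positivity)]
    have : (δ * Q) ^ 2 ≤ (2 * r) ^ 2 := pow_le_pow_left₀ (by positivity) h2 2
    nlinarith
  nlinarith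

private theorem pow_two_le (q N : ℕ) (h : 2 * N ≤ q) (hq : 0 < q) : (q + 1) ^ N ≤ 2 * q ^ N := by
  have hq0 : (0 : ℝ) < q := by exact_mod_cast hq
  have hN : 2 * (N : ℝ) ≤ q := by exact_mod_cast h
  have e : (q : ℝ) + 1 = q * (1 / q + 1) := by field_simp; ring
  have h1 : (1 / (q : ℝ) + 1) ^ N ≤ Real.exp (1 / q) ^ N :=
    pow_le_pow_left₀ (by positivity) (Real.add_one_le_exp _) N
  have h3 : Real.exp (1 / q) ^ N ≤ 2 := by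
    rw [← Real.exp_nat_mul]
    have h4 : (N : ℝ) * (1 / q) ≤ 1 / 2 := by
      rw [mul_one_div, div_le_iff₀ hq0]; linarith
    have h5 : Real.exp (1 / 2) ≤ 2 := by
      have h6 := Real.exp_bound_div_one_sub_of_interval (x := 1 / 2) (by norm_num) (by norm_num)
      linarith
    exact (Real.exp_le_exp.2 h4).trans h5
  have h7 : ((q : ℝ) + 1) ^ N ≤ 2 * (q : ℝ) ^ N := by
    rw [e, mul_pow, mul_comm]
    exact mul_le_mul_of_nonneg_right (h1.trans h3) (by positivity)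
  exact_mod_cast h7

theorem n_bd (hd : 3 ≤ d) (hq : 10 ^ 6 * d ^ 6 ≤ q) (h2 : n < (q + 1) ^ 6000) :
    n ≤ 2 * q ^ 6000 ∧ n * d ≤ q ^ 6001 := by
  have hd6 : 12000 ≤ q ∧ 0 < q ∧ 2 * d ≤ q := by
    clear h2
    have := Nat.le_self_pow (n := 6) (by norm_num) d
    omega
  have h4 : n ≤ 2 * q ^ 6000 := (h2.trans_le (pow_two_le q 6000 hd6.1 hd6.2.1)).le
  refine ⟨h4, ?_⟩
  calc n * d ≤ 2 * q ^ 6000 * d := Nat.mul_le_mul_right _ h4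
    _ = q ^ 6000 * (2 * d) := by rw [mul_comm 2, mul_assoc]
    _ ≤ q ^ 6000 * q := Nat.mul_le_mul_left _ hd6.2.2
    _ = q ^ 6001 := (pow_succ q 6000).symm

/-- real form of the size of `n` -/
private theorem n_real (hd : 3 ≤ d) (hq : 10 ^ 6 * d ^ 6 ≤ q) (h1 : q ^ 6000 ≤ n)
    (h2 : n < (q + 1) ^ 6000) : (q : ℝ) ^ 6000 ≤ n ∧ (n : ℝ) ≤ 2 * (q : ℝ) ^ 6000 := by
  have h3 := (n_bd hd hq h2).1
  rw [← Nat.cast_pow, ← Nat.cast_two, ← Nat.cast_mul]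
  exact ⟨Nat.cast_le.2 h1, Nat.cast_le.2 h3⟩

private theorem abs_facts {d r δ Q m ε : ℝ} (hd : 3 ≤ d) (r2 : r ^ 2 = d - 1) (r1 : 7 / 5 ≤ r)
    (r3 : r ≤ d) (hm : r * m = 1 - δ) (hQ : 10 ^ 6 * d ^ 6 ≤ Q) (d0 : 0 < δ) (d1 : δ ≤ 1 / 1000)
    (hε : ε = 6 * d / Q ^ 2 * d) :
    0 ≤ m ∧ (d - 1) * m ^ 2 = (1 - δ) ^ 2 ∧ (d - 1) * m = r * (1 - δ) ∧ 0 ≤ ε ∧
      ε * Q * d ≤ 1 / 1000 ∧ ε ≤ 1 / 1000 ∧ ε * Q ^ 2 = 6 * d ^ 2 := by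
  have h6 : d ^ 3 ≤ d ^ 6 := pow_le_pow_right₀ (by linarith) (by norm_num)
  have h3 : (27 : ℝ) ≤ d ^ 3 := by
    have := pow_le_pow_left₀ (by norm_num : (0 : ℝ) ≤ 3) hd 3
    linarith
  have hQ0 : 0 < Q := by linarith
  have e0 : 0 ≤ ε := by rw [hε]; positivity
  have e1 : ε * Q * d = 6 * d ^ 3 / Q := by rw [hε]; field_simp
  have e2 : ε * Q * d ≤ 1 / 1000 := by rw [e1, div_le_iff₀ hQ0]; linarith
  refine ⟨?_, by rw [← r2, ← hm]; ring, by rw [← r2, ← hm]; ring, e0, e2, ?_, by rw [hε]; field_simp⟩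
  · by_contra h
    have := mul_nonpos_of_nonneg_of_nonpos (by linarith : 0 ≤ r) (not_le.1 h).le
    linarith
  · have : 1 ≤ Q * d := by nlinarith
    nlinarith

private theorem sm1 {d δ : ℝ} (hd : 3 ≤ d) (d0 : 0 < δ) (d1 : δ ≤ 1 / 1000) :
    (d - 1) * (1 - δ) ^ 2 ≤ d ∧ 3 ≤ d * (2 - δ) ∧ 99 / 100 ≤ (1 - δ) ^ 2 ∧ (1 - δ) ^ 2 ≤ 1 ∧
      d ≤ d ^ 2 := by
  have h1 : (1 - δ) ^ 2 ≤ 1 := by nlinarith
  refine ⟨?_, by nlinarith, by nlinarith, h1, by nlinarith⟩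
  have := mul_le_mul_of_nonneg_left h1 (by linarith : 0 ≤ d - 1)
  linarith

private theorem sm2 {d r δ : ℝ} (r1 : 7 / 5 ≤ r) (r3 : r ≤ d) (d0 : 0 < δ) (d1 : δ ≤ 1 / 1000) :
    0 ≤ r * (1 - δ) ∧ r * (1 - δ) ≤ d :=
  ⟨mul_nonneg (by linarith) (by linarith), by nlinarith⟩

private theorem sm3 {d r δ m : ℝ} (hd : 3 ≤ d) (r2 : r ^ 2 = d - 1) (r1 : 7 / 5 ≤ r)
    (hm : r * m = 1 - δ) (d0 : 0 < δ) (m0 : 0 ≤ m) :
    m ≤ 1 ∧ 2 * (1 - δ) ≤ m * (d * (d - 2)) := by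
  have h1 : 2 * r ≤ 3 * (d - 2) := by nlinarith
  have h2 : 3 * (d - 2) ≤ d * (d - 2) := mul_le_mul_of_nonneg_right hd (by linarith)
  have h3 := mul_le_mul_of_nonneg_left (h1.trans h2) m0
  exact ⟨by nlinarith, by linarith⟩

private theorem x_abs {d r δ Q m ε n q Z : ℝ} (hd : 3 ≤ d) (r2 : r ^ 2 = d - 1) (r1 : 7 / 5 ≤ r)
    (r3 : r ≤ d) (hm : r * m = 1 - δ) (hq : 10 ^ 6 * d ^ 6 ≤ q) (hQ : q ≤ Q) (d0 : 0 < δ)
    (d1 : δ ≤ 1 / 1000) (hε : ε = 6 * d / Q ^ 2 * d) (q1 : r ≤ δ * Q) (q2 : δ * Q ≤ 2 * r)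
    (hZ : 1 ≤ Z) (n1 : Z * Q ≤ n) (n2 : n ≤ 2 * (Z * Q)) :
    Z ≤ n * d - (n - 1) * ((d - 1) * m + ε) ^ 2 - n * (d - 1) * m ^ 2 ∧
    n * d - (n - 1) * ((d - 1) * m + ε) ^ 2 - n * (d - 1) * m ^ 2 ≤ Z * q := by
  obtain ⟨m0, e1, e2, ε0, ε1, ε2, -⟩ := abs_facts hd r2 r1 r3 hm (hq.trans hQ) d0 d1 hε
  obtain ⟨c1, c2, -, -, hd2⟩ := sm1 hd d0 d1
  obtain ⟨p0, p1⟩ := sm2 r1 r3 d0 d1
  have h6 : d ^ 2 ≤ d ^ 6 := pow_le_pow_right₀ (by linarith) (by norm_num)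
  have hQ1 : 1 ≤ Q := by linarith
  have n0 : 1 ≤ n := le_trans (one_le_mul_of_one_le_of_one_le hZ hQ1) n1
  have e : n * d - (n - 1) * ((d - 1) * m + ε) ^ 2 - n * (d - 1) * m ^ 2
      = n * d * (δ * (2 - δ)) + (d - 1) * (1 - δ) ^ 2 - (n - 1) * (ε * (2 * (r * (1 - δ)) + ε)) := by
    rw [e2, mul_assoc n, e1]
    have : (r * (1 - δ) + ε) ^ 2 = r ^ 2 * (1 - δ) ^ 2 + ε * (2 * (r * (1 - δ)) + ε) := by ring
    rw [this, r2]; ring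
  rw [e]
  have b0 : 0 ≤ ε * (2 * (r * (1 - δ)) + ε) := by positivity
  have b1 : ε * (2 * (r * (1 - δ)) + ε) * Q ≤ 1 / 100 := by
    have h1 : 2 * (r * (1 - δ)) + ε ≤ 3 * d := by linarith
    have h2 : ε * Q * (2 * (r * (1 - δ)) + ε) ≤ ε * Q * (3 * d) :=
      mul_le_mul_of_nonneg_left h1 (by positivity)
    linarith
  have c0 : 0 ≤ (d - 1) * (1 - δ) ^ 2 := mul_nonneg (by linarith) (sq_nonneg _)
  generalize ε * (2 * (r * (1 - δ)) + ε) = b at *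
  generalize (d - 1) * (1 - δ) ^ 2 = c at *
  constructor
  · refine le_of_mul_le_mul_right ?_ (by linarith : 0 < Q)
    have f1 : 3 * 1 ≤ d * (2 - δ) * (δ * Q) :=
      mul_le_mul c2 (by linarith) (by norm_num) (by linarith)
    have f2 := mul_le_mul_of_nonneg_left f1 (by linarith : 0 ≤ n)
    have f3 := mul_le_mul_of_nonneg_left b1 (by linarith : 0 ≤ n - 1)
    have f4 : 0 ≤ c * Q := mul_nonneg c0 (by linarith)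
    linarith
  · have f1 : n * d * (δ * (2 - δ)) ≤ 2 * (Z * Q) * d * (δ * 2) := by
      have h1 : δ * (2 - δ) ≤ δ * 2 := mul_le_mul_of_nonneg_left (by linarith) d0.le
      have h0 : 0 ≤ δ * (2 - δ) := mul_nonneg d0.le (by linarith)
      exact mul_le_mul (mul_le_mul_of_nonneg_right n2 (by linarith)) h1 h0 (by positivity)
    have f3 : 4 * Z * d * (δ * Q) ≤ 4 * Z * d * (2 * d) :=
      mul_le_mul_of_nonneg_left (by linarith) (by positivity)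
    have f4 := mul_nonneg (by linarith : 0 ≤ n - 1) b0
    have f5 : Z * (10 * d ^ 2) ≤ Z * q := mul_le_mul_of_nonneg_left (by linarith) (by linarith)
    have f6 : 1 * d ^ 2 ≤ Z * d ^ 2 := mul_le_mul_of_nonneg_right hZ (sq_nonneg d)
    linarith

private theorem mu_abs {d r δ Q m ε n q Z : ℝ} (hd : 3 ≤ d) (r2 : r ^ 2 = d - 1) (r1 : 7 / 5 ≤ r)
    (r3 : r ≤ d) (hm : r * m = 1 - δ) (hq : 10 ^ 6 * d ^ 6 ≤ q) (hQ : q ≤ Q) (d0 : 0 < δ)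
    (d1 : δ ≤ 1 / 1000) (hε : ε = 6 * d / Q ^ 2 * d) (hZ : q ≤ Z) (n1 : Z ≤ n) (n2 : n ≤ 2 * Z) :
    (Z ≤ (n - 1) * ((d - 1) * m + ε) ^ 3 - n * (d - 1) * m ^ 3 ∧
    (n - 1) * ((d - 1) * m + ε) ^ 3 - n * (d - 1) * m ^ 3 ≤ Z * q) ∧
    1 + (n - 1) * ((d - 1) * m + ε) ^ 4 + n * (d - 1) * m ^ 4 ≤ Z * q := by
  obtain ⟨m0, e1, e2, ε0, -, ε2, -⟩ := abs_facts hd r2 r1 r3 hm (hq.trans hQ) d0 d1 hε
  obtain ⟨-, -, c3, c4, -⟩ := sm1 hd d0 d1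
  obtain ⟨p0, p1⟩ := sm2 r1 r3 d0 d1
  obtain ⟨m1, f4⟩ := sm3 hd r2 r1 hm d0 m0
  have h6 : d ^ 4 ≤ d ^ 6 := pow_le_pow_right₀ (by linarith) (by norm_num)
  have h4 : d ^ 3 ≤ d ^ 4 := pow_le_pow_right₀ (by linarith) (by norm_num)
  have h3 : (27 : ℝ) ≤ d ^ 3 := by
    have := pow_le_pow_left₀ (by norm_num : (0 : ℝ) ≤ 3) hd 3
    linarith
  have a1 : (d - 1) * m + ε ≤ 2 * d := by linarith
  have a0 : 0 ≤ (d - 1) * m + ε := by linarith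
  have n0 : 0 ≤ n - 1 := by linarith
  have t3 : ((d - 1) * m + ε) ^ 3 ≤ (2 * d) ^ 3 := pow_le_pow_left₀ a0 a1 3
  have t4 : ((d - 1) * m + ε) ^ 4 ≤ (2 * d) ^ 4 := pow_le_pow_left₀ a0 a1 4
  have u0 : 0 ≤ n * (d - 1) * m ^ 3 :=
    mul_nonneg (mul_nonneg (by linarith) (by linarith)) (pow_nonneg m0 3)
  have f1 : ((d - 1) * m) ^ 3 ≤ ((d - 1) * m + ε) ^ 3 :=
    pow_le_pow_left₀ (by linarith) (by linarith) 3
  have g3 := pow_nonneg a0 3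
  have g4 := pow_nonneg a0 4
  generalize ((d - 1) * m + ε) ^ 3 = A3 at *
  generalize ((d - 1) * m + ε) ^ 4 = A4 at *
  refine ⟨⟨?_, ?_⟩, ?_⟩
  · have f2 := mul_le_mul_of_nonneg_left f1 n0
    have f3 : (n - 1) * ((d - 1) * m) ^ 3 - n * (d - 1) * m ^ 3
        = n * ((d - 1) * m ^ 2 * (m * (d * (d - 2)))) - ((d - 1) * m) ^ 3 := by ring
    have f5 : 99 / 100 * (19 / 10) ≤ (d - 1) * m ^ 2 * (m * (d * (d - 2))) :=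
      mul_le_mul (by linarith) (by linarith) (by norm_num) (by linarith)
    have f6 : ((d - 1) * m) ^ 3 ≤ d ^ 3 := pow_le_pow_left₀ (by linarith) (by linarith) 3
    have f7 := mul_le_mul_of_nonneg_left f5 (by linarith : 0 ≤ n)
    linarith
  · have f1 : (n - 1) * A3 ≤ (2 * Z) * (2 * d) ^ 3 := mul_le_mul (by linarith) t3 g3 (by linarith)
    have f2 : Z * (16 * d ^ 3) ≤ Z * q := mul_le_mul_of_nonneg_left (by linarith) (by linarith)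
    linarith
  · have f1 : (n - 1) * A4 ≤ (2 * Z) * (2 * d) ^ 4 := mul_le_mul (by linarith) t4 g4 (by linarith)
    have f3 : (d - 1) * m ^ 4 ≤ 1 := by
      have : (d - 1) * m ^ 4 = (d - 1) * m ^ 2 * m ^ 2 := by ring
      rw [this, e1]
      exact mul_le_one₀ c4 (sq_nonneg _) (pow_le_one₀ m0 m1)
    have f4 := mul_le_mul_of_nonneg_left f3 (by linarith : 0 ≤ n)
    have f2 : Z * (32 * d ^ 4 + 3) ≤ Z * q := mul_le_mul_of_nonneg_left (by linarith) (by linarith)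
    linarith

private theorem U_abs {d r δ Q m ε n q Z : ℝ} (hd : 3 ≤ d) (r2 : r ^ 2 = d - 1) (r1 : 7 / 5 ≤ r)
    (r3 : r ≤ d) (hm : r * m = 1 - δ) (hq : 10 ^ 6 * d ^ 6 ≤ q) (hQ : q ≤ Q) (d0 : 0 < δ)
    (d1 : δ ≤ 1 / 1000) (hε : ε = 6 * d / Q ^ 2 * d) (hZ : 1 ≤ Z) (n0 : 0 ≤ n)
    (n2 : n ≤ 2 * (Z * Q ^ 2)) :
    1 + |(n - 1) * ((d - 1) * m + ε) - n * (d - 1) * m| ≤ Z * q / 100 := by
  obtain ⟨m0, e1, e2, ε0, ε1, ε2, ε3⟩ := abs_facts hd r2 r1 r3 hm (hq.trans hQ) d0 d1 hε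
  have h6 : d ^ 2 ≤ d ^ 6 := pow_le_pow_right₀ (by linarith) (by norm_num)
  have hd2 : d ≤ d ^ 2 := by nlinarith
  have p0 : 0 ≤ r * (1 - δ) := mul_nonneg (by linarith) (by linarith)
  have p1 : r * (1 - δ) ≤ d := by nlinarith
  have e : (n - 1) * ((d - 1) * m + ε) - n * (d - 1) * m = n * ε - ((d - 1) * m + ε) := by ring
  have f0 : 0 ≤ n * ε := mul_nonneg n0 ε0
  have f1 : n * ε ≤ 2 * (Z * Q ^ 2) * ε := mul_le_mul_of_nonneg_right n2 ε0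
  have f2 : 2 * (Z * Q ^ 2) * ε = Z * (12 * d ^ 2) := by
    have : 2 * (Z * Q ^ 2) * ε = 2 * Z * (ε * Q ^ 2) := by ring
    rw [this, ε3]; ring
  have f3 : |n * ε - ((d - 1) * m + ε)| ≤ Z * (12 * d ^ 2) + 2 * d := by
    rw [abs_le]; constructor <;> linarith
  have f4 : d ^ 2 ≤ Z * d ^ 2 := by nlinarith
  have f5 : Z * (1500 * d ^ 2) ≤ Z * q := mul_le_mul_of_nonneg_left (by nlinarith) (by linarith)
  rw [e]; linarith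

private theorem a_eq {m a g d Q : ℝ} (hg : g = m + 6 * d / Q ^ 2) (ha : a = g * d - m) :
    a = (d - 1) * m + 6 * d / Q ^ 2 * d := by rw [ha, hg]; ring

theorem x_bd (hd : 3 ≤ d) (hq : 10 ^ 6 * d ^ 6 ≤ q) (h1 : q ^ 6000 ≤ n) (h2 : n < (q + 1) ^ 6000)
    {m a : ℝ} (hm : m = par_m ℝ d q) (ha : a = par_g ℝ d q * d - m) :
    (q : ℝ) ^ 4098 ≤ n * d - (n - 1) * a ^ 2 - n * (d - 1) * m ^ 2 ∧
    n * d - (n - 1) * a ^ 2 - n * (d - 1) * m ^ 2 ≤ (q : ℝ) ^ 4099 := by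
  obtain ⟨n1, n2⟩ := n_real hd hq h1 h2
  obtain ⟨r, δ, Q, -, hQe, r2, r1, r3, hm', q1, q2, hq', hQ, d0, d1, hg⟩ := base hd hq
  rw [← hm] at hm' hg
  have hq1 : (1 : ℝ) ≤ q := Nat.one_le_cast.2 (lt_of_lt_of_le (Nat.mul_pos (by norm_num)
    (pow_pos (lt_of_lt_of_le (by norm_num) hd) 6)) hq)
  have e : (q : ℝ) ^ 6000 = (q : ℝ) ^ 4098 * Q := by rw [hQe, ← pow_add]
  rw [e] at n1 n2
  rw [a_eq hg ha, pow_succ (q : ℝ) 4098]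
  exact x_abs (Nat.ofNat_le_cast.2 hd) r2 r1 r3 hm' hq' hQ d0 d1 rfl q1 q2 (one_le_pow₀ hq1) n1 n2

theorem mu_bd (hd : 3 ≤ d) (hq : 10 ^ 6 * d ^ 6 ≤ q) (h1 : q ^ 6000 ≤ n) (h2 : n < (q + 1) ^ 6000)
    {m a : ℝ} (hm : m = par_m ℝ d q) (ha : a = par_g ℝ d q * d - m) :
    (q : ℝ) ^ 6000 ≤ (n - 1) * a ^ 3 - n * (d - 1) * m ^ 3 ∧
    (n - 1) * a ^ 3 - n * (d - 1) * m ^ 3 ≤ (q : ℝ) ^ 6001 := by
  obtain ⟨n1, n2⟩ := n_real hd hq h1 h2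
  obtain ⟨r, δ, Q, -, hQe, r2, r1, r3, hm', q1, q2, hq', hQ, d0, d1, hg⟩ := base hd hq
  rw [← hm] at hm' hg
  have hq1 : (1 : ℝ) ≤ q := Nat.one_le_cast.2 (lt_of_lt_of_le (Nat.mul_pos (by norm_num)
    (pow_pos (lt_of_lt_of_le (by norm_num) hd) 6)) hq)
  rw [a_eq hg ha, pow_succ (q : ℝ) 6000]
  exact (mu_abs (Nat.ofNat_le_cast.2 hd) r2 r1 r3 hm' hq' hQ d0 d1 rfl
    (le_self_pow₀ hq1 (by norm_num)) n1 n2).1

theorem U_bd (hd : 3 ≤ d) (hq : 10 ^ 6 * d ^ 6 ≤ q) (h1 : q ^ 6000 ≤ n) (h2 : n < (q + 1) ^ 6000)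
    {m a : ℝ} (hm : m = par_m ℝ d q) (ha : a = par_g ℝ d q * d - m) :
    1 + |((n : ℝ) - 1) * a - n * (d - 1) * m| ≤ (q : ℝ) ^ 2197 / 100 ∧
    1 + (n - 1) * a ^ 4 + n * (d - 1) * m ^ 4 ≤ (q : ℝ) ^ 6002 := by
  obtain ⟨n1, n2⟩ := n_real hd hq h1 h2
  obtain ⟨r, δ, Q, -, hQe, r2, r1, r3, hm', q1, q2, hq', hQ, d0, d1, hg⟩ := base hd hq
  rw [← hm] at hm' hg
  have hq1 : (1 : ℝ) ≤ q := Nat.one_le_cast.2 (lt_of_lt_of_le (Nat.mul_pos (by norm_num)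
    (pow_pos (lt_of_lt_of_le (by norm_num) hd) 6)) hq)
  rw [a_eq hg ha]
  constructor
  · have e : (q : ℝ) ^ 6000 = (q : ℝ) ^ 2196 * Q ^ 2 := by rw [hQe, ← pow_mul, ← pow_add]
    rw [e] at n2
    rw [pow_succ (q : ℝ) 2196]
    exact U_abs (Nat.ofNat_le_cast.2 hd) r2 r1 r3 hm' hq' hQ d0 d1 rfl (one_le_pow₀ hq1)
      (Nat.cast_nonneg n) n2
  · refine le_trans (mu_abs (Nat.ofNat_le_cast.2 hd) r2 r1 r3 hm' hq' hQ d0 d1 rfl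
      (le_self_pow₀ hq1 (by norm_num)) n1 n2).2 ?_
    rw [← pow_succ]
    exact pow_le_pow_right₀ hq1 (by norm_num)

end Vale.Agent.P049.An
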