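import Vale.Agent.P049.Sch0

/-! P049: the initial potential is small (a purely scalar estimate).
PLAN.  `N = k ≥ q^6000 ≥ x`, so `1/2 ≤ tau ≤ 1`, `1 - tau = x / (N + x)`, `kTwo q ≤ N`, `2 kOne q ≤ N`, `uh = q^2040 + q^2197`.
`U^2 / nU ≤ 2 / 10^4`.  `dev = x^2 / (N + x)`, `dev^2 / nD ≤ 8 x^2 q^2 / N^2`.
`cen = (T - N tau)^2 / N = (1 - dev)^2 / N ≤ (2 + 2 dev^2) / N`, `cen / nW ≤ 16 / (q^25 x^2) + 4 x^2 / (q^25 N^2)`.
`V / nV ≤ 2 U^2 / (N q^37)`, `M4 / n4 = M4 N / q^12066`, `term3 ≤ 4 / μ^2`,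
`(chi + T) / nC ≤ (μ + N + 2) / (q^30 N)` with `μ ≤ q N`.  Show that each of the seven terms is `≤ 1/100`
(`div_le_iff₀`; the calculus `Ub` / `Lb` of Ub.lean with `Ub.small` may be convenient). -/

namespace Vale.Agent.P049.An

private theorem small {a b : ℝ} (hb : 0 < b) (h : 100 * a ≤ b) : a / b ≤ 1 / 100 := by
  rw [div_le_div_iff₀ hb (by norm_num)]
  linarith

private theorem t_dev {q x n τ D : ℝ} (hq : 100 ≤ q) (hx : 1 ≤ x) (hn : x * q ^ 2 ≤ n)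
    (hτ : 1 / 2 ≤ τ) (hD0 : 0 ≤ D) (hD : D * n ≤ x ^ 2) :
    D ≤ x ∧ D ^ 2 / (x ^ 2 * τ ^ 3 / q ^ 2) ≤ 1 / 100 := by
  have h1 : D * q ^ 2 ≤ x := by
    have := mul_le_mul_of_nonneg_left hn hD0
    have h2 : x * (D * q ^ 2) ≤ x * x := by nlinarith
    exact le_of_mul_le_mul_left h2 (by linarith)
  have h2 : 800 ≤ q ^ 2 := by nlinarith
  refine ⟨by nlinarith, small (by positivity) ?_⟩
  rw [le_div_iff₀ (by positivity)]
  have h3 : (D * q ^ 2) ^ 2 ≤ x ^ 2 := pow_le_pow_left₀ (by positivity) h1 2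
  have h4 : (1 / 2) ^ 3 ≤ τ ^ 3 := pow_le_pow_left₀ (by norm_num) hτ 3
  have h5 := mul_le_mul_of_nonneg_left h4 (sq_nonneg x)
  have h6 := mul_le_mul_of_nonneg_left h2 (show 0 ≤ D ^ 2 * q ^ 2 by positivity)
  nlinarith

private theorem t_cen {Q x n τ σ E : ℝ} (hQ : 800 ≤ Q) (hx : 1 ≤ x) (hn : 0 < n)
    (hτ : 1 / 2 ≤ τ) (hσ : x ≤ 2 * n * σ) (hE : E ^ 2 ≤ x ^ 2) :
    E ^ 2 / n / (Q * n * τ * σ ^ 2) ≤ 1 / 100 := by
  have hσ0 : 0 < σ := by
    by_contra h0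
    nlinarith [mul_nonneg hn.le (neg_nonneg.2 (not_lt.1 h0))]
  refine small (by positivity) ?_
  rw [← mul_div_assoc, div_le_iff₀ hn]
  have h1 : x ^ 2 ≤ (2 * n * σ) ^ 2 := pow_le_pow_left₀ (by linarith) hσ 2
  have h2 : 400 ≤ Q * τ := by nlinarith
  have h3 := mul_le_mul_of_nonneg_right h2 (sq_nonneg (n * σ))
  nlinarith

theorem init_pot {q : ℕ} {x μ : ℝ} {N : ℕ} (h : Rng q x μ N) (hN : q ^ 6000 ≤ N)
    {U T M3 M4 Y V Chi : ℝ} (hU : |U| ≤ (q : ℝ) ^ 2197 / 100) (hT : T = N + 1 - x)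
    (h3 : |M3 - μ| ≤ 1) (h4 : M4 ≤ (q : ℝ) ^ 6002) (hY : Y = T ^ 2 / N) (hV : V = U ^ 2 / N)
    (hC : Chi ≤ μ + 1) : sidePot q x μ N U T M3 M4 Y V Chi ≤ 1 / 8 := by
  have hq : (10 : ℝ) ^ 12 ≤ q := h.big.ge
  have hq1 : (1 : ℝ) ≤ q := h.big.one_le
  have hq0 : (0 : ℝ) < q := h.big.pos
  have pw : ∀ i j : ℕ, i ≤ j → (q : ℝ) ^ i ≤ (q : ℝ) ^ j := fun i j hij => pow_le_pow_right₀ hq1 hij
  have pw1 : ∀ j : ℕ, 1 ≤ j → (1000 : ℝ) ≤ (q : ℝ) ^ j := fun j hj => by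
    have := pw 1 j hj
    rw [pow_one] at this
    linarith
  have hn : (q : ℝ) ^ 6000 ≤ N := by exact_mod_cast hN
  have hn' : (N : ℝ) ≤ (q : ℝ) ^ 6001 := by exact_mod_cast h.k_hi
  have hn1 : (1000 : ℝ) ≤ N := (pw1 _ (by norm_num)).trans hn
  have hn0 : (0 : ℝ) < N := by linarith
  have hx : 1 ≤ x := (one_le_pow₀ hq1).trans h.x_lo
  have hxn : x * (q : ℝ) ^ 2 ≤ N := by
    calc x * (q : ℝ) ^ 2 ≤ (q : ℝ) ^ 4099 * (q : ℝ) ^ 2 :=
          mul_le_mul_of_nonneg_right h.x_hi (sq_nonneg _)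
      _ = (q : ℝ) ^ 4101 := by rw [← pow_add]
      _ ≤ N := (pw _ _ (by norm_num)).trans hn
  have hxn' : x ≤ N := (h.x_hi.trans (pw _ _ (by norm_num))).trans hn
  have hμ : 1000 ≤ μ := (pw1 _ (by norm_num)).trans h.mu_lo
  have hq1' : 1 ≤ q := by exact_mod_cast hq1
  have pn : ∀ j : ℕ, j ≤ 6000 → q ^ j ≤ N := fun j hj =>
    Nat.le_trans (Nat.pow_le_pow_right hq1' hj) hN
  have hk1 : kOne q ≤ N := by unfold kOne; exact pn _ (by norm_num)
  have hk2 : kTwo q ≤ N := by unfold kTwo; exact pn _ (by norm_num)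
  have hs : 0 < (N : ℝ) + x := by linarith
  have hτ : 1 / 2 ≤ tau x N := by
    rw [tau, div_le_div_iff₀ two_pos hs]
    linarith
  have hσ : x ≤ 2 * N * (1 - tau x N) := by
    rw [tau, one_sub_div hs.ne', ← mul_div_assoc, le_div_iff₀ hs]
    linarith [mul_le_mul_of_nonneg_left hxn' (zero_le_one.trans hx)]
  have hD : dev x N T = x ^ 2 / (N + x) := by
    rw [dev, tau, hT]
    field_simp
    ring
  have hD0 : 0 ≤ dev x N T := by rw [hD]; positivity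
  have hDn : dev x N T * N ≤ x ^ 2 := by
    rw [hD, div_mul_eq_mul_div, div_le_iff₀ hs]
    exact mul_le_mul_of_nonneg_left (by linarith) (sq_nonneg x)
  obtain ⟨hDx, t2⟩ := t_dev (by linarith) hx hxn hτ hD0 hDn
  have hU2 : U ^ 2 ≤ ((q : ℝ) ^ 2197 / 100) ^ 2 := sq_le_sq' (abs_le.1 hU).1 (abs_le.1 hU).2
  have huh : (q : ℝ) ^ 2197 ≤ uh ℝ q N := by
    have e : (kOne q : ℝ) = (q : ℝ) ^ 4750 := by rw [kOne, Nat.cast_pow]
    have h0 : (0 : ℝ) < (q : ℝ) ^ 4750 := by positivity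
    have h1 : 1 ≤ ((N : ℝ) - kOne q) / kOne q := by
      rw [e, le_div_iff₀ h0]
      have h2 : (q : ℝ) ^ 4750 * q ≤ N := by
        rw [← pow_succ]; exact (pw _ _ (by norm_num)).trans hn
      linarith [mul_le_mul_of_nonneg_left (show (2 : ℝ) ≤ q by linarith) h0.le]
    rw [uh, min_eq_left (le_max_of_le_right h1), mul_one]
    exact le_add_of_nonneg_left (by positivity)
  have t1 : U ^ 2 / nU q x N ≤ 1 / 100 := by
    have h0 : (0 : ℝ) < (q : ℝ) ^ 2197 := by positivity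
    have h1 : ((q : ℝ) ^ 2197) ^ 2 ≤ uh ℝ q N ^ 2 := pow_le_pow_left₀ h0.le huh 2
    have h2 := mul_le_mul_of_nonneg_left hτ (sq_nonneg (uh ℝ q N))
    have h5 : (0 : ℝ) < ((q : ℝ) ^ 2197) ^ 2 := by positivity
    generalize (q : ℝ) ^ 2197 = Z at hU2 h1 h5
    refine small ?_ ?_ <;> rw [nU] <;> linarith
  have t3 : cen x N T Y / nW q x N ≤ 1 / 100 := by
    have e : cen x N T Y = (1 - dev x N T) ^ 2 / N := by
      rw [cen, dev, hY]
      field_simp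
      ring
    rw [e, nW]
    exact t_cen (by linarith [pw1 25 (by norm_num)]) hx hn0 hτ hσ
      (sq_le_sq' (by linarith) (by linarith))
  have t4 : V / nV q x N ≤ 1 / 100 := by
    have h1 : V ≤ 1 := by
      rw [hV, div_le_one hn0]
      refine hU2.trans (le_trans ?_ ((pw 4394 _ (by norm_num)).trans hn))
      rw [div_pow, ← pow_mul]
      exact div_le_self (by positivity) (by norm_num)
    have h2 := pw1 37 (by norm_num)
    have h5 : 1 / 2 ≤ tau x N + 1 / N := le_add_of_le_of_nonneg hτ (by positivity)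
    have h6 : 1000 * (1 / 2) ≤ nV q x N := mul_le_mul h2 h5 (by norm_num) (by linarith)
    exact small (by linarith) (by linarith)
  have t5 : M4 / n4 ℝ q N ≤ 1 / 100 := by
    rw [n4]
    refine small (by positivity) ?_
    rw [le_div_iff₀ hn0]
    calc 100 * M4 * N ≤ (q : ℝ) ^ 63 * (q : ℝ) ^ 6002 * N := by
          refine mul_le_mul_of_nonneg_right ?_ hn0.le
          refine (mul_le_mul_of_nonneg_left h4 (by norm_num)).trans ?_
          exact mul_le_mul_of_nonneg_right (by linarith [pw1 63 (by norm_num)]) (by positivity)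
      _ ≤ (q : ℝ) ^ 63 * (q : ℝ) ^ 6002 * (q : ℝ) ^ 6001 :=
          mul_le_mul_of_nonneg_left hn' (by positivity)
      _ = _ := by rw [← pow_add, ← pow_add]
  have t6 : term3 q μ N M3 ≤ 1 / 100 := by
    rw [term3, if_pos hk1]
    have h1 : (M3 - μ) ^ 2 ≤ 1 ^ 2 := sq_le_sq' (abs_le.1 h3).1 (abs_le.1 h3).2
    have h2 : 20 ^ 2 ≤ (μ / 2) ^ 2 := pow_le_pow_left₀ (by norm_num) (by linarith) 2
    exact small (by positivity) (by linarith)
  have t7 : (Chi + T) / nC q μ N ≤ 1 / 100 := by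
    have h1 : μ ≤ q * N := by
      refine h.mu_hi.trans ?_
      rw [pow_succ']
      exact mul_le_mul_of_nonneg_left hn hq0.le
    have h2 : (N : ℝ) ≤ q * N := le_mul_of_one_le_left hn0.le hq1
    have h5 : 1000 * (q * N) ≤ (q : ℝ) ^ 30 * N := by
      rw [pow_succ, mul_assoc]
      exact mul_le_mul_of_nonneg_right (pw1 29 (by norm_num)) (by positivity)
    have h6 : 0 ≤ μ / q := by positivity
    refine small ?_ ?_ <;> rw [nC] <;> linarith
  rw [sidePot, if_pos hk1, if_pos hk2, nD]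
  linarith

end Vale.Agent.P049.An
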