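import Vale.Agent.P049.Ctx

/-! P049: passing from the padded index type to the type of alive half-edges.
PLAN.  For `f : ι → ℝ` vanishing outside `H`: `∑ c : H, f c = ∑ c, f c` (`Finset.sum_coe_sort`, `Finset.sum_subset`).
`res_mul` needs only the support of the left factor's columns.  All statistics are traces or diagonal sums of products;
`Supp` is closed under products.  `inv_res`: extend `ψ` by zero (`fun c => if h : c ∈ H then ψ ⟨c, h⟩ else 0`),
`Finset.card_univ`, `Fintype.card_coe`.  `res_step`: `ext`, `Subtype.ext_iff`. -/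

namespace Vale.Agent.P049.An

open Finset Matrix

variable {ι : Type} [Fintype ι] [DecidableEq ι] {H : Finset ι} {s m : ℝ} {B C : Matrix ι ι ℝ}

/-- restriction to the alive half-edges -/
def res (H : Finset ι) (B : Matrix ι ι ℝ) : Matrix H H ℝ := fun c e => B c e
/-- `B` vanishes outside `H × H` -/
def Supp (H : Finset ι) (B : Matrix ι ι ℝ) : Prop := ∀ c e, c ∉ H ∨ e ∉ H → B c e = 0

omit [DecidableEq ι] in
private lemma sum_res (f : ι → ℝ) (hf : ∀ c, c ∉ H → f c = 0) : ∑ c : H, f c = ∑ c, f c := by
  rw [Finset.sum_coe_sort H f]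
  exact Finset.sum_subset (Finset.subset_univ H) fun c _ hc => hf c hc

theorem supp_of_inv (h : Inv H s m B) : Supp H B := by
  intro c e hce
  rcases hce with hc | he
  · exact h.supp c e hc
  · rw [h.symm.apply e c]; exact h.supp e c he
omit [Fintype ι] in
theorem Supp.step (h : Supp H B) (s : ℝ) (a b : ι) : Supp H (step s B a b) := by
  intro c e hce
  unfold P049.step
  split_ifs
  · rfl
  · rcases hce with hc | he
    · rw [h c e (Or.inl hc), h c a (Or.inl hc), h c b (Or.inl hc)]; simp
    · rw [h c e (Or.inr he), h e a (Or.inl he), h e b (Or.inl he)]; simp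
theorem Supp.mul (h : Supp H B) (h' : Supp H C) : Supp H (B * C) := by
  intro c e hce
  rw [Matrix.mul_apply]
  refine Finset.sum_eq_zero fun x _ => ?_
  rcases hce with hc | he
  · rw [h c x (Or.inl hc), zero_mul]
  · rw [h' x e (Or.inr he), mul_zero]
theorem res_mul (h : Supp H B) (C : Matrix ι ι ℝ) : res H (B * C) = res H B * res H C := by
  ext c e
  rw [Matrix.mul_apply]
  simp only [res]
  rw [Matrix.mul_apply]
  exact (sum_res (fun x => B c x * C x e) fun x hx => by rw [h c x (Or.inr hx), zero_mul]).symm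
theorem res_trace (h : Supp H B) : (res H B).trace = B.trace := by
  exact sum_res (fun c => B c c) fun c hc => h c c (Or.inl hc)
omit [Fintype ι] in
theorem res_step (s : ℝ) (B : Matrix ι ι ℝ) (a b : H) :
    res H (step s B a b) = step s (res H B) a b := by
  ext c e
  simp only [res, P049.step, rho, Subtype.ext_iff]
omit [Fintype ι] [DecidableEq ι] in
theorem res_rho (s : ℝ) (B : Matrix ι ι ℝ) (a b : H) : rho s (res H B) a b = rho s B a b := by
  rfl
theorem res_T (h : Supp H B) : sT (res H B) = sT B := by
  unfold sT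
  rw [← res_mul h, res_trace (h.mul h)]
theorem res_side (h : Supp H B) (h' : Supp H C) (q : ℕ) (x μ : ℝ) (k : ℕ) :
    side q x μ k (res H B) (res H C) = side q x μ k B C := by
  have h1 : sU (res H B) = sU B := res_trace h
  have h2 : sM3 (res H B) = sM3 B := by
    unfold sM3
    rw [← res_mul h, ← res_mul (h.mul h), res_trace ((h.mul h).mul h)]
  have h3 : sM4 (res H B) = sM4 B := by
    unfold sM4
    rw [← res_mul h, ← res_mul (h.mul h), res_trace ((h.mul h).mul (h.mul h))]
  have h4 : sY (res H B) = sY B := by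
    unfold sY
    rw [← res_mul h]
    exact sum_res (fun c => (B * B) c c ^ 2) fun c hc => by
      rw [h.mul h c c (Or.inl hc)]; simp
  have h5 : sV (res H B) = sV B :=
    sum_res (fun c => B c c ^ 2) fun c hc => by rw [h c c (Or.inl hc)]; simp
  have h6 : sChi (res H B) (res H C) = sChi B C := by
    unfold sChi
    rw [← res_mul h, ← res_mul (h.mul h), res_trace ((h.mul h).mul h')]
  unfold side
  rw [h1, h2, h3, h4, h5, h6, res_T h]
theorem res_pot (h : Supp H B) (h' : Supp H C) (q : ℕ) (x μ : ℝ) (k : ℕ) :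
    pot q x μ k (res H B) (res H C) = pot q x μ k B C := by
  unfold pot
  rw [res_side h h', res_side h' h]
theorem inv_res (h : Inv H s m B) : Inv univ s m (res H B) := by
  have hs := supp_of_inv h
  refine ⟨?_, fun c e hc => absurd (mem_univ c) hc, fun c _ => ?_, fun ψ _ => ?_⟩
  · ext c e
    exact h.symm.apply c e
  · rw [← h.row c c.2]
    exact sum_res (fun e => B c e) fun e he => hs c e (Or.inr he)
  · let φ : ι → ℝ := fun c => if hc : c ∈ H then ψ ⟨c, hc⟩ else 0
    have h0 : ∀ c, c ∉ H → φ c = 0 := fun c hc => dif_neg hc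
    have h1 : ∀ c : H, φ c = ψ c := fun c => dif_pos c.2
    have h2 := h.psd φ h0
    rw [← sum_res φ h0, ← sum_res (fun c => φ c ^ 2) (fun c hc => by rw [h0 c hc]; simp),
      ← sum_res (fun c => ∑ e, φ c * B c e * φ e) (fun c hc => by simp [h0 c hc])] at h2
    have h3 : ∀ c : H, ∑ e, φ c * B c e * φ e = ∑ e : H, ψ c * B c e * ψ e := fun c => by
      rw [← sum_res (fun e => φ c * B c e * φ e) (fun e he => by rw [h0 e he, mul_zero])]
      simp only [h1]
    rw [Finset.sum_congr rfl fun c _ => h3 c] at h2
    simp only [h1] at h2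
    rw [Finset.card_univ, Fintype.card_coe]
    exact h2
omit [Fintype ι] in
theorem card_bad (bad : ι → ι → Prop) [DecidableRel bad] (a : H) :
    (univ.filter fun b : H => bad a b).card = (H.filter (bad a)).card := by
  refine Finset.card_bij (fun b _ => (b : ι)) (fun b hb => ?_) (fun b _ c _ hbc => Subtype.ext hbc)
    (fun c hc => ?_)
  · exact mem_filter.2 ⟨b.2, (mem_filter.1 hb).2⟩
  · exact ⟨⟨c, (mem_filter.1 hc).1⟩, mem_filter.2 ⟨mem_univ _, (mem_filter.1 hc).2⟩, rfl⟩

end Vale.Agent.P049.An
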