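import Vale.Agent.P049.Core
import Vale.Agent.P049.Transfer
import Vale.Agent.P049.Fin
import Vale.Agent.P049.Init1
import Vale.Agent.P049.Init2
import Vale.Agent.P049.Init3

/-! P049: interface of the analysis part. -/

namespace Vale.Agent.P049

open Finset Matrix An

/-- ranges of the global parameters -/
structure Glob (q : ℕ) (x μ m : ℝ) : Prop where
  x_lo : (q : ℝ) ^ 4098 ≤ x
  x_hi : x ≤ (q : ℝ) ^ 4099
  mu_lo : (q : ℝ) ^ 6000 ≤ μ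
  mu_hi : μ ≤ (q : ℝ) ^ 6001
  m_lo : 0 ≤ m
  m_hi : m ^ 2 ≤ 1 / 2

theorem big_of_le {q : ℕ} (h : 2 ^ 200 ≤ q) : Big q := by
  unfold Big; exact_mod_cast h

theorem Glob.rng {q k : ℕ} {x μ m : ℝ} (h : Glob q x μ m) (hq : 2 ^ 200 ≤ q) (h1 : kEnd q ≤ k)
    (h2 : k ≤ q ^ 6001) : Rng q x μ k :=
  ⟨big_of_le hq, h.x_lo, h.x_hi, h.mu_lo, h.mu_hi, h1, h2⟩

/-- the explicit parameters lie in the required ranges and the start is admissible -/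
theorem par_ok (d : ℕ) (hd : 3 ≤ d) : ∃ q0 : ℕ, ∀ q ≥ q0, ∀ n : ℕ,
    q ^ 6000 ≤ n → n < (q + 1) ^ 6000 →
    Glob q (par_x ℝ n d q) (par_mu ℝ n d q) (par_m ℝ d q) ∧ n * d ≤ q ^ 6001 ∧
    0 < par_g ℝ d q ∧
    1 - par_m ℝ d q ^ 2 ≤ par_g ℝ d q * (2 * √((d : ℝ) - 1) - par_m ℝ d q * d) ∧
    pot q (par_x ℝ n d q) (par_mu ℝ n d q) (n * d)
      (B0 n d 1 (par_g ℝ d q) (par_m ℝ d q)) (B0 n d (-1) (par_g ℝ d q) (par_m ℝ d q)) ≤ 1 / 4 := by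
  refine ⟨2 ^ 200 + 10 ^ 6 * d ^ 6, fun q hq n h1 h2 => ?_⟩
  have hq1 : 2 ^ 200 ≤ q := le_trans (Nat.le_add_right _ _) hq
  have hq2 : 10 ^ 6 * d ^ 6 ≤ q := le_trans (Nat.le_add_left _ _) hq
  have hq0 : 0 < q := lt_of_lt_of_le (by positivity) hq1
  have hn : 0 < n := lt_of_lt_of_le (pow_pos hq0 _) h1
  have hd0 : 0 < d := by omega
  obtain ⟨m1, m2, m3⟩ := m_bd hd hq2
  obtain ⟨-, n2⟩ := n_bd hd hq2 h2
  obtain ⟨x1, x2⟩ := x_bd hd hq2 h1 h2 rfl rfl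
  obtain ⟨u1, u2⟩ := mu_bd hd hq2 h1 h2 rfl rfl
  obtain ⟨v1, v2⟩ := U_bd hd hq2 h1 h2 rfl rfl
  set m := par_m ℝ d q with hm
  set γ := par_g ℝ d q with hγ
  have hx : par_x ℝ n d q = n * d - (n - 1) * (γ * d - m) ^ 2 - n * (d - 1) * m ^ 2 := by
    rw [par_x, B0_T hn hd0 (Or.inl rfl)]; ring
  have hμ : par_mu ℝ n d q = (n - 1) * (γ * d - m) ^ 3 - n * (d - 1) * m ^ 3 := by
    rw [par_mu, B0_M3 hn hd0 (Or.inl rfl)]; ring
  have hG : Glob q (par_x ℝ n d q) (par_mu ℝ n d q) m :=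
    ⟨hx ▸ x1, hx ▸ x2, hμ ▸ u1, hμ ▸ u2, m1, m2⟩
  have hN : q ^ 6000 ≤ n * d := le_trans h1 (Nat.le_mul_of_pos_right n hd0)
  have hR : Rng q (par_x ℝ n d q) (par_mu ℝ n d q) (n * d) :=
    hG.rng hq1 (le_trans (Nat.pow_le_pow_right hq0 (by norm_num)) hN) n2
  have key : ∀ s : ℝ, s = 1 ∨ s = -1 → side q (par_x ℝ n d q) (par_mu ℝ n d q) (n * d)
      (B0 n d s γ m) (B0 n d (-s) γ m) ≤ 1 / 8 := by
    intro s hs
    have hs1 : |s| = 1 := by rcases hs with rfl | rfl <;> simp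
    refine init_pot hR hN ?_ ?_ ?_ ?_ ?_ ?_ ?_
    · rw [B0_U hn hd0, add_sub_assoc]
      exact le_trans (abs_add_le _ _) (by rw [hs1]; exact v1)
    · rw [B0_T hn hd0 hs, hx]; push_cast; ring
    · rw [B0_M3 hn hd0 hs, hμ]
      refine le_of_eq (Eq.trans ?_ hs1)
      congr 1; ring
    · rw [B0_M4 hn hd0 hs]; exact v2
    · rw [B0_Y hn hd0]; push_cast; rfl
    · rw [B0_V hn hd0]; push_cast; rfl
    · rw [B0_chi hn hd0 hs, hμ]
      have := (abs_le.1 hs1.le).1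
      linarith
  refine ⟨hG, n2, m3, g_ineq hd hq2, ?_⟩
  have k1 := key 1 (Or.inl rfl)
  have k2 := key (-1) (Or.inr rfl)
  rw [neg_neg] at k2
  unfold pot
  linarith

/-- one step of the process -/
theorem pot_step : ∃ q0 : ℕ, ∀ q ≥ q0, ∀ (x μ m : ℝ), Glob q x μ m →
    ∀ (ι : Type) [Fintype ι] [DecidableEq ι] (H : Finset ι) (Bp Bm : Matrix ι ι ℝ)
      (bad : ι → ι → Prop) [DecidableRel bad],
      (∀ a b, bad a b → bad b a) → (∀ a, (H.filter (bad a)).card ≤ q) →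
      kEnd q + 2 ≤ H.card → H.card ≤ q ^ 6001 →
      Inv H 1 m Bp → Inv H (-1) m Bm → pot q x μ H.card Bp Bm ≤ 1 →
      ∃ a ∈ H, ∃ b ∈ H, a ≠ b ∧ ¬ bad a b ∧ 0 < rho 1 Bp a b ∧ 0 < rho (-1) Bm a b ∧
        pot q x μ (H.card - 2) (step 1 Bp a b) (step (-1) Bm a b)
          ≤ pot q x μ H.card Bp Bm + incr ℝ q H.card := by
  refine ⟨2 ^ 200, fun q hq x μ m hG ι _ _ H Bp Bm bad _ hsym hdeg h1 h2 hp hn hpot => ?_⟩
  have sp := supp_of_inv hp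
  have sn := supp_of_inv hn
  obtain ⟨a, b, hab, hbad, r1, r2, hle⟩ := core (hG.rng hq (by omega) h2) hG.m_lo hG.m_hi
    (Fintype.card_coe H) (inv_res hp) (inv_res hn) (by rw [res_pot sp sn]; exact hpot)
    (fun a b : H => bad a b) (fun a b => hsym a b) (fun a => by rw [card_bad]; exact hdeg a)
  rw [res_rho] at r1 r2
  rw [← res_step, ← res_step, res_pot (sp.step _ _ _) (sn.step _ _ _), res_pot sp sn] at hle
  exact ⟨a, a.2, b, b.2, fun h => hab (Subtype.ext h), hbad, r1, r2, hle⟩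

/-- the total budget -/
theorem incr_sum : ∃ q0 : ℕ, ∀ q ≥ q0, ∀ N j : ℕ, N ≤ q ^ 6001 → 2 * j ≤ N →
    ∑ i ∈ range j, incr ℝ q (N - 2 * i) ≤ 1 / 2 :=
  ⟨2 ^ 200, fun _ hq N j h1 h2 => incr_tot (big_of_le hq) N j h1 h2⟩

theorem pot_T {q : ℕ} {x μ m : ℝ} (hG : Glob q x μ m) {ι : Type} [Fintype ι] [DecidableEq ι]
    {H : Finset ι} {Bp Bm : Matrix ι ι ℝ} (hR : Rng q x μ H.card) (hp : Inv H 1 m Bp)
    (hn : Inv H (-1) m Bm) (hpot : pot q x μ H.card Bp Bm ≤ 1) :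
    (sT Bp ≤ H.card ∧ sT Bm ≤ H.card) ∧ sT Bp ≤ 1 + H.card * tau x H.card + sSig q x H.card ∧
      sT Bm ≤ 1 + H.card * tau x H.card + sSig q x H.card := by
  have sp := supp_of_inv hp
  have sn := supp_of_inv hn
  have h := core_T hR hG.m_lo hG.m_hi (Fintype.card_coe H) (inv_res hp) (inv_res hn)
    (by rw [res_pot sp sn]; exact hpot)
  rwa [res_T sp, res_T sn] at h

/-- at the end both Frobenius masses are at most two -/
theorem pot_final : ∃ q0 : ℕ, ∀ q ≥ q0, ∀ (x μ m : ℝ), Glob q x μ m →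
    ∀ (ι : Type) [Fintype ι] [DecidableEq ι] (H : Finset ι) (Bp Bm : Matrix ι ι ℝ),
      kEnd q ≤ H.card → H.card ≤ kEnd q + 1 →
      Inv H 1 m Bp → Inv H (-1) m Bm → pot q x μ H.card Bp Bm ≤ 1 →
      sT Bp ≤ 2 ∧ sT Bm ≤ 2 := by
  refine ⟨2 ^ 200, fun q hq x μ m hG ι _ _ H Bp Bm h1 h2 hp hn hpot => ?_⟩
  have hq1 : 1 < q := lt_of_lt_of_le (by norm_num) hq
  have h3 : kEnd q < q ^ 6001 := Nat.pow_lt_pow_right hq1 (by norm_num)
  have hR := hG.rng hq h1 (by omega)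
  have h4 := (pot_T hG hR hp hn hpot).2
  have h5 := hR.fin_small h2
  constructor <;> linarith [h4.1, h4.2]

end Vale.Agent.P049
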