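import Vale.Agent.P049.Ctx

/-! P049: exact one-step identities, part 1 (all checked numerically).
PLAN.  Put `α = B a a`, `β = B b b`, `r = B a b`, `ρ = rho s B a b`, `u = B e_a - s e_b`,
`v = B e_b - s e_a` (vectors).  First prove the padded formula `step_eq`: for ALL `c e`,
`step s B a b c e = B c e - s (δ_ca δ_eb + δ_cb δ_ea) + (β u_c u_e + α v_c v_e + (s-r)(u_c v_e + v_c u_e))/ρ`
(case distinction; `field_simp; ring` using `s*s = 1`, best after `rcases hs with rfl | rfl`).
Sums over `e` of products of `B c e, u e, v e, δ` are entries of `B * B` (`Matrix.mul_apply`,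
`Finset.sum_ite_eq`, symmetry), e.g. `∑ e, B c e * u e = (B*B) c a - s B c b`,
`∑ u^2 = y_a - 2 s r + 1`, `∑ u v = Q_ab - s α - s β`.
`step_sq_diag` is `∑ e, (step c e)^2`.  `sT (step) = ∑ c ∉ {a,b}, y' c`, and the sums over `c` of `nn0`, `nn1`
are again entries of `B*B`, `B*B*B`. -/

namespace Vale.Agent.P049.An

open Finset Matrix

variable {ι : Type} [Fintype ι] [DecidableEq ι] {s : ℝ} {B : Matrix ι ι ℝ} {a b : ι}

private theorem alg1_sy (hB : B.IsSymm) (c e : ι) : B c e = B e c := (hB.apply e c)

private theorem alg1_Q (hB : B.IsSymm) (c e : ι) : ∑ x, B x c * B x e = (B * B) c e := by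
  rw [Matrix.mul_apply]
  exact Finset.sum_congr rfl fun x _ => by rw [alg1_sy hB x c]

private theorem alg1_Qs (hB : B.IsSymm) (c e : ι) : (B * B) c e = (B * B) e c := by
  rw [← alg1_Q hB, ← alg1_Q hB]
  exact Finset.sum_congr rfl fun x _ => mul_comm _ _

private theorem alg1_C (hB : B.IsSymm) (c e : ι) :
    ∑ x, B x c * (B * B) x e = (B * B * B) c e := by
  rw [Matrix.mul_assoc, Matrix.mul_apply]
  exact Finset.sum_congr rfl fun x _ => by rw [alg1_sy hB x c]

private theorem alg1_Cs (hB : B.IsSymm) (c e : ι) : (B * B * B) c e = (B * B * B) e c := by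
  rw [← alg1_C hB c e, Matrix.mul_apply]
  exact Finset.sum_congr rfl fun x _ => by rw [alg1_Qs hB x e, mul_comm]

/-- the sum of a product of two shifted columns -/
private theorem alg1_uv (hB : B.IsSymm) (s t : ℝ) (p q p' q' : ι) :
    ∑ e, (B e p - s * if e = q then 1 else 0) * (B e p' - t * if e = q' then 1 else 0)
      = (B * B) p p' - t * B q' p - s * B q p' + s * t * if q = q' then 1 else 0 := by
  have h : ∀ e, (B e p - s * if e = q then 1 else 0) * (B e p' - t * if e = q' then 1 else 0)
      = B e p * B e p' - (if e = q' then t * B e p else 0) - (if e = q then s * B e p' else 0)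
        + (if e = q then s * t * (if e = q' then 1 else 0) else 0) := by
    intro e
    split_ifs <;> ring
  simp only [h, Finset.sum_add_distrib, Finset.sum_sub_distrib, Finset.sum_ite_eq',
    Finset.mem_univ, if_true, alg1_Q hB]

theorem step_symm (hB : B.IsSymm) (s : ℝ) (a b : ι) : (step s B a b).IsSymm := by
  ext c e
  simp only [Matrix.transpose_apply, step]
  by_cases h : c = a ∨ c = b ∨ e = a ∨ e = b
  · rw [if_pos h, if_pos (by tauto)]
  · rw [if_neg h, if_neg (by tauto), alg1_sy hB e c]
    ring

theorem step_eq (hs : s = 1 ∨ s = -1) (hB : B.IsSymm) (hab : a ≠ b) (hρ : rho s B a b ≠ 0)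
    (c e : ι) : step s B a b c e = B c e
      - s * ((if c = a then 1 else 0) * (if e = b then 1 else 0)
        + (if c = b then 1 else 0) * (if e = a then 1 else 0))
      + (B b b * (B c a - s * if c = b then 1 else 0) * (B e a - s * if e = b then 1 else 0)
        + B a a * (B c b - s * if c = a then 1 else 0) * (B e b - s * if e = a then 1 else 0)
        + (s - B a b) * ((B c a - s * if c = b then 1 else 0) * (B e b - s * if e = a then 1 else 0)
          + (B c b - s * if c = a then 1 else 0) * (B e a - s * if e = b then 1 else 0)))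
        / rho s B a b := by
  have hba : b ≠ a := Ne.symm hab
  have hr : B b a = B a b := alg1_sy hB b a
  have hρ' : rho s B a b = (s - B a b) ^ 2 - B a a * B b b := rfl
  have hss : s * s = 1 := by rcases hs with rfl | rfl <;> norm_num
  simp only [step]
  by_cases hca : c = a
  · subst hca
    rw [if_pos (by tauto)]
    by_cases hea : e = c
    · subst hea
      simp only [hab, if_true, if_false]
      field_simp
      rw [hρ']
      ring
    · by_cases heb : e = b
      · subst heb
        simp only [hab, hba, if_true, if_false, hr]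
        field_simp
        rw [hρ']
        ring
      · simp only [hab, hea, heb, if_true, if_false, alg1_sy hB e c]
        field_simp
        rw [hρ']
        ring
  · by_cases hcb : c = b
    · subst hcb
      rw [if_pos (by tauto)]
      by_cases hea : e = a
      · subst hea
        simp only [hab, hba, if_true, if_false, hr]
        field_simp
        rw [hρ']
        ring
      · by_cases heb : e = c
        · subst heb
          simp only [hba, if_true, if_false, hr]
          field_simp
          rw [hρ']
          ring
        · simp only [hba, hea, heb, if_true, if_false, hr, alg1_sy hB e c]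
          field_simp
          rw [hρ']
          ring
    · by_cases hea : e = a
      · subst hea
        rw [if_pos (by tauto)]
        simp only [hab, hca, hcb, if_true, if_false]
        field_simp
        rw [hρ']
        ring
      · by_cases heb : e = b
        · subst heb
          rw [if_pos (by tauto)]
          simp only [hba, hca, hcb, if_true, if_false, hr]
          field_simp
          rw [hρ']
          ring
        · rw [if_neg (by tauto)]
          simp only [hea, heb, hca, hcb, if_false]
          ring

theorem step_diag (c : ι) (hca : c ≠ a) (hcb : c ≠ b) :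
    step s B a b c c = B c c + nn0 s B a b c / rho s B a b := by
  simp only [step, nn0]
  rw [if_neg (by tauto)]
  ring

theorem step_diag_a : step s B a b a a = 0 := by
  simp [step]
theorem step_diag_b : step s B a b b b = 0 := by
  simp [step]
theorem step_sq_diag_a : (step s B a b * step s B a b) a a = 0 := by
  simp [Matrix.mul_apply, step]
theorem step_sq_diag_b : (step s B a b * step s B a b) b b = 0 := by
  simp [Matrix.mul_apply, step]

theorem step_sq_diag (hs : s = 1 ∨ s = -1) (hB : B.IsSymm) (hab : a ≠ b) (hρ : rho s B a b ≠ 0)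
    (c : ι) (hca : c ≠ a) (hcb : c ≠ b) :
    (step s B a b * step s B a b) c c = (B * B) c c + nn1 s B a b c / rho s B a b
      - nn0 s B a b c * rho1 s B a b / rho s B a b ^ 2 := by
  have hba : b ≠ a := Ne.symm hab
  have hr : B b a = B a b := alg1_sy hB b a
  obtain ⟨p, hp⟩ : ∃ p, p = (B b b * B c a + (s - B a b) * B c b) / rho s B a b := ⟨_, rfl⟩
  obtain ⟨q, hq⟩ : ∃ q, q = (B a a * B c b + (s - B a b) * B c a) / rho s B a b := ⟨_, rfl⟩
  have h1 : ∀ e, step s B a b c e * step s B a b e c =
      (B e c - 0 * if e = a then 1 else 0) * (B e c - 0 * if e = a then 1 else 0)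
      + p ^ 2 * ((B e a - s * if e = b then 1 else 0) * (B e a - s * if e = b then 1 else 0))
      + q ^ 2 * ((B e b - s * if e = a then 1 else 0) * (B e b - s * if e = a then 1 else 0))
      + 2 * p * ((B e c - 0 * if e = a then 1 else 0) * (B e a - s * if e = b then 1 else 0))
      + 2 * q * ((B e c - 0 * if e = a then 1 else 0) * (B e b - s * if e = a then 1 else 0))
      + 2 * p * q * ((B e a - s * if e = b then 1 else 0) * (B e b - s * if e = a then 1 else 0)) := by
    intro e
    rw [alg1_sy (step_symm hB s a b) e c, step_eq hs hB hab hρ, alg1_sy hB c e, hp, hq]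
    simp only [hca, hcb, if_false]
    field_simp
    ring
  rw [Matrix.mul_apply]
  simp only [h1, Finset.sum_add_distrib, ← Finset.mul_sum, alg1_uv hB]
  simp only [hab, hba, if_true, if_false, hp, hq, nn0, nn1, rho1, R1, Matrix.sub_apply,
    Matrix.one_apply, hr, alg1_sy hB a c, alg1_sy hB b c]
  have hρ' : rho s B a b = (s - B a b) ^ 2 - B a a * B b b := rfl
  field_simp
  rw [hρ']
  rcases hs with rfl | rfl <;> ring

theorem rhoT_eq (hs : s = 1 ∨ s = -1) (hB : B.IsSymm) (hab : a ≠ b) :
    rhoT s B a b = rho s B a b + rho2 s B a b := by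
  have h2 : R2 B = B * B * B - B := by
    rw [R2, R1, Matrix.mul_sub, Matrix.mul_one, Matrix.mul_assoc]
  simp only [rhoT, rho, rho2, h2, R1, Matrix.sub_apply, Matrix.one_apply, hab, if_true, if_false]
  rcases hs with rfl | rfl <;> ring

theorem step_U (hs : s = 1 ∨ s = -1) (hB : B.IsSymm) (hab : a ≠ b) (hρ : rho s B a b ≠ 0) :
    sU (step s B a b) = sU B - rho1 s B a b / rho s B a b := by
  have hba : b ≠ a := Ne.symm hab
  have hr : B b a = B a b := alg1_sy hB b a
  have h1 : ∀ c, step s B a b c c = B c c
      + B b b / rho s B a b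
        * ((B c a - s * if c = b then 1 else 0) * (B c a - s * if c = b then 1 else 0))
      + B a a / rho s B a b
        * ((B c b - s * if c = a then 1 else 0) * (B c b - s * if c = a then 1 else 0))
      + 2 * (s - B a b) / rho s B a b
        * ((B c a - s * if c = b then 1 else 0) * (B c b - s * if c = a then 1 else 0)) := by
    intro c
    rw [step_eq hs hB hab hρ]
    have h0 : ((if c = a then 1 else 0) * (if c = b then 1 else 0) : ℝ) = 0 := by
      by_cases hca : c = a
      · subst hca
        simp [hab]
      · simp [hca]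
    rw [mul_comm (if c = b then (1 : ℝ) else 0), h0]
    field_simp
    ring
  simp only [sU, Matrix.trace, Matrix.diag_apply, h1, Finset.sum_add_distrib, ← Finset.mul_sum,
    alg1_uv hB]
  simp only [hab, hba, if_true, if_false, rho1, R1, Matrix.sub_apply, Matrix.one_apply, hr]
  field_simp
  rcases hs with rfl | rfl <;> ring

theorem step_T (hs : s = 1 ∨ s = -1) (hB : B.IsSymm) (hab : a ≠ b) (hρ : rho s B a b ≠ 0) :
    sT (step s B a b) = sT B - 2 * (rhoT s B a b / rho s B a b)
      + (rho1 s B a b / rho s B a b) ^ 2 := by
  have hba : b ≠ a := Ne.symm hab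
  have hr : B b a = B a b := alg1_sy hB b a
  obtain ⟨G, hG⟩ : ∃ G : ι → ℝ, G = fun c => (B * B) c c + nn1 s B a b c / rho s B a b
      - nn0 s B a b c * rho1 s B a b / rho s B a b ^ 2 := ⟨_, rfl⟩
  have h1 : ∀ c, (step s B a b * step s B a b) c c =
      G c - (if c = a then G c else 0) - (if c = b then G c else 0) := by
    intro c
    by_cases hca : c = a
    · subst hca
      rw [step_sq_diag_a]
      simp [hab]
    · by_cases hcb : c = b
      · subst hcb
        rw [step_sq_diag_b]
        simp [hba]
      · rw [step_sq_diag hs hB hab hρ c hca hcb, hG]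
        simp [hca, hcb]
  have h0 : ∑ c, nn0 s B a b c = B b b * (B * B) a a + B a a * (B * B) b b
      + 2 * (s - B a b) * (B * B) a b := by
    rw [← alg1_Q hB, ← alg1_Q hB, ← alg1_Q hB, Finset.mul_sum, Finset.mul_sum, Finset.mul_sum,
      ← Finset.sum_add_distrib, ← Finset.sum_add_distrib]
    exact Finset.sum_congr rfl fun c _ => by rw [nn0]; ring
  have h2 : ∑ c, nn1 s B a b c = R1 B b b * (B * B) a a + R1 B a a * (B * B) b b
      - 2 * (B * B) a b * (B * B) a b + 2 * B b b * (B * B * B) a a + 2 * B a a * (B * B * B) b b
      + 2 * (s - B a b) * (B * B * B) a b + 2 * (s - B a b) * (B * B * B) b a := by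
    have e1 : ∀ c, nn1 s B a b c = R1 B b b * (B c a * B c a) + R1 B a a * (B c b * B c b)
        - 2 * (B * B) a b * (B c a * B c b) + 2 * B b b * (B c a * (B * B) c a)
        + 2 * B a a * (B c b * (B * B) c b) + 2 * (s - B a b) * (B c a * (B * B) c b)
        + 2 * (s - B a b) * (B c b * (B * B) c a) := fun c => by rw [nn1]; ring
    simp only [e1, Finset.sum_add_distrib, Finset.sum_sub_distrib, ← Finset.mul_sum, alg1_Q hB,
      alg1_C hB]
  have h3 : ∑ c, G c = sT B + (∑ c, nn1 s B a b c) / rho s B a b
      - (∑ c, nn0 s B a b c) * rho1 s B a b / rho s B a b ^ 2 := by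
    simp only [hG, Finset.sum_add_distrib, Finset.sum_sub_distrib, Finset.sum_div, Finset.sum_mul,
      sT, Matrix.trace, Matrix.diag_apply]
  have h4 : sT (step s B a b) = ∑ c, G c - G a - G b := by
    simp only [sT, Matrix.trace, Matrix.diag_apply, h1, Finset.sum_sub_distrib, Finset.sum_ite_eq',
      Finset.mem_univ, if_true]
  rw [h4, h3, h0, h2, hG]
  simp only [nn0, nn1, rho1, rhoT, R1, Matrix.sub_apply, Matrix.one_apply, hab, if_true, if_false,
    hr, alg1_Qs hB b a, alg1_Cs hB b a]
  have hρ' : rho s B a b = (s - B a b) ^ 2 - B a a * B b b := rfl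
  field_simp
  rw [hρ']
  rcases hs with rfl | rfl <;> ring

end Vale.Agent.P049.An
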