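import Vale.Agent.P049.Alg2a

/-! P049: the scalar identities behind `step_M3`, `step_M4`. -/

namespace Vale.Agent.P049.An.Rk2

open Finset Matrix

/-- symmetric 2 x 2 matrix -/
def sy (x r y : ℝ) : Matrix (Fin 2) (Fin 2) ℝ := !![x, r; r, y]

theorem scal (s ρ x1 r1 y1 x2 r2 y2 x3 r3 y3 x4 r4 y4 x5 r5 y5 : ℝ) (hs : s = 1 ∨ s = -1)
    (hρ : ρ ≠ 0) (hρe : ρ = (s - r1) ^ 2 - x1 * y1)
    (D N Γ1 Γ2 Γ3 Γ4 Γ5 : Matrix (Fin 2) (Fin 2) ℝ) (hD : D = sy 0 (-s) 0)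
    (hN : N = sy (y1 / ρ) ((s - r1) / ρ) (x1 / ρ))
    (h1 : Γ1 = sy x1 r1 y1 + D)
    (h2 : Γ2 = sy x2 r2 y2 + sy x1 r1 y1 * D + D * Γ1)
    (h3 : Γ3 = sy x3 r3 y3 + sy x2 r2 y2 * D + sy x1 r1 y1 * D * Γ1 + D * Γ2)
    (h4 : Γ4 = sy x4 r4 y4 + sy x3 r3 y3 * D + sy x2 r2 y2 * D * Γ1 + sy x1 r1 y1 * D * Γ2
      + D * Γ3)
    (h5 : Γ5 = sy x5 r5 y5 + sy x4 r4 y4 * D + sy x3 r3 y3 * D * Γ1 + sy x2 r2 y2 * D * Γ2
      + sy x1 r1 y1 * D * Γ3 + D * Γ4)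
    (d1 d2 d3 d4 e1 e2 e3 e4 : ℝ)
    (hd1 : d1 = -tr D) (hd2 : d2 = -tr (D * sy x1 r1 y1) + dt D)
    (hd3 : d3 = -tr (D * sy x2 r2 y2) + mix D (D * sy x1 r1 y1))
    (hd4 : d4 = -tr (D * sy x3 r3 y3) + mix D (D * sy x2 r2 y2) + dt (D * sy x1 r1 y1))
    (he1 : e1 = -tr (N * Γ2)) (he2 : e2 = -tr (N * Γ3) + dt (N * Γ2))
    (he3 : e3 = -tr (N * Γ4) + mix (N * Γ2) (N * Γ3))
    (he4 : e4 = -tr (N * Γ5) + mix (N * Γ2) (N * Γ4) + dt (N * Γ3)) :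
    d1 + e1 = (-2 * (s - r1) * r2 - x1 * (y2 - 1) - y1 * (x2 - 1)) / ρ ∧
    d2 + d1 * e1 + e2 - 1 = (-2 * (s - r1) * (r3 - r1) + r2 ^ 2 - (x2 - 1) * (y2 - 1)
      - x1 * (y3 - y1) - y1 * (x3 - x1)) / ρ ∧
    d3 + d2 * e1 + d1 * e2 + e3 - (d1 + e1) = (-2 * (s - r1) * (r4 - r2) + 2 * r2 * (r3 - r1)
      - (x2 - 1) * (y3 - y1) - (x3 - x1) * (y2 - 1) - x1 * (y4 - y2) - y1 * (x4 - x2)) / ρ ∧
    d4 + d3 * e1 + d2 * e2 + d1 * e3 + e4 - (d2 + d1 * e1 + e2)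
      = (-2 * (s - r1) * (r5 - r3) + 2 * r2 * (r4 - r2) + (r3 - r1) ^ 2 - (x3 - x1) * (y3 - y1)
        - (x2 - 1) * (y4 - y2) - (x4 - x2) * (y2 - 1) - x1 * (y5 - y3) - y1 * (x5 - x3)) / ρ := by
  have hdt : ∀ X : Matrix (Fin 2) (Fin 2) ℝ, dt (N * X) = -dt X / ρ := by
    intro X
    simp only [hN, sy, dt, Matrix.mul_apply, Fin.sum_univ_two, Matrix.of_apply, Matrix.cons_val',
      Matrix.cons_val_zero, Matrix.cons_val_one, Matrix.cons_val_fin_one]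
    field_simp
    rw [hρe]; ring
  have hmix : ∀ X Y : Matrix (Fin 2) (Fin 2) ℝ, mix (N * X) (N * Y) = -mix X Y / ρ := by
    intro X Y
    simp only [hN, sy, mix, Matrix.mul_apply, Fin.sum_univ_two, Matrix.of_apply, Matrix.cons_val',
      Matrix.cons_val_zero, Matrix.cons_val_one, Matrix.cons_val_fin_one]
    field_simp
    rw [hρe]; ring
  have htr : ∀ X : Matrix (Fin 2) (Fin 2) ℝ, tr (N * X)
      = (y1 * X 0 0 + (s - r1) * (X 0 1 + X 1 0) + x1 * X 1 1) / ρ := by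
    intro X
    simp only [hN, sy, tr, Matrix.mul_apply, Fin.sum_univ_two, Matrix.of_apply, Matrix.cons_val',
      Matrix.cons_val_zero, Matrix.cons_val_one, Matrix.cons_val_fin_one]
    field_simp
    ring
  simp only [hdt, hmix, htr] at he1 he2 he3 he4
  have hρ' : ρ * ρ⁻¹ = 1 := mul_inv_cancel₀ hρ
  simp only [div_eq_mul_inv] at he1 he2 he3 he4 ⊢
  generalize ρ⁻¹ = t at he1 he2 he3 he4 hρ' ⊢
  subst hd1 hd2 hd3 hd4 he1 he2 he3 he4 h5 h4 h3 h2 h1 hD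
  clear hdt hmix htr hN
  simp only [sy, tr, dt, mix, Matrix.mul_apply, Matrix.add_apply, Fin.sum_univ_two,
    Matrix.of_apply, Matrix.cons_val', Matrix.cons_val_zero, Matrix.cons_val_one,
    Matrix.cons_val_fin_one]
  rw [hρe] at hρ'
  refine ⟨?_, ?_, ?_, ?_⟩
  · rcases hs with rfl | rfl
    · ring
    · ring
  · rcases hs with rfl | rfl
    · linear_combination (-2 * r1 + 2) * hρ'
    · linear_combination (2 * r1 + 2) * hρ'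
  · rcases hs with rfl | rfl
    · linear_combination (-(2 * r2 - y1 - x1)) * hρ'
    · linear_combination (2 * r2 + y1 + x1) * hρ'
  · rcases hs with rfl | rfl
    · linear_combination (-(1 + 2 * r3 - y2 - x2 - x1 * y1 - 2 * r1 + r1 ^ 2)) * hρ'
    · linear_combination (-(1 - 2 * r3 - y2 - x2 - x1 * y1 + 2 * r1 + r1 ^ 2)) * hρ'

end Vale.Agent.P049.An.Rk2
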