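import Vale.Agent.P049.Alg1
import Vale.Agent.P049.Alg2b

/-! P049: exact one-step identities for the third and fourth moment (checked numerically).
PLAN.  General lemma: for `M : Matrix ι ι ℝ`, `E : Matrix ι (Fin 2) ℝ`, `F : Matrix (Fin 2) ι ℝ`,
`G l = F * M^l * E` (2 x 2):  `tr (M+EF)^3 = tr M^3 + 3 tr G2 + 3 tr (G0 G1) + tr G0^3`,
`tr (M+EF)^4 = tr M^4 + 4 tr G3 + 4 tr (G0 G2) + 2 tr (G1 G1) + 4 tr (G0 G0 G1) + tr G0^4`
(expand, `Matrix.trace_mul_comm`, `Matrix.mul_assoc`).  Use it twice: `C = B - s Σ` with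
`Σ = e_a e_b^T + e_b e_a^T` (`E = [e_a, e_b]`, `F = -s σ E^T`), and
`step = C + (C E) (N E^T C)`, `N = !![β, s-r; s-r, α] / ρ` (this is `step_eq`: `u = C e_a`, `v = C e_b`).
The 2 x 2 blocks `E^T C^l E` (`l ≤ 5`) are polynomials in the entries of `B^j` at `a, b` through
`(X * Σ * Y) c e = X c a * Y b e + X c b * Y a e`.  Keep the final `field_simp; ring` small: name the 15
entries `x_l = (B^l) a a, y_l = (B^l) b b, r_l = (B^l) a b`, treat `s = 1` and `s = -1` separately, and if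
`ring` is slow split into Newton form: with `ε_i` the coefficients of `det (Γ1 + wΓ2 + ...)/det Γ1`
the traces are `-ε1`, `-2ε2+ε1^2`, `-3ε3+3ε1ε2-ε1^3`, `-4ε4+4ε1ε3+2ε2^2-4ε1^2ε2+ε1^4`; same for the first
rank two update; the product of the two series times `1 - w^2` is `∑ rho_i w^i / rho`.
Any other proof is fine; you may split into several files (keep this one as the final interface). -/

namespace Vale.Agent.P049.An

open Finset Matrix

variable {ι : Type} [Fintype ι] [DecidableEq ι] {s : ℝ} {B : Matrix ι ι ℝ} {a b : ι}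

namespace Rk2

/-- the two coordinate vectors as columns -/
def EE (a b : ι) : Matrix ι (Fin 2) ℝ := Matrix.of fun c i => if c = ![a, b] i then 1 else 0

/-- the 2 x 2 block at `a, b` -/
def bk (a b : ι) (X : Matrix ι ι ℝ) : Matrix (Fin 2) (Fin 2) ℝ := (EE a b)ᵀ * X * EE a b

theorem mul_EE (X : Matrix ι ι ℝ) (c : ι) (i : Fin 2) : (X * EE a b) c i = X c (![a, b] i) := by
  simp [EE, Matrix.mul_apply]

theorem EE_mul (X : Matrix ι ι ℝ) (c : ι) (i : Fin 2) :
    ((EE a b)ᵀ * X) i c = X (![a, b] i) c := by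
  simp [EE, Matrix.mul_apply]

theorem bk_apply (X : Matrix ι ι ℝ) (i j : Fin 2) : bk a b X i j = X (![a, b] i) (![a, b] j) := by
  rw [bk, Matrix.mul_assoc]
  simp [EE, Matrix.mul_apply]

theorem bk_symm {X : Matrix ι ι ℝ} (hX : X.IsSymm) :
    bk a b X = sy (X a a) (X a b) (X b b) := by
  ext i j
  rw [bk_apply]
  fin_cases i <;> fin_cases j <;> simp [sy, hX.apply a b]

theorem EE_EE (hab : a ≠ b) : (EE a b)ᵀ * EE a b = 1 := by
  have h := bk_symm (a := a) (b := b) (X := (1 : Matrix ι ι ℝ)) Matrix.isSymm_one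
  rw [bk, Matrix.mul_one] at h
  rw [h]
  ext i j
  fin_cases i <;> fin_cases j <;> simp [sy, hab]

/-- the matrix with the new edge removed -/
def CC (s : ℝ) (B : Matrix ι ι ℝ) (a b : ι) : Matrix ι ι ℝ :=
  B + EE a b * (sy 0 (-s) 0 * (EE a b)ᵀ)

theorem CC_apply (c e : ι) : CC s B a b c e = B c e
    - s * ((if c = a then 1 else 0) * (if e = b then 1 else 0)
        + (if c = b then 1 else 0) * (if e = a then 1 else 0)) := by
  have h0 : ∀ c : ι, EE a b c 0 = if c = a then 1 else 0 := by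
    intro c; by_cases h : c = a <;> simp [EE, h]
  have h1 : ∀ c : ι, EE a b c 1 = if c = b then 1 else 0 := by
    intro c; by_cases h : c = b <;> simp [EE, h]
  simp only [CC, Matrix.add_apply, Matrix.mul_apply, Fin.sum_univ_two, h0, h1, sy,
    Matrix.transpose_apply, Matrix.of_apply, Matrix.cons_val', Matrix.cons_val_zero,
    Matrix.cons_val_one, Matrix.cons_val_fin_one]
  ring

theorem step_form (hs : s = 1 ∨ s = -1) (hB : B.IsSymm) (hab : a ≠ b) (hρ : rho s B a b ≠ 0) :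
    step s B a b = CC s B a b + (CC s B a b * EE a b) *
      (sy (B b b / rho s B a b) ((s - B a b) / rho s B a b) (B a a / rho s B a b)
        * ((EE a b)ᵀ * CC s B a b)) := by
  ext c e
  rw [step_eq hs hB hab hρ, Matrix.add_apply, Matrix.mul_apply, Fin.sum_univ_two,
    Matrix.mul_apply (M := sy _ _ _), Matrix.mul_apply (M := sy _ _ _), Fin.sum_univ_two,
    Fin.sum_univ_two]
  simp only [mul_EE, EE_mul, CC_apply, sy, Matrix.of_apply, Matrix.cons_val',
    Matrix.cons_val_zero, Matrix.cons_val_one, Matrix.cons_val_fin_one, if_pos, if_neg hab,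
    if_neg hab.symm, hB.apply e a, hB.apply e b]
  field_simp
  ring

theorem bk_rec (X Y : Matrix ι ι ℝ) : bk a b (X * (CC s B a b * Y))
    = bk a b (X * B * Y) + bk a b X * sy 0 (-s) 0 * bk a b Y := by
  simp only [bk, CC, Matrix.mul_add, Matrix.add_mul, Matrix.mul_assoc]

theorem bk_rec0 (hab : a ≠ b) (Y : Matrix ι ι ℝ) : bk a b (CC s B a b * Y)
    = bk a b (B * Y) + sy 0 (-s) 0 * bk a b Y := by
  have h := bk_rec (s := s) (B := B) (a := a) (b := b) 1 Y
  rw [Matrix.one_mul, Matrix.one_mul] at h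
  rw [h, bk, bk, bk, Matrix.mul_one, EE_EE hab, Matrix.one_mul]

theorem bk_rec1 (hab : a ≠ b) (X : Matrix ι ι ℝ) : bk a b (X * CC s B a b)
    = bk a b (X * B) + bk a b X * sy 0 (-s) 0 := by
  have h := bk_rec (s := s) (B := B) (a := a) (b := b) X 1
  rw [Matrix.mul_one, Matrix.mul_one] at h
  rw [h, bk, bk, bk, Matrix.mul_one, EE_EE hab, Matrix.mul_one]

theorem bk_rec2 (hab : a ≠ b) : bk a b (CC s B a b) = bk a b B + sy 0 (-s) 0 := by
  have h := bk_rec0 (s := s) (B := B) hab 1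
  rw [Matrix.mul_one, Matrix.mul_one] at h
  rw [h, bk, bk, Matrix.mul_one, EE_EE hab, Matrix.mul_one]

theorem symm_mul {X Y : Matrix ι ι ℝ} (hX : X.IsSymm) (hY : Y.IsSymm) (h : X * Y = Y * X) :
    (X * Y).IsSymm := by
  unfold Matrix.IsSymm at *
  rw [Matrix.transpose_mul, hX, hY, h]

theorem core (hs : s = 1 ∨ s = -1) (hB : B.IsSymm) (hab : a ≠ b) (hρ : rho s B a b ≠ 0) :
    sM3 (step s B a b) = sM3 B + nw3 (rho1 s B a b / rho s B a b) (rho2 s B a b / rho s B a b)
      (rho3 s B a b / rho s B a b) ∧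
    sM4 (step s B a b) = sM4 B + nw4 (rho1 s B a b / rho s B a b) (rho2 s B a b / rho s B a b)
      (rho3 s B a b / rho s B a b) (rho4 s B a b / rho s B a b) - 2 := by
  have s2 : (B * B).IsSymm := symm_mul hB hB rfl
  have s3 : (B * B * B).IsSymm := symm_mul s2 hB (by simp only [Matrix.mul_assoc])
  have s4 : (B * B * B * B).IsSymm := symm_mul s3 hB (by simp only [Matrix.mul_assoc])
  have s5 : (B * B * B * B * B).IsSymm := symm_mul s4 hB (by simp only [Matrix.mul_assoc])
  have b1 := bk_symm (a := a) (b := b) hB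
  have b2 := bk_symm (a := a) (b := b) s2
  have b3 := bk_symm (a := a) (b := b) s3
  have b4 := bk_symm (a := a) (b := b) s4
  have b5 := bk_symm (a := a) (b := b) s5
  set C := CC s B a b with hC
  set D := sy 0 (-s) 0 with hD
  set N := sy (B b b / rho s B a b) ((s - B a b) / rho s B a b) (B a a / rho s B a b) with hN
  have g1 : bk a b C = sy (B a a) (B a b) (B b b) + D := by rw [← b1]; exact bk_rec2 hab
  have g2 : bk a b (C * C) = sy ((B * B) a a) ((B * B) a b) ((B * B) b b)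
      + sy (B a a) (B a b) (B b b) * D + D * bk a b C := by
    rw [← b1, ← b2, bk_rec0 hab, bk_rec1 hab]
  have g3 : bk a b (C * (C * C)) = sy ((B * B * B) a a) ((B * B * B) a b) ((B * B * B) b b)
      + sy ((B * B) a a) ((B * B) a b) ((B * B) b b) * D
      + sy (B a a) (B a b) (B b b) * D * bk a b C + D * bk a b (C * C) := by
    rw [← b1, ← b2, ← b3, bk_rec0 hab, bk_rec, bk_rec1 hab]
  have g4 : bk a b (C * (C * (C * C)))
      = sy ((B * B * B * B) a a) ((B * B * B * B) a b) ((B * B * B * B) b b)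
      + sy ((B * B * B) a a) ((B * B * B) a b) ((B * B * B) b b) * D
      + sy ((B * B) a a) ((B * B) a b) ((B * B) b b) * D * bk a b C
      + sy (B a a) (B a b) (B b b) * D * bk a b (C * C) + D * bk a b (C * (C * C)) := by
    rw [← b1, ← b2, ← b3, ← b4, bk_rec0 hab, bk_rec, bk_rec, bk_rec1 hab]
  have g5 : bk a b (C * (C * (C * (C * C))))
      = sy ((B * B * B * B * B) a a) ((B * B * B * B * B) a b) ((B * B * B * B * B) b b)
      + sy ((B * B * B * B) a a) ((B * B * B * B) a b) ((B * B * B * B) b b) * D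
      + sy ((B * B * B) a a) ((B * B * B) a b) ((B * B * B) b b) * D * bk a b C
      + sy ((B * B) a a) ((B * B) a b) ((B * B) b b) * D * bk a b (C * C)
      + sy (B a a) (B a b) (B b b) * D * bk a b (C * (C * C))
      + D * bk a b (C * (C * (C * C))) := by
    rw [← b1, ← b2, ← b3, ← b4, ← b5, bk_rec0 hab, bk_rec, bk_rec, bk_rec, bk_rec1 hab]
  obtain ⟨k1, k2, k3, k4⟩ := scal s (rho s B a b) _ _ _ _ _ _ _ _ _ _ _ _ _ _ _ hs hρ rfl D N
    _ _ _ _ _ hD hN g1 g2 g3 g4 g5 _ _ _ _ _ _ _ _ rfl rfl rfl rfl rfl rfl rfl rfl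
  have e1 : R1 B = B * B - 1 := rfl
  have e2 : R2 B = B * B * B - B := by
    simp only [R2, R1, Matrix.mul_sub, Matrix.mul_one, Matrix.mul_assoc]
  have e3 : R3 B = B * B * B * B - B * B := by
    simp only [R3, e2, Matrix.mul_sub, Matrix.mul_assoc]
  have e4 : R4 B = B * B * B * B * B - B * B * B := by
    simp only [R4, e3, Matrix.mul_sub, Matrix.mul_assoc]
  have r1 := k1.trans (c := rho1 s B a b / rho s B a b) (by
    rw [rho1, e1]
    simp only [Matrix.sub_apply, Matrix.one_apply_eq, Matrix.one_apply_ne hab, sub_zero])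
  have r2 := k2.trans (c := rho2 s B a b / rho s B a b) (by
    rw [rho2, e1, e2]
    simp only [Matrix.sub_apply, Matrix.one_apply_eq, Matrix.one_apply_ne hab, sub_zero])
  have r3 := k3.trans (c := rho3 s B a b / rho s B a b) (by
    rw [rho3, e1, e2, e3]
    simp only [Matrix.sub_apply, Matrix.one_apply_eq, Matrix.one_apply_ne hab, sub_zero])
  have r4 := k4.trans (c := rho4 s B a b / rho s B a b) (by
    rw [rho4, e1, e2, e3, e4]
    simp only [Matrix.sub_apply, Matrix.one_apply_eq, Matrix.one_apply_ne hab, sub_zero])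
  have f0 : D * (EE a b)ᵀ * EE a b = D := by rw [Matrix.mul_assoc, EE_EE hab, Matrix.mul_one]
  have f1 : ∀ X : Matrix ι ι ℝ, D * (EE a b)ᵀ * X * EE a b = D * bk a b X := by
    intro X; simp only [bk, Matrix.mul_assoc]
  have u0 : N * ((EE a b)ᵀ * C) * (C * EE a b) = N * bk a b (C * C) := by
    simp only [bk, Matrix.mul_assoc]
  have u1 : N * ((EE a b)ᵀ * C) * C * (C * EE a b) = N * bk a b (C * (C * C)) := by
    simp only [bk, Matrix.mul_assoc]
  have u2 : N * ((EE a b)ᵀ * C) * (C * C) * (C * EE a b) = N * bk a b (C * (C * (C * C))) := by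
    simp only [bk, Matrix.mul_assoc]
  have u3 : N * ((EE a b)ᵀ * C) * (C * (C * C)) * (C * EE a b)
      = N * bk a b (C * (C * (C * (C * C)))) := by
    simp only [bk, Matrix.mul_assoc]
  have t3 := tr3 B (EE a b) (D * (EE a b)ᵀ)
  have t4 := tr4 B (EE a b) (D * (EE a b)ᵀ)
  rw [f0, f1, f1, b1, b2] at t3
  rw [f0, f1, f1, f1, ← Matrix.mul_assoc B B B, b1, b2, b3] at t4
  have hCe : B + EE a b * (D * (EE a b)ᵀ) = C := rfl
  rw [hCe] at t3 t4
  constructor
  · rw [sM3, sM3, step_form hs hB hab hρ, tr3, u0, u1, u2, t3, ← r1, ← r2, ← r3, ← nw3_conv,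
      add_assoc]
  · rw [sM4, sM4, step_form hs hB hab hρ, tr4, u0, u1, u2, u3, t4, ← r1, ← r2, ← r3, ← r4,
      add_sub_assoc, ← nw4_conv, add_assoc]

end Rk2

theorem step_M3 (hs : s = 1 ∨ s = -1) (hB : B.IsSymm) (hab : a ≠ b) (hρ : rho s B a b ≠ 0) :
    sM3 (step s B a b) = sM3 B - 3 * (rho3 s B a b / rho s B a b)
      + 3 * (rho1 s B a b * rho2 s B a b / rho s B a b ^ 2)
      - rho1 s B a b ^ 3 / rho s B a b ^ 3 := by
  rw [(Rk2.core hs hB hab hρ).1, Rk2.nw3]
  field_simp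
  ring

theorem step_M4 (hs : s = 1 ∨ s = -1) (hB : B.IsSymm) (hab : a ≠ b) (hρ : rho s B a b ≠ 0) :
    sM4 (step s B a b) = sM4 B - 2 - 4 * (rho4 s B a b / rho s B a b)
      + (4 * rho1 s B a b * rho3 s B a b + 2 * rho2 s B a b ^ 2) / rho s B a b ^ 2
      - 4 * (rho1 s B a b ^ 2 * rho2 s B a b / rho s B a b ^ 3)
      + rho1 s B a b ^ 4 / rho s B a b ^ 4 := by
  rw [(Rk2.core hs hB hab hρ).2, Rk2.nw4]
  field_simp
  ring

end Vale.Agent.P049.An
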