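import Mathlib.LinearAlgebra.Matrix.Trace
import Mathlib.LinearAlgebra.Matrix.Notation
import Mathlib.Data.Real.Basic
import Mathlib.Tactic.FieldSimp
import Mathlib.Tactic.Ring
import Mathlib.Tactic.LinearCombination
import Mathlib.Tactic.FinCases

/-! P049: traces of the third and fourth power of a rank two update, Newton form. -/

namespace Vale.Agent.P049.An.Rk2

open Finset Matrix

variable {ι : Type} [Fintype ι] [DecidableEq ι]

theorem tr3_sq (M P : Matrix ι ι ℝ) :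
    ((M + P) * (M + P) * (M + P)).trace = (M * M * M).trace + 3 * (P * (M * M)).trace
      + 3 * (P * (P * M)).trace + (P * (P * P)).trace := by
  have h1 : (M * (M * P)).trace = (P * (M * M)).trace := by
    rw [← Matrix.mul_assoc, Matrix.trace_mul_comm]
  have h2 : (M * (P * M)).trace = (P * (M * M)).trace := by
    rw [Matrix.trace_mul_comm, Matrix.mul_assoc]
  have h3 : (M * (P * P)).trace = (P * (P * M)).trace := by
    rw [Matrix.trace_mul_comm, Matrix.mul_assoc]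
  have h4 : (P * (M * P)).trace = (P * (P * M)).trace := by
    rw [← Matrix.mul_assoc, Matrix.trace_mul_comm]
  simp only [Matrix.mul_add, Matrix.add_mul, Matrix.trace_add, Matrix.mul_assoc]
  rw [h1, h2, h3, h4]; ring

theorem tr4_sq (M P : Matrix ι ι ℝ) :
    ((M + P) * (M + P) * ((M + P) * (M + P))).trace = (M * M * (M * M)).trace
      + 4 * (P * (M * (M * M))).trace + 4 * (P * (P * (M * M))).trace
      + 2 * (P * (M * (P * M))).trace + 4 * (P * (P * (P * M))).trace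
      + (P * (P * (P * P))).trace := by
  have rot : ∀ X Y Z W : Matrix ι ι ℝ, (X * (Y * (Z * W))).trace = (Y * (Z * (W * X))).trace := by
    intro X Y Z W
    rw [Matrix.trace_mul_comm]; simp only [Matrix.mul_assoc]
  simp only [Matrix.mul_add, Matrix.add_mul, Matrix.trace_add, Matrix.mul_assoc]
  rw [rot M M M P, rot M M P M, rot M P M M, rot M M P P, rot M P P M, rot M P M P,
    rot M P P P, rot P M M P, rot M M P P, rot M P P M, rot P M P P, rot M P P P,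
    rot P P M P, rot P M P P, rot M P P P]
  ring

theorem tr_ef (E : Matrix ι (Fin 2) ℝ) (F : Matrix (Fin 2) ι ℝ) (X : Matrix ι ι ℝ) :
    (E * F * X).trace = (F * X * E).trace := by
  rw [Matrix.mul_assoc, Matrix.trace_mul_comm]

/-- mixed determinant of two 2 x 2 matrices -/
def mix (X Y : Matrix (Fin 2) (Fin 2) ℝ) : ℝ :=
  X 0 0 * Y 1 1 + X 1 1 * Y 0 0 - X 0 1 * Y 1 0 - X 1 0 * Y 0 1

def dt (X : Matrix (Fin 2) (Fin 2) ℝ) : ℝ := X 0 0 * X 1 1 - X 0 1 * X 1 0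

def tr (X : Matrix (Fin 2) (Fin 2) ℝ) : ℝ := X 0 0 + X 1 1

def nw3 (c1 c2 c3 : ℝ) : ℝ := -3 * c3 + 3 * c1 * c2 - c1 ^ 3
def nw4 (c1 c2 c3 c4 : ℝ) : ℝ := -4 * c4 + 4 * c1 * c3 + 2 * c2 ^ 2 - 4 * c1 ^ 2 * c2 + c1 ^ 4

theorem newton3 (G0 G1 G2 : Matrix (Fin 2) (Fin 2) ℝ) :
    3 * G2.trace + 3 * (G0 * G1).trace + (G0 * (G0 * G0)).trace
      = nw3 (-tr G0) (-tr G1 + dt G0) (-tr G2 + mix G0 G1) := by
  simp only [Matrix.trace_fin_two, Matrix.mul_apply, Fin.sum_univ_two, nw3, tr, dt, mix]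
  ring

theorem newton4 (G0 G1 G2 G3 : Matrix (Fin 2) (Fin 2) ℝ) :
    4 * G3.trace + 4 * (G0 * G2).trace + 2 * (G1 * G1).trace + 4 * (G0 * (G0 * G1)).trace
        + (G0 * (G0 * (G0 * G0))).trace
      = nw4 (-tr G0) (-tr G1 + dt G0) (-tr G2 + mix G0 G1) (-tr G3 + mix G0 G2 + dt G1) := by
  simp only [Matrix.trace_fin_two, Matrix.mul_apply, Fin.sum_univ_two, nw4, tr, dt, mix]
  ring

theorem tr3 (M : Matrix ι ι ℝ) (E : Matrix ι (Fin 2) ℝ) (F : Matrix (Fin 2) ι ℝ) :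
    ((M + E * F) * (M + E * F) * (M + E * F)).trace = (M * M * M).trace
      + nw3 (-tr (F * E)) (-tr (F * M * E) + dt (F * E))
        (-tr (F * (M * M) * E) + mix (F * E) (F * M * E)) := by
  rw [tr3_sq, ← newton3, tr_ef, tr_ef, tr_ef]
  simp only [Matrix.mul_assoc]
  ring

theorem tr4 (M : Matrix ι ι ℝ) (E : Matrix ι (Fin 2) ℝ) (F : Matrix (Fin 2) ι ℝ) :
    ((M + E * F) * (M + E * F) * ((M + E * F) * (M + E * F))).trace = (M * M * (M * M)).trace
      + nw4 (-tr (F * E)) (-tr (F * M * E) + dt (F * E))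
        (-tr (F * (M * M) * E) + mix (F * E) (F * M * E))
        (-tr (F * (M * (M * M)) * E) + mix (F * E) (F * (M * M) * E) + dt (F * M * E)) := by
  rw [tr4_sq, ← newton4, tr_ef, tr_ef, tr_ef, tr_ef, tr_ef]
  simp only [Matrix.mul_assoc]
  ring

theorem nw3_conv (d1 d2 d3 e1 e2 e3 : ℝ) :
    nw3 d1 d2 d3 + nw3 e1 e2 e3
      = nw3 (d1 + e1) (d2 + d1 * e1 + e2 - 1) (d3 + d2 * e1 + d1 * e2 + e3 - (d1 + e1)) := by
  simp only [nw3]; ring

theorem nw4_conv (d1 d2 d3 d4 e1 e2 e3 e4 : ℝ) :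
    nw4 d1 d2 d3 d4 + nw4 e1 e2 e3 e4
      = nw4 (d1 + e1) (d2 + d1 * e1 + e2 - 1) (d3 + d2 * e1 + d1 * e2 + e3 - (d1 + e1))
        (d4 + d3 * e1 + d2 * e2 + d1 * e3 + e4 - (d2 + d1 * e1 + e2)) - 2 := by
  simp only [nw4]; ring

end Vale.Agent.P049.An.Rk2
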