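import Vale.Agent.P049.Alg1

/-! P049: exact identities for the mixed statistic (checked numerically).
`B` has sign `s`, `C` has sign `-s`, `B' = step s B a b`, `C' = step (-s) C a b`.
PLAN.  `step_sq`: for `c, e ∉ {a,b}` compute `(B'*B') c e = ∑ x, B' c x * B' e x` with `step_eq` exactly as in
`step_sq_diag`.  `chi_step`: `tr (B' B' C') - tr C' = ∑ c e, ((B'*B') c e - δ_ce) * C' c e`, `C'` vanishes
in rows and columns `a, b`, insert `step_sq`, and recognise `bil`.  `bil_step`: insert `step_eq` for `C`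
(sign `-s`) and sum.  `trR1_step`: the same computation for `∑ c e, R1 B c e * C' c e`. -/

namespace Vale.Agent.P049.An

open Finset Matrix

variable {ι : Type} [Fintype ι] [DecidableEq ι] {s : ℝ} {B C : Matrix ι ι ℝ} {a b : ι}

/-- `u~ . x` -/
def du (s : ℝ) (C : Matrix ι ι ℝ) (a b : ι) (x : ι → ℝ) : ℝ := ∑ j, C a j * x j + s * x b
/-- column of a matrix -/
def cl (M : Matrix ι ι ℝ) (a : ι) : ι → ℝ := fun c => M c a

/-- zeroth order numerator -/
noncomputable def cN0 (s : ℝ) (B C : Matrix ι ι ℝ) (a b : ι) : ℝ :=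
  B b b * bil (step (-s) C a b) (cl B a) (cl B a) + B a a * bil (step (-s) C a b) (cl B b) (cl B b)
    + 2 * (s - B a b) * bil (step (-s) C a b) (cl B a) (cl B b)
/-- first order numerator -/
noncomputable def cN1 (s : ℝ) (B C : Matrix ι ι ℝ) (a b : ι) : ℝ :=
  R1 B b b * bil (step (-s) C a b) (cl B a) (cl B a)
    + R1 B a a * bil (step (-s) C a b) (cl B b) (cl B b)
    - 2 * (B * B) a b * bil (step (-s) C a b) (cl B a) (cl B b)
    + 2 * B b b * bil (step (-s) C a b) (cl (R1 B) a) (cl B a)
    + 2 * B a a * bil (step (-s) C a b) (cl (R1 B) b) (cl B b)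
    + 2 * (s - B a b) * (bil (step (-s) C a b) (cl (R1 B) a) (cl B b)
      + bil (step (-s) C a b) (cl (R1 B) b) (cl B a))

private lemma bil_comm' (hC : C.IsSymm) (x y : ι → ℝ) : bil C x y = bil C y x := by
  unfold bil
  rw [Finset.sum_comm]
  refine Finset.sum_congr rfl fun i _ => Finset.sum_congr rfl fun j _ => ?_
  rw [hC.apply i j]; ring

private lemma chi0_eq' (B C : Matrix ι ι ℝ) : (R1 B * C).trace = sChi B C - sU C := by
  unfold R1 sChi sU
  rw [Matrix.sub_mul, Matrix.one_mul, Matrix.trace_sub]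

private lemma tr_eq (N M : Matrix ι ι ℝ) : (N * M).trace = ∑ c, ∑ e, N c e * M e c := by
  simp only [Matrix.trace, Matrix.diag, Matrix.mul_apply]

private lemma R1_symm (hB : B.IsSymm) : (R1 B).IsSymm := by
  unfold R1 Matrix.IsSymm
  rw [Matrix.transpose_sub, Matrix.transpose_mul, hB.eq, Matrix.transpose_one]

private lemma R1_ne {c e : ι} (h : c ≠ e) : R1 B c e = (B * B) c e := by
  unfold R1
  rw [Matrix.sub_apply, Matrix.one_apply_ne h, sub_zero]

private lemma R1_dg (c : ι) : R1 B c c = (B * B) c c - 1 := by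
  unfold R1
  rw [Matrix.sub_apply, Matrix.one_apply_eq]

/-- expansion of a bilinear form under a rank four update -/
private lemma bil_exp (M C : Matrix ι ι ℝ) (p q u v : ι → ℝ) (σ A D K ρ : ℝ)
    (h : ∀ c e, M c e = C c e - σ * (p c * q e + q c * p e)
      + (D * u c * u e + A * v c * v e + K * (u c * v e + v c * u e)) / ρ) (x y : ι → ℝ) :
    bil M x y = bil C x y - σ * ((∑ i, p i * x i) * (∑ i, q i * y i)
        + (∑ i, q i * x i) * (∑ i, p i * y i))
      + (D * ((∑ i, u i * x i) * (∑ i, u i * y i)) + A * ((∑ i, v i * x i) * (∑ i, v i * y i))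
        + K * ((∑ i, u i * x i) * (∑ i, v i * y i) + (∑ i, v i * x i) * (∑ i, u i * y i))) / ρ := by
  simp only [bil, h, Finset.sum_mul_sum]
  simp only [Finset.mul_sum, Finset.sum_div, ← Finset.sum_add_distrib, ← Finset.sum_sub_distrib]
  refine Finset.sum_congr rfl fun i _ => Finset.sum_congr rfl fun j _ => ?_
  ring

private lemma tr_exp (N M C : Matrix ι ι ℝ) (p q u v : ι → ℝ) (σ A D K ρ : ℝ)
    (h : ∀ c e, M c e = C c e - σ * (p c * q e + q c * p e)
      + (D * u c * u e + A * v c * v e + K * (u c * v e + v c * u e)) / ρ) :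
    (N * M).trace = (N * C).trace - σ * (bil N q p + bil N p q)
      + (D * bil N u u + A * bil N v v + K * (bil N v u + bil N u v)) / ρ := by
  simp only [tr_eq, bil, h]
  simp only [Finset.mul_sum, Finset.sum_div, ← Finset.sum_add_distrib, ← Finset.sum_sub_distrib]
  refine Finset.sum_congr rfl fun i _ => Finset.sum_congr rfl fun j _ => ?_
  ring

private lemma sum_dl (a : ι) (f : ι → ℝ) : ∑ i, (if i = a then (1 : ℝ) else 0) * f i = f a := by
  simp

private lemma sum_u (hB : B.IsSymm) (σ : ℝ) (a b : ι) (f : ι → ℝ) :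
    ∑ i, (B i a - σ * if i = b then 1 else 0) * f i = ∑ i, B a i * f i - σ * f b := by
  rw [← sum_dl b f, Finset.mul_sum, ← Finset.sum_sub_distrib]
  refine Finset.sum_congr rfl fun i _ => ?_
  rw [hB.apply a i]; ring

private lemma bil_eq (N : Matrix ι ι ℝ) (x y : ι → ℝ) :
    bil N x y = ∑ i, x i * ∑ j, y j * N i j := by
  unfold bil
  refine Finset.sum_congr rfl fun i _ => ?_
  rw [Finset.mul_sum]
  refine Finset.sum_congr rfl fun j _ => ?_
  ring

private lemma bil_dd (N : Matrix ι ι ℝ) (a b : ι) :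
    bil N (fun i => if i = a then 1 else 0) (fun i => if i = b then 1 else 0) = N a b := by
  rw [bil_eq, sum_dl, sum_dl]

private lemma bil_uu (hC : C.IsSymm) (N : Matrix ι ι ℝ) (σ : ℝ) (a b c e : ι) :
    bil N (fun i => C i a - σ * if i = b then 1 else 0) (fun i => C i c - σ * if i = e then 1 else 0)
      = (C * N * C) a c - σ * (C * N) a e - σ * (N * C) b c + σ * σ * N b e := by
  rw [bil_eq, sum_u hC]
  simp only [sum_u hC]
  have h1 : ∀ i, ∑ j, C c j * N i j = (N * C) i c := fun i => by
    rw [Matrix.mul_apply]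
    refine Finset.sum_congr rfl fun j _ => ?_
    rw [hC.apply c j]; ring
  simp only [h1]
  rw [Matrix.mul_assoc, Matrix.mul_apply (M := C) (N := N * C), Matrix.mul_apply (M := C) (N := N),
    Finset.mul_sum, ← Finset.sum_sub_distrib]
  have h2 : ∑ i, C a i * ((N * C) i c - σ * N i e)
      = ∑ i, (C a i * (N * C) i c - σ * (C a i * N i e)) :=
    Finset.sum_congr rfl fun i _ => by ring
  rw [h2]; ring

private lemma sum_exp (f g u v : ι → ℝ) (A D A' D' ρ : ℝ) :
    ∑ x, (f x + (A * u x + D * v x) / ρ) * (g x + (A' * u x + D' * v x) / ρ)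
      = ∑ x, f x * g x + (A' * ∑ x, u x * f x + D' * ∑ x, v x * f x + A * ∑ x, u x * g x
          + D * ∑ x, v x * g x) / ρ
        + (A * A' * ∑ x, u x * u x + (A * D' + D * A') * ∑ x, u x * v x
          + D * D' * ∑ x, v x * v x) / ρ ^ 2 := by
  simp only [Finset.mul_sum, Finset.sum_div, ← Finset.sum_add_distrib]
  refine Finset.sum_congr rfl fun i _ => ?_
  ring

private lemma step_sq (hs : s = 1 ∨ s = -1) (hB : B.IsSymm) (hab : a ≠ b) (hρ : rho s B a b ≠ 0)
    (c e : ι) (hca : c ≠ a) (hcb : c ≠ b) (hea : e ≠ a) (heb : e ≠ b) :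
    R1 (step s B a b) c e = R1 B c e
      + (R1 B b b * (B c a * B e a) + R1 B a a * (B c b * B e b)
        - (B * B) a b * (B c a * B e b + B c b * B e a)
        + B b b * (R1 B c a * B e a + B c a * R1 B e a)
        + B a a * (R1 B c b * B e b + B c b * R1 B e b)
        + (s - B a b) * (R1 B c a * B e b + B c b * R1 B e a + R1 B c b * B e a
          + B c a * R1 B e b)) / rho s B a b
      - rho1 s B a b * (B b b * (B c a * B e a) + B a a * (B c b * B e b)
        + (s - B a b) * (B c a * B e b + B c b * B e a)) / rho s B a b ^ 2 := by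
  have h1 : ∀ c, c ≠ a → c ≠ b → ∀ x, step s B a b c x = B c x
      + ((B b b * B c a + (s - B a b) * B c b) * (B x a - s * if x = b then 1 else 0)
        + (B a a * B c b + (s - B a b) * B c a) * (B x b - s * if x = a then 1 else 0))
        / rho s B a b := by
    intro c hca hcb x
    rw [step_eq hs hB hab hρ, if_neg hca, if_neg hcb]
    ring
  have h2 : (step s B a b * step s B a b) c e = ∑ x, step s B a b c x * step s B a b e x := by
    rw [Matrix.mul_apply]
    refine Finset.sum_congr rfl fun x _ => ?_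
    rw [(step_symm hB s a b).apply e x]
  have h3 : ∀ i j, ∑ x, B i x * B j x = (B * B) i j := fun i j => by
    rw [Matrix.mul_apply]
    refine Finset.sum_congr rfl fun x _ => ?_
    rw [hB.apply j x]
  have h4 : ∀ i j l, ∑ x, B i x * (B x j - s * if x = l then 1 else 0) = (B * B) i j - s * B i l := by
    intro i j l
    rw [← h3 j i |>.trans ((show (B * B).IsSymm from by
      unfold Matrix.IsSymm; rw [Matrix.transpose_mul, hB.eq]).apply i j) , ← sum_u hB s j l]
    refine Finset.sum_congr rfl fun x _ => ?_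
    ring
  have h5 : R1 (step s B a b) c e - R1 B c e
      = (step s B a b * step s B a b) c e - (B * B) c e := by
    unfold R1
    simp only [Matrix.sub_apply]; ring
  have hba : B b a = B a b := hB.apply a b
  have hR := R1_symm hB
  rw [← sub_add_cancel (R1 (step s B a b) c e) (R1 B c e), h5, h2]
  simp only [h1 c hca hcb, h1 e hea heb]
  rw [sum_exp]
  simp only [sum_u hB, h3, h4, if_true, if_neg hab.symm]
  rw [rho1, R1_ne hab, R1_dg a, R1_dg b, hR.apply a c, hR.apply b c, hR.apply a e, hR.apply b e,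
    R1_ne hca.symm, R1_ne hcb.symm, R1_ne hea.symm, R1_ne heb.symm, hba]
  have hd : rho s B a b = (s - B a b) ^ 2 - B a a * B b b := rfl
  generalize rho s B a b = ρ at *
  field_simp
  rcases hs with rfl | rfl
  · rw [hd]; ring
  · rw [hd]; ring

theorem chi_step (hs : s = 1 ∨ s = -1) (hB : B.IsSymm) (hC : C.IsSymm) (hab : a ≠ b)
    (hρ : rho s B a b ≠ 0) :
    sChi (step s B a b) (step (-s) C a b) - sU (step (-s) C a b)
      = (R1 B * step (-s) C a b).trace + cN1 s B C a b / rho s B a b
        - rho1 s B a b * cN0 s B C a b / rho s B a b ^ 2 := by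
  have hC' := step_symm hC (-s) a b
  have hz : ∀ c e, (c = a ∨ c = b ∨ e = a ∨ e = b) → step (-s) C a b c e = 0 := fun c e h => by
    unfold step; rw [if_pos h]
  rw [← chi0_eq', cN1, cN0]
  generalize step (-s) C a b = M at hC' hz
  have key : (R1 (step s B a b) * M).trace = (R1 B * M).trace
      + (R1 B b b * bil M (cl B a) (cl B a) + R1 B a a * bil M (cl B b) (cl B b)
        - (B * B) a b * (bil M (cl B b) (cl B a) + bil M (cl B a) (cl B b))
        + B b b * (bil M (cl B a) (cl (R1 B) a) + bil M (cl (R1 B) a) (cl B a))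
        + B a a * (bil M (cl B b) (cl (R1 B) b) + bil M (cl (R1 B) b) (cl B b))
        + (s - B a b) * (bil M (cl B b) (cl (R1 B) a) + bil M (cl (R1 B) a) (cl B b)
          + bil M (cl B a) (cl (R1 B) b) + bil M (cl (R1 B) b) (cl B a))) / rho s B a b
      - rho1 s B a b * (B b b * bil M (cl B a) (cl B a) + B a a * bil M (cl B b) (cl B b)
        + (s - B a b) * (bil M (cl B b) (cl B a) + bil M (cl B a) (cl B b))) / rho s B a b ^ 2 := by
    simp only [tr_eq, bil, cl]
    simp only [Finset.mul_sum, Finset.sum_div, ← Finset.sum_add_distrib, ← Finset.sum_sub_distrib]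
    refine Finset.sum_congr rfl fun c _ => Finset.sum_congr rfl fun e _ => ?_
    rw [hC'.apply c e]
    by_cases h : c = a ∨ c = b ∨ e = a ∨ e = b
    · rw [hz c e h]; simp
    · simp only [not_or] at h
      rw [step_sq hs hB hab hρ c e h.1 h.2.1 h.2.2.1 h.2.2.2]
      ring
  rw [key, bil_comm' hC' (cl B b) (cl B a), bil_comm' hC' (cl B a) (cl (R1 B) a),
    bil_comm' hC' (cl B b) (cl (R1 B) b), bil_comm' hC' (cl B b) (cl (R1 B) a),
    bil_comm' hC' (cl B a) (cl (R1 B) b)]
  ring

theorem bil_step (hs : s = 1 ∨ s = -1) (hC : C.IsSymm) (hab : a ≠ b) (hρ : rho (-s) C a b ≠ 0)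
    (x y : ι → ℝ) :
    bil (step (-s) C a b) x y = bil C x y + s * (x a * y b + x b * y a)
      + (C b b * du s C a b x * du s C a b y + C a a * du s C b a x * du s C b a y
        - (s + C a b) * (du s C a b x * du s C b a y + du s C b a x * du s C a b y))
        / rho (-s) C a b := by
  have hs' : -s = 1 ∨ -s = -1 := by rcases hs with rfl | rfl <;> simp
  rw [bil_exp _ C _ _ _ _ _ _ _ _ _ (step_eq hs' hC hab hρ)]
  simp only [sum_dl, sum_u hC, du]
  ring

theorem trR1_step (hs : s = 1 ∨ s = -1) (hB : B.IsSymm) (hC : C.IsSymm) (hab : a ≠ b)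
    (hρ : rho (-s) C a b ≠ 0) :
    (R1 B * step (-s) C a b).trace = (R1 B * C).trace + 2 * s * (B * B) a b
      + (C b b * ((C * R1 B * C) a a + 2 * s * (C * R1 B) a b + R1 B b b)
        + C a a * ((C * R1 B * C) b b + 2 * s * (C * R1 B) b a + R1 B a a)
        - 2 * (s + C a b) * ((C * R1 B * C) a b + s * (C * R1 B) a a + s * (C * R1 B) b b
          + (B * B) a b)) / rho (-s) C a b := by
  have hs' : -s = 1 ∨ -s = -1 := by rcases hs with rfl | rfl <;> simp
  have hR := R1_symm hB
  have ht : ∀ i j, (R1 B * C) i j = (C * R1 B) j i := fun i j => by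
    rw [← Matrix.transpose_apply (R1 B * C) j i, Matrix.transpose_mul, hC.eq, hR.eq]
  have h3 : (C * R1 B * C) b a = (C * R1 B * C) a b := by
    rw [← Matrix.transpose_apply (C * R1 B * C) a b, Matrix.transpose_mul, Matrix.transpose_mul,
      hC.eq, hR.eq, Matrix.mul_assoc]
  rw [tr_exp _ _ C _ _ _ _ _ _ _ _ _ (step_eq hs' hC hab hρ)]
  simp only [bil_dd, bil_uu hC, ht, h3]
  rw [hR.apply a b, R1_ne hab]
  rcases hs with rfl | rfl <;> ring

theorem step_swap (hB : B.IsSymm) (s : ℝ) (a b : ι) : step s B b a = step s B a b := by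
  ext c e
  have h1 : (c = b ∨ c = a ∨ e = b ∨ e = a) ↔ (c = a ∨ c = b ∨ e = a ∨ e = b) := by tauto
  unfold step rho
  rw [hB.apply a b]
  by_cases h : c = a ∨ c = b ∨ e = a ∨ e = b
  · rw [if_pos h, if_pos (h1.2 h)]
  · rw [if_neg h, if_neg (fun h' => h (h1.1 h'))]
    ring

theorem bil_comm (hC : C.IsSymm) (x y : ι → ℝ) : bil C x y = bil C y x := by
  exact bil_comm' hC x y

theorem bil_cl (hM : B.IsSymm) (C N : Matrix ι ι ℝ) (a b : ι) :
    bil C (cl B a) (cl N b) = (B * C * N) a b := by
  unfold bil cl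
  simp only [Matrix.mul_apply, Finset.sum_mul]
  rw [Finset.sum_comm]
  refine Finset.sum_congr rfl fun i _ => Finset.sum_congr rfl fun j _ => ?_
  rw [hM.apply a j]

theorem du_cl (s : ℝ) (C N : Matrix ι ι ℝ) (a b c : ι) :
    du s C a b (cl N c) = (C * N) a c + s * N b c := by
  unfold du cl
  rw [Matrix.mul_apply]

theorem chi0_eq (B C : Matrix ι ι ℝ) : (R1 B * C).trace = sChi B C - sU C := by
  exact chi0_eq' B C

end Vale.Agent.P049.An
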