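import Vale.Agent.P049.GDefs
import Mathlib.Tactic

/-! P049: the block invariant. -/

namespace Vale.Agent.P049

open Finset Matrix

theorem block_sum_fst {K : Type} [Field K] {n d : ℕ} (c : HE n d) (y : HE n d → K) :
    ∑ e : HE n d, (if c.1 = e.1 then y e else 0) = ∑ j, y (c.1, j) := by
  rw [Fintype.sum_prod_type, Finset.sum_eq_single c.1]
  · simp
  · intro v _ hv
    simp [hv.symm]
  · simp

theorem str_init {K : Type} [Field K] [CharZero K] {n d : ℕ} (hn : 0 < n) (hd : 0 < d)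
    (s γ m : K) : Str (univ : Finset (HE n d)) s (B0 n d s γ m) := by
  have hn' : (n : K) ≠ 0 := Nat.cast_ne_zero.2 hn.ne'
  have hd' : (d : K) ≠ 0 := Nat.cast_ne_zero.2 hd.ne'
  refine ⟨Matrix.IsSymm.ext fun c e => ?_, fun c e hc => absurd (mem_univ c) hc, fun c _ => ?_⟩
  · simp only [B0, eq_comm]
  · simp only [B0, sum_add_distrib, sum_sub_distrib]
    rw [block_sum_fst c fun _ => γ]
    simp only [sum_const, card_univ, Fintype.card_fin, Fintype.card_prod, nsmul_eq_mul,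
      sum_ite_eq, mem_univ, if_true, Nat.cast_mul]
    field_simp
    ring

theorem str_step {ι K : Type} [Fintype ι] [DecidableEq ι] [Field K] {H : Finset ι} {s : K}
    {B : Matrix ι ι K} (hs : s ^ 2 = 1) (h : Str H s B) {a b : ι} (ha : a ∈ H) (hb : b ∈ H)
    (hab : a ≠ b) (hr : rho s B a b ≠ 0) : Str ((H.erase a).erase b) s (step s B a b) := by
  have hsy : ∀ c e, B c e = B e c := fun c e => h.symm.apply e c
  refine ⟨Matrix.IsSymm.ext fun c e => ?_, fun c e hc => ?_, fun c hc => ?_⟩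
  · unfold step
    rw [hsy c e]
    by_cases h1 : c = a ∨ c = b ∨ e = a ∨ e = b
    · rw [if_pos h1, if_pos (by tauto)]
    · rw [if_neg h1, if_neg (by tauto)]
      ring
  · unfold step
    split_ifs with h1
    · rfl
    · have h2 : c ∉ H := fun h2 => hc (by simp only [mem_erase]; tauto)
      rw [h.supp c e h2, h.supp c a h2, h.supp c b h2]
      simp
  · simp only [mem_erase] at hc
    obtain ⟨hcb, hca, hc⟩ := hc
    set G : ι → K := fun e => B c e + (B b b * B c a * B e a + B a a * B c b * B e b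
      + (s - B a b) * (B c a * B e b + B c b * B e a)) / rho s B a b with hG
    have h1 : ∀ e, step s B a b c e =
        G e - (if e = a then G a else 0) - (if e = b then G b else 0) := by
      intro e
      unfold step
      by_cases h2 : e = a
      · subst h2
        simp [hab]
      · by_cases h3 : e = b
        · subst h3
          simp [h2]
        · simp [h2, h3, hca, hcb, hG]
    have h2 : ∑ e, B e a = s := by rw [← h.row a ha]; exact sum_congr rfl fun e _ => hsy e a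
    have h3 : ∑ e, B e b = s := by rw [← h.row b hb]; exact sum_congr rfl fun e _ => hsy e b
    have h4 : ∑ e, G e = s + (B b b * B c a * s + B a a * B c b * s
        + (s - B a b) * (B c a * s + B c b * s)) / rho s B a b := by
      simp only [hG, sum_add_distrib, ← sum_div, ← mul_sum, h2, h3, h.row c hc]
    simp only [h1, sum_sub_distrib, sum_ite_eq', mem_univ, if_true]
    rw [h4]
    simp only [hG, hsy b a]
    field_simp
    simp only [rho]
    ring

variable {n d : ℕ} {u s m : ℝ} {H : Finset (HE n d)} {π : HE n d → HE n d}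
  {B : Matrix (HE n d) (HE n d) ℝ}

theorem block_quad0 (s γ m : ℝ) (x : HE n d → ℝ) :
    ∑ c, ∑ e, x c * B0 n d s γ m c e * x e = γ * ∑ v, (∑ j, x (v, j)) ^ 2 - m * ∑ c, x c ^ 2
      + (s + m - γ * d) / (n * d) * (∑ c, x c) ^ 2 := by
  have h1 : ∀ c : HE n d, ∑ e, x c * B0 n d s γ m c e * x e =
      γ * (x c * ∑ j, x (c.1, j)) - m * x c ^ 2 + (s + m - γ * d) / (n * d) * (x c * ∑ e, x e) := by
    intro c
    have h2 : ∀ e : HE n d, x c * B0 n d s γ m c e * x e =
        γ * (x c * if c.1 = e.1 then x e else 0) - (if c = e then m * (x c * x e) else 0)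
          + (s + m - γ * d) / (n * d) * (x c * x e) := by
      intro e
      unfold B0
      split_ifs <;> ring
    simp only [h2, sum_add_distrib, sum_sub_distrib, ← mul_sum, block_sum_fst, sum_ite_eq,
      mem_univ, if_true]
    ring
  have h3 : ∑ c : HE n d, x c * ∑ j, x (c.1, j) = ∑ v, (∑ j, x (v, j)) ^ 2 := by
    rw [Fintype.sum_prod_type]
    exact sum_congr rfl fun v _ => by rw [sq, sum_mul]
  simp only [h1, sum_add_distrib, sum_sub_distrib, ← mul_sum, ← sum_mul, h3]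
  ring

theorem block_centre (hn : 0 < n) {A c : ℝ} (hc : 0 < c) (hA : 1 ≤ A * c) (f g : Fin n → ℝ) :
    A * (∑ v, f v) ^ 2 / n + 2 * ((∑ v, f v) * ∑ v, g v) / n + c * (∑ v, g v) ^ 2 / n ≤
      A * ∑ v, f v ^ 2 + 2 * ∑ v, f v * g v + c * ∑ v, g v ^ 2 := by
  have hn' : (n : ℝ) ≠ 0 := Nat.cast_ne_zero.2 hn.ne'
  have key : ∀ a b : ℝ, 0 ≤ A * a ^ 2 + 2 * (a * b) + c * b ^ 2 := fun a b =>
    nonneg_of_mul_nonneg_right (b := A * a ^ 2 + 2 * (a * b) + c * b ^ 2) (a := c) (by
      nlinarith [sq_nonneg (a + c * b), mul_nonneg (sub_nonneg.2 hA) (sq_nonneg a)]) hc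
  set F := ∑ v, f v with hF
  set X := ∑ v, g v with hX
  have h1 : 0 ≤ ∑ v, (A * (f v - F / n) ^ 2 + 2 * ((f v - F / n) * (g v - X / n))
      + c * (g v - X / n) ^ 2) := sum_nonneg fun v _ => key _ _
  have h2 : ∀ v, A * (f v - F / n) ^ 2 + 2 * ((f v - F / n) * (g v - X / n))
      + c * (g v - X / n) ^ 2 = A * f v ^ 2 + 2 * (f v * g v) + c * g v ^ 2
        - (2 * A * F / n + 2 * X / n) * f v - (2 * F / n + 2 * c * X / n) * g v
        + (A * F ^ 2 + 2 * F * X + c * X ^ 2) / n ^ 2 := fun v => by ring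
  simp only [h2, sum_add_distrib, sum_sub_distrib, ← mul_sum, ← hF, ← hX, sum_const, card_univ,
    Fintype.card_fin, nsmul_eq_mul] at h1
  have h3 : n * ((A * F ^ 2 + 2 * F * X + c * X ^ 2) / n ^ 2) =
      (A * F ^ 2 + 2 * F * X + c * X ^ 2) / n := by field_simp
  rw [h3] at h1
  have h4 : A * F ^ 2 / n + 2 * (F * X) / n + c * X ^ 2 / n =
      (2 * A * F / n + 2 * X / n) * F + (2 * F / n + 2 * c * X / n) * X
        - (A * F ^ 2 + 2 * F * X + c * X ^ 2) / n := by ring
  linarith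

theorem binv_init {γ : ℝ} (hn : 0 < n) (hd : 0 < d) (hs : s = 1 ∨ s = -1) (hm0 : 0 ≤ m)
    (hm : m ^ 2 ≤ 1 / 2) (hγ : 0 < γ) (hu : 1 - m ^ 2 ≤ γ * (u - m * d)) :
    BInv u s m (univ : Finset (HE n d)) id (B0 n d s γ m) := by
  intro f x _ hl
  have hn' : (n : ℝ) ≠ 0 := Nat.cast_ne_zero.2 hn.ne'
  have hd' : (d : ℝ) ≠ 0 := Nat.cast_ne_zero.2 hd.ne'
  have hm1 : 0 < 1 - m ^ 2 := by linarith
  have hs2 : s ^ 2 = 1 := by rcases hs with rfl | rfl <;> norm_num
  have e1 : ∑ c : HE n d, f c.1 = d * ∑ v, f v := by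
    simp [Fintype.sum_prod_type, mul_sum]
  have e2 : ∑ c : HE n d, f c.1 ^ 2 = d * ∑ v, f v ^ 2 := by
    simp [Fintype.sum_prod_type, mul_sum]
  have e3 : ∑ c : HE n d, f c.1 * x c = ∑ v, f v * ∑ j, x (v, j) := by
    simp [Fintype.sum_prod_type, mul_sum]
  have e4 : ∑ c : HE n d, x c = ∑ v, ∑ j, x (v, j) := Fintype.sum_prod_type _
  have h1 := block_centre hn (A := u - m * d) (c := γ / (1 - m ^ 2)) (div_pos hγ hm1)
    (by rw [← mul_div_assoc, le_div_iff₀ hm1]; linarith) f fun v => ∑ j, x (v, j)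
  rw [ell, e1, e4] at hl
  rw [Qf, compl_univ, sum_empty, block_quad0, e2, e3, e4]
  set F := ∑ v, f v
  set X := ∑ v, ∑ j, x (v, j)
  set P := ∑ v, f v ^ 2
  set R := ∑ v, f v * ∑ j, x (v, j)
  set T := ∑ v, (∑ j, x (v, j)) ^ 2
  set N := ∑ c, x c ^ 2
  have hX : X = -((s - m) * (d * F)) := by linarith
  have h2 : u * P - s * 0 - m * (d * P) + (s * d - u) * F ^ 2 / n + 2 * R
      + (γ * T - m * N + (s + m - γ * d) / (n * d) * X ^ 2 + m * N) / (1 - m ^ 2) =
      ((u - m * d) * P + 2 * R + γ / (1 - m ^ 2) * T) - ((u - m * d) * F ^ 2 / n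
        + 2 * (F * X) / n + γ / (1 - m ^ 2) * X ^ 2 / n) := by
    rw [hX]
    field_simp
    linear_combination (d * F ^ 2 * (s - m)) * hs2
  rw [h2]
  linarith

theorem inv_of_binv (hs : s = 1 ∨ s = -1) (hm0 : 0 ≤ m) (hm : m ^ 2 ≤ 1 / 2)
    (hS : Str H s B) (hB : BInv u s m H π B) : Inv H s m B := by
  refine ⟨hS.symm, hS.supp, hS.row, fun ψ hψ => ?_⟩
  have hm1 : 0 < 1 - m ^ 2 := by linarith
  rcases H.eq_empty_or_nonempty with rfl | hH
  · simp [hψ]
  have hk : (H.card : ℝ) ≠ 0 := Nat.cast_ne_zero.2 hH.card_pos.ne'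
  set β := (∑ c, ψ c) / H.card with hβ
  set e : HE n d → ℝ := fun c => if c ∈ H then 1 else 0 with he
  have e1 : ∑ c, e c = H.card := by simp [he]
  have e2 : ∀ c, ψ c * e c = ψ c := fun c => by
    by_cases hc : c ∈ H <;> simp [he, hc, hψ]
  have e3 : ∀ c, e c * e c = e c := fun c => by
    by_cases hc : c ∈ H <;> simp [he, hc]
  have e4 : ∀ c, ∑ c', B c c' * e c' = s * e c := fun c => by
    by_cases hc : c ∈ H
    · simp only [he, if_pos hc, mul_one]
      rw [← hS.row c hc]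
      refine sum_congr rfl fun c' _ => ?_
      by_cases hc' : c' ∈ H
      · rw [if_pos hc', mul_one]
      · rw [if_neg hc', mul_zero, ← hS.symm.apply c c', hS.supp c' c hc']
    · simp [he, hc, hS.supp c _ hc]
  have e5 : ∀ y : HE n d → ℝ, ∑ c, ∑ c', y c * B c c' * e c' = s * ∑ c, y c * e c := fun y => by
    rw [mul_sum]
    refine sum_congr rfl fun c _ => ?_
    simp only [mul_assoc, ← mul_sum, e4]
    ring
  have e6 : ∑ c, ∑ c', e c * B c c' * ψ c' = s * ∑ c, ψ c * e c := by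
    rw [← e5, sum_comm]
    exact sum_congr rfl fun c _ => sum_congr rfl fun c' _ => by rw [hS.symm.apply c c']; ring
  have h1 := hB 0 (fun c => ψ c - β * e c) (fun c hc => by simp [he, hc, hψ c hc]) (by
    simp only [ell, Pi.zero_apply, sum_const_zero, mul_zero, zero_add, sum_sub_distrib, ← mul_sum,
      e1, hβ]
    field_simp
    ring)
  have h2 : ∑ c, ∑ c', (ψ c - β * e c) * B c c' * (ψ c' - β * e c') =
      ∑ c, ∑ c', ψ c * B c c' * ψ c' - 2 * β * s * ∑ c, ψ c + β ^ 2 * s * H.card := by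
    have h3 : ∀ c c', (ψ c - β * e c) * B c c' * (ψ c' - β * e c') = ψ c * B c c' * ψ c'
        - β * (ψ c * B c c' * e c') - β * (e c * B c c' * ψ c')
        + β ^ 2 * (e c * B c c' * e c') := fun c c' => by ring
    simp only [h3, sum_add_distrib, sum_sub_distrib, ← mul_sum, e5, e6, e2, e3, e1]
    ring
  have h4 : ∑ c, (ψ c - β * e c) ^ 2 =
      ∑ c, ψ c ^ 2 - 2 * β * ∑ c, ψ c + β ^ 2 * H.card := by
    have h3 : ∀ c, (ψ c - β * e c) ^ 2 = ψ c ^ 2 - 2 * β * (ψ c * e c) + β ^ 2 * (e c * e c) :=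
      fun c => by ring
    simp only [h3, sum_add_distrib, sum_sub_distrib, ← mul_sum, e2, e3, e1]
  simp only [Qf, Pi.zero_apply, zero_mul, mul_zero, sum_const_zero, ne_eq, OfNat.ofNat_ne_zero,
    not_false_eq_true, zero_pow, sub_zero, zero_div, add_zero, zero_add, h2, h4] at h1
  have h5 := nonneg_of_mul_nonneg_left (by rwa [div_eq_mul_inv] at h1) (inv_pos.2 hm1)
  have h6 : (s + m) * (∑ c, ψ c) ^ 2 / H.card = 2 * β * s * ∑ c, ψ c - β ^ 2 * s * H.card
      + m * (2 * β * ∑ c, ψ c - β ^ 2 * H.card) := by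
    rw [hβ]
    field_simp
    ring
  rw [h6]
  linarith

end Vale.Agent.P049
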