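import Vale.Agent.P049.GDefs
import Mathlib.Tactic
import Mathlib.Algebra.Order.Chebyshev

/-! P049: the block invariant and small Frobenius mass give the bound for every completion. -/

namespace Vale.Agent.P049

open Finset Matrix

section gen

variable {ι : Type} [Fintype ι] {H : Finset ι} {s : ℝ} {B : Matrix ι ι ℝ}

theorem bf_univ {g : ι → ℝ} (h : ∀ c, c ∉ H → g c = 0) : ∑ c, g c = ∑ c ∈ H, g c :=
  (Finset.sum_subset (Finset.subset_univ H) fun c _ hc => h c hc).symm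

theorem bf_row (hS : Str H s B) {c : ι} (hc : c ∈ H) : ∑ e ∈ H, B c e = s := by
  rw [← hS.row c hc]
  exact (bf_univ fun e he => by rw [← hS.symm.apply c e]; exact hS.supp e c he).symm

theorem bf_col (hS : Str H s B) {e : ι} (he : e ∈ H) : ∑ c ∈ H, B c e = s := by
  rw [← bf_row hS he]
  exact Finset.sum_congr rfl fun c _ => hS.symm.apply e c

theorem bf_T (hS : Str H s B) : sT B = ∑ c ∈ H, ∑ e ∈ H, B c e ^ 2 := by
  simp only [sT, Matrix.trace, Matrix.diag, Matrix.mul_apply]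
  rw [bf_univ fun c hc => Finset.sum_eq_zero fun e _ => by rw [hS.supp c e hc, zero_mul]]
  refine Finset.sum_congr rfl fun c _ => ?_
  rw [bf_univ fun e he => by rw [hS.supp e c he, mul_zero]]
  exact Finset.sum_congr rfl fun e _ => by rw [hS.symm.apply c e, sq]

theorem bf_quad (hs : s ^ 2 = 1) (hS : Str H s B) (hT : sT B ≤ 2) (hH : H.Nonempty) {z : ι → ℝ}
    (hz : ∑ c ∈ H, z c = 0) : ∑ c ∈ H, ∑ e ∈ H, z c * B c e * z e ≤ ∑ c ∈ H, z c ^ 2 := by
  have hk : (0 : ℝ) < H.card := by exact_mod_cast hH.card_pos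
  have e1 : ∑ c ∈ H, ∑ e ∈ H, z c * B c e * z e =
      ∑ p ∈ H ×ˢ H, (B p.1 p.2 - s / H.card) * (z p.1 * z p.2) := by
    rw [Finset.sum_product]
    refine Finset.sum_congr rfl fun c _ => ?_
    have : ∑ e ∈ H, (B c e - s / H.card) * (z c * z e) =
        ∑ e ∈ H, z c * B c e * z e - s / H.card * z c * ∑ e ∈ H, z e := by
      rw [Finset.mul_sum, ← Finset.sum_sub_distrib]
      exact Finset.sum_congr rfl fun e _ => by ring
    rw [this, hz, mul_zero, sub_zero]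
  have e2 : ∑ p ∈ H ×ˢ H, (B p.1 p.2 - s / H.card) ^ 2 = sT B - 1 := by
    rw [Finset.sum_product, bf_T hS]
    have : ∀ c ∈ H, ∑ e ∈ H, (B c e - s / H.card) ^ 2 = ∑ e ∈ H, B c e ^ 2 - 1 / H.card := by
      intro c hc
      have h1 : ∑ e ∈ H, (B c e - s / H.card) ^ 2 = ∑ e ∈ H, B c e ^ 2 -
          2 * (s / H.card) * ∑ e ∈ H, B c e + ∑ _e ∈ H, (s / H.card) ^ 2 := by
        rw [Finset.mul_sum, ← Finset.sum_sub_distrib, ← Finset.sum_add_distrib]
        exact Finset.sum_congr rfl fun e _ => by ring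
      rw [h1, bf_row hS hc, Finset.sum_const, nsmul_eq_mul]
      field_simp
      linear_combination (-1) * hs
    rw [Finset.sum_congr rfl this, Finset.sum_sub_distrib, Finset.sum_const, nsmul_eq_mul]
    field_simp
  have e3 : ∑ p ∈ H ×ˢ H, (z p.1 * z p.2) ^ 2 = (∑ c ∈ H, z c ^ 2) ^ 2 := by
    rw [Finset.sum_product, sq (∑ c ∈ H, z c ^ 2), Finset.sum_mul_sum]
    exact Finset.sum_congr rfl fun c _ => Finset.sum_congr rfl fun e _ => by ring
  have h := Finset.sum_mul_sq_le_sq_mul_sq (H ×ˢ H) (fun p => B p.1 p.2 - s / H.card)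
    fun p => z p.1 * z p.2
  rw [← e1, e2, e3] at h
  have h0 : 0 ≤ ∑ c ∈ H, z c ^ 2 := Finset.sum_nonneg fun c _ => sq_nonneg _
  exact (abs_le_of_sq_le_sq' (h.trans (by nlinarith [sq_nonneg (∑ c ∈ H, z c ^ 2)])) h0).2

theorem bf_shift (hS : Str H s B) {z : ι → ℝ} (hz : ∑ c ∈ H, z c = 0) (β : ℝ) :
    ∑ c ∈ H, ∑ e ∈ H, (z c + β) * B c e * (z e + β) =
      ∑ c ∈ H, ∑ e ∈ H, z c * B c e * z e + s * β ^ 2 * H.card := by
  have h1 : ∀ c ∈ H, ∑ e ∈ H, (z c + β) * B c e * (z e + β) =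
      ∑ e ∈ H, z c * B c e * z e + β * s * z c + β * ∑ e ∈ H, B c e * z e + s * β ^ 2 := by
    intro c hc
    have : ∑ e ∈ H, (z c + β) * B c e * (z e + β) = ∑ e ∈ H, z c * B c e * z e +
        (β * z c + β ^ 2) * ∑ e ∈ H, B c e + β * ∑ e ∈ H, B c e * z e := by
      rw [Finset.mul_sum, Finset.mul_sum, ← Finset.sum_add_distrib, ← Finset.sum_add_distrib]
      exact Finset.sum_congr rfl fun e _ => by ring
    rw [this, bf_row hS hc]
    ring
  have h2 : ∑ c ∈ H, ∑ e ∈ H, B c e * z e = 0 := by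
    rw [Finset.sum_comm, Finset.sum_congr rfl fun e he => by
      rw [← Finset.sum_mul, bf_col hS he], ← Finset.mul_sum, hz, mul_zero]
  rw [Finset.sum_congr rfl h1]
  simp only [Finset.sum_add_distrib, ← Finset.mul_sum, hz, h2, Finset.sum_const, nsmul_eq_mul]
  ring

end gen

variable {n d : ℕ} {u s m : ℝ} {H : Finset (HE n d)} {π : HE n d → HE n d}
  {B : Matrix (HE n d) (HE n d) ℝ}

theorem bf_key (hs : s ^ 2 = 1) (hm : m ^ 2 ≤ 1 / 2)
    (hS : Str H s B) (hB : BInv u s m H π B) (hT : sT B ≤ 2) (hH : H.Nonempty)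
    (f : Fin n → ℝ) (hf : ∑ v, f v = 0) {z : HE n d → ℝ} (hz : ∑ c ∈ H, z c = 0) {β : ℝ}
    (hβ : (s - m) * ∑ c ∈ H, f c.1 + β * H.card = 0) :
    0 ≤ u * ∑ v, f v ^ 2 - s * ∑ c ∈ Hᶜ, f c.1 * f (π c).1 - m * ∑ c ∈ H, f c.1 ^ 2
      + 2 * (∑ c ∈ H, f c.1 * z c + β * ∑ c ∈ H, f c.1)
      + ((1 + m) * ∑ c ∈ H, z c ^ 2 + (s + m) * β ^ 2 * H.card) / (1 - m ^ 2) := by
  set x : HE n d → ℝ := fun c => if c ∈ H then z c + β else 0 with hx
  have x0 : ∀ c, c ∉ H → x c = 0 := fun c hc => if_neg hc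
  have x1 : ∀ c ∈ H, x c = z c + β := fun c hc => if_pos hc
  have e1 : ∑ c, x c = β * H.card := by
    rw [bf_univ x0, Finset.sum_congr rfl x1, Finset.sum_add_distrib, hz, Finset.sum_const,
      nsmul_eq_mul]
    ring
  have e2 : ∑ c ∈ H, f c.1 * x c = ∑ c ∈ H, f c.1 * z c + β * ∑ c ∈ H, f c.1 := by
    rw [Finset.mul_sum, ← Finset.sum_add_distrib]
    exact Finset.sum_congr rfl fun c hc => by rw [x1 c hc]; ring
  have e3 : ∑ c, x c ^ 2 = ∑ c ∈ H, z c ^ 2 + β ^ 2 * H.card := by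
    have : ∑ c ∈ H, x c ^ 2 = ∑ c ∈ H, z c ^ 2 + 2 * β * ∑ c ∈ H, z c + ∑ _c ∈ H, β ^ 2 := by
      rw [Finset.mul_sum, ← Finset.sum_add_distrib, ← Finset.sum_add_distrib]
      exact Finset.sum_congr rfl fun c hc => by rw [x1 c hc]; ring
    rw [bf_univ fun c hc => by rw [x0 c hc, sq, mul_zero], this, hz, Finset.sum_const,
      nsmul_eq_mul]
    ring
  have e4 : ∑ c, ∑ e, x c * B c e * x e =
      ∑ c ∈ H, ∑ e ∈ H, z c * B c e * z e + s * β ^ 2 * H.card := by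
    rw [← bf_shift hS hz, bf_univ fun c hc => Finset.sum_eq_zero fun e _ => by
      rw [x0 c hc, zero_mul, zero_mul]]
    refine Finset.sum_congr rfl fun c hc => ?_
    rw [bf_univ fun e he => by rw [x0 e he, mul_zero]]
    exact Finset.sum_congr rfl fun e he => by rw [x1 c hc, x1 e he]
  have h := hB f x x0 (by rw [ell, e1, hβ])
  rw [Qf, e2, e3, e4, hf] at h
  have h2 := bf_quad hs hS hT hH hz
  have h3 : (∑ c ∈ H, ∑ e ∈ H, z c * B c e * z e + s * β ^ 2 * H.card +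
      m * (∑ c ∈ H, z c ^ 2 + β ^ 2 * H.card)) / (1 - m ^ 2) ≤
      ((1 + m) * ∑ c ∈ H, z c ^ 2 + (s + m) * β ^ 2 * H.card) / (1 - m ^ 2) :=
    div_le_div_of_nonneg_right (by linarith) (by linarith)
  simp only [ne_eq, OfNat.ofNat_ne_zero, not_false_eq_true, zero_pow, mul_zero, zero_div,
    add_zero] at h
  linarith

theorem binv_final (hs : s = 1 ∨ s = -1) (hm0 : 0 ≤ m) (hm : m ^ 2 ≤ 1 / 2) (hM : Mt H π)
    (hS : Str H s B) (hB : BInv u s m H π B) (hT : sT B ≤ 2) (hH : H.Nonempty)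
    {π' : HE n d → HE n d} (hM' : Mt ∅ π') (hag : ∀ c, c ∉ H → π' c = π c)
    (f : Fin n → ℝ) (hf : ∑ v, f v = 0) :
    s * ∑ c, f c.1 * f (π' c).1 ≤ u * ∑ v, f v ^ 2 := by
  have hk : (0 : ℝ) < H.card := by exact_mod_cast hH.card_pos
  have hs2 : s ^ 2 = 1 := by rcases hs with rfl | rfl <;> norm_num
  have hm1 : m < 1 := by nlinarith
  have hmap : ∀ c ∈ H, π' c ∈ H := by
    intro c hc
    by_contra h
    have h1 := hag _ h
    rw [hM'.inv] at h1
    have h2 := hM.inv (π' c)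
    rw [← h1, (hM.alive c).1 hc] at h2
    exact h (h2 ▸ hc)
  have hsw : ∀ g : HE n d → ℝ, ∑ c ∈ H, g (π' c) = ∑ c ∈ H, g c := fun g =>
    Finset.sum_nbij' π' π' hmap hmap (fun c _ => hM'.inv c) (fun c _ => hM'.inv c) fun _ _ => rfl
  have hsplit : ∑ c, f c.1 * f (π' c).1 =
      ∑ c ∈ H, f c.1 * f (π' c).1 + ∑ c ∈ Hᶜ, f c.1 * f (π c).1 := by
    rw [← Finset.sum_add_sum_compl H]
    exact congrArg _ (Finset.sum_congr rfl fun c hc => by rw [hag c (Finset.mem_compl.1 hc)])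
  have a1 := hsw fun c => f c.1
  have a2 := hsw fun c => f c.1 ^ 2
  set G := ∑ c ∈ H, f c.1 with hG
  set S := ∑ c ∈ H, f c.1 ^ 2 with hS'
  set C := ∑ c ∈ H, f c.1 * f (π' c).1 with hC
  set k : ℝ := ((H.card : ℕ) : ℝ) with hk'
  set μ := (1 + s) * G / (2 * k) with hμ
  have sq2 : ∀ t : ℝ, ∑ c ∈ H, (f c.1 + t * f (π' c).1) ^ 2 = S + 2 * t * C + t ^ 2 * S := by
    intro t
    rw [hC, Finset.mul_sum]
    nth_rw 2 [← a2]
    rw [hS', Finset.mul_sum, ← Finset.sum_add_distrib, ← Finset.sum_add_distrib]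
    exact Finset.sum_congr rfl fun c _ => by ring
  have sq1 : ∀ t : ℝ, ∑ c ∈ H, (f c.1 + t * f (π' c).1) = G + t * G := by
    intro t
    rw [Finset.sum_add_distrib, ← Finset.mul_sum, a1]
  set z : HE n d → ℝ := fun c => -(1 - m) * ((f c.1 + s * f (π' c).1) / 2 - μ) with hz
  have z1 : ∑ c ∈ H, z c = 0 := by
    simp only [hz]
    rw [← Finset.mul_sum, Finset.sum_sub_distrib, ← Finset.sum_div, sq1, Finset.sum_const,
      nsmul_eq_mul, ← hk', hμ]
    field_simp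
    ring
  have z2 : ∑ c ∈ H, f c.1 * z c = -(1 - m) * ((S + s * C) / 2 - μ * G) := by
    simp only [hS', hC, hG, Finset.mul_sum, ← Finset.sum_add_distrib, Finset.sum_div,
      ← Finset.sum_sub_distrib]
    exact Finset.sum_congr rfl fun c _ => by simp only [hz]; ring
  have z3 : ∑ c ∈ H, z c ^ 2 =
      (1 - m) ^ 2 * ((S + 2 * s * C + s ^ 2 * S) / 4 - μ * (G + s * G) + μ ^ 2 * k) := by
    have : μ ^ 2 * k = ∑ _c ∈ H, μ ^ 2 := by rw [Finset.sum_const, nsmul_eq_mul, mul_comm]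
    rw [← sq2, ← sq1, this]
    simp only [Finset.mul_sum, ← Finset.sum_add_distrib, Finset.sum_div, ← Finset.sum_sub_distrib]
    exact Finset.sum_congr rfl fun c _ => by simp only [hz]; ring
  have h := bf_key (β := -(s - m) * G / k) hs2 hm hS hB hT hH f hf z1 (by
    rw [← hG, ← hk']
    field_simp
    ring)
  rw [z2, z3, ← hG, ← hS', ← hk'] at h
  rw [hsplit]
  have hm2 : 1 - m ^ 2 ≠ 0 := by nlinarith
  rcases hs with rfl | rfl
  · have h4 : 0 ≤ ∑ c ∈ H, (f c.1 + -1 * f (π' c).1) ^ 2 := Finset.sum_nonneg fun c _ => sq_nonneg _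
    rw [sq2] at h4
    have h5 : -(m * S) + 2 * (-(1 - m) * ((S + 1 * C) / 2 - μ * G) + -(1 - m) * G / k * G) +
        ((1 + m) * ((1 - m) ^ 2 * ((S + 2 * 1 * C + 1 ^ 2 * S) / 4 - μ * (G + 1 * G) + μ ^ 2 * k)) +
          (1 + m) * (-(1 - m) * G / k) ^ 2 * k) / (1 - m ^ 2) = -C - (1 + m) * (S - C) / 2 := by
      rw [hμ]
      field_simp
      ring
    nlinarith [mul_nonneg hm0 h4]
  · have h4 := sq_sum_le_card_mul_sum_sq (s := H) (f := fun c => f c.1 + 1 * f (π' c).1)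
    rw [sq2, sq1, ← hk'] at h4
    have h5 : -(m * S) + 2 * (-(1 - m) * ((S + -1 * C) / 2 - μ * G) + -(-1 - m) * G / k * G) +
        ((1 + m) * ((1 - m) ^ 2 * ((S + 2 * -1 * C + (-1) ^ 2 * S) / 4 - μ * (G + -1 * G) +
          μ ^ 2 * k)) + (-1 + m) * (-(-1 - m) * G / k) ^ 2 * k) / (1 - m ^ 2) =
        C - (1 + m) * ((S + C) / 2 - G ^ 2 / k) := by
      rw [hμ]
      field_simp
      ring
    have h6 : G ^ 2 / k ≤ (S + C) / 2 := by
      rw [div_le_iff₀ hk]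
      linarith
    nlinarith [mul_nonneg (by linarith : 0 ≤ 1 + m) (sub_nonneg.2 h6)]

end Vale.Agent.P049
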