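import Vale.Agent.P049.GDefs
import Mathlib.Tactic

/-! P049: the block invariant is preserved by a step. -/

namespace Vale.Agent.P049

open Finset Matrix

theorem bstep_quad {A B C : ℝ} (h1 : A * C - B ^ 2 ≤ 0) (h2 : A = 0 → B = 0 → C ≤ 0) :
    ∃ l : ℝ, A * l ^ 2 + 2 * B * l + C ≤ 0 := by
  rcases lt_trichotomy A 0 with hA | hA | hA
  · set z := (C - B ^ 2 / A) / (-A) with hz
    refine ⟨-B / A + (|z| + 1), ?_⟩
    have e : A * (-B / A + (|z| + 1)) ^ 2 + 2 * B * (-B / A + (|z| + 1)) + C =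
        (-A) * (z - (|z| + 1) ^ 2) := by
      rw [mul_sub, hz, mul_div_cancel₀ _ (neg_pos.2 hA).ne']
      field_simp [hA.ne]
      ring
    rw [e]
    refine mul_nonpos_of_nonneg_of_nonpos (neg_pos.2 hA).le ?_
    nlinarith [le_abs_self z, abs_nonneg z]
  · by_cases hB : B = 0
    · exact ⟨0, by simpa using h2 hA hB⟩
    · refine ⟨-C / (2 * B), le_of_eq ?_⟩
      rw [hA]
      field_simp
      ring
  · refine ⟨-B / A, ?_⟩
    have e : A * (-B / A) ^ 2 + 2 * B * (-B / A) + C = (A * C - B ^ 2) / A := by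
      field_simp
      ring
    rw [e]
    exact div_nonpos_of_nonpos_of_nonneg h1 hA.le

theorem bstep_line {k1 k2 k3 : ℝ} (hk : k1 * k3 < k2 ^ 2) (w1 w2 s : ℝ) :
    ∃ l : ℝ, k1 * (w1 + l) ^ 2 + 2 * k2 * (w1 + l) * (w2 - s * l) + k3 * (w2 - s * l) ^ 2 ≤ 0 := by
  have e : (k1 - 2 * k2 * s + k3 * s ^ 2) * (k1 * w1 ^ 2 + 2 * k2 * w1 * w2 + k3 * w2 ^ 2) -
      (k1 * w1 + k2 * (w2 - s * w1) - k3 * s * w2) ^ 2 =
      (k1 * k3 - k2 ^ 2) * (w2 + s * w1) ^ 2 := by ring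
  obtain ⟨l, hl⟩ := bstep_quad (A := k1 - 2 * k2 * s + k3 * s ^ 2)
    (B := k1 * w1 + k2 * (w2 - s * w1) - k3 * s * w2)
    (C := k1 * w1 ^ 2 + 2 * k2 * w1 * w2 + k3 * w2 ^ 2)
    (by
      rw [e]
      exact mul_nonpos_of_nonpos_of_nonneg (sub_neg.2 hk).le (sq_nonneg _))
    (by
      intro hA hB
      rw [hA, hB, zero_mul, zero_pow two_ne_zero, sub_zero] at e
      have h0 : w2 + s * w1 = 0 :=
        pow_eq_zero_iff two_ne_zero |>.1 ((mul_eq_zero.1 e.symm).resolve_left (sub_neg.2 hk).ne)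
      have h1 : w2 = -(s * w1) := by linarith
      have h2 : k1 * w1 ^ 2 + 2 * k2 * w1 * w2 + k3 * w2 ^ 2 =
          (k1 - 2 * k2 * s + k3 * s ^ 2) * w1 ^ 2 := by
        rw [h1]
        ring
      rw [h2, hA, zero_mul])
  exact ⟨l, le_of_eq_of_le (by ring) hl⟩

section form

variable {ι : Type} [Fintype ι] {B : Matrix ι ι ℝ}

theorem bstep_form (B : Matrix ι ι ℝ) (x z : ι → ℝ) :
    ∑ c, ∑ e, x c * B c e * z e = x ⬝ᵥ B *ᵥ z := by
  simp only [dotProduct, mulVec, Finset.mul_sum, mul_assoc]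

theorem bstep_comm (hB : B.IsSymm) (x z : ι → ℝ) : x ⬝ᵥ B *ᵥ z = z ⬝ᵥ B *ᵥ x := by
  rw [← bstep_form, ← bstep_form, Finset.sum_comm]
  refine Finset.sum_congr rfl fun c _ => Finset.sum_congr rfl fun e _ => ?_
  rw [hB.apply c e]
  ring

theorem bstep_add (hB : B.IsSymm) (x z : ι → ℝ) :
    (x + z) ⬝ᵥ B *ᵥ (x + z) = x ⬝ᵥ B *ᵥ x + 2 * (x ⬝ᵥ B *ᵥ z) + z ⬝ᵥ B *ᵥ z := by
  rw [mulVec_add, add_dotProduct, dotProduct_add, dotProduct_add, bstep_comm hB z x]
  ring

end form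

variable {n d : ℕ} {u s m : ℝ} {H : Finset (HE n d)} {π : HE n d → HE n d}
  {B : Matrix (HE n d) (HE n d) ℝ}

theorem bstep_lower (hs : s = 1 ∨ s = -1) (hm : m ^ 2 ≤ 1 / 2) (hS : Str H s B)
    (hB : BInv u s m H π B) (hH : 0 < H.card) (f : Fin n → ℝ) (y : HE n d → ℝ)
    (hy : ∀ c, c ∉ H → y c = 0) : ell s m H f y ^ 2 / ((s - m) * H.card) ≤ Qf u s m H π B f y := by
  have hk : (0 : ℝ) < H.card := Nat.cast_pos.2 hH
  have hs2 : s ^ 2 = 1 := by rcases hs with rfl | rfl <;> norm_num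
  have hm1 : 0 < 1 - m ^ 2 := by linarith
  have hsm : s - m ≠ 0 := by
    intro h
    have : s = m := by linarith
    rw [this] at hs2
    linarith
  set β : ℝ := -ell s m H f y / H.card with hβ
  set z : HE n d → ℝ := fun c => if c ∈ H then β else 0 with hz
  have z1 : ∑ c, z c = β * H.card := by
    simp [hz, Finset.sum_ite_mem, mul_comm]
  have z2 : B *ᵥ z = fun c => s * z c := by
    funext c
    have e : ∀ e, B c e * z e = β * B c e := by
      intro e
      by_cases he : e ∈ H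
      · simp [hz, he, mul_comm]
      · rw [← hS.symm.apply c e, hS.supp e c he]
        simp
    simp only [mulVec, dotProduct, e, ← Finset.mul_sum]
    by_cases hc : c ∈ H
    · rw [hS.row c hc]
      simp [hz, hc, mul_comm]
    · simp [hz, hc, hS.supp c _ hc]
  have z3 : ∑ c, y c * z c = β * ∑ c, y c := by
    rw [Finset.mul_sum]
    refine Finset.sum_congr rfl fun c _ => ?_
    by_cases hc : c ∈ H
    · simp [hz, hc, mul_comm]
    · simp [hy c hc]
  have z4 : ∑ c, z c * z c = β * (β * H.card) := by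
    rw [← z1, Finset.mul_sum]
    refine Finset.sum_congr rfl fun c _ => ?_
    by_cases hc : c ∈ H <;> simp [hz, hc]
  have a1 : ∑ c ∈ H, f c.1 * (y + z) c = ∑ c ∈ H, f c.1 * y c + β * ∑ c ∈ H, f c.1 := by
    rw [Finset.mul_sum, ← Finset.sum_add_distrib]
    refine Finset.sum_congr rfl fun c hc => ?_
    simp only [hz, Pi.add_apply, if_pos hc]
    ring
  have a2 : ∑ c, (y + z) c = ∑ c, y c + β * H.card := by
    simp only [Pi.add_apply, Finset.sum_add_distrib, z1]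
  have a3 : ∑ c, (y + z) c ^ 2 = ∑ c, y c ^ 2 + 2 * (β * ∑ c, y c) + β * (β * H.card) := by
    rw [← z3, ← z4, Finset.mul_sum, ← Finset.sum_add_distrib, ← Finset.sum_add_distrib]
    refine Finset.sum_congr rfl fun c _ => ?_
    simp only [Pi.add_apply]
    ring
  have a4 : (y + z) ⬝ᵥ B *ᵥ (y + z) =
      y ⬝ᵥ B *ᵥ y + 2 * (s * (β * ∑ c, y c)) + s * (β * (β * H.card)) := by
    rw [bstep_add hS.symm, z2, ← z3, ← z4]
    simp only [dotProduct, Finset.mul_sum]
    congr 1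
    · congr 1
      exact Finset.sum_congr rfl fun c _ => by ring
    · exact Finset.sum_congr rfl fun c _ => by ring
  have key := hB f (y + z) (fun c hc => by simp [hz, hc, hy c hc]) (by
    unfold ell
    rw [a2, hβ, div_mul_cancel₀ _ hk.ne']
    unfold ell
    ring)
  have e : Qf u s m H π B f (y + z) =
      Qf u s m H π B f y - ell s m H f y ^ 2 / ((s - m) * H.card) := by
    have e1 : 1 - m ^ 2 = (s + m) * (s - m) := by rw [← hs2]; ring
    have hp : s + m ≠ 0 := fun h => hm1.ne' (by rw [e1, h, zero_mul])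
    unfold Qf
    rw [bstep_form, bstep_form, a1, a3, a4, hβ, e1]
    unfold ell
    field_simp
    ring
  rw [e] at key
  linarith

theorem bstep_step (hS : Str H s B) {a b : HE n d} (x : HE n d → ℝ) (hxa : x a = 0)
    (hxb : x b = 0) :
    x ⬝ᵥ step s B a b *ᵥ x = x ⬝ᵥ B *ᵥ x + (B b b * (B *ᵥ x) a ^ 2 + B a a * (B *ᵥ x) b ^ 2 +
      2 * (s - B a b) * ((B *ᵥ x) a * (B *ᵥ x) b)) / rho s B a b := by
  have e : ∀ c e, x c * step s B a b c e * x e = x c * B c e * x e +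
      (B b b * ((B a c * x c) * (B a e * x e)) + B a a * ((B b c * x c) * (B b e * x e)) +
        (s - B a b) * ((B a c * x c) * (B b e * x e)) +
        (s - B a b) * ((B b c * x c) * (B a e * x e))) / rho s B a b := by
    intro c e
    unfold step
    split_ifs with h
    · rcases h with rfl | rfl | rfl | rfl <;> simp [hxa, hxb]
    · rw [hS.symm.apply a c, hS.symm.apply a e, hS.symm.apply b c, hS.symm.apply b e]
      ring
  rw [← bstep_form, ← bstep_form]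
  simp only [e, Finset.sum_add_distrib, ← Finset.sum_div, ← Finset.mul_sum, ← Finset.sum_mul]
  simp only [mulVec, dotProduct]
  ring

theorem bstep_ident (hS : Str H s B) {a b : HE n d} (ha : a ∈ H) (hb : b ∈ H) (hab : a ≠ b)
    (f : Fin n → ℝ) (x : HE n d → ℝ) (hxa : x a = 0) (hxb : x b = 0) (t1 t2 : ℝ) :
    Qf u s m ((H.erase a).erase b) (link π a b) (step s B a b) f x =
      Qf u s m H π B f (x + (Pi.single a t1 + Pi.single b t2)) - 2 * s * (f a.1 * f b.1) +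
        m * (f a.1 ^ 2 + f b.1 ^ 2) - 2 * (f a.1 * t1 + f b.1 * t2) +
        ((B b b * (B *ᵥ x) a ^ 2 + B a a * (B *ᵥ x) b ^ 2 +
          2 * (s - B a b) * ((B *ᵥ x) a * (B *ᵥ x) b)) / rho s B a b -
          2 * (t1 * (B *ᵥ x) a + t2 * (B *ᵥ x) b) -
          (B a a * t1 ^ 2 + 2 * B a b * (t1 * t2) + B b b * t2 ^ 2) - m * (t1 ^ 2 + t2 ^ 2)) /
            (1 - m ^ 2) ∧
    ell s m H f (x + (Pi.single a t1 + Pi.single b t2)) =
      ell s m ((H.erase a).erase b) f x + (s - m) * (f a.1 + f b.1) + t1 + t2 := by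
  have hb' : b ∈ H.erase a := Finset.mem_erase.2 ⟨hab.symm, hb⟩
  have sp : ∀ g : HE n d → ℝ, ∑ c ∈ H, g c = ∑ c ∈ (H.erase a).erase b, g c + g a + g b := by
    intro g
    rw [← Finset.sum_erase_add H g ha, ← Finset.sum_erase_add _ g hb']
    ring
  have hc : ((H.erase a).erase b)ᶜ = insert b (insert a Hᶜ) := by
    rw [Finset.compl_erase, Finset.compl_erase]
  have a1 : ∑ c ∈ ((H.erase a).erase b)ᶜ, f c.1 * f (link π a b c).1 =
      ∑ c ∈ Hᶜ, f c.1 * f (π c).1 + 2 * (f a.1 * f b.1) := by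
    rw [hc, Finset.sum_insert (by simp [hb, hab.symm]), Finset.sum_insert (by simp [ha])]
    have e : ∑ c ∈ Hᶜ, f c.1 * f (link π a b c).1 = ∑ c ∈ Hᶜ, f c.1 * f (π c).1 := by
      refine Finset.sum_congr rfl fun c hc => ?_
      have h0 := Finset.mem_compl.1 hc
      have h1 : c ≠ a := fun h => h0 (h ▸ ha)
      have h2 : c ≠ b := fun h => h0 (h ▸ hb)
      simp [link, h1, h2]
    rw [e]
    simp only [link, if_neg hab.symm, if_true]
    ring
  set z : HE n d → ℝ := Pi.single a t1 + Pi.single b t2 with hz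
  have za : z a = t1 := by simp [hz, hab]
  have zb : z b = t2 := by simp [hz, hab.symm]
  have zc : ∀ c, c ≠ a → c ≠ b → z c = 0 := fun c h1 h2 => by simp [hz, h1, h2]
  have zd : ∀ g : HE n d → ℝ, z ⬝ᵥ g = t1 * g a + t2 * g b := fun g => by
    rw [hz, add_dotProduct, single_dotProduct, single_dotProduct]
  have a2 : ∑ c ∈ H, f c.1 * (x + z) c =
      ∑ c ∈ (H.erase a).erase b, f c.1 * x c + (f a.1 * t1 + f b.1 * t2) := by
    rw [sp]
    simp only [Pi.add_apply, za, zb, hxa, hxb, zero_add]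
    rw [add_assoc]
    congr 1
    refine Finset.sum_congr rfl fun c hc => ?_
    rw [zc c (Finset.mem_erase.1 (Finset.mem_erase.1 hc).2).1 (Finset.mem_erase.1 hc).1, add_zero]
  have a3 : ∑ c, (x + z) c ^ 2 = ∑ c, x c ^ 2 + (t1 ^ 2 + t2 ^ 2) := by
    have e1 := zd x
    have e2 := zd z
    rw [hxa, hxb] at e1
    rw [za, zb] at e2
    have e3 : ∑ c, (x + z) c ^ 2 = ∑ c, x c ^ 2 + 2 * (z ⬝ᵥ x) + z ⬝ᵥ z := by
      simp only [dotProduct, Finset.mul_sum, ← Finset.sum_add_distrib, Pi.add_apply]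
      exact Finset.sum_congr rfl fun c _ => by ring
    rw [e3, e1, e2]
    ring
  have a4 : (x + z) ⬝ᵥ B *ᵥ (x + z) = x ⬝ᵥ B *ᵥ x + 2 * (t1 * (B *ᵥ x) a + t2 * (B *ᵥ x) b) +
      (B a a * t1 ^ 2 + 2 * B a b * (t1 * t2) + B b b * t2 ^ 2) := by
    rw [bstep_add hS.symm, bstep_comm hS.symm x z, zd, zd]
    have e : ∀ c, (B *ᵥ z) c = t1 * B c a + t2 * B c b := fun c => by
      rw [← zd (B c), dotProduct_comm]
      rfl
    rw [e, e, hS.symm.apply a b]
    ring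
  have a5 : ∑ c, (x + z) c = ∑ c, x c + (t1 + t2) := by
    have e := zd fun _ => 1
    simp only [dotProduct, mul_one] at e
    simp only [Pi.add_apply, Finset.sum_add_distrib, e]
  constructor
  · unfold Qf
    rw [bstep_form, bstep_form, a1, a2, a3, a4, bstep_step hS x hxa hxb, sp fun c => f c.1 ^ 2]
    ring
  · unfold ell
    rw [a5, sp fun c => f c.1]
    ring

theorem bstep_S {aa ab bb s p r t1 t2 ρ : ℝ} (hρ : ρ = (s - ab) ^ 2 - aa * bb) (hr : 0 < ρ) :
    aa * t1 ^ 2 + 2 * (ab - s) * (t1 * t2) + bb * t2 ^ 2 + 2 * (t1 * p + t2 * r) -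
      (bb * p ^ 2 + aa * r ^ 2 + 2 * (s - ab) * (p * r)) / ρ =
    aa * (t1 - (bb * p + (s - ab) * r) / ρ) ^ 2 +
      2 * (ab - s) * (t1 - (bb * p + (s - ab) * r) / ρ) * (t2 - ((s - ab) * p + aa * r) / ρ) +
      bb * (t2 - ((s - ab) * p + aa * r) / ρ) ^ 2 := by
  have hne := hr.ne'
  field_simp
  rw [hρ]
  ring

theorem bstep_D {aa ab bb s m p r l g1 g2 W : ℝ} (hs : s = 1 ∨ s = -1) (h1 : 1 + m ≠ 0)
    (h2 : 1 - m ≠ 0) {t1 t2 : ℝ} (ht1 : t1 = l - (s * g2 - m * g1))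
    (ht2 : t2 = -(s * l) - (s * g1 - m * g2)) :
    -(2 * s * (g1 * g2)) + m * (g1 ^ 2 + g2 ^ 2) - 2 * (g1 * t1 + g2 * t2) +
      (W - 2 * (t1 * p + t2 * r) - (aa * t1 ^ 2 + 2 * ab * (t1 * t2) + bb * t2 ^ 2) -
        m * (t1 ^ 2 + t2 ^ 2)) / (1 - m ^ 2) =
    2 * l ^ 2 / (1 + m) + -(aa * t1 ^ 2 + 2 * (ab - s) * (t1 * t2) + bb * t2 ^ 2 +
      2 * (t1 * p + t2 * r) - W) / (1 - m ^ 2) := by
  have e5 : 1 - m ^ 2 = (1 + m) * (1 - m) := by ring
  have e6 : -(2 * s * (g1 * g2)) + m * (g1 ^ 2 + g2 ^ 2) - 2 * (g1 * t1 + g2 * t2) +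
      (-(2 * s * (t1 * t2)) - m * (t1 ^ 2 + t2 ^ 2)) / (1 - m ^ 2) = 2 * l ^ 2 / (1 + m) := by
    rw [e5, ht1, ht2]
    rcases hs with rfl | rfl
    · field_simp
      ring
    · field_simp
      ring
  rw [← e6]
  ring

theorem bstep_k {s m l k : ℝ} (hs : s = 1 ∨ s = -1) (h1 : 0 < 1 + m) (hk : 2 ≤ k) :
    0 ≤ (l * (1 - s)) ^ 2 / ((s - m) * k) + 2 * l ^ 2 / (1 + m) := by
  rcases hs with rfl | rfl
  · rw [sub_self, mul_zero, zero_pow two_ne_zero, zero_div, zero_add]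
    positivity
  · have h2 : (0 : ℝ) < k := by linarith
    have e : (l * (1 - -1)) ^ 2 / ((-1 - m) * k) + 2 * l ^ 2 / (1 + m) =
        2 * l ^ 2 * (k - 2) / ((1 + m) * k) := by
      have h3 : -1 - m = -(1 + m) := by ring
      rw [h3]
      field_simp
      ring
    rw [e]
    exact div_nonneg (mul_nonneg (by positivity) (by linarith)) (by positivity)

theorem binv_step (hs : s = 1 ∨ s = -1) (hm0 : 0 ≤ m) (hm : m ^ 2 ≤ 1 / 2) (hM : Mt H π)
    (hS : Str H s B) (hB : BInv u s m H π B) {a b : HE n d} (ha : a ∈ H) (hb : b ∈ H)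
    (hab : a ≠ b) (hr : 0 < rho s B a b) :
    BInv u s m ((H.erase a).erase b) (link π a b) (step s B a b) := by
  intro f x hx hl
  have hxa : x a = 0 := hx a (by simp)
  have hxb : x b = 0 := hx b (by simp)
  have hk2 : 2 ≤ H.card := Finset.one_lt_card.2 ⟨a, ha, b, hb, hab⟩
  have hk : (2 : ℝ) ≤ H.card := by exact_mod_cast hk2
  have hm1 : 0 < 1 - m ^ 2 := by linarith
  have hm2 : m < 1 := by nlinarith
  have hρ' : rho s B a b = (s - B a b) ^ 2 - B a a * B b b := rfl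
  have hdet : B a a * B b b < (B a b - s) ^ 2 := by
    rw [hρ'] at hr
    have : (B a b - s) ^ 2 = (s - B a b) ^ 2 := by ring
    linarith
  obtain ⟨l, hlam⟩ := bstep_line hdet
    (-(s * f b.1 - m * f a.1) - (B b b * (B *ᵥ x) a + (s - B a b) * (B *ᵥ x) b) / rho s B a b)
    (-(s * f a.1 - m * f b.1) - ((s - B a b) * (B *ᵥ x) a + B a a * (B *ᵥ x) b) / rho s B a b) s
  obtain ⟨t1, ht1⟩ : ∃ t1, t1 = l - (s * f b.1 - m * f a.1) := ⟨_, rfl⟩
  obtain ⟨t2, ht2⟩ : ∃ t2, t2 = -(s * l) - (s * f a.1 - m * f b.1) := ⟨_, rfl⟩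
  obtain ⟨e1, e2⟩ := bstep_ident (u := u) (m := m) (π := π) hS ha hb hab f x hxa hxb t1 t2
  have low := bstep_lower hs hm hS hB (by omega) f (x + (Pi.single a t1 + Pi.single b t2)) (by
    intro c hc
    have h1 : c ≠ a := fun h => hc (h ▸ ha)
    have h2 : c ≠ b := fun h => hc (h ▸ hb)
    have h3 : x c = 0 := hx c fun h => hc (Finset.mem_of_mem_erase (Finset.mem_of_mem_erase h))
    rw [Pi.add_apply, Pi.add_apply, Pi.single_eq_of_ne h1, Pi.single_eq_of_ne h2, h3, add_zero,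
      add_zero])
  have e3 : ell s m H f (x + (Pi.single a t1 + Pi.single b t2)) = l * (1 - s) := by
    rw [e2, hl, ht1, ht2]
    ring
  rw [e3] at low
  generalize (B *ᵥ x) a = p at e1 hlam
  generalize (B *ᵥ x) b = r at e1 hlam
  have f1 : -(s * f b.1 - m * f a.1) - (B b b * p + (s - B a b) * r) / rho s B a b + l =
      t1 - (B b b * p + (s - B a b) * r) / rho s B a b := by rw [ht1]; ring
  have f2 : -(s * f a.1 - m * f b.1) - ((s - B a b) * p + B a a * r) / rho s B a b - s * l =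
      t2 - ((s - B a b) * p + B a a * r) / rho s B a b := by rw [ht2]; ring
  rw [f1, f2, ← bstep_S hρ' hr] at hlam
  have e4 := bstep_D (aa := B a a) (ab := B a b) (bb := B b b) (p := p) (r := r)
    (W := (B b b * p ^ 2 + B a a * r ^ 2 + 2 * (s - B a b) * (p * r)) / rho s B a b) hs
    (by linarith) (by linarith) ht1 ht2
  have h5 := div_nonneg (neg_nonneg.2 hlam) hm1.le
  have h6 := bstep_k (l := l) hs (by linarith : 0 < 1 + m) hk
  rw [e1]
  linarith

end Vale.Agent.P049
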