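import Vale.Agent.P049.AMain

/-! P049: a crude bound on the Frobenius masses along the process (for bit sizes). -/

namespace Vale.Agent.P049

open Finset Matrix

theorem pot_bound : ∃ q0 : ℕ, ∀ q ≥ q0, ∀ (x μ m : ℝ), Glob q x μ m →
    ∀ (ι : Type) [Fintype ι] [DecidableEq ι] (H : Finset ι) (Bp Bm : Matrix ι ι ℝ),
      kEnd q ≤ H.card → H.card ≤ q ^ 6001 →
      Inv H 1 m Bp → Inv H (-1) m Bm → pot q x μ H.card Bp Bm ≤ 1 →
      sT Bp ≤ (q : ℝ) ^ 6003 ∧ sT Bm ≤ (q : ℝ) ^ 6003 := by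
  refine ⟨2 ^ 200, fun q hq x μ m hG ι _ _ H Bp Bm h1 h2 hp hn hpot => ?_⟩
  have hq0 : 0 < q := lt_of_lt_of_le (by norm_num) hq
  have h3 : H.card ≤ q ^ 6003 := h2.trans (Nat.pow_le_pow_right hq0 (by norm_num))
  have h4 : (H.card : ℝ) ≤ (q : ℝ) ^ 6003 := by
    rw [← Nat.cast_pow]; exact Nat.cast_le.2 h3
  have h5 := (pot_T hG (hG.rng hq h1 h2) hp hn hpot).1
  exact ⟨h5.1.trans h4, h5.2.trans h4⟩

end Vale.Agent.P049
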