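import Vale.Agent.P049.Norm1

/-! P049: entrywise and weighted row facts for one side.  Write `y c = (B*B) c c`,
`φ c = y c - ta`, `d c = y c - 1`, `z4 c = ∑ e, (B*B) c e ^ 2 ≤ L^2 y c` (`Qrow_le`).
PLAN.  The standard device is the split `y c ≤ 2` (light) or `y c > 2` (heavy); for heavy `c`:
`1 ≤ φ c`, `y c ≤ 2 φ c`, `0 < d c ≤ φ c` (because `0 ≤ ta ≤ 1`), and `y c ≤ yb`.
`ent_le`: `|B c c| ≤ nu`.  `Z_le`: from `ent`, `B c e ^2 ≤ (21/20)(18/25)^2 + 21 (B c c^2 + B e e^2)/2`,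
multiply by `B c e ^ 2`, sum, use symmetry and `y ≤ yb`.  `Z_le_Y`: `∑ e, B c e ^4 ≤ (y c)^2`.
`S2_le`: Cauchy-Schwarz in `a`.  `S2_le'`: `∑ a, d a B c a^2 = ∑ a, y a B c a ^2 - y c`.
`Gam`: light rows `sqrt 2 * |φ c| * sqrt (z4 c)` and Cauchy-Schwarz with `∑ z4 = M4 ≤ L^4`; heavy rows
`sqrt (y z4) ≤ L y ≤ 2 L φ`. -/

namespace Vale.Agent.P049.An

open Finset Matrix

variable {ι : Type} [Fintype ι] [DecidableEq ι]
variable {P : Par} {s : ℝ} {B : Matrix ι ι ℝ}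

theorem Side.ent_le (hS : Side P s B) (c e : ι) : |B c e| ≤ 1 + P.nu := by
  linarith [hS.ent c e, hS.V_le.sup c, hS.V_le.sup e]

theorem sZ_nonneg (B : Matrix ι ι ℝ) : 0 ≤ sZ B := by
  exact sum_nonneg fun c _ => sum_nonneg fun e _ => by positivity

theorem sS2_nonneg (B : Matrix ι ι ℝ) : 0 ≤ sS2 B := by
  exact sum_nonneg fun c _ => sq_nonneg _

theorem sW_nonneg (τ : ℝ) (B : Matrix ι ι ℝ) : 0 ≤ sW τ B := by
  exact sum_nonneg fun c _ => sq_nonneg _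

theorem Side.Z_le (hS : Side P s B) : sZ B ≤ 55 / 100 * sT B + 21 * P.nu ^ 2 * P.yb := by
  have h1 : ∀ c e, B c e ^ 4 ≤ 55 / 100 * B c e ^ 2 +
      (21 / 2 * (B c c ^ 2 * B c e ^ 2) + 21 / 2 * (B e e ^ 2 * B e c ^ 2)) := fun c e => by
    have h2 := pow_le_pow_left₀ (abs_nonneg _) (hS.ent c e) 2
    have h3 : B c e ^ 2 ≤ 55 / 100 + 21 / 2 * (B c c ^ 2 + B e e ^ 2) := by
      rw [sq_abs] at h2
      rw [← sq_abs (B c c), ← sq_abs (B e e)]
      nlinarith [sq_nonneg (|B c c| - |B e e|), sq_nonneg (18 / 25 - 10 * (|B c c| + |B e e|))]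
    have h4 := mul_le_mul_of_nonneg_right h3 (sq_nonneg (B c e))
    rw [hS.sym e c]
    linarith
  have h5 : ∑ c, ∑ e, B c c ^ 2 * B c e ^ 2 ≤ P.nu ^ 2 * P.yb := by
    refine le_trans (sum_le_sum fun c _ => ?_)
      ((sum_mul _ _ _).symm.trans_le (mul_le_mul_of_nonneg_right hS.V_le.2 hS.Y_le.1))
    rw [← mul_sum, ← hS.y_eq]
    exact mul_le_mul_of_nonneg_left (hS.y_le c) (sq_nonneg _)
  have h6 : sZ B ≤ _ := sum_le_sum fun c _ => sum_le_sum fun e _ => h1 c e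
  simp only [sum_add_distrib, ← mul_sum (a := (55 / 100 : ℝ)), ← mul_sum (a := (21 / 2 : ℝ))] at h6
  rw [sum_comm (f := fun c e => B e e ^ 2 * B e c ^ 2), ← hS.T_eq] at h6
  linarith

theorem Side.z_le (hS : Side P s B) (c : ι) : ∑ e, B c e ^ 4 ≤ (B * B) c c ^ 2 := by
  rw [pow_two]
  nth_rewrite 1 [hS.y_eq]
  rw [sum_mul]
  refine sum_le_sum fun e _ => ?_
  have h1 : B c e ^ 2 ≤ (B * B) c c := by
    rw [hS.y_eq]
    exact single_le_sum (f := fun e => B c e ^ 2) (fun e _ => sq_nonneg _) (mem_univ e)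
  exact (le_of_eq (by ring)).trans (mul_le_mul_of_nonneg_left h1 (sq_nonneg (B c e)))

theorem Side.Z_le_Y (hS : Side P s B) : sZ B ≤ sY B := by
  exact sum_le_sum fun c _ => hS.z_le c

theorem Side.Y_le' (hS : Side P s B) : sY B ≤ P.yb ^ 2 := by
  exact hS.Y_le.2

theorem Side.S2_le (hS : Side P s B) : sS2 B ≤ sZ B * sW 1 B := by
  rw [sZ, sum_mul]
  refine sum_le_sum fun c _ => (sum_mul_sq_le_sq_mul_sq _ _ _).trans_eq ?_
  rw [mul_comm]
  congr 1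
  · exact sum_congr rfl fun a _ => by ring
  · exact sum_congr rfl fun a _ => by rw [R1_diag]

theorem Side.S2_le' (hS : Side P s B) : sS2 B ≤ 2 * P.yb ^ 2 + 2 * P.yb ^ 4 := by
  have h1 : ∀ c, (∑ a, R1 B a a * B c a ^ 2) ^ 2 ≤ (2 + 2 * P.yb ^ 2) * (B * B) c c ^ 2 := by
    intro c
    have e1 : ∑ a, R1 B a a * B c a ^ 2 = ∑ a, (B * B) a a * B c a ^ 2 - (B * B) c c := by
      rw [hS.y_eq c, ← sum_sub_distrib]
      exact sum_congr rfl fun a _ => by rw [R1_diag]; ring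
    have h2 : 0 ≤ ∑ a, (B * B) a a * B c a ^ 2 :=
      sum_nonneg fun a _ => mul_nonneg (hS.y_nonneg a) (sq_nonneg _)
    have h3 : ∑ a, (B * B) a a * B c a ^ 2 ≤ P.yb * (B * B) c c := by
      rw [hS.y_eq c, mul_sum]
      exact sum_le_sum fun a _ => mul_le_mul_of_nonneg_right (hS.y_le a) (sq_nonneg _)
    have h4 := pow_le_pow_left₀ h2 h3 2
    rw [e1]
    nlinarith [sq_nonneg (∑ a, (B * B) a a * B c a ^ 2 + (B * B) c c)]
  have h5 : sS2 B ≤ _ := sum_le_sum fun c _ => h1 c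
  rw [← mul_sum] at h5
  have h6 := mul_le_mul_of_nonneg_left hS.Y_le.2 (by positivity : 0 ≤ 2 + 2 * P.yb ^ 2)
  linarith

theorem sW_one (B : Matrix ι ι ℝ) : sW 1 B = ∑ c, R1 B c c ^ 2 := by
  exact sum_congr rfl fun c _ => by rw [R1_diag]

theorem Side.sW_eq (hS : Side P s B) (τ : ℝ) :
    sW τ B = sY B - 2 * τ * sT B + P.k * τ ^ 2 := by
  rw [hS.T_eq_y, ← hS.card, sY, mul_sum, ← card_univ, ← nsmul_eq_mul, ← sum_const,
    ← sum_sub_distrib, ← sum_add_distrib]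
  exact sum_congr rfl fun c _ => by ring

theorem Side.W1_le (hS : Side P s B) (τ : ℝ) :
    sW 1 B ≤ 21 / 20 * sW τ B + 21 * P.k * (1 - τ) ^ 2 := by
  rw [← hS.card, mul_assoc, ← card_univ, ← nsmul_eq_mul, ← sum_const, sW, sW, mul_sum, mul_sum,
    ← sum_add_distrib]
  exact sum_le_sum fun c _ => by nlinarith [sq_nonneg ((B * B) c c - τ + 20 * (1 - τ))]

theorem Side.W1_le' (hS : Side P s B) : sW 1 B ≤ P.k + sY B := by
  rw [hS.sW_eq]
  linarith [hS.T_nonneg]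

theorem Side.Y_le_W (hS : Side P s B) (τ : ℝ) :
    sY B ≤ (1 + P.th) * sW τ B + (1 + 1 / P.th) * P.k * τ ^ 2 := by
  rw [← hS.card, mul_assoc, ← card_univ, ← nsmul_eq_mul, ← sum_const, sW, sY, mul_sum, mul_sum,
    ← sum_add_distrib]
  refine sum_le_sum fun c _ => ?_
  have t0 := hS.ok.th_pos
  have h1 : 0 ≤ (P.th * ((B * B) c c - τ) - τ) ^ 2 / P.th := by positivity
  have h2 : (P.th * ((B * B) c c - τ) - τ) ^ 2 / P.th =
      (1 + P.th) * ((B * B) c c - τ) ^ 2 + (1 + 1 / P.th) * τ ^ 2 - (B * B) c c ^ 2 := by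
    field_simp
    ring
  linarith

theorem Side.phi_y (hS : Side P s B) :
    ∑ c, |(B * B) c c - P.ta| * (B * B) c c ≤ P.wb * P.yb := by
  refine le_of_eq_of_le (sum_congr rfl fun c _ => ?_) (hS.W_le.sum_abs_mul hS.Y_le)
  rw [abs_of_nonneg (hS.y_nonneg c)]

theorem Side.al_y (hS : Side P s B) : ∑ c, |B c c| * (B * B) c c ≤ P.nu * P.yb := by
  refine le_of_eq_of_le (sum_congr rfl fun c _ => ?_) (hS.V_le.sum_abs_mul hS.Y_le)
  rw [abs_of_nonneg (hS.y_nonneg c)]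

theorem Side.phi_sum (hS : Side P s B) : |sT B - P.k * P.ta| ≤ P.ka * P.wb := by
  rw [hS.T_eq_y, ← hS.card, ← card_univ, ← nsmul_eq_mul, ← sum_const, ← sum_sub_distrib]
  exact (abs_sum_le_sum_abs _ _).trans (V2.sum_abs hS.card hS.ok.ka_pos hS.ok.ka_sq hS.W_le)

private theorem n2_heavy (hS : Side P s B) {c : ι} (h : 2 < (B * B) c c) :
    (B * B) c c ≤ 2 * ((B * B) c c - P.ta) ^ 2 ∧ (B * B) c c ≤ 2 * ((B * B) c c - P.ta) ∧
      |R1 B c c| ≤ (B * B) c c - P.ta := by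
  have h1 := hS.ok.ta_le
  have h2 : (B * B) c c - P.ta ≤ ((B * B) c c - P.ta) ^ 2 :=
    le_self_pow₀ (by linarith) (by norm_num)
  refine ⟨by linarith, by linarith, ?_⟩
  rw [R1_diag, abs_of_pos (by linarith)]
  linarith

private theorem n2_z (hS : Side P s B) : ∑ c, ∑ e, (B * B) c e ^ 2 ≤ P.L ^ 4 :=
  hS.M4_eq ▸ hS.M4_le'

theorem Side.Gam (hS : Side P s B) :
    ∑ c, |(B * B) c c - P.ta| * (√((B * B) c c) * √(∑ e, (B * B) c e ^ 2)) ≤ 2 * P.Ga := by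
  have hL : 0 ≤ P.L := by linarith [hS.ok.L_ge]
  have h1 : ∀ c, |(B * B) c c - P.ta| * (√((B * B) c c) * √(∑ e, (B * B) c e ^ 2)) ≤
      2 * (|(B * B) c c - P.ta| * |√(∑ e, (B * B) c e ^ 2)|) +
        2 * P.L * ((B * B) c c - P.ta) ^ 2 := fun c => by
    have a1 := abs_nonneg ((B * B) c c - P.ta)
    have a2 := Real.sqrt_nonneg (∑ e, (B * B) c e ^ 2)
    rw [abs_of_nonneg a2]
    rcases le_or_gt ((B * B) c c) 2 with h | h
    · have a3 : √((B * B) c c) ≤ 2 := Real.sqrt_le_iff.2 ⟨by norm_num, by linarith⟩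
      have a4 := mul_le_mul_of_nonneg_left (mul_le_mul_of_nonneg_right a3 a2) a1
      have a5 := mul_nonneg hL (sq_nonneg ((B * B) c c - P.ta))
      linarith
    · obtain ⟨-, b2, -⟩ := n2_heavy hS h
      have a3 : √(∑ e, (B * B) c e ^ 2) ≤ P.L * √((B * B) c c) :=
        Real.sqrt_le_iff.2 ⟨mul_nonneg hL (Real.sqrt_nonneg _), by
          rw [mul_pow, Real.sq_sqrt (hS.y_nonneg c)]
          exact hS.Qrow_le c⟩
      have a4 := mul_le_mul_of_nonneg_left a3 (Real.sqrt_nonneg ((B * B) c c))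
      rw [mul_left_comm, Real.mul_self_sqrt (hS.y_nonneg c)] at a4
      have a5 := mul_le_mul_of_nonneg_left (a4.trans (mul_le_mul_of_nonneg_left b2 hL)) a1
      have a6 := mul_nonneg a1 a2
      rw [abs_of_pos (by linarith : 0 < (B * B) c c - P.ta)] at a5 a6 ⊢
      linarith
  have h2 : V2 (fun c => √(∑ e, (B * B) c e ^ 2)) (P.L ^ 2) := ⟨sq_nonneg _, by
    rw [sum_congr rfl fun c _ => Real.sq_sqrt (sum_nonneg fun e _ => sq_nonneg ((B * B) c e))]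
    exact hS.M4_le.2⟩
  have h3 := hS.W_le.sum_abs_mul h2
  have h4 := mul_le_mul_of_nonneg_left hS.W_le.2 hL
  have h5 := sum_le_sum fun c (_ : c ∈ univ) => h1 c
  rw [sum_add_distrib, ← mul_sum, ← mul_sum] at h5
  rw [Par.Ga]
  linarith

theorem Side.Gam2 (hS : Side P s B) :
    ∑ c, (B * B) c c * ∑ e, (B * B) c e ^ 2 ≤ 2 * P.L ^ 4 + 4 * P.L ^ 2 * P.wb ^ 2 := by
  have h1 : ∀ c, (B * B) c c * ∑ e, (B * B) c e ^ 2 ≤
      2 * ∑ e, (B * B) c e ^ 2 + 4 * P.L ^ 2 * ((B * B) c c - P.ta) ^ 2 := fun c => by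
    have a2 : 0 ≤ ∑ e, (B * B) c e ^ 2 := sum_nonneg fun e _ => sq_nonneg _
    rcases le_or_gt ((B * B) c c) 2 with h | h
    · have a4 := mul_le_mul_of_nonneg_right h a2
      have a5 := mul_nonneg (sq_nonneg P.L) (sq_nonneg ((B * B) c c - P.ta))
      linarith
    · obtain ⟨-, b2, -⟩ := n2_heavy hS h
      have a3 := mul_le_mul_of_nonneg_left (hS.Qrow_le c) (hS.y_nonneg c)
      have a4 := mul_le_mul_of_nonneg_left (pow_le_pow_left₀ (hS.y_nonneg c) b2 2) (sq_nonneg P.L)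
      linarith
  have h4 := mul_le_mul_of_nonneg_left hS.W_le.2 (sq_nonneg P.L)
  have h5 := sum_le_sum fun c (_ : c ∈ univ) => h1 c
  rw [sum_add_distrib, ← mul_sum, ← mul_sum] at h5
  linarith [n2_z hS]

theorem Side.yd2 (hS : Side P s B) :
    ∑ c, (B * B) c c * R1 B c c ^ 2 ≤ P.tb ^ 2 + P.wb ^ 2 * P.yb := by
  have h1 : ∀ c, (B * B) c c * R1 B c c ^ 2 ≤
      (B * B) c c + ((B * B) c c - P.ta) ^ 2 * P.yb := fun c => by
    have a1 := hS.y_nonneg c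
    rcases le_or_gt ((B * B) c c) 2 with h | h
    · have a3 : R1 B c c ^ 2 ≤ 1 := by
        rw [R1_diag]
        nlinarith
      have a4 := mul_le_mul_of_nonneg_left a3 a1
      have a5 := mul_nonneg (sq_nonneg ((B * B) c c - P.ta)) hS.Y_le.1
      linarith
    · obtain ⟨-, -, b3⟩ := n2_heavy hS h
      have a3 := pow_le_pow_left₀ (abs_nonneg _) b3 2
      rw [sq_abs] at a3
      have a4 := mul_le_mul (hS.y_le c) a3 (sq_nonneg _) hS.Y_le.1
      linarith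
  have h4 := mul_le_mul_of_nonneg_right hS.W_le.2 hS.Y_le.1
  have h5 := sum_le_sum fun c (_ : c ∈ univ) => h1 c
  rw [sum_add_distrib, ← sum_mul, ← hS.T_eq_y] at h5
  linarith [hS.T_le']

theorem Side.y3 (hS : Side P s B) :
    ∑ c, (B * B) c c ^ 3 ≤ 2 * P.yb ^ 2 + 4 * P.wb ^ 2 * P.yb := by
  have h1 : ∀ c, (B * B) c c ^ 3 ≤
      2 * (B * B) c c ^ 2 + 4 * P.yb * ((B * B) c c - P.ta) ^ 2 := fun c => by
    have a1 := hS.y_nonneg c
    rcases le_or_gt ((B * B) c c) 2 with h | h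
    · have a4 := mul_le_mul_of_nonneg_right h (sq_nonneg ((B * B) c c))
      have a5 := mul_nonneg hS.Y_le.1 (sq_nonneg ((B * B) c c - P.ta))
      linarith
    · obtain ⟨-, b2, -⟩ := n2_heavy hS h
      have a4 := mul_le_mul (hS.y_le c) (pow_le_pow_left₀ a1 b2 2) (sq_nonneg _) hS.Y_le.1
      linarith [sq_nonneg ((B * B) c c)]
  have h4 := mul_le_mul_of_nonneg_left hS.W_le.2 hS.Y_le.1
  have h5 := sum_le_sum fun c (_ : c ∈ univ) => h1 c
  rw [sum_add_distrib, ← mul_sum, ← mul_sum] at h5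
  linarith [hS.Y_le.2]

theorem Side.heavy (hS : Side P s B) {c : ι} (h : 2 < (B * B) c c) :
    (B * B) c c ≤ 2 * ((B * B) c c - P.ta) ^ 2 ∧ (B * B) c c ≤ 2 * ((B * B) c c - P.ta) ∧
      |R1 B c c| ≤ (B * B) c c - P.ta := by
  exact n2_heavy hS h


end Vale.Agent.P049.An
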