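import Vale.Agent.P049.Calc2
import Vale.Agent.P049.Norm2

/-! P049: construction of the weights.  `m` is the indicator of `adm`, `w = m (1 - t)`.
PLAN.  `count_all`: `1 - m a b ≤ [a = b] + [bad a b] + ∑ over both sides of
(r^2/th^2 + (αβ)^2/th^2 + Q^2/L^2 + (α d_b)^2/L^2 + (β d_a)^2/L^2)` (Markov: a violated condition makes the
corresponding quotient `≥ 1`); sum with `FB`, `V_le`, `M4_le`, `D_le`.  `count_row`: the same for a fixed `a`,
with `y_le`, `V2.sup`, `Qrow_le`.  `dev_gen`: for a function `κ` with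
`|κ - 1| ≤ 1.11 (2.01 |r| + |αβ| + 2.01 |r~| + |α~ β~|)` on the support,
`E = w κ - 1 + t = m (1-t)(κ-1) - (1-m)(1-t)`, `E^2 ≤ 2.25 (20 m (r^2 + α^2β^2 + r~^2 + α~^2β~^2) + (1-m))`;
rows: `(wκ - 1)^2 ≤ 2 E^2 + 2 t^2`.  Apply it to `κ = 1, 1/ρ, 1/ρ~, 1/(ρ ρ~)` (`rho_close`, `rho_ge`). -/

namespace Vale.Agent.P049.An

open Finset Matrix

variable {ι : Type} [Fintype ι] [DecidableEq ι]

def adm (P : Par) (B C : Matrix ι ι ℝ) (bad : ι → ι → Prop) (a b : ι) : Prop :=
  ¬ bad a b ∧ GoodPair P B a b ∧ GoodPair P C a b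

open Classical in
noncomputable def msk (P : Par) (B C : Matrix ι ι ℝ) (bad : ι → ι → Prop) (a b : ι) : ℝ :=
  if adm P B C bad a b then 1 else 0

variable {P : Par} {s β dq : ℝ} {B C : Matrix ι ι ℝ} {bad : ι → ι → Prop} [DecidableRel bad]
  {t : ι → ι → ℝ}

omit [DecidableRel bad] in
private theorem bld_good_symm (hB : Side P s B) {a b : ι} (h : GoodPair P B a b) :
    GoodPair P B b a :=
  ⟨h.ne.symm, by rw [hB.sym b a]; exact h.r_le, by rw [mul_comm]; exact h.ab_le,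
    by rw [hB.Q_sym b a]; exact h.Q_le, h.bd_le, h.ad_le⟩

theorem msk_mask (hB : Side P s B) (hC : Side P (-s) C) (hsym : ∀ a b, bad a b → bad b a) :
    Mask (msk P B C bad) := by
  have key : ∀ a b, adm P B C bad a b → adm P B C bad b a := fun a b h =>
    ⟨fun h' => h.1 (hsym _ _ h'), bld_good_symm hB h.2.1, bld_good_symm hC h.2.2⟩
  refine ⟨fun a b => ?_, fun a b => ?_⟩
  · unfold msk
    split_ifs
    exacts [Or.inr rfl, Or.inl rfl]
  · unfold msk
    rw [propext (⟨key a b, key b a⟩ : adm P B C bad a b ↔ adm P B C bad b a)]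

omit [DecidableRel bad] in
theorem msk_adm {a b : ι} (h : msk P B C bad a b ≠ 0) : adm P B C bad a b := by
  by_contra h'
  exact h (if_neg h')

private noncomputable def bsq (B : Matrix ι ι ℝ) (a b : ι) : ℝ := B a b ^ 2 + B a a ^ 2 * B b b ^ 2

private noncomputable def pen (P : Par) (B : Matrix ι ι ℝ) (a b : ι) : ℝ :=
  bsq B a b / P.th ^ 2 + (B * B) a b ^ 2 / P.L ^ 2 +
    (B a a ^ 2 * R1 B b b ^ 2 + R1 B a a ^ 2 * B b b ^ 2) / P.L ^ 2

omit [Fintype ι] [DecidableEq ι] in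
private theorem bsq_nonneg (B : Matrix ι ι ℝ) (a b : ι) : 0 ≤ bsq B a b := by
  unfold bsq
  positivity

private theorem pen_nonneg (P : Par) (B : Matrix ι ι ℝ) (a b : ι) : 0 ≤ pen P B a b := by
  have := bsq_nonneg B a b
  unfold pen
  positivity

private theorem bld_markov {x c y : ℝ} (hc : 0 < c) (h : ¬ |x| ≤ c) (hy : x ^ 2 ≤ y) :
    1 ≤ y / c ^ 2 := by
  rw [le_div_iff₀ (by positivity), one_mul]
  refine le_trans ?_ hy
  rw [← sq_abs x]
  exact pow_le_pow_left₀ hc.le (not_le.1 h).le 2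

private theorem pen_ge (hB : Side P s B) {a b : ι} (hab : a ≠ b) (h : ¬ GoodPair P B a b) :
    1 ≤ pen P B a b := by
  have t0 := hB.ok.th_pos
  have l0 : 0 < P.L := lt_of_lt_of_le one_pos hB.ok.L_ge
  have p1 : 0 ≤ bsq B a b / P.th ^ 2 := div_nonneg (bsq_nonneg B a b) (sq_nonneg _)
  have p2 : 0 ≤ (B * B) a b ^ 2 / P.L ^ 2 := by positivity
  have p3 : 0 ≤ (B a a ^ 2 * R1 B b b ^ 2 + R1 B a a ^ 2 * B b b ^ 2) / P.L ^ 2 := by positivity
  by_contra hc
  unfold pen at hc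
  refine h ⟨hab, ?_, ?_, ?_, ?_, ?_⟩ <;> by_contra h1
  · have := bld_markov t0 h1 (y := bsq B a b) (le_add_of_nonneg_right (by positivity))
    exact hc (by linarith)
  · have := bld_markov t0 h1 (y := bsq B a b)
      (by rw [mul_pow]; exact le_add_of_nonneg_left (sq_nonneg _))
    exact hc (by linarith)
  · have := bld_markov l0 h1 le_rfl
    exact hc (by linarith)
  · have := bld_markov l0 h1 (y := B a a ^ 2 * R1 B b b ^ 2 + R1 B a a ^ 2 * B b b ^ 2)
      (by rw [mul_pow]; exact le_add_of_nonneg_right (by positivity))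
    exact hc (by linarith)
  · have := bld_markov l0 h1 (y := B a a ^ 2 * R1 B b b ^ 2 + R1 B a a ^ 2 * B b b ^ 2)
      (by rw [mul_pow, mul_comm]; exact le_add_of_nonneg_left (by positivity))
    exact hc (by linarith)

private theorem bld_pt (hB : Side P s B) (hC : Side P (-s) C) (a b : ι) :
    1 - msk P B C bad a b ≤ (if bad a b then 1 else 0) + (if a = b then 1 else 0) +
      (pen P B a b + pen P C a b) := by
  have p1 := pen_nonneg P B a b
  have p2 := pen_nonneg P C a b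
  have p3 : (0 : ℝ) ≤ if bad a b then 1 else 0 := by split_ifs <;> norm_num
  have p4 : (0 : ℝ) ≤ if a = b then 1 else 0 := by split_ifs <;> norm_num
  by_cases h : adm P B C bad a b
  · have : msk P B C bad a b = 1 := if_pos h
    linarith
  have e : msk P B C bad a b = 0 := if_neg h
  by_cases h1 : bad a b
  · rw [if_pos h1]
    linarith
  by_cases h2 : a = b
  · rw [if_pos h2]
    linarith
  by_cases h3 : GoodPair P B a b
  · have := pen_ge hC h2 fun h4 => h ⟨h1, h3, h4⟩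
    linarith
  · have := pen_ge hB h2 h3
    linarith

private theorem bld_row (hB : Side P s B) (hC : Side P (-s) C)
    (hdeg : ∀ a, ((univ.filter (bad a)).card : ℝ) ≤ dq) (a : ι) :
    ∑ b, (1 - msk P B C bad a b) ≤ dq + 1 + (∑ b, pen P B a b + ∑ b, pen P C a b) := by
  refine (sum_le_sum fun b _ => bld_pt hB hC a b).trans ?_
  have := hdeg a
  rw [sum_add_distrib, sum_add_distrib, sum_add_distrib, sum_boole, sum_ite_eq, if_pos (mem_univ a)]
  linarith

omit [DecidableEq ι] in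
private theorem bld_rank {p q : ι → ℝ} {c d : ℝ} (hp : V2 p c) (hq : V2 q d) :
    ∑ a, ∑ b, p a ^ 2 * q b ^ 2 ≤ c ^ 2 * d ^ 2 := by
  rw [← sum_mul_sum]
  exact mul_le_mul hp.2 hq.2 (sum_nonneg fun _ _ => sq_nonneg _) (sq_nonneg _)

omit [DecidableEq ι] in
private theorem bld_rank1 {p q : ι → ℝ} {c d : ℝ} (hp : V2 p c) (hq : V2 q d) (a : ι) :
    ∑ b, p a ^ 2 * q b ^ 2 ≤ c ^ 2 * d ^ 2 :=
  (single_le_sum (f := fun a => ∑ b, p a ^ 2 * q b ^ 2)
    (fun _ _ => sum_nonneg fun _ _ => by positivity) (mem_univ a)).trans (bld_rank hp hq)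

private theorem bsq_all (hB : Side P s B) : ∑ a, ∑ b, bsq B a b ≤ P.k + P.nu ^ 4 := by
  have h1 := hB.FB.2
  have h2 := bld_rank hB.V_le hB.V_le
  rw [hB.ok.ka_sq] at h1
  simp only [bsq, sum_add_distrib]
  linarith

private theorem bsq_row (hB : Side P s B) (a : ι) : ∑ b, bsq B a b ≤ P.yb + P.nu ^ 4 := by
  have h1 := hB.y_le a
  have h2 := bld_rank1 hB.V_le hB.V_le a
  rw [hB.y_eq] at h1
  simp only [bsq, sum_add_distrib]
  linarith

private theorem pen_all (hB : Side P s B) : ∑ a, ∑ b, pen P B a b ≤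
    (P.k + P.nu ^ 4) / P.th ^ 2 + P.L ^ 2 + 2 * (P.nu ^ 2 * P.up ^ 2 / P.L ^ 2) := by
  have l0 : 0 < P.L := lt_of_lt_of_le one_pos hB.ok.L_ge
  have h1 := div_le_div_of_nonneg_right (bsq_all hB) (sq_nonneg P.th)
  have h2 : (∑ a, ∑ b, (B * B) a b ^ 2) / P.L ^ 2 ≤ P.L ^ 2 := by
    rw [div_le_iff₀ (by positivity), ← sq (P.L ^ 2)]
    exact hB.M4_le.2
  have h3 := div_le_div_of_nonneg_right (bld_rank hB.V_le hB.D_le) (sq_nonneg P.L)
  have h4 := div_le_div_of_nonneg_right (bld_rank hB.D_le hB.V_le) (sq_nonneg P.L)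
  rw [mul_comm] at h4
  simp only [pen, add_div, sum_add_distrib, ← sum_div] at h1 ⊢
  linarith

private theorem pen_row (hB : Side P s B) (a : ι) : ∑ b, pen P B a b ≤
    (P.yb + P.nu ^ 4) / P.th ^ 2 + P.yb + 2 * (P.nu ^ 2 * P.up ^ 2 / P.L ^ 2) := by
  have l0 : 0 < P.L := lt_of_lt_of_le one_pos hB.ok.L_ge
  have h1 := div_le_div_of_nonneg_right (bsq_row hB a) (sq_nonneg P.th)
  have h2 : (∑ b, (B * B) a b ^ 2) / P.L ^ 2 ≤ P.yb := by
    rw [div_le_iff₀ (by positivity), mul_comm]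
    exact (hB.Qrow_le a).trans (mul_le_mul_of_nonneg_left (hB.y_le a) (sq_nonneg _))
  have h3 := div_le_div_of_nonneg_right (bld_rank1 hB.V_le hB.D_le a) (sq_nonneg P.L)
  have h4 := div_le_div_of_nonneg_right (bld_rank1 hB.D_le hB.V_le a) (sq_nonneg P.L)
  rw [mul_comm (P.up ^ 2)] at h4
  simp only [pen, add_div, sum_add_distrib, ← sum_div] at h1 ⊢
  linarith

theorem count_all (hB : Side P s B) (hC : Side P (-s) C)
    (hdeg : ∀ a, ((univ.filter (bad a)).card : ℝ) ≤ dq) :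
    ∑ a, ∑ b, (1 - msk P B C bad a b) ≤ P.k * (dq + 1)
      + 2 * ((P.k + P.nu ^ 4) / P.th ^ 2 + P.L ^ 2 + 2 * (P.nu ^ 2 * P.up ^ 2 / P.L ^ 2)) := by
  refine (sum_le_sum fun a _ => bld_row hB hC hdeg a).trans ?_
  have h1 := pen_all hB
  have h2 := pen_all hC
  rw [sum_add_distrib, sum_add_distrib (f := fun a => ∑ b, pen P B a b), sum_const, card_univ,
    nsmul_eq_mul, hB.card]
  linarith

theorem count_row (hB : Side P s B) (hC : Side P (-s) C)
    (hdeg : ∀ a, ((univ.filter (bad a)).card : ℝ) ≤ dq) (a : ι) :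
    ∑ b, (1 - msk P B C bad a b) ≤ dq + 1
      + 2 * ((P.yb + P.nu ^ 4) / P.th ^ 2 + P.yb + 2 * (P.nu ^ 2 * P.up ^ 2 / P.L ^ 2)) := by
  have h0 := bld_row hB hC hdeg a
  have h1 := pen_row hB a
  have h2 := pen_row hC a
  linarith

omit [DecidableRel bad] in
private theorem dev_pt (hB : Side P s B) (t_le : ∀ a b, |t a b| ≤ P.wbar - 1) {κ : ι → ι → ℝ}
    (hκ : ∀ a b, adm P B C bad a b → (κ a b - 1) ^ 2 ≤ 20 * (bsq B a b + bsq C a b)) (a b : ι) :
    (msk P B C bad a b * (1 - t a b) * κ a b - 1 + t a b) ^ 2 ≤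
      45 * bsq B a b + 45 * bsq C a b + 9 / 4 * (1 - msk P B C bad a b) := by
  have h0 := abs_le.1 ((t_le a b).trans (show P.wbar - 1 ≤ 1 / 2 by linarith [hB.ok.wbar_le]))
  have h1 : (1 - t a b) ^ 2 ≤ 9 / 4 := by nlinarith [h0.1, h0.2]
  have p1 := bsq_nonneg B a b
  have p2 := bsq_nonneg C a b
  by_cases h : adm P B C bad a b
  · have e : msk P B C bad a b = 1 := if_pos h
    have e2 : (msk P B C bad a b * (1 - t a b) * κ a b - 1 + t a b) ^ 2 =
        (1 - t a b) ^ 2 * (κ a b - 1) ^ 2 := by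
      rw [e]
      ring
    have h2 := mul_le_mul h1 (hκ a b h) (sq_nonneg _) (by norm_num)
    rw [e2, e]
    linarith
  · have e : msk P B C bad a b = 0 := if_neg h
    have e2 : (msk P B C bad a b * (1 - t a b) * κ a b - 1 + t a b) ^ 2 = (1 - t a b) ^ 2 := by
      rw [e]
      ring
    rw [e2, e]
    linarith

private theorem bld_th (hB : Side P s B) {x : ℝ} (hx : 0 ≤ x) : 100 * x ≤ x / P.th ^ 2 := by
  have t0 := hB.ok.th_pos
  have t1 := hB.ok.th_le
  rw [le_div_iff₀ (by positivity)]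
  have : P.th ^ 2 ≤ 1 / 100 := by nlinarith
  nlinarith [mul_le_mul_of_nonneg_left this hx]

private theorem dev_gen (hB : Side P s B) (hC : Side P (-s) C)
    (hdeg : ∀ a, ((univ.filter (bad a)).card : ℝ) ≤ dq) (t_le : ∀ a b, |t a b| ≤ P.wbar - 1)
    (trow : ∀ a, V2 (fun b => t a b) (3 * β))
    (hvp : 100 * (P.k * (dq + 1) + (P.k + P.nu ^ 4) / P.th ^ 2 + P.L ^ 2
      + P.nu ^ 2 * P.up ^ 2 / P.L ^ 2) ≤ P.vp ^ 2)
    (hvs : 100 * (dq + 1 + (P.yb + P.nu ^ 4) / P.th ^ 2 + P.nu ^ 2 * P.up ^ 2 / P.L ^ 2 + β ^ 2)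
      ≤ P.vs ^ 2) {κ : ι → ι → ℝ}
    (hκ : ∀ a b, adm P B C bad a b → (κ a b - 1) ^ 2 ≤ 20 * (bsq B a b + bsq C a b)) :
    F2 (fun a b => msk P B C bad a b * (1 - t a b) * κ a b - 1 + t a b) P.vp ∧
      ∀ a, V2 (fun b => msk P B C bad a b * (1 - t a b) * κ a b - 1) P.vs := by
  have hk := hB.ok.k_ge
  have hne : Nonempty ι := by
    rw [← Fintype.card_pos_iff, ← Nat.cast_pos (α := ℝ), hB.card]
    linarith
  have hdq : 0 ≤ dq := (Nat.cast_nonneg _).trans (hdeg (Classical.arbitrary ι))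
  have hZ : 0 ≤ P.nu ^ 2 * P.up ^ 2 / P.L ^ 2 := by positivity
  have hn : 0 ≤ P.nu ^ 4 := by positivity
  refine ⟨⟨by linarith [hB.ok.tb_ge, hB.ok.tb_vp], ?_⟩, fun a => ⟨hB.ok.vs_ge, ?_⟩⟩
  · refine (sum_le_sum fun a _ => sum_le_sum fun b _ => dev_pt hB t_le hκ a b).trans ?_
    have h1 := bsq_all hB
    have h2 := bsq_all hC
    have h3 := count_all hB hC hdeg
    have h4 := bld_th hB (x := P.k + P.nu ^ 4) (by linarith)
    have h5 : 0 ≤ P.k * (dq + 1) := by positivity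
    have h6 := sq_nonneg P.L
    simp only [sum_add_distrib, ← mul_sum]
    linarith
  · have e : ∀ b, (msk P B C bad a b * (1 - t a b) * κ a b - 1) ^ 2 ≤
        2 * (45 * bsq B a b + 45 * bsq C a b + 9 / 4 * (1 - msk P B C bad a b)) + 2 * t a b ^ 2 := by
      intro b
      have := dev_pt hB t_le hκ a b
      nlinarith [sq_nonneg (msk P B C bad a b * (1 - t a b) * κ a b - 1 + 2 * t a b)]
    refine (sum_le_sum fun b _ => e b).trans ?_
    have h1 := bsq_row hB a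
    have h2 := bsq_row hC a
    have h3 := count_row hB hC hdeg a
    have hy := hB.Y_le.1
    have h4 := bld_th hB (x := P.yb + P.nu ^ 4) (by linarith)
    have h5 := (trow a).2
    have h6 := sq_nonneg β
    have h7 : (3 * β) ^ 2 = 9 * β ^ 2 := by ring
    simp only [sum_add_distrib, ← mul_sum]
    linarith

private theorem inv_close (hB : Side P s B) {a b : ι} (h : GoodPair P B a b) :
    (1 / rho s B a b - 1) ^ 2 ≤ 6 * bsq B a b ∧ (1 / rho s B a b) ^ 2 ≤ 11 / 10 := by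
  have h1 := h.rho_close hB
  have h2 := h.rho_ge hB
  have h0 : 0 < rho s B a b := by linarith
  have h3 : (1 / rho s B a b) ^ 2 ≤ 11 / 10 := by
    rw [div_pow, div_le_iff₀ (by positivity)]
    nlinarith
  have h4 : (rho s B a b - 1) ^ 2 ≤ 51 / 10 * bsq B a b := by
    have h5 := pow_le_pow_left₀ (abs_nonneg _) h1 2
    have e : bsq B a b = |B a b| ^ 2 + |B a a * B b b| ^ 2 := by
      rw [sq_abs, sq_abs, mul_pow]
      rfl
    rw [sq_abs] at h5
    rw [e]
    nlinarith [sq_nonneg (|B a b| - 201 / 100 * |B a a * B b b|), sq_nonneg |B a b|,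
      sq_nonneg |B a a * B b b|]
  refine ⟨?_, h3⟩
  have e : (1 / rho s B a b - 1) ^ 2 = (1 / rho s B a b) ^ 2 * (rho s B a b - 1) ^ 2 := by
    field_simp
    ring
  have h6 := mul_le_mul h3 h4 (sq_nonneg _) (by norm_num)
  have := bsq_nonneg B a b
  rw [e]
  linarith

/-- the weights satisfy all requirements, for both sides -/
theorem build (hB : Side P s B) (hC : Side P (-s) C) (hsym : ∀ a b, bad a b → bad b a)
    (hdeg : ∀ a, ((univ.filter (bad a)).card : ℝ) ≤ dq)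
    (tsymm : ∀ a b, t a b = t b a) (t_le : ∀ a b, |t a b| ≤ P.wbar - 1)
    (tbil : ∀ (p q : ι → ℝ) (cp cq : ℝ), V2 p cp → V2 q cq →
      |∑ a, ∑ b, t a b * (p a * q b)| ≤ P.xi * cp * cq)
    (trow : ∀ a, V2 (fun b => t a b) (3 * β))
    (tB : F2 (fun a c => ∑ b, t a b * B b c) P.xi2)
    (tC : F2 (fun a c => ∑ b, t a b * C b c) P.xi2)
    (hvp : 100 * (P.k * (dq + 1) + (P.k + P.nu ^ 4) / P.th ^ 2 + P.L ^ 2
      + P.nu ^ 2 * P.up ^ 2 / P.L ^ 2) ≤ P.vp ^ 2)
    (hvs : 100 * (dq + 1 + (P.yb + P.nu ^ 4) / P.th ^ 2 + P.nu ^ 2 * P.up ^ 2 / P.L ^ 2 + β ^ 2)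
      ≤ P.vs ^ 2) :
    Wt P s B (msk P B C bad) (fun a b => msk P B C bad a b * (1 - t a b)) t ∧
    Wt P (-s) C (msk P B C bad) (fun a b => msk P B C bad a b * (1 - t a b)) t ∧
    F2 (fun a b => msk P B C bad a b * (1 - t a b) / (rho s B a b * rho (-s) C a b) - 1 + t a b)
      P.vp := by
  have d0 := dev_gen hB hC hdeg t_le trow hvp hvs (κ := fun _ _ => 1) fun a b _ => by
    have := bsq_nonneg B a b
    have := bsq_nonneg C a b
    simp only [sub_self]
    nlinarith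
  have d1 := dev_gen hB hC hdeg t_le trow hvp hvs (κ := fun a b => 1 / rho s B a b) fun a b h => by
    have := bsq_nonneg B a b
    have := bsq_nonneg C a b
    have := (inv_close hB h.2.1).1
    linarith
  have d2 := dev_gen hB hC hdeg t_le trow hvp hvs (κ := fun a b => 1 / rho (-s) C a b)
    fun a b h => by
      have := bsq_nonneg B a b
      have := bsq_nonneg C a b
      have := (inv_close hC h.2.2).1
      linarith
  have d3 := dev_gen hB hC hdeg t_le trow hvp hvs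
    (κ := fun a b => 1 / (rho s B a b * rho (-s) C a b)) fun a b h => by
      have p1 := bsq_nonneg B a b
      have p2 := bsq_nonneg C a b
      have h1 := (inv_close hB h.2.1).1
      obtain ⟨h2, h3⟩ := inv_close hC h.2.2
      rw [← one_div_mul_one_div]
      generalize 1 / rho s B a b = x at h1 ⊢
      generalize 1 / rho (-s) C a b = y at h2 h3 ⊢
      have h4 := mul_le_mul h3 h1 (sq_nonneg _) (by norm_num)
      nlinarith [sq_nonneg (y * (x - 1) - (y - 1))]
  simp only [mul_one, mul_one_div] at d0 d1 d2 d3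
  have hm := msk_mask hB hC hsym
  exact ⟨⟨hm, fun a b h => (msk_adm h).2.1, fun _ _ => rfl, tsymm, t_le, tbil, tB, d0.1, d1.1,
      d0.2, d1.2⟩,
    ⟨hm, fun a b h => (msk_adm h).2.2, fun _ _ => rfl, tsymm, t_le, tbil, tC, d0.1, d2.1,
      d0.2, d2.2⟩, d3.1⟩

end Vale.Agent.P049.An
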