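import Vale.Agent.P049.Ctx

/-! P049: calculus of l1 / l2 / sup bounds.  PLAN: everything is Cauchy-Schwarz
(`Finset.sum_mul_sq_le_sq_mul_sq`, or `Finset.inner_mul_le_norm_mul_norm`), `abs_le_of_sq_le`,
`pow_le_pow_left₀`.  Prove V2.dot first (for an arbitrary Fintype), get V2.add from it
(`(p+q)^2 = p^2 + 2pq + q^2`), and obtain F2 / H2 statements by viewing `f` as a vector on
`ι × ι` (`Fintype.sum_prod_type`): `F2 M c ↔ V2 (fun z : ι × ι => M z.1 z.2) c` and, for a 0-1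
mask, `H2 m f c ↔ F2 (fun a b => m a b * f a b) c`. -/

namespace Vale.Agent.P049.An

open Finset Matrix

variable {ι : Type} [Fintype ι]
variable {p q g : ι → ℝ} {M N m f h : ι → ι → ℝ} {c d e k ka : ℝ}

theorem V2.mono (h1 : V2 p c) (h2 : c ≤ d) : V2 p d :=
  ⟨h1.1.trans h2, h1.2.trans (pow_le_pow_left₀ h1.1 h2 2)⟩
theorem V2.dot (h1 : V2 p c) (h2 : V2 q d) : |∑ a, p a * q a| ≤ c * d := by
  refine abs_le_of_sq_le_sq' ?_ (mul_nonneg h1.1 h2.1) |> abs_le.2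
  rw [mul_pow]
  exact (Finset.sum_mul_sq_le_sq_mul_sq univ p q).trans
    (mul_le_mul h1.2 h2.2 (sum_nonneg fun _ _ => sq_nonneg _) (sq_nonneg c))
theorem V2.sum_abs_mul (h1 : V2 p c) (h2 : V2 q d) : ∑ a, |p a| * |q a| ≤ c * d := by
  refine (le_abs_self _).trans (V2.dot (p := fun a => |p a|) (q := fun a => |q a|) ⟨h1.1, ?_⟩
    ⟨h2.1, ?_⟩)
  · simpa only [sq_abs] using h1.2
  · simpa only [sq_abs] using h2.2
theorem V2.add (h1 : V2 p c) (h2 : V2 q d) : V2 (fun a => p a + q a) (c + d) := by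
  refine ⟨add_nonneg h1.1 h2.1, ?_⟩
  have e : ∑ a, (p a + q a) ^ 2 = ∑ a, p a ^ 2 + 2 * ∑ a, p a * q a + ∑ a, q a ^ 2 := by
    rw [mul_sum, ← sum_add_distrib, ← sum_add_distrib]
    exact sum_congr rfl fun a _ => by ring
  have h3 := (abs_le.1 (h1.dot h2)).2
  have h4 := h1.2
  have h5 := h2.2
  rw [e, add_sq, mul_assoc]
  linarith
theorem V2.sub (h1 : V2 p c) (h2 : V2 q d) : V2 (fun a => p a - q a) (c + d) := by
  have h3 : V2 (fun a => -q a) d := ⟨h2.1, by simpa only [neg_sq] using h2.2⟩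
  simpa only [sub_eq_add_neg] using h1.add h3
theorem V2.of_abs_le (h1 : V2 p c) (h2 : ∀ a, |q a| ≤ |p a|) : V2 q c :=
  ⟨h1.1, (sum_le_sum fun a _ => sq_le_sq.2 (h2 a)).trans h1.2⟩
theorem V2.abs (h1 : V2 p c) : V2 (fun a => |p a|) c :=
  h1.of_abs_le fun a => (abs_abs (p a)).le
theorem V2.const_mul (h1 : V2 p c) (e : ℝ) : V2 (fun a => e * p a) (|e| * c) := by
  refine ⟨mul_nonneg (abs_nonneg e) h1.1, ?_⟩
  simp only [mul_pow, sq_abs]
  rw [← mul_sum]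
  exact mul_le_mul_of_nonneg_left h1.2 (sq_nonneg e)
theorem V2.mul_sup (h1 : V2 p c) (hd : 0 ≤ d) (h2 : ∀ a, |g a| ≤ d) :
    V2 (fun a => g a * p a) (d * c) := by
  have h3 := h1.const_mul d
  rw [abs_of_nonneg hd] at h3
  refine h3.of_abs_le fun a => ?_
  rw [abs_mul, abs_mul, abs_of_nonneg hd]
  exact mul_le_mul_of_nonneg_right (h2 a) (abs_nonneg _)
theorem V2.sup (h1 : V2 p c) (a : ι) : |p a| ≤ c :=
  abs_le.2 (abs_le_of_sq_le_sq'
    ((single_le_sum (f := fun a => p a ^ 2) (fun _ _ => sq_nonneg _) (mem_univ a)).trans h1.2)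
    h1.1)
theorem V2.mul (h1 : V2 p c) (h2 : V2 q d) : V2 (fun a => p a * q a) (c * d) :=
  h2.mul_sup h1.1 h1.sup
theorem V2.one (hk : (Fintype.card ι : ℝ) = k) (h0 : 0 ≤ ka) (h2 : ka ^ 2 = k) :
    V2 (fun _ : ι => (1 : ℝ)) ka :=
  ⟨h0, by simp [h2, hk]⟩
theorem V2.sum_abs (hk : (Fintype.card ι : ℝ) = k) (h0 : 0 ≤ ka) (h2 : ka ^ 2 = k) (h1 : V2 p c) :
    ∑ a, |p a| ≤ ka * c := by
  simpa using (V2.one hk h0 h2).sum_abs_mul h1
theorem V2.sqrt (p : ι → ℝ) : V2 p (√(∑ a, p a ^ 2)) :=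
  ⟨Real.sqrt_nonneg _, (Real.sq_sqrt (sum_nonneg fun _ _ => sq_nonneg _)).ge⟩

private theorem F2_iff : F2 M c ↔ V2 (fun z : ι × ι => M z.1 z.2) c := by
  simp only [F2, V2, Fintype.sum_prod_type]
theorem F2.mono (h1 : F2 M c) (h2 : c ≤ d) : F2 M d :=
  ⟨h1.1.trans h2, h1.2.trans (pow_le_pow_left₀ h1.1 h2 2)⟩
theorem F2.dot (h1 : F2 M c) (h2 : F2 N d) : |∑ a, ∑ b, M a b * N a b| ≤ c * d := by
  simpa only [Fintype.sum_prod_type] using (F2_iff.1 h1).dot (F2_iff.1 h2)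
theorem F2.sum_abs_mul (h1 : F2 M c) (h2 : F2 N d) :
    ∑ a, ∑ b, |M a b| * |N a b| ≤ c * d := by
  simpa only [Fintype.sum_prod_type] using (F2_iff.1 h1).sum_abs_mul (F2_iff.1 h2)
theorem F2.add (h1 : F2 M c) (h2 : F2 N d) : F2 (fun a b => M a b + N a b) (c + d) :=
  F2_iff.2 ((F2_iff.1 h1).add (F2_iff.1 h2))
theorem F2.sub (h1 : F2 M c) (h2 : F2 N d) : F2 (fun a b => M a b - N a b) (c + d) :=
  F2_iff.2 ((F2_iff.1 h1).sub (F2_iff.1 h2))
theorem F2.of_abs_le (h1 : F2 M c) (h2 : ∀ a b, |N a b| ≤ |M a b|) : F2 N c :=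
  F2_iff.2 ((F2_iff.1 h1).of_abs_le fun z => h2 z.1 z.2)
theorem F2.const_mul (h1 : F2 M c) (e : ℝ) : F2 (fun a b => e * M a b) (|e| * c) :=
  F2_iff.2 ((F2_iff.1 h1).const_mul e)
theorem F2.swap (h1 : F2 M c) : F2 (fun a b => M b a) c :=
  ⟨h1.1, by rw [sum_comm]; exact h1.2⟩
theorem F2.rank (h1 : V2 p c) (h2 : V2 q d) : F2 (fun a b => p a * q b) (c * d) := by
  refine ⟨mul_nonneg h1.1 h2.1, ?_⟩
  simp only [mul_pow]
  rw [← sum_mul_sum]
  exact mul_le_mul h1.2 h2.2 (sum_nonneg fun _ _ => sq_nonneg _) (sq_nonneg c)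
theorem F2.row (h1 : F2 M c) (a : ι) : V2 (fun b => M a b) c :=
  ⟨h1.1, (single_le_sum (f := fun a => ∑ b, M a b ^ 2)
    (fun _ _ => sum_nonneg fun _ _ => sq_nonneg _) (mem_univ a)).trans h1.2⟩
theorem F2.col (h1 : F2 M c) (b : ι) : V2 (fun a => M a b) c :=
  h1.swap.row b
theorem F2.diag (h1 : F2 M c) : V2 (fun a => M a a) c :=
  ⟨h1.1, (sum_le_sum fun a _ => single_le_sum (f := fun b => M a b ^ 2)
    (fun _ _ => sq_nonneg _) (mem_univ a)).trans h1.2⟩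
theorem F2.sup (h1 : F2 M c) (a b : ι) : |M a b| ≤ c :=
  (h1.row a).sup b
theorem F2.bil (h0 : F2 M e) (h1 : V2 p c) (h2 : V2 q d) :
    |∑ a, ∑ b, M a b * (p a * q b)| ≤ e * c * d := by
  rw [mul_assoc]; exact h0.dot (F2.rank h1 h2)
theorem F2.bil_abs (h0 : F2 M e) (h1 : V2 p c) (h2 : V2 q d) :
    ∑ a, ∑ b, |M a b| * (|p a| * |q b|) ≤ e * c * d := by
  rw [mul_assoc]; simpa only [abs_mul] using h0.sum_abs_mul (F2.rank h1 h2)
/-- Frobenius norm of a product (crude) -/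
theorem F2.matmul (h1 : F2 M c) (h2 : F2 N d) :
    F2 (fun a b => ∑ x, M a x * N x b) (c * d) := by
  refine ⟨mul_nonneg h1.1 h2.1, ?_⟩
  calc ∑ a, ∑ b, (∑ x, M a x * N x b) ^ 2
      ≤ ∑ a, ∑ b, (∑ x, M a x ^ 2) * ∑ x, N x b ^ 2 :=
        sum_le_sum fun a _ => sum_le_sum fun b _ => Finset.sum_mul_sq_le_sq_mul_sq univ _ _
    _ = (∑ a, ∑ x, M a x ^ 2) * ∑ b, ∑ x, N x b ^ 2 := (sum_mul_sum _ _ _ _).symm
    _ ≤ (c * d) ^ 2 := by
        rw [mul_pow]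
        exact mul_le_mul h1.2 h2.swap.2
          (sum_nonneg fun _ _ => sum_nonneg fun _ _ => sq_nonneg _) (sq_nonneg c)
/-- absolute diagonal sum of a product -/
theorem F2.diag_abs (h1 : F2 M c) (h2 : F2 N d) :
    ∑ a, |∑ x, M a x * N x a| ≤ c * d := by
  refine le_trans (sum_le_sum fun a _ => ?_) (h1.sum_abs_mul h2.swap)
  simpa only [abs_mul] using abs_sum_le_sum_abs (fun x => M a x * N x a) univ
theorem F2.sum_abs (hk : (Fintype.card ι : ℝ) = k) (h1 : F2 M c) :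
    ∑ a, ∑ b, |M a b| ≤ k * c := by
  have h0 : 0 ≤ k := hk ▸ Nat.cast_nonneg _
  have h2 : F2 (fun _ _ : ι => (1 : ℝ)) k := ⟨h0, by simp [hk, sq]⟩
  simpa using h2.sum_abs_mul h1
/-- Schur test -/
theorem schur_bil (hs : ∀ a b, M a b = M b a) (he : 0 ≤ e) (hr : ∀ a, ∑ b, |M a b| ≤ e)
    (h1 : V2 p c) (h2 : V2 q d) : |∑ a, ∑ b, M a b * (p a * q b)| ≤ e * c * d := by
  have e1 : ∀ (r : ι → ℝ) (x : ℝ), V2 r x →
      F2 (fun a b => √|M a b| * r a) (√e * x) := by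
    intro r x hx
    refine ⟨mul_nonneg (Real.sqrt_nonneg _) hx.1, ?_⟩
    simp only [mul_pow, Real.sq_sqrt (abs_nonneg _), Real.sq_sqrt he]
    calc ∑ a, ∑ b, |M a b| * r a ^ 2 = ∑ a, (∑ b, |M a b|) * r a ^ 2 := by
          simp only [sum_mul]
      _ ≤ ∑ a, e * r a ^ 2 :=
          sum_le_sum fun a _ => mul_le_mul_of_nonneg_right (hr a) (sq_nonneg _)
      _ ≤ e * x ^ 2 := by rw [← mul_sum]; exact mul_le_mul_of_nonneg_left hx.2 he
  have h3 := (e1 p c h1).sum_abs_mul (e1 q d h2).swap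
  have h4 : √e * c * (√e * d) = e * c * d := by
    rw [mul_mul_mul_comm, Real.mul_self_sqrt he, mul_assoc]
  rw [h4] at h3
  refine le_trans ?_ h3
  refine (abs_sum_le_sum_abs _ _).trans (sum_le_sum fun a _ => ?_)
  refine (abs_sum_le_sum_abs _ _).trans (sum_le_sum fun b _ => le_of_eq ?_)
  simp only [abs_mul]
  rw [hs b a, mul_mul_mul_comm, abs_of_nonneg (Real.sqrt_nonneg _),
    Real.mul_self_sqrt (abs_nonneg _)]
/-- a bilinear bound gives an operator bound -/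
theorem V2.of_bil (he : 0 ≤ e)
    (hb : ∀ (p q : ι → ℝ) (c d : ℝ), V2 p c → V2 q d → |∑ a, ∑ b, M a b * (p a * q b)| ≤ e * c * d)
    (h2 : V2 q d) : V2 (fun a => ∑ b, M a b * q b) (e * d) := by
  refine ⟨mul_nonneg he h2.1, ?_⟩
  have h3 := (le_abs_self _).trans (hb _ q _ d (V2.sqrt fun a => ∑ b, M a b * q b) h2)
  have e1 : ∑ a, ∑ b, M a b * ((∑ b, M a b * q b) * q b) = ∑ a, (∑ b, M a b * q b) ^ 2 :=
    sum_congr rfl fun a _ => by
      rw [sq, mul_sum]; exact sum_congr rfl fun b _ => by ring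
  rw [e1] at h3
  have h0 : 0 ≤ ∑ a, (∑ b, M a b * q b) ^ 2 := sum_nonneg fun _ _ => sq_nonneg _
  have h4 := Real.sq_sqrt h0
  have h5 := Real.sqrt_nonneg (∑ a, (∑ b, M a b * q b) ^ 2)
  have h6 := mul_nonneg he h2.1
  nlinarith [sq_nonneg (√(∑ a, (∑ b, M a b * q b) ^ 2) - e * d)]

theorem Mask.nonneg (hm : Mask m) (a b : ι) : 0 ≤ m a b := by rcases hm.1 a b with h | h <;> simp [h]
theorem Mask.le_one (hm : Mask m) (a b : ι) : m a b ≤ 1 := by rcases hm.1 a b with h | h <;> simp [h]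

private theorem H2_iff (hm : Mask m) : H2 m f c ↔ F2 (fun a b => m a b * f a b) c := by
  have e : ∀ a b, (m a b * f a b) ^ 2 = m a b * f a b ^ 2 := fun a b => by
    rcases hm.1 a b with h | h <;> simp [h]
  simp only [H2, F2, e]
theorem H2.mono (h1 : H2 m f c) (h2 : c ≤ d) : H2 m f d :=
  ⟨h1.1.trans h2, h1.2.trans (pow_le_pow_left₀ h1.1 h2 2)⟩
theorem F2.toH2 (hm : Mask m) (h1 : F2 f c) : H2 m f c :=
  ⟨h1.1, (sum_le_sum fun a _ => sum_le_sum fun b _ =>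
    mul_le_of_le_one_left (sq_nonneg _) (hm.le_one a b)).trans h1.2⟩
theorem H2.add (hm : Mask m) (h1 : H2 m f c) (h2 : H2 m h d) :
    H2 m (fun a b => f a b + h a b) (c + d) := by
  rw [H2_iff hm] at h1 h2 ⊢
  simpa only [mul_add] using h1.add h2
theorem H2.sub (hm : Mask m) (h1 : H2 m f c) (h2 : H2 m h d) :
    H2 m (fun a b => f a b - h a b) (c + d) := by
  rw [H2_iff hm] at h1 h2 ⊢
  simpa only [mul_sub] using h1.sub h2
theorem H2.of_abs_le (hm : Mask m) (h1 : H2 m f c) (h2 : ∀ a b, m a b ≠ 0 → |h a b| ≤ |f a b|) :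
    H2 m h c := by
  refine ⟨h1.1, le_trans (sum_le_sum fun a _ => sum_le_sum fun b _ => ?_) h1.2⟩
  by_cases h0 : m a b = 0
  · simp [h0]
  · exact mul_le_mul_of_nonneg_left (sq_le_sq.2 (h2 a b h0)) (hm.nonneg a b)
theorem H2.const_mul (h1 : H2 m f c) (e : ℝ) : H2 m (fun a b => e * f a b) (|e| * c) := by
  refine ⟨mul_nonneg (abs_nonneg e) h1.1, ?_⟩
  have e1 : ∑ a, ∑ b, m a b * (e * f a b) ^ 2 = e ^ 2 * ∑ a, ∑ b, m a b * f a b ^ 2 := by
    simp only [mul_sum]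
    exact sum_congr rfl fun a _ => sum_congr rfl fun b _ => by ring
  rw [e1, mul_pow, sq_abs]
  exact mul_le_mul_of_nonneg_left h1.2 (sq_nonneg e)
theorem H2.mul_sup (hm : Mask m) (h1 : Hs m h c) (h2 : H2 m f d) :
    H2 m (fun a b => h a b * f a b) (c * d) := by
  have h3 := h2.const_mul c
  rw [abs_of_nonneg h1.1] at h3
  refine h3.of_abs_le hm fun a b h0 => ?_
  rw [abs_mul, abs_mul, abs_of_nonneg h1.1]
  exact mul_le_mul_of_nonneg_right (h1.2 a b h0) (abs_nonneg _)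
theorem H2.swap (hm : Mask m) (h1 : H2 m f c) : H2 m (fun a b => f b a) c := by
  refine ⟨h1.1, ?_⟩
  rw [sum_comm]
  simpa only [hm.2] using h1.2
theorem H2.toF2 (hm : Mask m) (h1 : H2 m f c) : F2 (fun a b => m a b * f a b) c :=
  (H2_iff hm).1 h1

theorem H1.mono (h1 : H1 m f c) (h2 : c ≤ d) : H1 m f d :=
  le_trans h1 h2
theorem H1.mul (hm : Mask m) (h1 : H2 m f c) (h2 : H2 m h d) :
    H1 m (fun a b => f a b * h a b) (c * d) := by
  refine le_trans (le_of_eq ?_) ((h1.toF2 hm).sum_abs_mul (h2.toF2 hm))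
  refine sum_congr rfl fun a _ => sum_congr rfl fun b _ => ?_
  rcases hm.1 a b with h0 | h0 <;> simp [h0, abs_mul]
theorem H1.add (hm : Mask m) (h1 : H1 m f c) (h2 : H1 m h d) :
    H1 m (fun a b => f a b + h a b) (c + d) := by
  refine le_trans ?_ (add_le_add h1 h2)
  rw [← sum_add_distrib]
  refine sum_le_sum fun a _ => ?_
  rw [← sum_add_distrib]
  refine sum_le_sum fun b _ => ?_
  rw [← mul_add]
  exact mul_le_mul_of_nonneg_left (abs_add_le _ _) (hm.nonneg a b)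
theorem H1.sub (hm : Mask m) (h1 : H1 m f c) (h2 : H1 m h d) :
    H1 m (fun a b => f a b - h a b) (c + d) := by
  have h3 : H1 m (fun a b => -h a b) d := by simpa only [H1, abs_neg] using h2
  simpa only [sub_eq_add_neg] using h1.add hm h3
theorem H1.of_abs_le (hm : Mask m) (h1 : H1 m f c) (h2 : ∀ a b, m a b ≠ 0 → |h a b| ≤ |f a b|) :
    H1 m h c := by
  refine le_trans (sum_le_sum fun a _ => sum_le_sum fun b _ => ?_) h1
  by_cases h0 : m a b = 0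
  · simp [h0]
  · exact mul_le_mul_of_nonneg_left (h2 a b h0) (hm.nonneg a b)
theorem H1.const_mul (h1 : H1 m f c) (e : ℝ) : H1 m (fun a b => e * f a b) (|e| * c) := by
  refine le_trans (le_of_eq ?_) (mul_le_mul_of_nonneg_left h1 (abs_nonneg e))
  simp only [mul_sum, abs_mul]
  exact sum_congr rfl fun a _ => sum_congr rfl fun b _ => by ring
theorem H1.mul_sup (hm : Mask m) (h1 : Hs m h c) (h2 : H1 m f d) :
    H1 m (fun a b => h a b * f a b) (c * d) := by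
  have h3 := h2.const_mul c
  rw [abs_of_nonneg h1.1] at h3
  refine h3.of_abs_le hm fun a b h0 => ?_
  rw [abs_mul, abs_mul, abs_of_nonneg h1.1]
  exact mul_le_mul_of_nonneg_right (h1.2 a b h0) (abs_nonneg _)
theorem H1.swap (hm : Mask m) (h1 : H1 m f c) : H1 m (fun a b => f b a) c := by
  unfold H1 at h1 ⊢
  rw [sum_comm]
  simpa only [hm.2] using h1
theorem H1.of_H2 (hm : Mask m) (hk : (Fintype.card ι : ℝ) = k) (h1 : H2 m f c) :
    H1 m f (k * c) := by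
  refine le_trans (le_of_eq ?_) ((h1.toF2 hm).sum_abs hk)
  refine sum_congr rfl fun a _ => sum_congr rfl fun b _ => ?_
  rw [abs_mul, abs_of_nonneg (hm.nonneg a b)]
theorem H1.rank (hm : Mask m) (h1 : ∑ a, |p a| ≤ c) (h2 : ∑ a, |q a| ≤ d) :
    H1 m (fun a b => p a * q b) (c * d) := by
  have h0 : 0 ≤ ∑ a, |p a| := sum_nonneg fun _ _ => abs_nonneg _
  refine le_trans ?_ (mul_le_mul h1 h2 (sum_nonneg fun _ _ => abs_nonneg _) (h0.trans h1))
  rw [sum_mul_sum]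
  refine sum_le_sum fun a _ => sum_le_sum fun b _ => ?_
  rw [← abs_mul]
  exact mul_le_of_le_one_left (abs_nonneg _) (hm.le_one a b)
theorem H1.nonneg (hm : Mask m) (h1 : H1 m f c) : 0 ≤ c :=
  le_trans (sum_nonneg fun a _ => sum_nonneg fun b _ =>
    mul_nonneg (hm.nonneg a b) (abs_nonneg _)) h1

omit [Fintype ι] in
theorem Hs.mono (h1 : Hs m f c) (h2 : c ≤ d) : Hs m f d :=
  ⟨h1.1.trans h2, fun a b h0 => (h1.2 a b h0).trans h2⟩
omit [Fintype ι] in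
theorem Hs.add (h1 : Hs m f c) (h2 : Hs m h d) : Hs m (fun a b => f a b + h a b) (c + d) :=
  ⟨add_nonneg h1.1 h2.1, fun a b h0 =>
    (abs_add_le _ _).trans (add_le_add (h1.2 a b h0) (h2.2 a b h0))⟩
omit [Fintype ι] in
theorem Hs.sub (h1 : Hs m f c) (h2 : Hs m h d) : Hs m (fun a b => f a b - h a b) (c + d) :=
  ⟨add_nonneg h1.1 h2.1, fun a b h0 =>
    (abs_sub _ _).trans (add_le_add (h1.2 a b h0) (h2.2 a b h0))⟩
omit [Fintype ι] in
theorem Hs.mul (h1 : Hs m f c) (h2 : Hs m h d) : Hs m (fun a b => f a b * h a b) (c * d) :=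
  ⟨mul_nonneg h1.1 h2.1, fun a b h0 => (abs_mul _ _).trans_le
    (mul_le_mul (h1.2 a b h0) (h2.2 a b h0) (abs_nonneg _) h1.1)⟩
omit [Fintype ι] in
theorem Hs.const_mul (h1 : Hs m f c) (e : ℝ) : Hs m (fun a b => e * f a b) (|e| * c) :=
  ⟨mul_nonneg (abs_nonneg e) h1.1, fun a b h0 => (abs_mul _ _).trans_le
    (mul_le_mul_of_nonneg_left (h1.2 a b h0) (abs_nonneg e))⟩
theorem Hs.left (h1 : V2 p c) : Hs m (fun a _ => p a) c :=
  ⟨h1.1, fun a _ _ => h1.sup a⟩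
theorem Hs.right (h1 : V2 p c) : Hs m (fun _ b => p b) c :=
  ⟨h1.1, fun _ b _ => h1.sup b⟩
theorem Hs.of_F2 (h1 : F2 f c) : Hs m f c :=
  ⟨h1.1, fun a b _ => h1.sup a b⟩

end Vale.Agent.P049.An
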