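import Vale.Agent.P049.Calc1

/-! P049: weighted sums and the basic consequences of `Wt`.
PLAN: `av_*` are `Finset.sum_*` manipulations.  On the support of `m`: with `r = B a b`,
`|r| ≤ th`, `|αβ| ≤ th`, `th ≤ 1/100`, `s = ±1`: `rho = 1 - 2 s r + r^2 - αβ`, so
`|rho - 1| ≤ 2.01 |r| + |αβ| ≤ 3.01 th`, `rho ≥ 0.969`, `1 / rho ≤ 1.032`, `1.5 * 1.032^6 ≤ 2`.
`lin_err`: `f = 1 - t + E` with `F2 E vp`, then `F2.dot`.  `rank_err`: the same with `F2.bil` and
`tbil`.  `row_err`: `∑ a, p a * ∑ b, (f a b - 1) * q b`, `V2.dot` in `b`.  `t_matmul`: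
`∑ x, ∑ a b, t a b * (M a x * N x b)`, `tbil` with `V2.sqrt` for column `x` of `M` and row `x` of `N`,
then Cauchy-Schwarz in `x`.  `tot_err`: `rank_err` with `p = q = 1`. -/

namespace Vale.Agent.P049.An

open Finset Matrix

variable {ι : Type} [Fintype ι]
variable {p q : ι → ℝ} {M N m w t f h : ι → ι → ℝ} {c d e : ℝ}

theorem av_add (w f h : ι → ι → ℝ) : av w (fun a b => f a b + h a b) = av w f + av w h := by
  simp only [av, mul_add, sum_add_distrib]

theorem av_sub (w f h : ι → ι → ℝ) : av w (fun a b => f a b - h a b) = av w f - av w h := by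
  simp only [av, mul_sub, sum_sub_distrib]

theorem av_const_mul (w f : ι → ι → ℝ) (e : ℝ) : av w (fun a b => e * f a b) = e * av w f := by
  simp only [av, mul_sum, mul_left_comm e]

theorem av_div (w f : ι → ι → ℝ) (e : ℝ) : av w (fun a b => f a b / e) = av w f / e := by
  simp only [av, sum_div, mul_div_assoc]

theorem av_const (w : ι → ι → ℝ) (e : ℝ) : av w (fun _ _ => e) = tot w * e := by
  simp only [av, tot, sum_mul]

theorem av_congr (hh : ∀ a b, w a b ≠ 0 → f a b = h a b) : av w f = av w h := by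
  refine sum_congr rfl fun a _ => sum_congr rfl fun b _ => ?_
  by_cases h1 : w a b = 0
  · rw [h1, zero_mul, zero_mul]
  · rw [hh a b h1]

theorem av_mono (h0 : ∀ a b, 0 ≤ w a b) (hh : ∀ a b, w a b ≠ 0 → f a b ≤ h a b) :
    av w f ≤ av w h := by
  refine sum_le_sum fun a _ => sum_le_sum fun b _ => ?_
  by_cases h1 : w a b = 0
  · rw [h1, zero_mul, zero_mul]
  · exact mul_le_mul_of_nonneg_left (hh a b h1) (h0 a b)

theorem av_swap (hs : ∀ a b, w a b = w b a) (f : ι → ι → ℝ) :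
    av w (fun a b => f b a) = av w f := by
  unfold av
  rw [sum_comm]
  exact sum_congr rfl fun a _ => sum_congr rfl fun b _ => by rw [hs b a]

theorem av_sum (w : ι → ι → ℝ) (g : ι → ι → ι → ℝ) :
    av w (fun a b => ∑ x, g a b x) = ∑ x, av w (fun a b => g a b x) := by
  simp only [av, mul_sum]
  exact (sum_congr rfl fun a _ => sum_comm).trans sum_comm

theorem av_div_eq (w f g : ι → ι → ℝ) :
    av w (fun a b => f a b / g a b) = av (fun a b => w a b / g a b) f := by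
  exact sum_congr rfl fun a _ => sum_congr rfl fun b _ => by ring

theorem av_shift_sq (w f : ι → ι → ℝ) (e : ℝ) :
    av w (fun a b => (e + f a b) ^ 2)
      = tot w * e ^ 2 + 2 * e * av w f + av w (fun a b => f a b ^ 2) := by
  rw [← av_const, ← av_const_mul, ← av_add, ← av_add]
  exact sum_congr rfl fun a _ => sum_congr rfl fun b _ => by ring

theorem abs_av_le (hc : 0 ≤ c) (hw : ∀ a b, |w a b| ≤ c * m a b) (h1 : H1 m f d) :
    |av w f| ≤ c * d := by
  refine le_trans ?_ (mul_le_mul_of_nonneg_left h1 hc)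
  rw [mul_sum]
  refine (abs_sum_le_sum_abs _ _).trans (sum_le_sum fun a _ => ?_)
  rw [mul_sum]
  refine (abs_sum_le_sum_abs _ _).trans (sum_le_sum fun b _ => ?_)
  rw [abs_mul, ← mul_assoc]
  exact mul_le_mul_of_nonneg_right (hw a b) (abs_nonneg _)

theorem av_sq_le (hc : 0 ≤ c) (hw : ∀ a b, |w a b| ≤ c * m a b) (h1 : H2 m f d) :
    av w (fun a b => f a b ^ 2) ≤ c * d ^ 2 := by
  refine le_trans ?_ (mul_le_mul_of_nonneg_left h1.2 hc)
  rw [mul_sum]
  refine sum_le_sum fun a _ => ?_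
  rw [mul_sum]
  refine sum_le_sum fun b _ => ?_
  rw [← mul_assoc]
  exact mul_le_mul_of_nonneg_right ((le_abs_self _).trans (hw a b)) (sq_nonneg _)

theorem exists_le_of_av (h0 : ∀ a b, 0 ≤ w a b) (hpos : 0 < tot w) (h1 : av w f ≤ tot w * c) :
    ∃ a b, w a b ≠ 0 ∧ f a b ≤ c := by
  by_contra hcon
  have h2 : ∀ a b, w a b ≠ 0 → c < f a b := fun a b h => not_le.1 fun h' => hcon ⟨a, b, h, h'⟩
  have h3 : ∀ a b, w a b * c ≤ w a b * f a b := fun a b => by
    by_cases h1 : w a b = 0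
    · rw [h1, zero_mul, zero_mul]
    · exact mul_le_mul_of_nonneg_left (h2 a b h1).le (h0 a b)
  obtain ⟨a, b, hab⟩ : ∃ a b, w a b ≠ 0 := by
    by_contra h4
    have h5 : ∀ a b, w a b = 0 := fun a b => not_not.1 fun h => h4 ⟨a, b, h⟩
    simp [tot, h5] at hpos
  rw [← av_const] at h1
  refine absurd h1 (not_le.2 (sum_lt_sum (fun a _ => sum_le_sum fun b _ => h3 a b)
    ⟨a, mem_univ a, sum_lt_sum (fun b _ => h3 a b) ⟨b, mem_univ b, ?_⟩⟩))
  exact mul_lt_mul_of_pos_left (h2 a b hab) (lt_of_le_of_ne (h0 a b) (Ne.symm hab))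


theorem lin_err (hf : F2 (fun a b => f a b - 1 + t a b) e) (hM : F2 M c) :
    |av f M - ∑ a, ∑ b, M a b + av t M| ≤ e * c := by
  refine le_of_eq_of_le (congrArg _ ?_) (hf.dot hM)
  simp only [av, ← sum_sub_distrib, ← sum_add_distrib]
  exact sum_congr rfl fun a _ => sum_congr rfl fun b _ => by ring

theorem row_err (he : 0 ≤ e) (hf : ∀ a, V2 (fun b => f a b - 1) e) (hp : ∑ a, |p a| ≤ c) (hq : V2 q d) :
    |av f (fun a b => p a * q b) - (∑ a, p a) * ∑ b, q b| ≤ e * c * d := by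
  have e1 : av f (fun a b => p a * q b) - (∑ a, p a) * ∑ b, q b =
      ∑ a, p a * ∑ b, (f a b - 1) * q b := by
    rw [sum_mul_sum]
    simp only [av, mul_sum, ← sum_sub_distrib]
    exact sum_congr rfl fun a _ => sum_congr rfl fun b _ => by ring
  rw [e1]
  refine (abs_sum_le_sum_abs _ _).trans ?_
  have h1 : ∑ a, |p a * ∑ b, (f a b - 1) * q b| ≤ ∑ a, |p a| * (e * d) :=
    sum_le_sum fun a _ => by
      rw [abs_mul]
      exact mul_le_mul_of_nonneg_left ((hf a).dot hq) (abs_nonneg _)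
  rw [← sum_mul] at h1
  have h2 := mul_le_mul_of_nonneg_right hp (mul_nonneg he hq.1)
  linarith


variable [DecidableEq ι] {P : Par} {s : ℝ} {B : Matrix ι ι ℝ}

theorem Wt.rank_err (hW : Wt P s B m w t) (hf : F2 (fun a b => f a b - 1 + t a b) P.vp)
    (hp : V2 p c) (hq : V2 q d) :
    |av f (fun a b => p a * q b) - (∑ a, p a) * ∑ b, q b| ≤ P.eta * c * d := by
  have h1 := abs_le.1 (lin_err hf (F2.rank hp hq))
  have h2 := abs_le.1 (hW.tbil p q c d hp hq)
  rw [sum_mul_sum, Par.eta]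
  unfold av at h1 ⊢
  exact abs_le.2 ⟨by linarith [h1.1, h2.2], by linarith [h1.2, h2.1]⟩

theorem Wt.t_matmul (hS : Side P s B) (hW : Wt P s B m w t) (h1 : F2 M c) (h2 : F2 N d) :
    |av t (fun a b => ∑ x, M a x * N x b)| ≤ P.xi * c * d := by
  rw [av_sum]
  refine (abs_sum_le_sum_abs _ _).trans ?_
  have h3 : ∑ x, |av t fun a b => M a x * N x b| ≤
      ∑ x, P.xi * (√(∑ a, M a x ^ 2) * √(∑ b, N x b ^ 2)) := sum_le_sum fun x _ =>
    (hW.tbil _ _ _ _ (V2.sqrt fun a => M a x) (V2.sqrt fun b => N x b)).trans_eq (mul_assoc _ _ _)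
  have h4 : V2 (fun x => √(∑ a, M a x ^ 2)) c := ⟨h1.1, by
    rw [sum_congr rfl fun x _ => Real.sq_sqrt (sum_nonneg fun a _ => sq_nonneg (M a x)), sum_comm]
    exact h1.2⟩
  have h5 : V2 (fun x => √(∑ b, N x b ^ 2)) d := ⟨h2.1, by
    rw [sum_congr rfl fun x _ => Real.sq_sqrt (sum_nonneg fun b _ => sq_nonneg (N x b))]
    exact h2.2⟩
  rw [← mul_sum] at h3
  rw [mul_assoc]
  exact h3.trans (mul_le_mul_of_nonneg_left ((le_abs_self _).trans (h4.dot h5)) hS.ok.xi_ge)

theorem Wt.tot_err (hS : Side P s B) (hW : Wt P s B m w t) :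
    |tot w - P.k ^ 2| ≤ P.eta * P.k := by
  have h1 := V2.one hS.card hS.ok.ka_pos hS.ok.ka_sq
  have h2 := hW.rank_err hW.devw h1 h1
  simp only [av, mul_one, sum_const, card_univ, nsmul_eq_mul, hS.card] at h2
  rw [mul_assoc, ← sq, ← sq, hS.ok.ka_sq] at h2
  exact h2

theorem Wt.w_nonneg (hS : Side P s B) (hW : Wt P s B m w t) (a b : ι) : 0 ≤ w a b := by
  rw [hW.w_eq]
  exact mul_nonneg (hW.mask.nonneg a b)
    (by linarith [(abs_le.1 (hW.t_le a b)).2, hS.ok.wbar_le])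

theorem Wt.w_symm (hW : Wt P s B m w t) (a b : ι) : w a b = w b a := by
  rw [hW.w_eq, hW.w_eq, hW.mask.2 a b, hW.tsymm a b]

theorem Wt.supp (hW : Wt P s B m w t) {a b : ι} (h1 : w a b ≠ 0) : m a b ≠ 0 := by
  intro h2
  rw [hW.w_eq, h2, zero_mul] at h1
  exact h1 rfl

theorem Wt.w_le (hS : Side P s B) (hW : Wt P s B m w t) (a b : ι) :
    |w a b| ≤ P.wbar * m a b := by
  rw [abs_of_nonneg (hW.w_nonneg hS a b), hW.w_eq, mul_comm]
  exact mul_le_mul_of_nonneg_right (by linarith [(abs_le.1 (hW.t_le a b)).1]) (hW.mask.nonneg a b)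

theorem Wt.vp_nonneg (hW : Wt P s B m w t) : 0 ≤ P.vp := by
  exact hW.devw.1

theorem Wt.eta_nonneg (hS : Side P s B) (hW : Wt P s B m w t) : 0 ≤ P.eta := by
  exact add_nonneg hS.ok.xi_ge hW.vp_nonneg

theorem rho_symm (hS : Side P s B) (a b : ι) : rho s B a b = rho s B b a := by
  rw [rho, rho, hS.symm.apply a b, mul_comm]

theorem GoodPair.rho_close (hS : Side P s B) {a b : ι} (hg : GoodPair P B a b) :
    |rho s B a b - 1| ≤ 201 / 100 * |B a b| + |B a a * B b b| := by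
  have h1 := hg.r_le.trans hS.ok.th_le
  have h2 : B a b ^ 2 ≤ 1 / 100 * |B a b| := by
    rw [← sq_abs, sq]
    exact mul_le_mul_of_nonneg_right h1 (abs_nonneg _)
  have h3 := le_abs_self (B a b)
  have h4 := neg_abs_le (B a b)
  have h5 := le_abs_self (B a a * B b b)
  have h6 := neg_abs_le (B a a * B b b)
  have h7 := sq_nonneg (B a b)
  have h8 := abs_nonneg (B a b)
  rw [rho]
  rcases hS.sgn with h | h <;> rw [h] <;> exact abs_le.2 ⟨by linarith, by linarith⟩

theorem GoodPair.rho_ge (hS : Side P s B) {a b : ι} (hg : GoodPair P B a b) :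
    969 / 1000 ≤ rho s B a b := by
  have h1 := (abs_le.1 (hg.rho_close hS)).1
  linarith [hg.r_le, hg.ab_le, hS.ok.th_le]

theorem GoodPair.sr_le (hS : Side P s B) {a b : ι} (hg : GoodPair P B a b) :
    |s - B a b| ≤ 101 / 100 := by
  have h1 := abs_le.1 (hg.r_le.trans hS.ok.th_le)
  rcases hS.sgn with h | h <;> rw [h] <;> exact abs_le.2 ⟨by linarith [h1.2], by linarith [h1.1]⟩

/-- for `j ≤ 6` the weight `w / rho ^ j` is at most twice the mask -/
theorem Wt.wr_le (hS : Side P s B) (hW : Wt P s B m w t) (j : ℕ) (hj : j ≤ 6) (a b : ι) :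
    |w a b / rho s B a b ^ j| ≤ 2 * m a b := by
  by_cases h0 : m a b = 0
  · rw [hW.w_eq, h0, zero_mul, zero_div, abs_zero, mul_zero]
  have h1 := (hW.good a b h0).rho_ge hS
  have h2 : (969 / 1000 : ℝ) ^ 6 ≤ rho s B a b ^ j :=
    (pow_le_pow_of_le_one (by norm_num) (by norm_num) hj).trans
      (pow_le_pow_left₀ (by norm_num) h1 j)
  have h3 : (3 / 4 : ℝ) ≤ rho s B a b ^ j := le_trans (by norm_num) h2
  have h4 := hW.w_le hS a b
  have h5 := hW.mask.nonneg a b
  have h6 := mul_le_mul_of_nonneg_right hS.ok.wbar_le h5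
  have h7 := mul_le_mul_of_nonneg_left h3 h5
  rw [abs_div, abs_of_pos (by linarith : 0 < rho s B a b ^ j), div_le_iff₀ (by linarith)]
  linarith

theorem Wt.wr1_le (hS : Side P s B) (hW : Wt P s B m w t) (a b : ι) :
    |w a b / rho s B a b| ≤ 2 * m a b := by
  have h1 := hW.wr_le hS 1 (by norm_num) a b
  rwa [pow_one] at h1

theorem Wt.wr2_le (hS : Side P s B) (hW : Wt P s B m w t) (a b : ι) :
    |w a b / rho s B a b ^ 2| ≤ P.wbar * (1 + 9 * P.th) * m a b := by
  by_cases h0 : m a b = 0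
  · rw [hW.w_eq, h0, zero_mul, zero_div, abs_zero, mul_zero]
  have hg := hW.good a b h0
  have t0 := hS.ok.th_pos
  have t1 := hS.ok.th_le
  have h1 : 1 - 301 / 100 * P.th ≤ rho s B a b := by
    linarith [(abs_le.1 (hg.rho_close hS)).1, hg.r_le, hg.ab_le]
  have h2 : (1 - 301 / 100 * P.th) ^ 2 ≤ rho s B a b ^ 2 := pow_le_pow_left₀ (by linarith) h1 2
  have h3 : 1 ≤ (1 + 9 * P.th) * rho s B a b ^ 2 := by
    refine le_trans ?_ (mul_le_mul_of_nonneg_left h2 (by linarith))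
    nlinarith [mul_nonneg t0.le (sub_nonneg.2 t1), mul_nonneg t0.le (mul_nonneg t0.le t0.le)]
  have h4 := hW.w_le hS a b
  have h5 : 0 ≤ P.wbar * m a b := (abs_nonneg _).trans h4
  have h6 : 0 < rho s B a b ^ 2 := pow_pos (by linarith) 2
  have h7 := mul_le_mul_of_nonneg_left h3 h5
  rw [abs_div, abs_of_pos h6, div_le_iff₀ h6]
  linarith

theorem Wt.Hs_inv (hS : Side P s B) (hW : Wt P s B m w t) :
    Hs m (fun a b => 1 / rho s B a b) (1032 / 1000) := by
  refine ⟨by norm_num, fun a b h0 => ?_⟩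
  have h1 := (hW.good a b h0).rho_ge hS
  beta_reduce
  rw [abs_of_pos (by positivity), div_le_iff₀ (by linarith)]
  linarith

theorem Wt.Hs_sr (hS : Side P s B) (hW : Wt P s B m w t) :
    Hs m (fun a b => s - B a b) (101 / 100) := by
  exact ⟨by norm_num, fun a b h0 => (hW.good a b h0).sr_le hS⟩


end Vale.Agent.P049.An
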