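import Vale.Agent.P049.Calc1
import Mathlib.LinearAlgebra.Matrix.PosDef
import Mathlib.Analysis.Matrix.Order

/-! P049: consequences of the positivity invariant (index type = alive half-edges, `H = univ`).
PLAN.  `inv_ent`: for `c ≠ e` test `psd` with `ψ = δ_c ± δ_e`: `α_c + α_e ± 2 B c e + 2 m ≥ -4/k`, `m ≤ 0.7072`,
`k ≥ 400`; `c = e` is trivial.  `inv_form`: `(s + m)(∑ψ)^2/k ≥ -(1 - m) ∑ψ^2` by Cauchy-Schwarz.
`inv_chi`: `tr (B B C) + tr (B B) = ∑ c, (ψ^T C ψ + ψ^T ψ)` with `ψ = ` row `c` of `B`.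
`inv_tr`: the matrices `P1 = B + m - (s+m) J/k`, `P2 = C + m - (-s+m) J/k` are `PosSemidef`, hence
`0 ≤ tr (P2 * P1)` (write `P1 = S^T S`, e.g. `Matrix.posSemidef_iff_eq_conjTranspose_mul_self` or
`CStarAlgebra.nonneg_iff_eq_star_mul_self`, and sum the form of `P2` over the rows of `S`); expand with the row sums:
`tr (P2 P1) = tr (C B) + m (U_B + U_C) + m^2 k + (1 - m^2)`.
`inv_M4`: `((B*B) a b)^2 ≤ y_a y_b`. -/

namespace Vale.Agent.P049.An

open Finset Matrix

variable {ι : Type} [Fintype ι] [DecidableEq ι] {s m : ℝ} {B C : Matrix ι ι ℝ}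

omit [DecidableEq ι] in
private theorem psd_tr (hB : B.IsSymm) (C : Matrix ι ι ℝ) :
    (C * B).trace = ∑ a, ∑ b, C a b * B a b := by
  simp only [Matrix.trace, Matrix.diag, Matrix.mul_apply]
  exact Finset.sum_congr rfl fun a _ => Finset.sum_congr rfl fun b _ => by rw [hB.apply a b]

private theorem psd_m {m : ℝ} (hm : m ^ 2 ≤ 1 / 2) : m ≤ 7072 / 10000 := by
  by_contra h
  have := not_le.1 h
  nlinarith

private theorem psd_two (hs : s = 1 ∨ s = -1) (hm0 : 0 ≤ m) (hk : 400 ≤ Fintype.card ι)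
    (h : Inv univ s m B) {c e : ι} (hce : c ≠ e) {t : ℝ} (ht : t ^ 2 = 1) :
    -(1 / 100) ≤ B c c + B e e + 2 * t * B c e + 2 * m := by
  have hk' : (400 : ℝ) ≤ Fintype.card ι := by exact_mod_cast hk
  have key := h.psd (Pi.single c 1 + Pi.single e t) (by simp)
  have zd : ∀ g : ι → ℝ, ∑ x, (Pi.single c 1 + Pi.single e t : ι → ℝ) x * g x = g c + t * g e := by
    intro g
    have := add_dotProduct (Pi.single c (1 : ℝ)) (Pi.single e t) g
    rw [single_dotProduct, single_dotProduct, one_mul] at this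
    exact this
  have a1 : ∑ x, (Pi.single c 1 + Pi.single e t : ι → ℝ) x = 1 + t := by
    simpa using zd fun _ => 1
  have a2 : ∑ x, (Pi.single c 1 + Pi.single e t : ι → ℝ) x ^ 2 = 2 := by
    simp only [sq]
    rw [zd]
    simp [hce, hce.symm]
    linarith
  have a3 : ∑ x, ∑ y, (Pi.single c 1 + Pi.single e t : ι → ℝ) x * B x y *
      (Pi.single c 1 + Pi.single e t : ι → ℝ) y = B c c + B e e + 2 * t * B c e := by
    have e1 : ∀ x, ∑ y, (Pi.single c 1 + Pi.single e t : ι → ℝ) x * B x y *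
        (Pi.single c 1 + Pi.single e t : ι → ℝ) y =
        (Pi.single c 1 + Pi.single e t : ι → ℝ) x * (B x c + t * B x e) := by
      intro x
      rw [← zd (B x), Finset.mul_sum]
      exact Finset.sum_congr rfl fun y _ => by ring
    simp only [e1]
    rw [zd, h.symm.apply c e]
    linear_combination (B e e) * ht
  rw [a1, a2, a3, Finset.card_univ] at key
  have b1 : -(1 / 100) ≤ (s + m) * (1 + t) ^ 2 / (Fintype.card ι : ℝ) := by
    rw [le_div_iff₀ (by linarith)]
    have b2 : (1 + t) ^ 2 ≤ 4 := by nlinarith [sq_nonneg (1 - t)]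
    have b3 : -1 ≤ s + m := by rcases hs with rfl | rfl <;> linarith
    nlinarith [sq_nonneg (1 + t), mul_nonneg (sub_nonneg.2 b3) (sq_nonneg (1 + t))]
  linarith

theorem inv_ent (hs : s = 1 ∨ s = -1) (hm0 : 0 ≤ m) (hm : m ^ 2 ≤ 1 / 2)
    (hk : 400 ≤ Fintype.card ι) (h : Inv univ s m B) (c e : ι) :
    |B c e| ≤ 18 / 25 + (|B c c| + |B e e|) / 2 := by
  by_cases hce : c = e
  · subst hce
    linarith
  · have h1 := psd_two hs hm0 hk h hce (t := 1) (by norm_num)
    have h2 := psd_two hs hm0 hk h hce (t := -1) (by norm_num)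
    have h3 := psd_m hm
    have h4 := le_abs_self (B c c)
    have h5 := le_abs_self (B e e)
    exact abs_le.2 ⟨by linarith, by linarith⟩

theorem inv_form (hs : s = 1 ∨ s = -1) (hm0 : 0 ≤ m) (hm : m ^ 2 ≤ 1 / 2) (h : Inv univ s m B)
    (ψ : ι → ℝ) : 0 ≤ (∑ c, ∑ e, ψ c * B c e * ψ e) + ∑ c, ψ c ^ 2 := by
  have key := h.psd ψ (by simp)
  have h3 := psd_m hm
  have h0 : 0 ≤ ∑ c, ψ c ^ 2 := Finset.sum_nonneg fun c _ => sq_nonneg _
  have h1 : (∑ c, ψ c) ^ 2 / (univ : Finset ι).card ≤ ∑ c, ψ c ^ 2 :=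
    div_le_of_le_mul₀ (Nat.cast_nonneg _) h0 (by
      simpa using Finset.sum_mul_sq_le_sq_mul_sq univ ψ fun _ => (1 : ℝ))
  have h2 : 0 ≤ (∑ c, ψ c) ^ 2 / (univ : Finset ι).card := by positivity
  rw [mul_div_assoc] at key
  rcases hs with rfl | rfl
  · nlinarith [mul_nonneg hm0 h2, mul_nonneg (show 0 ≤ 1 - m by linarith) h0]
  · nlinarith [mul_le_mul_of_nonneg_left h1 (show 0 ≤ 1 - m by linarith)]

theorem symm_T_eq (hB : B.IsSymm) : sT B = ∑ a, ∑ b, B a b ^ 2 := by
  unfold sT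
  simp only [psd_tr hB, sq]

theorem inv_chi (hs : s = 1 ∨ s = -1) (hm0 : 0 ≤ m) (hm : m ^ 2 ≤ 1 / 2) (hB : B.IsSymm)
    (h : Inv univ s m C) : 0 ≤ sChi B C + sT B := by
  have e : sChi B C = ∑ a, ∑ c, ∑ e, B a c * C c e * B a e := by
    unfold sChi
    rw [Matrix.mul_assoc, Matrix.trace_mul_comm, psd_tr hB]
    simp only [Matrix.mul_apply, Finset.sum_mul]
    exact Finset.sum_congr rfl fun a _ => Finset.sum_comm
  rw [e, symm_T_eq hB, ← Finset.sum_add_distrib]
  exact Finset.sum_nonneg fun a _ => inv_form hs hm0 hm h (B a)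

private theorem psd_P (hk : 0 < Fintype.card ι) (h : Inv univ s m B) :
    Matrix.PosSemidef (Matrix.of fun a b =>
      B a b + (if a = b then m else 0) - (s + m) / Fintype.card ι) := by
  refine Matrix.PosSemidef.of_dotProduct_mulVec_nonneg ?_ fun x => ?_
  · ext a b
    rw [conjTranspose_apply, star_trivial, Matrix.of_apply, Matrix.of_apply, h.symm.apply a b]
    simp only [eq_comm]
  · have key := h.psd x (by simp)
    have e : star x ⬝ᵥ (Matrix.of fun a b =>
        B a b + (if a = b then m else 0) - (s + m) / Fintype.card ι) *ᵥ x =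
        (∑ c, ∑ e, x c * B c e * x e) + m * ∑ c, x c ^ 2 -
          (s + m) * (∑ c, x c) ^ 2 / (univ : Finset ι).card := by
      simp only [star_trivial, dotProduct, mulVec, Matrix.of_apply, add_mul, sub_mul, Finset.sum_add_distrib,
        Finset.sum_sub_distrib, ite_mul, zero_mul, Finset.sum_ite_eq, Finset.mem_univ, if_true,
        mul_add, mul_sub, ← Finset.mul_sum, ← Finset.sum_mul, Finset.card_univ]
      simp only [Finset.mul_sum, sq, mul_assoc]
      congr 1
      · congr 1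
        exact Finset.sum_congr rfl fun c _ => by ring
      · simp only [← Finset.mul_sum, ← Finset.sum_mul]
        ring
    rw [e]
    linarith

theorem inv_tr (hs : s = 1 ∨ s = -1) (hm0 : 0 ≤ m) (hm : m ^ 2 ≤ 1 / 2)
    (hk : 400 ≤ Fintype.card ι) (hB : Inv univ s m B) (hC : Inv univ (-s) m C) :
    -((Fintype.card ι : ℝ) / 2) - |sU B| - |sU C| - 1 ≤ (C * B).trace := by
  have hk0 : 0 < Fintype.card ι := by omega
  have hk' : (0 : ℝ) < Fintype.card ι := Nat.cast_pos.2 hk0
  have hs2 : s ^ 2 = 1 := by rcases hs with rfl | rfl <;> norm_num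
  have key := ((psd_P hk0 hC).hadamard (psd_P hk0 hB)).dotProduct_mulVec_nonneg fun _ => 1
  simp only [star_trivial, dotProduct, mulVec, Matrix.hadamard_apply, Matrix.of_apply, one_mul,
    mul_one] at key
  obtain ⟨α, hα⟩ : ∃ α, α = (s + m) / Fintype.card ι := ⟨_, rfl⟩
  obtain ⟨β, hβ⟩ : ∃ β, β = (-s + m) / Fintype.card ι := ⟨_, rfl⟩
  rw [← hα, ← hβ] at key
  have row : ∀ a, ∑ b, (C a b + (if a = b then m else 0) - β) *
      (B a b + (if a = b then m else 0) - α) = ∑ b, C a b * B a b + m * B a a + m * C a a +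
        (m ^ 2 - m * α - m * β + α * s - β * s + Fintype.card ι * (α * β)) := by
    intro a
    have e : ∀ b, (C a b + (if a = b then m else 0) - β) * (B a b + (if a = b then m else 0) - α) =
        C a b * B a b + (if a = b then m * B a b + m * C a b + m ^ 2 - m * α - m * β else 0) -
          α * C a b - β * B a b + α * β := by
      intro b
      split_ifs <;> ring
    simp only [e, Finset.sum_add_distrib, Finset.sum_sub_distrib, ← Finset.mul_sum,
      Finset.sum_ite_eq, Finset.mem_univ, if_true, hB.row a (Finset.mem_univ a),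
      hC.row a (Finset.mem_univ a), Finset.sum_const, Finset.card_univ, nsmul_eq_mul]
    ring
  simp only [row, Finset.sum_add_distrib, ← Finset.mul_sum, Finset.sum_const, Finset.card_univ,
    nsmul_eq_mul] at key
  have e2 : (Fintype.card ι : ℝ) * (m ^ 2 - m * α - m * β + α * s - β * s +
      Fintype.card ι * (α * β)) = Fintype.card ι * m ^ 2 + (1 - m ^ 2) := by
    rw [hα, hβ]
    field_simp
    linear_combination hs2
  rw [psd_tr hB.symm]
  have u1 : sU B = ∑ a, B a a := rfl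
  have u2 : sU C = ∑ a, C a a := rfl
  have h3 := psd_m hm
  have b1 : m * sU B ≤ |sU B| :=
    (mul_le_mul_of_nonneg_left (le_abs_self _) hm0).trans
      (mul_le_of_le_one_left (abs_nonneg _) (by linarith))
  have b2 : m * sU C ≤ |sU C| :=
    (mul_le_mul_of_nonneg_left (le_abs_self _) hm0).trans
      (mul_le_of_le_one_left (abs_nonneg _) (by linarith))
  have b3 := mul_le_mul_of_nonneg_left hm hk'.le
  rw [← u1, ← u2] at key
  nlinarith [sq_nonneg m]

theorem symm_M4_eq (hB : B.IsSymm) : sM4 B = ∑ a, ∑ b, (B * B) a b ^ 2 := by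
  have h2 : (B * B).IsSymm := by
    unfold Matrix.IsSymm
    rw [Matrix.transpose_mul, hB.eq]
  unfold sM4
  simp only [psd_tr h2, sq]

theorem symm_M4_le (hB : B.IsSymm) : sM4 B ≤ sT B ^ 2 := by
  rw [symm_M4_eq hB, symm_T_eq hB, sq (∑ a, ∑ b, B a b ^ 2), Finset.sum_mul_sum]
  refine Finset.sum_le_sum fun a _ => Finset.sum_le_sum fun b _ => ?_
  have e : (B * B) a b = ∑ x, B a x * B b x := by
    rw [Matrix.mul_apply]
    exact Finset.sum_congr rfl fun x _ => by rw [hB.apply b x]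
  rw [e]
  exact Finset.sum_mul_sq_le_sq_mul_sq _ _ _

theorem cen_eq (B : Matrix ι ι ℝ) (τ : ℝ) :
    sY B - 2 * τ * sT B + (Fintype.card ι : ℝ) * τ ^ 2 = sW τ B := by
  have e : ∀ c, ((B * B) c c - τ) ^ 2 = (B * B) c c ^ 2 - 2 * τ * (B * B) c c + τ ^ 2 :=
    fun c => by ring
  simp only [sY, sT, sW, e, Finset.sum_add_distrib, Finset.sum_sub_distrib, ← Finset.mul_sum,
    Finset.sum_const, Finset.card_univ, nsmul_eq_mul, Matrix.trace, Matrix.diag]

theorem tr_mix_le (hB : B.IsSymm) (hC : C.IsSymm) : (C * B).trace ≤ (sT B + sT C) / 2 := by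
  rw [psd_tr hB, symm_T_eq hB, symm_T_eq hC, ← Finset.sum_add_distrib, Finset.sum_div]
  refine Finset.sum_le_sum fun a _ => ?_
  rw [← Finset.sum_add_distrib, Finset.sum_div]
  exact Finset.sum_le_sum fun b _ => by nlinarith [sq_nonneg (B a b - C a b)]

end Vale.Agent.P049.An
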