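import Vale.Agent.P049.St
import Vale.Agent.P049.Psd

/-! P049: a potential at most one gives the state of both sides.
PLAN.  `side_terms`: every summand of `sidePot` is nonnegative (`cen_eq`, `sW_nonneg`, `sV_nonneg`, `symm_M4_eq`, `inv_chi`,
the `_pos` lemmas of Rat2), hence each is at most the sum; `div_le_one`.  `side_nonneg` likewise.
`st_of_side`: fields of `Side`: `ok` = `Reg.ok`; `T_le`: `symm_T_eq`, main `T ≤ k` (`X_nonneg`, `Real.sq_sqrt`), late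
`T ≤ L^2` (`T_le`, `late_T`; there `tb = L` by `if_neg`); `M4_le`: `symm_M4_eq`, main `L4`, late `symm_M4_le`;
`V_le`, `W_le`, `U_le`: `Real.sq_sqrt`, `Real.abs_le_sqrt`; `Y_le`, `D_le`: `y = (y - τ) + τ`, `y - 1 = (y - τ) - (1 - τ)`,
`(a+b)^2 ≤ 2a^2 + 2b^2`; `ent`: `inv_ent`; `tr`: `inv_tr`. -/

namespace Vale.Agent.P049.An

open Finset Matrix

variable {ι : Type} [Fintype ι] [DecidableEq ι]
variable {q : ℕ} {x μ : ℝ} {k : ℕ} {E : Ex} {s m : ℝ} {B C : Matrix ι ι ℝ}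

private theorem ex_cen (hk : Fintype.card ι = k) (B : Matrix ι ι ℝ) :
    cen x k (sT B) (sY B) = sW (tau x k) B := by
  rw [← cen_eq, hk, cen]

private theorem ex_t3 (q : ℕ) (μ : ℝ) (k : ℕ) (y : ℝ) : 0 ≤ term3 q μ k y := by
  unfold term3
  split_ifs <;> positivity

private theorem ex_pos (h : Reg q x μ k E) (hs : s = 1 ∨ s = -1) (hm0 : 0 ≤ m) (hm : m ^ 2 ≤ 1 / 2)
    (hB : Inv univ s m B) (hC : Inv univ (-s) m C) :
    0 ≤ sU B ^ 2 / nU q x k ∧ 0 ≤ dev x k (sT B) ^ 2 / nD q x k ∧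
    0 ≤ sW (tau x k) B / nW q x k ∧ 0 ≤ sV B / nV q x k ∧ 0 ≤ sM4 B / n4 ℝ q k ∧
    0 ≤ (sChi B C + sT B) / nC q μ k := by
  have hs' : -s = 1 ∨ -s = -1 := by rcases hs with rfl | rfl <;> simp
  refine ⟨div_nonneg (sq_nonneg _) h.nU_pos.le, div_nonneg (sq_nonneg _) h.nD_pos.le,
    div_nonneg (sW_nonneg _ _) h.nW_pos.le, div_nonneg (sV_nonneg _) h.nV_pos.le,
    div_nonneg ?_ h.n4_pos.le, div_nonneg (inv_chi hs' hm0 hm hB.symm hC) h.nC_pos.le⟩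
  rw [symm_M4_eq hB.symm]
  exact sum_nonneg fun _ _ => sum_nonneg fun _ _ => sq_nonneg _

theorem side_nonneg (h : Reg q x μ k E) (hs : s = 1 ∨ s = -1) (hm0 : 0 ≤ m) (hm : m ^ 2 ≤ 1 / 2)
    (hk : Fintype.card ι = k) (hB : Inv univ s m B) (hC : Inv univ (-s) m C) :
    0 ≤ side q x μ k B C := by
  obtain ⟨p1, p2, p3, p4, p5, p6⟩ := ex_pos h hs hm0 hm hB hC
  have p7 := ex_t3 q μ k (sM3 B)
  rw [side, sidePot, ex_cen hk]
  split_ifs <;> linarith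

theorem side_terms (h : Reg q x μ k E) (hs : s = 1 ∨ s = -1) (hm0 : 0 ≤ m) (hm : m ^ 2 ≤ 1 / 2)
    (hk : Fintype.card ι = k) (hB : Inv univ s m B) (hC : Inv univ (-s) m C)
    (h1 : side q x μ k B C ≤ 1) :
    sU B ^ 2 ≤ nU q x k ∧ dev x k (sT B) ^ 2 ≤ nD q x k ∧ sW (tau x k) B ≤ nW q x k ∧
    sV B ≤ nV q x k ∧ (kTwo q ≤ k → sM4 B ≤ n4 ℝ q k) ∧ (kTwo q ≤ k → term3 q μ k (sM3 B) ≤ 1) ∧
    (kOne q ≤ k → sChi B C + sT B ≤ nC q μ k) := by
  obtain ⟨p1, p2, p3, p4, p5, p6⟩ := ex_pos h hs hm0 hm hB hC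
  have p7 := ex_t3 q μ k (sM3 B)
  rw [side, sidePot, ex_cen hk] at h1
  have q1 : 0 ≤ (if kTwo q ≤ k then sM4 B / n4 ℝ q k + term3 q μ k (sM3 B) else 0) := by
    split_ifs <;> linarith
  have q2 : 0 ≤ (if kOne q ≤ k then (sChi B C + sT B) / nC q μ k else 0) := by
    split_ifs <;> linarith
  refine ⟨(div_le_one h.nU_pos).1 (by linarith), (div_le_one h.nD_pos).1 (by linarith),
    (div_le_one h.nW_pos).1 (by linarith), (div_le_one h.nV_pos).1 (by linarith),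
    fun h2 => (div_le_one h.n4_pos).1 ?_, fun h2 => ?_, fun h2 => (div_le_one h.nC_pos).1 ?_⟩
  · rw [if_pos h2] at h1
    linarith
  · rw [if_pos h2] at h1
    linarith
  · rw [if_pos h2] at h1
    linarith

theorem st_of_side (h : Reg q x μ k E) (hs : s = 1 ∨ s = -1) (hm0 : 0 ≤ m) (hm : m ^ 2 ≤ 1 / 2)
    (hk : Fintype.card ι = k) (hB : Inv univ s m B) (hC : Inv univ (-s) m C)
    (h1 : side q x μ k B C ≤ 1) : St q x μ k E s B C := by
  obtain ⟨p1, p2, p3, p4, p5, p6, p7⟩ := side_terms h hs hm0 hm hk hB hC h1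
  have hs' : -s = 1 ∨ -s = -1 := by rcases hs with rfl | rfl <;> simp
  have hk4 : 400 ≤ Fintype.card ι := hk ▸ h.two_le
  have hk0 : (0 : ℝ) ≤ k := Nat.cast_nonneg k
  have ok := h.ok
  have hL0 : 0 ≤ (sPar q x μ k).L := le_trans zero_le_one ok.L_ge
  have hT0 : 0 ≤ sT B := by
    rw [symm_T_eq hB.symm]
    exact sum_nonneg fun _ _ => sum_nonneg fun _ _ => sq_nonneg _
  have hlate : k < kTwo q → sT B ≤ (sPar q x μ k).L ^ 2 := fun h2 =>
    (h.T_le p2).trans (h.late_T h2)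
  have hsh : ∀ τ : ℝ, ∑ c, ((B * B) c c - tau x k + τ) ^ 2 ≤ 2 * nW q x k + 2 * k * τ ^ 2 := by
    intro τ
    have e1 : ∑ c, ((B * B) c c - tau x k + τ) ^ 2
        ≤ ∑ c, (2 * ((B * B) c c - tau x k) ^ 2 + 2 * τ ^ 2) :=
      sum_le_sum fun c _ => by nlinarith [sq_nonneg ((B * B) c c - tau x k - τ)]
    rw [sum_add_distrib, ← mul_sum, sum_const, card_univ, nsmul_eq_mul, hk] at e1
    unfold sW at p3
    linarith
  refine ⟨h, ⟨ok, by rw [hk]; rfl, hs, hB.symm, fun c => hB.row c (mem_univ c), ?_, ?_, ?_, ?_, ?_,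
    ?_, ?_, inv_ent hs hm0 hm hk4 hB⟩, p1, p2, p3, p4, p5, p6, inv_chi hs' hm0 hm hB.symm hC, p7,
    hk ▸ inv_tr hs hm0 hm hk4 hB hC⟩
  · refine ⟨le_trans zero_le_one ok.tb_ge, ?_⟩
    rw [← symm_T_eq hB.symm]
    show sT B ≤ (if kTwo q ≤ k then √k else sL q x k) ^ 2
    split_ifs with h2
    · rw [Real.sq_sqrt hk0]
      linarith [h.X_nonneg p2]
    · exact hlate (not_le.1 h2)
  · refine ⟨by positivity, ?_⟩
    rw [← symm_M4_eq hB.symm]
    by_cases h2 : kTwo q ≤ k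
    · rw [← pow_mul, h.L4 h2]
      exact p5 h2
    · exact (symm_M4_le hB.symm).trans (pow_le_pow_left₀ hT0 (hlate (not_le.1 h2)) 2)
  · exact ⟨Real.sqrt_nonneg _, p4.trans_eq (Real.sq_sqrt h.nV_pos.le).symm⟩
  · refine ⟨Real.sqrt_nonneg _, le_trans ?_ (Real.sq_sqrt ?_).ge⟩
    · simpa only [sub_add_cancel] using hsh (tau x k)
    · have := h.nW_pos
      positivity
  · exact ⟨Real.sqrt_nonneg _, p3.trans_eq (Real.sq_sqrt h.nW_pos.le).symm⟩
  · refine ⟨Real.sqrt_nonneg _, le_trans ?_ (Real.sq_sqrt ?_).ge⟩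
    · have e := hsh (-(1 - tau x k))
      rw [neg_sq] at e
      refine le_trans (le_of_eq (sum_congr rfl fun c _ => ?_)) e
      show R1 B c c ^ 2 = _
      rw [R1_diag]
      ring
    · have := h.nW_pos
      positivity
  · exact Real.abs_le_sqrt p1

end Vale.Agent.P049.An
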