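import Vale.Agent.P049.Rho
import Vale.Agent.P049.Alg2

/-! P049: drift of the third moment (main phase, `ka ≤ L^2`).  `G = L^3 + ps^2 + nu L ps`, `X = k - T`.
PLAN.  `step_M3`.  `av w (rho3/rho) = av v rho3`, `rho3 = -2 s R3 - α d3_b - β d3_a - d_a d2_b - d2_a d_b + 2 r R3 + 2 Q R2`:
linear term `lin_err` (`FR3`, `sumR3`) and `t_matmul` with `R3_eq` (`L^2 * 2 L^2`); four rank one terms
`rank_err` (`V_le, VR3, D_le, VR2`, sums `U, trR3, trR1, trR2`); products by `abs_av_le`, `H1.mul`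
(`tb ≤ vp ≤ eta`, `L^5 ≤ G^2 / L`).  `rho1 rho2 / rho^2` and `rho1^3 / rho^3` by `abs_av_le` with `wr_le`,
`H2_rho1`, `H2_rho2`, `Hs_rho1`, `G1_le` (`G1 ≤ G / L`).  Constants: 54 `eta L G` and 131 `G^2 / L`.
Second moment: put everything over the mask with `Hs_inv` (`H2.mul_sup`), total `H2` norm at most `150 L G`,
and `w ≤ 2 m`. -/

namespace Vale.Agent.P049.An

open Finset Matrix

variable {ι : Type} [Fintype ι] [DecidableEq ι]
variable {P : Par} {s : ℝ} {B : Matrix ι ι ℝ} {m w t : ι → ι → ℝ}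

private lemma step_d (hS : Side P s B) (hW : Wt P s B m w t) {a b : ι} (h0 : m a b ≠ 0) :
    sM3 (step s B a b) - sM3 B = -3 * (rho3 s B a b / rho s B a b)
      + 3 * (rho1 s B a b * rho2 s B a b / rho s B a b ^ 2)
      - rho1 s B a b ^ 3 / rho s B a b ^ 3 := by
  have hg := hW.good a b h0
  have h1 := hg.rho_ge hS
  rw [step_M3 hS.sgn hS.symm hg.ne (by linarith)]
  ring

private lemma av_R3 (hS : Side P s B) (hW : Wt P s B m w t) (h : P.ka ≤ P.L ^ 2) :
    |av (fun a b => w a b / rho s B a b) (R3 B)| ≤ 2 * P.eta * P.L ^ 4 := by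
  have h1 := lin_err hW.devv (hS.FR3 h)
  have h2 := hW.t_matmul hS hS.M4_le (hS.FR1' h)
  have h3 : (fun a b => ∑ x, (B * B) a x * R1 B x b) = R3 B := by
    funext a b
    rw [R3_eq, Matrix.mul_apply (M := B * B)]
  rw [h3] at h2
  rw [hS.sumR3] at h1
  have h4 := abs_le.1 h1
  have h5 := abs_le.1 h2
  unfold Par.eta
  rw [abs_le]
  constructor <;> linarith [h4.1, h4.2, h5.1, h5.2]

private lemma av_rho3 (hS : Side P s B) (hW : Wt P s B m w t) (h : P.ka ≤ P.L ^ 2) :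
    |av (fun a b => w a b / rho s B a b) (rho3 s B)
      - (2 * (P.k - sT B) * (sM3 B - sU B) - 2 * sU B * (sM4 B - sT B))|
      ≤ 12 * (P.eta * P.L * P.G) + 16 * P.L ^ 5 := by
  set v : ι → ι → ℝ := fun a b => w a b / rho s B a b with hv
  have hm := hW.mask
  have e : av v (rho3 s B) = -2 * s * av v (R3 B) + 2 * av v (fun a b => B a b * R3 B a b)
      + 2 * av v (fun a b => R1 B a b * R2 B a b) - av v (fun a b => R1 B a a * R2 B b b)
      - av v (fun a b => R2 B a a * R1 B b b) - av v (fun a b => B a a * R3 B b b)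
      - av v (fun a b => R3 B a a * B b b) := by
    simp only [av, rho3, Finset.mul_sum, ← Finset.sum_add_distrib, ← Finset.sum_sub_distrib]
    refine Finset.sum_congr rfl fun a _ => Finset.sum_congr rfl fun b _ => ?_
    ring
  have h1 := av_R3 hS hW h
  have h2 := abs_av_le (by norm_num) (hW.wr1_le hS)
    (H1.mul hm (hS.T_le.toH2 hm) ((hS.FR3 h).toH2 hm))
  have h3 := abs_av_le (by norm_num) (hW.wr1_le hS)
    (H1.mul hm ((hS.FR1' h).toH2 hm) ((hS.FR2 h).toH2 hm))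
  have h4 := hW.rank_err hW.devv hS.D_le hS.VR2
  have h5 := hW.rank_err hW.devv hS.VR2 hS.D_le
  have h6 := hW.rank_err hW.devv hS.V_le hS.VR3
  have h7 := hW.rank_err hW.devv hS.VR3 hS.V_le
  rw [hS.trR1, trR2] at h4 h5
  rw [trR3, ← sU_eq] at h6 h7
  have h1' : |s * av v (R3 B)| ≤ 2 * P.eta * P.L ^ 4 := by
    rw [abs_mul, hS.abs_s, one_mul]; exact h1
  have hL : 0 ≤ P.L := by linarith [hS.ok.L_ge]
  have he := hW.eta_nonneg hS
  have hte : P.tb ≤ P.eta := by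
    unfold Par.eta; linarith [hS.ok.tb_vp, hS.ok.xi_ge]
  have hps : 0 ≤ P.ps := hS.ok.ka_pos.trans hS.ok.ka_ps
  have hnu : 0 ≤ P.nu := hS.V_le.1
  have b1 : P.tb * P.L ^ 4 ≤ P.eta * P.L ^ 4 := mul_le_mul_of_nonneg_right hte (by positivity)
  have b2 : P.eta * P.L * P.ps * P.up ≤ P.eta * P.L * P.ps * P.ps :=
    mul_le_mul_of_nonneg_left hS.ok.up_ps (by positivity)
  have b3 : 0 ≤ P.eta * P.L * P.ps * P.ps := by positivity
  have b4 : 0 ≤ P.eta * P.nu * P.L ^ 2 * P.ps := by positivity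
  rw [e, abs_le]
  unfold Par.G
  rw [abs_le] at h1' h2 h3 h4 h5 h6 h7
  constructor <;> linarith [h1'.1, h1'.2, h2.1, h2.2, h3.1, h3.2, h4.1, h4.2, h5.1, h5.2, h6.1,
    h6.2, h7.1, h7.2]

theorem dM3_mean (hS : Side P s B) (hW : Wt P s B m w t) (h : P.ka ≤ P.L ^ 2) :
    |av w (fun a b => sM3 (step s B a b) - sM3 B)
      - (6 * sU B * (sM4 B - sT B) - 6 * (P.k - sT B) * (sM3 B - sU B))| ≤ P.e3 := by
  have hm := hW.mask
  have e : av w (fun a b => sM3 (step s B a b) - sM3 B)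
      = -3 * av (fun a b => w a b / rho s B a b) (rho3 s B)
        + 3 * av (fun a b => w a b / rho s B a b ^ 2) (fun a b => rho1 s B a b * rho2 s B a b)
        - av (fun a b => w a b / rho s B a b ^ 3)
          (fun a b => rho1 s B a b * (rho1 s B a b * rho1 s B a b)) := by
    rw [av_congr (fun a b h0 => step_d hS hW (hW.supp h0))]
    simp only [av, Finset.mul_sum, ← Finset.sum_add_distrib, ← Finset.sum_sub_distrib]
    refine Finset.sum_congr rfl fun a _ => Finset.sum_congr rfl fun b _ => ?_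
    ring
  have h1 := av_rho3 hS hW h
  have h2 := abs_av_le (by norm_num) (hW.wr_le hS 2 (by norm_num))
    (H1.mul hm (H2_rho1 hS hW) (H2_rho2 hS hW h))
  have h3 := abs_av_le (by norm_num) (hW.wr_le hS 3 (by norm_num))
    (H1.mul_sup hm (Hs_rho1 hS hW) (H1.mul hm (H2_rho1 hS hW) (H2_rho1 hS hW)))
  have hL : 0 < P.L := by linarith [hS.ok.L_ge]
  have hG := Par.G_nonneg hS
  have hG1 := Par.G1_nonneg hS
  have hG2 := Par.G1_le hS
  have he := hW.eta_nonneg hS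
  have hps : 0 ≤ P.ps := hS.ok.ka_pos.trans hS.ok.ka_ps
  have hnu : 0 ≤ P.nu := hS.V_le.1
  have hG3 : P.L ^ 3 ≤ P.G := by
    unfold Par.G
    have : 0 ≤ P.ps ^ 2 + P.nu * P.L * P.ps := by positivity
    linarith
  have z1 : P.L ^ 5 ≤ P.G ^ 2 / P.L := by
    rw [le_div_iff₀ hL]
    have := pow_le_pow_left₀ (by positivity) hG3 2
    linarith
  have z2 : P.G1 * P.G ≤ P.G ^ 2 / P.L := by
    rw [le_div_iff₀ hL]
    have := mul_le_mul_of_nonneg_right hG2 hG
    linarith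
  have z3 : P.L * P.G1 ^ 2 ≤ P.G ^ 2 / P.L := by
    rw [le_div_iff₀ hL]
    have := pow_le_pow_left₀ (by positivity) hG2 2
    linarith
  have z4 : 0 ≤ P.G ^ 2 / P.L := by positivity
  have z5 : 0 ≤ P.eta * P.L * P.G := by positivity
  rw [e, abs_le]
  unfold Par.e3
  rw [abs_le] at h1 h2 h3
  constructor <;> linarith [h1.1, h1.2, h2.1, h2.2, h3.1, h3.2]

theorem dM3_sq (hS : Side P s B) (hW : Wt P s B m w t) (h : P.ka ≤ P.L ^ 2) :
    av w (fun a b => (sM3 (step s B a b) - sM3 B) ^ 2) ≤ P.e3sq := by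
  have hm := hW.mask
  have hi := hW.Hs_inv hS
  have h1 := ((H2_rho3 hS hW h).mul_sup hm hi).const_mul (-3)
  have h2 := ((H2_rho2 hS hW h).mul_sup hm ((hi.mul hi).mul (Hs_rho1 hS hW))).const_mul 3
  have h3 := (H2_rho1 hS hW).mul_sup hm
    ((((hi.mul hi).mul hi).mul (Hs_rho1 hS hW)).mul (Hs_rho1 hS hW))
  have h4 := (h1.add hm h2).sub hm h3
  have hL : 0 < P.L := by linarith [hS.ok.L_ge]
  have hG := Par.G_nonneg hS
  have hG2 := mul_le_mul_of_nonneg_left (Par.G1_le hS) hL.le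
  have hLG : 0 ≤ P.L * P.G := by positivity
  have h5 : H2 m (fun a b => sM3 (step s B a b) - sM3 B) (150 * (P.L * P.G)) := by
    refine (h4.of_abs_le hm fun a b h0 => le_of_eq ?_).mono ?_
    · rw [step_d hS hW h0]
      congr 1
      ring
    · rw [abs_neg, abs_of_pos (by norm_num : (0 : ℝ) < 3)]
      linarith
  have hw : ∀ a b, |w a b| ≤ 2 * m a b := fun a b => by
    simpa using hW.wr_le hS 0 (by norm_num) a b
  have h6 := av_sq_le (by norm_num) hw h5
  unfold Par.e3sq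
  have h7 : 0 ≤ P.L ^ 2 * P.G ^ 2 := by positivity
  linarith

theorem drift_M3 (hS : Side P s B) (hW : Wt P s B m w t) (h : P.ka ≤ P.L ^ 2) (c : ℝ) :
    av w (fun a b => (sM3 (step s B a b) - c) ^ 2)
      ≤ tot w * (sM3 B - c) ^ 2 - 12 * (P.k - sT B) * (sM3 B - c) * sM3 B
        + 2 * |sM3 B - c| * (18 * P.u * P.L ^ 4 + P.e3) + P.e3sq := by
  have e : (fun a b => (sM3 (step s B a b) - c) ^ 2)
      = fun a b => ((sM3 B - c) + (sM3 (step s B a b) - sM3 B)) ^ 2 := by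
    funext a b; ring
  rw [e, av_shift_sq]
  have h1 := dM3_mean hS hW h
  have h2 := dM3_sq hS hW h
  have hk : P.k ≤ P.L ^ 4 := by
    have := pow_le_pow_left₀ hS.ok.ka_pos h 2
    rw [hS.ok.ka_sq] at this
    linarith
  have h3 : |sM4 B - 2 * sT B + P.k| ≤ 3 * P.L ^ 4 := by
    rw [abs_le]
    constructor <;> linarith [hS.M4_nonneg, hS.M4_le', hS.T_nonneg, hS.T_le_k]
  have h4 : |sU B * (sM4 B - 2 * sT B + P.k)| ≤ P.u * (3 * P.L ^ 4) := by
    rw [abs_mul]
    exact mul_le_mul hS.U_le h3 (abs_nonneg _) hS.ok.u_ge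
  have h5 : |av w (fun a b => sM3 (step s B a b) - sM3 B) + 6 * (P.k - sT B) * sM3 B|
      ≤ 18 * P.u * P.L ^ 4 + P.e3 := by
    rw [abs_le] at h1 h4 ⊢
    constructor <;> linarith [h1.1, h1.2, h4.1, h4.2]
  have h6 : (sM3 B - c) * (av w (fun a b => sM3 (step s B a b) - sM3 B)
      + 6 * (P.k - sT B) * sM3 B) ≤ |sM3 B - c| * (18 * P.u * P.L ^ 4 + P.e3) := by
    refine (le_abs_self _).trans ?_
    rw [abs_mul]
    exact mul_le_mul_of_nonneg_left h5 (abs_nonneg _)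
  linarith

end Vale.Agent.P049.An
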