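import Vale.Agent.P049.Rho
import Vale.Agent.P049.Alg2

/-! P049: drift of the fourth moment (main phase, `ka ≤ L^2`).  `X = k - T ≥ 0` by `T_le_k`.
PLAN.  `step_M4`.  `-2 tot w ≤ 0`.  `rho4 = -2 s R4 - α d4_b - β d4_a - d_a d3_b - d3_a d_b - d2_a d2_b
+ 2 r R4 + 2 Q R3 + R2^2`: linear term `lin_err` (`FR4`, `sumR4`) and `t_matmul` with `R4_eq`
(`L^2 * 2 L^3`); five rank one terms `rank_err` with main part
`-(2 U trR4 + 2 (T-k)(M4-T) + (M3-U)^2)`; times `-4` this is at most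
`16 u L^5 + 8 k^2 + 8 M3^2 + 8 u^2` (`trR4`, `-8 X M4 ≤ 0`).  Products by `abs_av_le`, `H1.mul`,
`H2_rho1/2/3`, `Hs_rho1`, `G1_le`: constants `64 + 131 + 149 + 396 + 133` times `G^2`, and
`4 (4 + 15 + 8)` times `eta L^2 G`. -/

namespace Vale.Agent.P049.An

open Finset Matrix

variable {ι : Type} [Fintype ι] [DecidableEq ι]
variable {P : Par} {s : ℝ} {B : Matrix ι ι ℝ} {m w t : ι → ι → ℝ}

private theorem G_parts (hS : Side P s B) :
    P.L ^ 3 ≤ P.G ∧ P.ps ^ 2 ≤ P.G ∧ P.nu * P.L * P.ps ≤ P.G := by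
  have hL : 0 ≤ P.L := zero_le_one.trans hS.ok.L_ge
  have hps : 0 ≤ P.ps := hS.ok.ka_pos.trans hS.ok.ka_ps
  have h1 : 0 ≤ P.L ^ 3 := by positivity
  have h2 : 0 ≤ P.ps ^ 2 := by positivity
  have h3 : 0 ≤ P.nu * P.L * P.ps := mul_nonneg (mul_nonneg hS.V_le.1 hL) hps
  unfold Par.G
  exact ⟨by linarith, by linarith, by linarith⟩

private theorem lin4 (hS : Side P s B) (hW : Wt P s B m w t) (h : P.ka ≤ P.L ^ 2) :
    |av (fun a b => w a b / rho s B a b) (R4 B)| ≤ 2 * (P.eta * P.L ^ 2 * P.G) := by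
  have h1 := lin_err hW.devv (hS.FR4 h)
  have h2 := hW.t_matmul hS hS.M4_le (hS.FR2 h)
  have e : av t (fun a b => ∑ x, (B * B) a x * R2 B x b) = av t (R4 B) := by
    rw [R4_eq]; rfl
  rw [e] at h2
  rw [hS.sumR4, sub_zero] at h1
  have h3 : |av (fun a b => w a b / rho s B a b) (R4 B)|
      ≤ |av (fun a b => w a b / rho s B a b) (R4 B) + av t (R4 B)| + |av t (R4 B)| := by
    simpa using abs_sub (av (fun a b => w a b / rho s B a b) (R4 B) + av t (R4 B)) (av t (R4 B))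
  have h4 : P.eta * P.L ^ 2 * P.L ^ 3 ≤ P.eta * P.L ^ 2 * P.G :=
    mul_le_mul_of_nonneg_left (G_parts hS).1 (mul_nonneg (hW.eta_nonneg hS) (sq_nonneg _))
  have h5 : P.vp * (2 * P.L ^ 5) + P.xi * P.L ^ 2 * (2 * P.L ^ 3)
      = 2 * (P.eta * P.L ^ 2 * P.L ^ 3) := by
    unfold Par.eta; ring
  linarith

private theorem av_rho4 (hS : Side P s B) (hW : Wt P s B m w t) (h : P.ka ≤ P.L ^ 2) :
    -4 * av (fun a b => w a b / rho s B a b) (rho4 s B)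
      ≤ 8 * sM3 B ^ 2 + 132 * (P.eta * P.L ^ 2 * P.G) + 96 * P.G ^ 2 + 16 * (P.u * P.L ^ 5)
        + 8 * P.k ^ 2 + 8 * P.u ^ 2 := by
  obtain ⟨v, hv⟩ : ∃ v : ι → ι → ℝ, v = fun a b => w a b / rho s B a b := ⟨_, rfl⟩
  have hdev : F2 (fun a b => v a b - 1 + t a b) P.vp := hv ▸ hW.devv
  have hvm : ∀ a b, |v a b| ≤ 2 * m a b := hv ▸ hW.wr1_le hS
  have h1 : |av v (R4 B)| ≤ 2 * (P.eta * P.L ^ 2 * P.G) := hv ▸ lin4 hS hW h
  rw [← hv]
  have hm := hW.mask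
  have e : av v (rho4 s B) = -2 * s * av v (R4 B) + 2 * av v (fun a b => B a b * R4 B a b)
      + 2 * av v (fun a b => R1 B a b * R3 B a b) + av v (fun a b => R2 B a b * R2 B a b)
      - av v (fun a b => R2 B a a * R2 B b b) - av v (fun a b => R1 B a a * R3 B b b)
      - av v (fun a b => R3 B a a * R1 B b b) - av v (fun a b => B a a * R4 B b b)
      - av v (fun a b => R4 B a a * B b b) := by
    simp only [av, mul_sum, ← sum_add_distrib, ← sum_sub_distrib]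
    exact sum_congr rfl fun a _ => sum_congr rfl fun b _ => by unfold rho4; ring
  have h2 := abs_av_le zero_le_two hvm (H1.mul hm (hS.T_le.toH2 hm) ((hS.FR4 h).toH2 hm))
  have h3 := abs_av_le zero_le_two hvm (H1.mul hm ((hS.FR1' h).toH2 hm) ((hS.FR3 h).toH2 hm))
  have h4 := abs_av_le zero_le_two hvm (H1.mul hm ((hS.FR2 h).toH2 hm) ((hS.FR2 h).toH2 hm))
  have h5 := hW.rank_err hdev hS.VR2 hS.VR2
  have h6 := hW.rank_err hdev hS.D_le hS.VR3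
  have h7 := hW.rank_err hdev hS.VR3 hS.D_le
  have h8 := hW.rank_err hdev hS.V_le hS.VR4
  have h9 := hW.rank_err hdev hS.VR4 hS.V_le
  simp only [trR2, trR3, hS.trR1, ← sU_eq] at h5 h6 h7 h8 h9
  obtain ⟨g1, g2, g3⟩ := G_parts hS
  have hL : 0 ≤ P.L := zero_le_one.trans hS.ok.L_ge
  have hps : 0 ≤ P.ps := hS.ok.ka_pos.trans hS.ok.ka_ps
  have hE : 0 ≤ P.eta * P.L ^ 2 := mul_nonneg (hW.eta_nonneg hS) (sq_nonneg _)
  have k1 : P.eta * P.L ^ 2 * P.L ^ 3 ≤ P.eta * P.L ^ 2 * P.G := mul_le_mul_of_nonneg_left g1 hE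
  have k2 : P.eta * P.L ^ 2 * P.ps ^ 2 ≤ P.eta * P.L ^ 2 * P.G := mul_le_mul_of_nonneg_left g2 hE
  have k3 : P.eta * P.L ^ 2 * (P.nu * P.L * P.ps) ≤ P.eta * P.L ^ 2 * P.G :=
    mul_le_mul_of_nonneg_left g3 hE
  have k4 : P.eta * P.L ^ 2 * P.ps * P.up ≤ P.eta * P.L ^ 2 * P.ps * P.ps :=
    mul_le_mul_of_nonneg_left hS.ok.up_ps (mul_nonneg hE hps)
  have k5 : P.tb * P.L ^ 5 ≤ P.eta * P.L ^ 5 := by
    refine mul_le_mul_of_nonneg_right ?_ (by positivity)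
    have := hS.ok.tb_vp
    have := hS.ok.xi_ge
    unfold Par.eta
    linarith
  have k6 : (P.L ^ 3) ^ 2 ≤ P.G ^ 2 := pow_le_pow_left₀ (by positivity) g1 2
  have k7 : |s * av v (R4 B)| ≤ 2 * (P.eta * P.L ^ 2 * P.G) := by
    rw [abs_mul, hS.abs_s, one_mul]; exact h1
  have k8 : |sU B * ∑ a, R4 B a a| ≤ P.u * (2 * P.L ^ 5) := by
    rw [abs_mul]
    exact mul_le_mul hS.U_le (hS.trR4 h) (abs_nonneg _) hS.ok.u_ge
  have k9 : sU B ^ 2 ≤ P.u ^ 2 := sq_le_sq' (abs_le.1 hS.U_le).1 (abs_le.1 hS.U_le).2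
  have k10 : (sT B - P.k) * (sM4 B - sT B) ≤ P.k ^ 2 := by
    have t0 := hS.T_nonneg
    have t1 := hS.T_le_k
    have t2 := mul_nonneg (sub_nonneg.2 t1) hS.M4_nonneg
    nlinarith
  have k11 : (sM3 B - sU B) * (sM3 B - sU B) ≤ 2 * sM3 B ^ 2 + 2 * sU B ^ 2 := by
    nlinarith [sq_nonneg (sM3 B + sU B)]
  rw [← sU_eq (R4 B)] at k8
  rw [abs_le] at h2 h3 h4 h5 h6 h7 h8 h9 k7 k8
  rw [e]
  linarith [h2.1, h3.1, h4.1, h5.2, h6.2, h7.2, h8.2, h9.2, k7.2, k8.2]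

theorem drift_M4 (hS : Side P s B) (hW : Wt P s B m w t) (h : P.ka ≤ P.L ^ 2) :
    av w (fun a b => sM4 (step s B a b)) ≤ tot w * sM4 B + 8 * sM3 B ^ 2 + P.e4 := by
  have hm := hW.mask
  have e : av w (fun a b => sM4 (step s B a b)) = tot w * (sM4 B - 2)
      - 4 * av (fun a b => w a b / rho s B a b) (rho4 s B)
      + av (fun a b => w a b / rho s B a b ^ 2)
          (fun a b => 4 * (rho1 s B a b * rho3 s B a b) + 2 * (rho2 s B a b * rho2 s B a b))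
      - 4 * av (fun a b => w a b / rho s B a b ^ 3)
          (fun a b => rho1 s B a b * rho1 s B a b * rho2 s B a b)
      + av (fun a b => w a b / rho s B a b ^ 4)
          (fun a b => rho1 s B a b * rho1 s B a b * (rho1 s B a b * rho1 s B a b)) := by
    simp only [← av_div_eq, ← av_const, ← av_const_mul, ← av_add, ← av_sub]
    refine av_congr fun a b h0 => ?_
    have hg := hW.good a b (hW.supp h0)
    have hr : rho s B a b ≠ 0 := (lt_of_lt_of_le (by norm_num) (hg.rho_ge hS)).ne'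
    rw [step_M4 hS.sgn hS.symm hg.ne hr]
    ring
  have h11 := H2.mul_sup hm (Hs_rho1 hS hW) (H2_rho1 hS hW)
  have h1 := av_rho4 hS hW h
  have h2 := abs_av_le zero_le_two (hW.wr_le hS 2 (by norm_num))
    (H1.add hm ((H1.mul hm (H2_rho1 hS hW) (H2_rho3 hS hW h)).const_mul 4)
      ((H1.mul hm (H2_rho2 hS hW h) (H2_rho2 hS hW h)).const_mul 2))
  have h3 := abs_av_le zero_le_two (hW.wr_le hS 3 (by norm_num))
    (H1.mul hm h11 (H2_rho2 hS hW h))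
  have h4 := abs_av_le zero_le_two (hW.wr_le hS 4 (by norm_num)) (H1.mul hm h11 h11)
  have hL : 0 ≤ P.L := zero_le_one.trans hS.ok.L_ge
  have hG := Par.G_nonneg hS
  have k1 : P.L * P.G1 * P.G ≤ P.G * P.G := mul_le_mul_of_nonneg_right (Par.G1_le hS) hG
  have k2 : (P.L * P.G1) ^ 2 ≤ P.G ^ 2 :=
    pow_le_pow_left₀ (mul_nonneg hL (Par.G1_nonneg hS)) (Par.G1_le hS) 2
  have k3 : 0 ≤ tot w := sum_nonneg fun a _ => sum_nonneg fun b _ => hW.w_nonneg hS a b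
  have k4 : 0 ≤ P.eta * P.L ^ 2 * P.G :=
    mul_nonneg (mul_nonneg (hW.eta_nonneg hS) (sq_nonneg _)) hG
  have k5 : 0 ≤ P.u * P.L ^ 5 := mul_nonneg hS.ok.u_ge (by positivity)
  rw [abs_of_pos (four_pos (α := ℝ)), abs_two] at h2
  rw [abs_le] at h2 h3 h4
  rw [e]
  unfold Par.e4
  linarith [h2.2, h3.1, h4.2, sq_nonneg P.G, sq_nonneg P.k, sq_nonneg P.u]

end Vale.Agent.P049.An
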