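import Vale.Agent.P049.Sch0

/-! P049: numerical verification of the error budgets, part U, M3, M4.
PLAN.  Purely mechanical (all margins were checked by a script, each is at least 1/2 in the exponent).
For every monomial `y` of the error expression prove `y ≤ z / 10 ^ 12` where `z` is the budget, by
`Ub.small h.big (Ub.mul h.big h.uvp (h.uL.pow h.big 2)) (Lb.mul ...) (by
  rcases h.cs with c | c | c | c | c | c <;> obtain ⟨c1, c2, c3, c4, c5, c6, c7, c8, c9, c10, c11, c12, c13⟩ := c <;>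
  simp only [Ex.wb, Ex.yb, Ex.up, Ex.sg] <;> push_cast <;> linarith [h.A_lo, h.A_hi, h.M_lo, h.M_hi, h.K_lo, h.K_hi])`
(use `h.main`, `h.late`, `h.one`, `h.wn` instead of `h.cs` when the regime is restricted).  If the budget is
`th * v^2 * k` and the monomial contains a factor `v`, cancel that factor first (upper and lower exponents of
`v` differ).  Then unfold the error expression and finish with `nlinarith` / `linarith`.
Squares of the square roots: `Real.sq_sqrt` (`u^2 = nU`, `L^4 = n4` when `kTwo q ≤ k`).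
For `G = L^3 + ps^2 + nu L ps` use `G ≤ ..` monomial by monomial and `G^2 ≤ 3 (L^6 + ps^4 + nu^2 L^2 ps^2)`. -/

namespace Vale.Agent.P049.An

variable {q : ℕ} {x μ : ℝ} {k : ℕ} {E : Ex}

private theorem ey (E : Ex) : E.yb = (25 + E.K + E.t1) / 2 + 1 / 10 := rfl
private theorem eu (E : Ex) : E.up = (25 + E.K + 2 * E.t2) / 2 + 1 / 10 := rfl
private theorem es (E : Ex) : E.sg = -1 + E.A + 3 / 2 * E.t1 := rfl

private theorem uA0 (h : Reg q x μ k E) :
    (sPar q x μ k).vp * (sPar q x μ k).L ^ 2 ≤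
      ((sPar q x μ k).th * (sPar q x μ k).u * k) / 10 ^ 12 := by
  have b := h.big
  refine Ub.small b (h.uvp.mul b (h.uL.pow b 2)) ((h.lth.mul b h.lu).mul b h.lk) ?_
  try push_cast
  rcases h.cs with c | c | c | c | c | c <;>
    obtain ⟨c1, c2, c3, c4, c5, c6, c7, c8, c9, c10, c11, c12, c13⟩ := c <;>
    linarith [h.A_lo, h.A_hi, h.M_lo, h.M_hi, h.K_lo, h.K_hi, ey E, eu E, es E]

private theorem uA1 (h : Reg q x μ k E) :
    (sPar q x μ k).vp * (sPar q x μ k).ka ≤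
      ((sPar q x μ k).th * (sPar q x μ k).u * k) / 10 ^ 12 := by
  have b := h.big
  refine Ub.small b (h.uvp.mul b h.uka) ((h.lth.mul b h.lu).mul b h.lk) ?_
  try push_cast
  rcases h.cs with c | c | c | c | c | c <;>
    obtain ⟨c1, c2, c3, c4, c5, c6, c7, c8, c9, c10, c11, c12, c13⟩ := c <;>
    linarith [h.A_lo, h.A_hi, h.M_lo, h.M_hi, h.K_lo, h.K_hi, ey E, eu E, es E]

private theorem uA2 (h : Reg q x μ k E) :
    (sPar q x μ k).eta * (sPar q x μ k).nu * (sPar q x μ k).up ≤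
      ((sPar q x μ k).th * (sPar q x μ k).u * k) / 10 ^ 12 := by
  have b := h.big
  refine Ub.small b ((h.ueta.mul b h.unu).mul b h.uup) ((h.lth.mul b h.lu).mul b h.lk) ?_
  try push_cast
  rcases h.cs with c | c | c | c | c | c <;>
    obtain ⟨c1, c2, c3, c4, c5, c6, c7, c8, c9, c10, c11, c12, c13⟩ := c <;>
    linarith [h.A_lo, h.A_hi, h.M_lo, h.M_hi, h.K_lo, h.K_hi, ey E, eu E, es E]

private theorem uA3 (h : Reg q x μ k E) :
    (sPar q x μ k).tb * (sPar q x μ k).L ^ 2 ≤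
      ((sPar q x μ k).th * (sPar q x μ k).u * k) / 10 ^ 12 := by
  have b := h.big
  refine Ub.small b (h.utb.mul b (h.uL.pow b 2)) ((h.lth.mul b h.lu).mul b h.lk) ?_
  try push_cast
  rcases h.cs with c | c | c | c | c | c <;>
    obtain ⟨c1, c2, c3, c4, c5, c6, c7, c8, c9, c10, c11, c12, c13⟩ := c <;>
    linarith [h.A_lo, h.A_hi, h.M_lo, h.M_hi, h.K_lo, h.K_hi, ey E, eu E, es E]

private theorem uB0 (h : Reg q x μ k E) :
    (sPar q x μ k).L ^ 4 ≤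
      ((sPar q x μ k).th * (sPar q x μ k).u ^ 2 * k) / 10 ^ 12 := by
  have b := h.big
  refine Ub.small b (h.uL.pow b 4) ((h.lth.mul b (h.lu.pow b 2)).mul b h.lk) ?_
  try push_cast
  rcases h.cs with c | c | c | c | c | c <;>
    obtain ⟨c1, c2, c3, c4, c5, c6, c7, c8, c9, c10, c11, c12, c13⟩ := c <;>
    linarith [h.A_lo, h.A_hi, h.M_lo, h.M_hi, h.K_lo, h.K_hi, ey E, eu E, es E]

private theorem uB1 (h : Reg q x μ k E) :
    (sPar q x μ k).nu ^ 2 * (sPar q x μ k).up ^ 2 ≤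
      ((sPar q x μ k).th * (sPar q x μ k).u ^ 2 * k) / 10 ^ 12 := by
  have b := h.big
  refine Ub.small b ((h.unu.pow b 2).mul b (h.uup.pow b 2)) ((h.lth.mul b (h.lu.pow b 2)).mul b h.lk) ?_
  try push_cast
  rcases h.cs with c | c | c | c | c | c <;>
    obtain ⟨c1, c2, c3, c4, c5, c6, c7, c8, c9, c10, c11, c12, c13⟩ := c <;>
    linarith [h.A_lo, h.A_hi, h.M_lo, h.M_hi, h.K_lo, h.K_hi, ey E, eu E, es E]

private theorem tA0 (h : Reg q x μ k E) (hk : kTwo q ≤ k) :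
    (sPar q x μ k).u * (sPar q x μ k).L ^ 4 ≤
      ((sPar q x μ k).th * μ * k) / 10 ^ 12 := by
  have b := h.big
  refine Ub.small b (h.uu.mul b (h.uL.pow b 4)) ((h.lth.mul b h.lm).mul b h.lk) ?_
  try push_cast
  rcases h.main hk with c | c | c | c <;>
    obtain ⟨c1, c2, c3, c4, c5, c6, c7, c8, c9, c10, c11, c12, c13⟩ := c <;>
    linarith [h.A_lo, h.A_hi, h.M_lo, h.M_hi, h.K_lo, h.K_hi, ey E, eu E, es E]

private theorem tA1 (h : Reg q x μ k E) (hk : kTwo q ≤ k) :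
    (sPar q x μ k).eta * (sPar q x μ k).L ^ 4 ≤
      ((sPar q x μ k).th * μ * k) / 10 ^ 12 := by
  have b := h.big
  refine Ub.small b (h.ueta.mul b (h.uL.pow b 4)) ((h.lth.mul b h.lm).mul b h.lk) ?_
  try push_cast
  rcases h.main hk with c | c | c | c <;>
    obtain ⟨c1, c2, c3, c4, c5, c6, c7, c8, c9, c10, c11, c12, c13⟩ := c <;>
    linarith [h.A_lo, h.A_hi, h.M_lo, h.M_hi, h.K_lo, h.K_hi, ey E, eu E, es E]

private theorem tA2 (h : Reg q x μ k E) (hk : kTwo q ≤ k) :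
    (sPar q x μ k).eta * (sPar q x μ k).L * (sPar q x μ k).ps ^ 2 ≤
      ((sPar q x μ k).th * μ * k) / 10 ^ 12 := by
  have b := h.big
  refine Ub.small b ((h.ueta.mul b h.uL).mul b (h.ups.pow b 2)) ((h.lth.mul b h.lm).mul b h.lk) ?_
  try push_cast
  rcases h.main hk with c | c | c | c <;>
    obtain ⟨c1, c2, c3, c4, c5, c6, c7, c8, c9, c10, c11, c12, c13⟩ := c <;>
    linarith [h.A_lo, h.A_hi, h.M_lo, h.M_hi, h.K_lo, h.K_hi, ey E, eu E, es E]

private theorem tA3 (h : Reg q x μ k E) (hk : kTwo q ≤ k) :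
    (sPar q x μ k).eta * (sPar q x μ k).nu * (sPar q x μ k).L ^ 2 * (sPar q x μ k).ps ≤
      ((sPar q x μ k).th * μ * k) / 10 ^ 12 := by
  have b := h.big
  refine Ub.small b (((h.ueta.mul b h.unu).mul b (h.uL.pow b 2)).mul b h.ups) ((h.lth.mul b h.lm).mul b h.lk) ?_
  try push_cast
  rcases h.main hk with c | c | c | c <;>
    obtain ⟨c1, c2, c3, c4, c5, c6, c7, c8, c9, c10, c11, c12, c13⟩ := c <;>
    linarith [h.A_lo, h.A_hi, h.M_lo, h.M_hi, h.K_lo, h.K_hi, ey E, eu E, es E]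

private theorem tB0 (h : Reg q x μ k E) (hk : kTwo q ≤ k) :
    (sPar q x μ k).L ^ 6 ≤
      ((sPar q x μ k).th * μ * k * (sPar q x μ k).L) / 10 ^ 12 := by
  have b := h.big
  refine Ub.small b (h.uL.pow b 6) (((h.lth.mul b h.lm).mul b h.lk).mul b h.lL) ?_
  try push_cast
  rcases h.main hk with c | c | c | c <;>
    obtain ⟨c1, c2, c3, c4, c5, c6, c7, c8, c9, c10, c11, c12, c13⟩ := c <;>
    linarith [h.A_lo, h.A_hi, h.M_lo, h.M_hi, h.K_lo, h.K_hi, ey E, eu E, es E]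

private theorem tB1 (h : Reg q x μ k E) (hk : kTwo q ≤ k) :
    (sPar q x μ k).ps ^ 4 ≤
      ((sPar q x μ k).th * μ * k * (sPar q x μ k).L) / 10 ^ 12 := by
  have b := h.big
  refine Ub.small b (h.ups.pow b 4) (((h.lth.mul b h.lm).mul b h.lk).mul b h.lL) ?_
  try push_cast
  rcases h.main hk with c | c | c | c <;>
    obtain ⟨c1, c2, c3, c4, c5, c6, c7, c8, c9, c10, c11, c12, c13⟩ := c <;>
    linarith [h.A_lo, h.A_hi, h.M_lo, h.M_hi, h.K_lo, h.K_hi, ey E, eu E, es E]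

private theorem tB2 (h : Reg q x μ k E) (hk : kTwo q ≤ k) :
    (sPar q x μ k).nu ^ 2 * (sPar q x μ k).L ^ 2 * (sPar q x μ k).ps ^ 2 ≤
      ((sPar q x μ k).th * μ * k * (sPar q x μ k).L) / 10 ^ 12 := by
  have b := h.big
  refine Ub.small b (((h.unu.pow b 2).mul b (h.uL.pow b 2)).mul b (h.ups.pow b 2)) (((h.lth.mul b h.lm).mul b h.lk).mul b h.lL) ?_
  try push_cast
  rcases h.main hk with c | c | c | c <;>
    obtain ⟨c1, c2, c3, c4, c5, c6, c7, c8, c9, c10, c11, c12, c13⟩ := c <;>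
    linarith [h.A_lo, h.A_hi, h.M_lo, h.M_hi, h.K_lo, h.K_hi, ey E, eu E, es E]

private theorem tC0 (h : Reg q x μ k E) (hk : kTwo q ≤ k) :
    (sPar q x μ k).L ^ 8 ≤
      ((sPar q x μ k).th * μ ^ 2 * k) / 10 ^ 12 := by
  have b := h.big
  refine Ub.small b (h.uL.pow b 8) ((h.lth.mul b (h.lm.pow b 2)).mul b h.lk) ?_
  try push_cast
  rcases h.main hk with c | c | c | c <;>
    obtain ⟨c1, c2, c3, c4, c5, c6, c7, c8, c9, c10, c11, c12, c13⟩ := c <;>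
    linarith [h.A_lo, h.A_hi, h.M_lo, h.M_hi, h.K_lo, h.K_hi, ey E, eu E, es E]

private theorem tC1 (h : Reg q x μ k E) (hk : kTwo q ≤ k) :
    (sPar q x μ k).L ^ 2 * (sPar q x μ k).ps ^ 4 ≤
      ((sPar q x μ k).th * μ ^ 2 * k) / 10 ^ 12 := by
  have b := h.big
  refine Ub.small b ((h.uL.pow b 2).mul b (h.ups.pow b 4)) ((h.lth.mul b (h.lm.pow b 2)).mul b h.lk) ?_
  try push_cast
  rcases h.main hk with c | c | c | c <;>
    obtain ⟨c1, c2, c3, c4, c5, c6, c7, c8, c9, c10, c11, c12, c13⟩ := c <;>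
    linarith [h.A_lo, h.A_hi, h.M_lo, h.M_hi, h.K_lo, h.K_hi, ey E, eu E, es E]

private theorem tC2 (h : Reg q x μ k E) (hk : kTwo q ≤ k) :
    (sPar q x μ k).nu ^ 2 * (sPar q x μ k).L ^ 4 * (sPar q x μ k).ps ^ 2 ≤
      ((sPar q x μ k).th * μ ^ 2 * k) / 10 ^ 12 := by
  have b := h.big
  refine Ub.small b (((h.unu.pow b 2).mul b (h.uL.pow b 4)).mul b (h.ups.pow b 2)) ((h.lth.mul b (h.lm.pow b 2)).mul b h.lk) ?_
  try push_cast
  rcases h.main hk with c | c | c | c <;>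
    obtain ⟨c1, c2, c3, c4, c5, c6, c7, c8, c9, c10, c11, c12, c13⟩ := c <;>
    linarith [h.A_lo, h.A_hi, h.M_lo, h.M_hi, h.K_lo, h.K_hi, ey E, eu E, es E]

private theorem fA0 (h : Reg q x μ k E) (hk : kTwo q ≤ k) :
    μ ^ 2 ≤
      ((sPar q x μ k).th * (sPar q x μ k).L ^ 4 * k) / 10 ^ 12 := by
  have b := h.big
  refine Ub.small b (h.um.pow b 2) ((h.lth.mul b (h.lL.pow b 4)).mul b h.lk) ?_
  try push_cast
  rcases h.main hk with c | c | c | c <;>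
    obtain ⟨c1, c2, c3, c4, c5, c6, c7, c8, c9, c10, c11, c12, c13⟩ := c <;>
    linarith [h.A_lo, h.A_hi, h.M_lo, h.M_hi, h.K_lo, h.K_hi, ey E, eu E, es E]

private theorem fA1 (h : Reg q x μ k E) (hk : kTwo q ≤ k) :
    (sPar q x μ k).eta * (sPar q x μ k).L ^ 5 ≤
      ((sPar q x μ k).th * (sPar q x μ k).L ^ 4 * k) / 10 ^ 12 := by
  have b := h.big
  refine Ub.small b (h.ueta.mul b (h.uL.pow b 5)) ((h.lth.mul b (h.lL.pow b 4)).mul b h.lk) ?_
  try push_cast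
  rcases h.main hk with c | c | c | c <;>
    obtain ⟨c1, c2, c3, c4, c5, c6, c7, c8, c9, c10, c11, c12, c13⟩ := c <;>
    linarith [h.A_lo, h.A_hi, h.M_lo, h.M_hi, h.K_lo, h.K_hi, ey E, eu E, es E]

private theorem fA2 (h : Reg q x μ k E) (hk : kTwo q ≤ k) :
    (sPar q x μ k).eta * (sPar q x μ k).L ^ 2 * (sPar q x μ k).ps ^ 2 ≤
      ((sPar q x μ k).th * (sPar q x μ k).L ^ 4 * k) / 10 ^ 12 := by
  have b := h.big
  refine Ub.small b ((h.ueta.mul b (h.uL.pow b 2)).mul b (h.ups.pow b 2)) ((h.lth.mul b (h.lL.pow b 4)).mul b h.lk) ?_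
  try push_cast
  rcases h.main hk with c | c | c | c <;>
    obtain ⟨c1, c2, c3, c4, c5, c6, c7, c8, c9, c10, c11, c12, c13⟩ := c <;>
    linarith [h.A_lo, h.A_hi, h.M_lo, h.M_hi, h.K_lo, h.K_hi, ey E, eu E, es E]

private theorem fA3 (h : Reg q x μ k E) (hk : kTwo q ≤ k) :
    (sPar q x μ k).eta * (sPar q x μ k).nu * (sPar q x μ k).L ^ 3 * (sPar q x μ k).ps ≤
      ((sPar q x μ k).th * (sPar q x μ k).L ^ 4 * k) / 10 ^ 12 := by
  have b := h.big
  refine Ub.small b (((h.ueta.mul b h.unu).mul b (h.uL.pow b 3)).mul b h.ups) ((h.lth.mul b (h.lL.pow b 4)).mul b h.lk) ?_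
  try push_cast
  rcases h.main hk with c | c | c | c <;>
    obtain ⟨c1, c2, c3, c4, c5, c6, c7, c8, c9, c10, c11, c12, c13⟩ := c <;>
    linarith [h.A_lo, h.A_hi, h.M_lo, h.M_hi, h.K_lo, h.K_hi, ey E, eu E, es E]

private theorem fA4 (h : Reg q x μ k E) (hk : kTwo q ≤ k) :
    (sPar q x μ k).L ^ 6 ≤
      ((sPar q x μ k).th * (sPar q x μ k).L ^ 4 * k) / 10 ^ 12 := by
  have b := h.big
  refine Ub.small b (h.uL.pow b 6) ((h.lth.mul b (h.lL.pow b 4)).mul b h.lk) ?_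
  try push_cast
  rcases h.main hk with c | c | c | c <;>
    obtain ⟨c1, c2, c3, c4, c5, c6, c7, c8, c9, c10, c11, c12, c13⟩ := c <;>
    linarith [h.A_lo, h.A_hi, h.M_lo, h.M_hi, h.K_lo, h.K_hi, ey E, eu E, es E]

private theorem fA5 (h : Reg q x μ k E) (hk : kTwo q ≤ k) :
    (sPar q x μ k).ps ^ 4 ≤
      ((sPar q x μ k).th * (sPar q x μ k).L ^ 4 * k) / 10 ^ 12 := by
  have b := h.big
  refine Ub.small b (h.ups.pow b 4) ((h.lth.mul b (h.lL.pow b 4)).mul b h.lk) ?_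
  try push_cast
  rcases h.main hk with c | c | c | c <;>
    obtain ⟨c1, c2, c3, c4, c5, c6, c7, c8, c9, c10, c11, c12, c13⟩ := c <;>
    linarith [h.A_lo, h.A_hi, h.M_lo, h.M_hi, h.K_lo, h.K_hi, ey E, eu E, es E]

private theorem fA6 (h : Reg q x μ k E) (hk : kTwo q ≤ k) :
    (sPar q x μ k).nu ^ 2 * (sPar q x μ k).L ^ 2 * (sPar q x μ k).ps ^ 2 ≤
      ((sPar q x μ k).th * (sPar q x μ k).L ^ 4 * k) / 10 ^ 12 := by
  have b := h.big
  refine Ub.small b (((h.unu.pow b 2).mul b (h.uL.pow b 2)).mul b (h.ups.pow b 2)) ((h.lth.mul b (h.lL.pow b 4)).mul b h.lk) ?_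
  try push_cast
  rcases h.main hk with c | c | c | c <;>
    obtain ⟨c1, c2, c3, c4, c5, c6, c7, c8, c9, c10, c11, c12, c13⟩ := c <;>
    linarith [h.A_lo, h.A_hi, h.M_lo, h.M_hi, h.K_lo, h.K_hi, ey E, eu E, es E]

private theorem fA7 (h : Reg q x μ k E) (hk : kTwo q ≤ k) :
    (sPar q x μ k).u * (sPar q x μ k).L ^ 5 ≤
      ((sPar q x μ k).th * (sPar q x μ k).L ^ 4 * k) / 10 ^ 12 := by
  have b := h.big
  refine Ub.small b (h.uu.mul b (h.uL.pow b 5)) ((h.lth.mul b (h.lL.pow b 4)).mul b h.lk) ?_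
  try push_cast
  rcases h.main hk with c | c | c | c <;>
    obtain ⟨c1, c2, c3, c4, c5, c6, c7, c8, c9, c10, c11, c12, c13⟩ := c <;>
    linarith [h.A_lo, h.A_hi, h.M_lo, h.M_hi, h.K_lo, h.K_hi, ey E, eu E, es E]

private theorem fA8 (h : Reg q x μ k E) (hk : kTwo q ≤ k) :
    (k : ℝ) ^ 2 ≤
      ((sPar q x μ k).th * (sPar q x μ k).L ^ 4 * k) / 10 ^ 12 := by
  have b := h.big
  refine Ub.small b (h.uk.pow b 2) ((h.lth.mul b (h.lL.pow b 4)).mul b h.lk) ?_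
  try push_cast
  rcases h.main hk with c | c | c | c <;>
    obtain ⟨c1, c2, c3, c4, c5, c6, c7, c8, c9, c10, c11, c12, c13⟩ := c <;>
    linarith [h.A_lo, h.A_hi, h.M_lo, h.M_hi, h.K_lo, h.K_hi, ey E, eu E, es E]

private theorem fA9 (h : Reg q x μ k E) (hk : kTwo q ≤ k) :
    (sPar q x μ k).u ^ 2 ≤
      ((sPar q x μ k).th * (sPar q x μ k).L ^ 4 * k) / 10 ^ 12 := by
  have b := h.big
  refine Ub.small b (h.uu.pow b 2) ((h.lth.mul b (h.lL.pow b 4)).mul b h.lk) ?_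
  try push_cast
  rcases h.main hk with c | c | c | c <;>
    obtain ⟨c1, c2, c3, c4, c5, c6, c7, c8, c9, c10, c11, c12, c13⟩ := c <;>
    linarith [h.A_lo, h.A_hi, h.M_lo, h.M_hi, h.K_lo, h.K_hi, ey E, eu E, es E]

private theorem G_sq (P : Par) :
    P.G ^ 2 ≤ 3 * (P.L ^ 6 + P.ps ^ 4 + P.nu ^ 2 * P.L ^ 2 * P.ps ^ 2) := by
  unfold Par.G
  nlinarith [sq_nonneg (P.L ^ 3 - P.ps ^ 2), sq_nonneg (P.L ^ 3 - P.nu * P.L * P.ps),
    sq_nonneg (P.ps ^ 2 - P.nu * P.L * P.ps)]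

theorem Reg.bud_U (h : Reg q x μ k E) :
    2 * (sPar q x μ k).u * (sPar q x μ k).eU + (sPar q x μ k).eU2 ≤ 1 / q * nU q x k * k := by
  have b := h.big
  have hs : 0 < (sPar q x μ k).u := h.lu.pos b
  have h0 : nU q x k = (sPar q x μ k).u ^ 2 := (Real.sq_sqrt (Real.sqrt_pos.1 hs).le).symm
  have h1 : (1 : ℝ) / q = (sPar q x μ k).th := rfl
  have hz : 0 < (sPar q x μ k).th * (sPar q x μ k).u * k :=
    ((h.lth.mul b h.lu).mul b h.lk).pos b
  have h2 : (sPar q x μ k).eU ≤ (sPar q x μ k).th * (sPar q x μ k).u * k / 4 := by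
    unfold Par.eU
    linarith [uA0 h, uA1 h, uA2 h, uA3 h]
  have h3 := mul_le_mul_of_nonneg_left h2 hs.le
  have h4 := mul_pos hz hs
  rw [h0, h1]
  unfold Par.eU2
  linarith [uB0 h, uB1 h]

theorem Reg.bud_3 (h : Reg q x μ k E) (hk : kTwo q ≤ k) :
    40 * μ * (18 * (sPar q x μ k).u * (sPar q x μ k).L ^ 4 + (sPar q x μ k).e3)
      + (sPar q x μ k).e3sq ≤ 1 / q * μ ^ 2 * k / 8 := by
  have b := h.big
  have hs : 0 < μ := h.lm.pos b
  have hL : 0 < (sPar q x μ k).L := h.lL.pos b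
  have h1 : (1 : ℝ) / q = (sPar q x μ k).th := rfl
  have hz : 0 < (sPar q x μ k).th * μ * k := ((h.lth.mul b h.lm).mul b h.lk).pos b
  have hG := G_sq (sPar q x μ k)
  have h5 : (sPar q x μ k).G ^ 2 / (sPar q x μ k).L ≤ (sPar q x μ k).th * μ * k / 10 ^ 10 := by
    rw [div_le_iff₀ hL]
    linarith [tB0 h hk, tB1 h hk, tB2 h hk, mul_pos hz hL]
  have h2 : 18 * (sPar q x μ k).u * (sPar q x μ k).L ^ 4 + (sPar q x μ k).e3 ≤
      (sPar q x μ k).th * μ * k / 1000 := by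
    unfold Par.e3
    generalize (sPar q x μ k).G ^ 2 / (sPar q x μ k).L = y at h5
    unfold Par.G
    linarith [tA0 h hk, tA1 h hk, tA2 h hk, tA3 h hk]
  have h3 := mul_le_mul_of_nonneg_left h2 hs.le
  have h4 := mul_pos hz hs
  have h6 := mul_le_mul_of_nonneg_left hG (sq_nonneg (sPar q x μ k).L)
  rw [h1]
  unfold Par.e3sq
  linarith [tC0 h hk, tC1 h hk, tC2 h hk]

theorem Reg.bud_4 (h : Reg q x μ k E) (hk : kTwo q ≤ k) :
    8 * (20 * μ) ^ 2 + (sPar q x μ k).e4 ≤ 1 / q * n4 ℝ q k * k := by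
  have b := h.big
  have h0 : n4 ℝ q k = (sPar q x μ k).L ^ 4 := by
    have h1 : 0 ≤ n4 ℝ q k := by unfold n4; positivity
    change _ = sL q x k ^ (2 * 2)
    rw [sL, if_pos hk, pow_mul, Real.sq_sqrt (Real.sqrt_nonneg _), Real.sq_sqrt h1]
  have h1 : (1 : ℝ) / q = (sPar q x μ k).th := rfl
  have hz : 0 < (sPar q x μ k).th * (sPar q x μ k).L ^ 4 * k :=
    ((h.lth.mul b (h.lL.pow b 4)).mul b h.lk).pos b
  have hG := G_sq (sPar q x μ k)
  have h5 : (sPar q x μ k).k = k := rfl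
  rw [h0, h1]
  unfold Par.e4
  rw [h5]
  generalize (sPar q x μ k).G ^ 2 = y at hG
  unfold Par.G
  linarith [fA0 h hk, fA1 h hk, fA2 h hk, fA3 h hk, fA4 h hk, fA5 h hk, fA6 h hk, fA7 h hk, fA8 h hk, fA9 h hk]

end Vale.Agent.P049.An
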