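import Vale.Agent.P049.St
import Vale.Agent.P049.D3
import Vale.Agent.P049.D4
import Vale.Agent.P049.SchU

/-! P049: scalar step for the terms `M4 / n4` and `term3`.
General: `θ = 1 / q`, `A = tot w`, `τ = tau x k`, `X = k - T`.  Pull the constant denominator out with `av_div`,
apply `gen` (Rat1) with `κ = k`, `hA := h.tot_err hW`, and the `_step` lemma of Rat2 for `hN'`.  The fields of
`sPar q x μ k` unfold by `rfl` / `show` (`.k = k`, `.th = 1 / q`, `.ta = tau x k`).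
PLAN `M3_abs`: both branches of `term3 ≤ 1` give `|M3| ≤ 20 μ`.  `sc_4`: `drift_M4` (`main_L`), `M3_abs`, `bud_4`,
`ρ = 0`, `n4_step`, `c = 1`.  `sc_3a`: `drift_M3` with `c = μ`; `|M3 - μ| ≤ μ / 2`;
`-12 X (M3 - μ) M3 = -12 X (M3-μ)^2 - 12 X (M3 - μ) μ ≤ 6 X μ^2 ≤ 12 x μ^2 ≤ (12/200) θ k μ^2` (`X_nonneg`, `X_le`, `one_x`),
`bud_3`; `gen` with `N = N' = (μ/2)^2`, `ρ = 0`, `c = 1`.  `sc_3b`: `drift_M3` with `c = 0`, `N = N' = (20 μ)^2`.
`sc_M`: if `¬ kTwo q ≤ k - 2` the left side is `0` and the right side nonnegative (`M4_nonneg`).  Otherwise `av_add`, `sc_4` and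
three cases: `kOne q ≤ k - 2` (`sc_3a`), `k < kOne q` (`sc_3b`), and the jump `k - 2 < kOne q ≤ k`, where pointwise
`M'^2 / (20 μ)^2 ≤ 1/200 + (M' - μ)^2 / (μ/2)^2` (`av_mono`, `av_add`, `av_const`, `sc_3a`). -/

namespace Vale.Agent.P049.An

open Finset Matrix

variable {ι : Type} [Fintype ι] [DecidableEq ι]
variable {q : ℕ} {x μ : ℝ} {k : ℕ} {E : Ex} {s : ℝ} {B C : Matrix ι ι ℝ} {m w t : ι → ι → ℝ}

private theorem abs_of_div {y c : ℝ} (hc : 0 < c) (h : y ^ 2 / c ^ 2 ≤ 1) : |y| ≤ c := by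
  rw [div_le_one (by positivity)] at h
  exact abs_le_of_sq_le_sq' h hc.le |> abs_le.2

theorem St.M3_abs (h : St q x μ k E s B C) (hk : kTwo q ≤ k) : |sM3 B| ≤ 20 * μ := by
  have h3 := h.h3 hk
  have hμ := h.reg.mu_pos
  unfold term3 at h3
  split_ifs at h3
  · have := abs_le.1 (abs_of_div (by positivity) h3)
    exact abs_le.2 ⟨by linarith [this.1], by linarith [this.2]⟩
  · exact abs_of_div (by positivity) h3

theorem St.M3_near (h : St q x μ k E s B C) (hk : kOne q ≤ k) : |sM3 B - μ| ≤ μ / 2 := by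
  have h3 := h.h3 (by have := h.reg.phase; omega)
  have hμ := h.reg.mu_pos
  unfold term3 at h3
  rw [if_pos hk] at h3
  exact abs_of_div (by positivity) h3

private theorem sq_le_of_abs {y c : ℝ} (h : |y| ≤ c) : y ^ 2 ≤ c ^ 2 := by
  rw [← sq_abs y]
  exact pow_le_pow_left₀ (abs_nonneg y) h 2

theorem sc_4 (h : St q x μ k E s B C) (hW : Wt (sPar q x μ k) s B m w t) (hk : kTwo q ≤ k) :
    av w (fun a b => sM4 (step s B a b) / n4 ℝ q (k - 2))
      ≤ tot w * (sM4 B / n4 ℝ q k + 700 * (1 / q) / k) := by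
  rw [av_div]
  have hθ := h.reg.th_le
  refine gen (ρ := 0) (c := 1) h.side.M4_nonneg (h.h4 hk) h.reg.n4_pos h.k_ge
    (by norm_num) (by rw [zero_div, sub_zero, mul_one]; exact h.reg.n4_step) hθ.1 hθ.2
    (h.tot_err hW) (by norm_num) (by norm_num) ?_
  have h1 := drift_M4 h.side hW (h.reg.main_L hk)
  have h2 := sq_le_of_abs (h.M3_abs hk)
  have h3 := h.reg.bud_4 hk
  linarith

private theorem St.R_nonneg (h : St q x μ k E s B C) (hW : Wt (sPar q x μ k) s B m w t)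
    (hk : kTwo q ≤ k) :
    0 ≤ 18 * (sPar q x μ k).u * (sPar q x μ k).L ^ 4 + (sPar q x μ k).e3 := by
  have h1 := le_trans (abs_nonneg _) (dM3_mean h.side hW (h.reg.main_L hk))
  have h2 := h.side.ok.u_ge
  positivity

private theorem sc3a_ar {A M μ X y θ κ R e S : ℝ} (hμ : 0 < μ) (hM : |M - μ| ≤ μ / 2) (hX0 : 0 ≤ X)
    (hX : X ≤ 2 * y) (hy : 200 * y ≤ θ * κ) (hR : 0 ≤ R) (he : 40 * μ * R + e ≤ θ * μ ^ 2 * κ / 8)
    (hS : S ≤ A * (M - μ) ^ 2 - 12 * X * (M - μ) * M + 2 * |M - μ| * R + e) :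
    S ≤ A * (M - μ) ^ 2 - 0 * κ * (M - μ) ^ 2 + 1 * (θ * (μ / 2) ^ 2 * κ) := by
  have h1 : 2 * |M - μ| * R ≤ 40 * μ * R := mul_le_mul_of_nonneg_right (by linarith) hR
  have h2 : -((M - μ) * M) ≤ μ ^ 2 / 2 := by
    have := (abs_le.1 hM).1
    nlinarith [sq_nonneg (M - μ)]
  have h3 : X * -((M - μ) * M) ≤ X * (μ ^ 2 / 2) := mul_le_mul_of_nonneg_left h2 hX0
  have h4 : X * (μ ^ 2 / 2) ≤ θ * κ / 100 * (μ ^ 2 / 2) :=
    mul_le_mul_of_nonneg_right (by linarith) (by positivity)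
  have h5 : 0 ≤ θ * κ * μ ^ 2 := mul_nonneg (by linarith) (by positivity)
  nlinarith

theorem sc_3a (h : St q x μ k E s B C) (hW : Wt (sPar q x μ k) s B m w t) (hk : kOne q ≤ k) :
    av w (fun a b => (sM3 (step s B a b) - μ) ^ 2 / (μ / 2) ^ 2)
      ≤ tot w * ((sM3 B - μ) ^ 2 / (μ / 2) ^ 2 + 700 * (1 / q) / k) := by
  rw [av_div]
  have hθ := h.reg.th_le
  have hμ := h.reg.mu_pos
  have hk2 : kTwo q ≤ k := by have := h.reg.phase; omega
  refine gen (ρ := 0) (c := 1) (sq_nonneg _) (sq_le_of_abs (h.M3_near hk)) (by positivity) h.k_ge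
    (by norm_num) (by rw [zero_div, sub_zero, mul_one]) hθ.1 hθ.2
    (h.tot_err hW) (by norm_num) (by norm_num) ?_
  exact sc3a_ar hμ (h.M3_near hk) (h.reg.X_nonneg h.hD) (h.reg.X_le h.hD) (h.reg.one_x hk).1
    (h.R_nonneg hW hk2) (h.reg.bud_3 hk2) (drift_M3 h.side hW (h.reg.main_L hk2) μ)

private theorem sc3b_ar {A M μ X θ κ R e S : ℝ} (hM : |M| ≤ 20 * μ) (hX0 : 0 ≤ X)
    (hθ : 0 ≤ θ * κ) (hR : 0 ≤ R) (he : 40 * μ * R + e ≤ θ * μ ^ 2 * κ / 8)
    (hS : S ≤ A * (M - 0) ^ 2 - 12 * X * (M - 0) * M + 2 * |M - 0| * R + e) :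
    S ≤ A * M ^ 2 - 0 * κ * M ^ 2 + 1 * (θ * (20 * μ) ^ 2 * κ) := by
  rw [sub_zero] at hS
  have h1 : 2 * |M| * R ≤ 40 * μ * R := mul_le_mul_of_nonneg_right (by linarith) hR
  have h2 : 0 ≤ X * (M * M) := mul_nonneg hX0 (mul_self_nonneg M)
  have h5 : 0 ≤ θ * κ * μ ^ 2 := mul_nonneg hθ (by positivity)
  nlinarith

theorem sc_3b (h : St q x μ k E s B C) (hW : Wt (sPar q x μ k) s B m w t) (hk : kTwo q ≤ k) :
    av w (fun a b => sM3 (step s B a b) ^ 2 / (20 * μ) ^ 2)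
      ≤ tot w * (sM3 B ^ 2 / (20 * μ) ^ 2 + 700 * (1 / q) / k) := by
  rw [av_div]
  have hθ := h.reg.th_le
  have hμ := h.reg.mu_pos
  refine gen (ρ := 0) (c := 1) (sq_nonneg _) (sq_le_of_abs (h.M3_abs hk)) (by positivity) h.k_ge
    (by norm_num) (by rw [zero_div, sub_zero, mul_one]) hθ.1 hθ.2
    (h.tot_err hW) (by norm_num) (by norm_num) ?_
  have h1 := drift_M3 h.side hW (h.reg.main_L hk) 0
  have h2 : av w (fun a b => sM3 (step s B a b) ^ 2)
      = av w (fun a b => (sM3 (step s B a b) - 0) ^ 2) := by simp only [sub_zero]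
  rw [h2]
  exact sc3b_ar (h.M3_abs hk) (h.reg.X_nonneg h.hD) (mul_nonneg hθ.1.le (Nat.cast_nonneg k))
    (h.R_nonneg hW hk) (h.reg.bud_3 hk) h1

private theorem jump_ar {M μ : ℝ} (hμ : 0 < μ) :
    M ^ 2 / (20 * μ) ^ 2 ≤ 1 / 200 + (M - μ) ^ 2 / (μ / 2) ^ 2 := by
  have h1 : (M - μ) ^ 2 / (μ / 2) ^ 2 = 1600 * (M - μ) ^ 2 / (20 * μ) ^ 2 := by
    field_simp
    ring
  have h2 : (1 : ℝ) / 200 = 2 * μ ^ 2 / (20 * μ) ^ 2 := by
    field_simp
    ring
  rw [h1, h2, ← add_div]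
  refine div_le_div_of_nonneg_right ?_ (by positivity)
  nlinarith [sq_nonneg (M - μ), sq_nonneg (M - 2 * μ)]

theorem sc_M (h : St q x μ k E s B C) (hW : Wt (sPar q x μ k) s B m w t) :
    av w (fun a b => if kTwo q ≤ k - 2 then
        sM4 (step s B a b) / n4 ℝ q (k - 2) + term3 q μ (k - 2) (sM3 (step s B a b)) else 0)
      ≤ tot w * ((if kTwo q ≤ k then sM4 B / n4 ℝ q k + term3 q μ k (sM3 B) else 0)
        + 1400 * (1 / q) / k + if kOne q ≤ k ∧ k < kOne q + 2 then 1 / 100 else 0) := by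
  have hθ := h.reg.th_le
  have hμ := h.reg.mu_pos
  have hk0 : (0 : ℝ) ≤ k := Nat.cast_nonneg k
  have hA := (h.tot_bd hW).1
  have hj : (0 : ℝ) ≤ if kOne q ≤ k ∧ k < kOne q + 2 then 1 / 100 else 0 := by
    split_ifs <;> norm_num
  have e14 : 1400 * (1 / (q : ℝ)) / k = 700 * (1 / q) / k + 700 * (1 / q) / k := by ring
  by_cases h1 : kTwo q ≤ k - 2
  · have hk : kTwo q ≤ k := le_trans h1 (Nat.sub_le k 2)
    simp only [if_pos h1, if_pos hk]
    rw [av_add, e14]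
    have h4 := sc_4 h hW hk
    have hj' := mul_nonneg hA.le hj
    by_cases h2 : kOne q ≤ k - 2
    · have hk1 : kOne q ≤ k := le_trans h2 (Nat.sub_le k 2)
      have h3 := sc_3a h hW hk1
      simp only [term3, if_pos h2, if_pos hk1]
      linarith
    · by_cases hk1 : kOne q ≤ k
      · have h3 := sc_3a h hW hk1
        have h5 : av w (fun a b => sM3 (step s B a b) ^ 2 / (20 * μ) ^ 2)
            ≤ av w (fun a b => 1 / 200 + (sM3 (step s B a b) - μ) ^ 2 / (μ / 2) ^ 2) :=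
          av_mono (hW.w_nonneg h.side) fun a b _ => jump_ar hμ
        rw [av_add, av_const] at h5
        have h6 : kOne q ≤ k ∧ k < kOne q + 2 := ⟨hk1, by omega⟩
        simp only [term3, if_neg h2, if_pos hk1, if_pos h6]
        linarith
      · have h3 := sc_3b h hW hk
        simp only [term3, if_neg h2, if_neg hk1]
        linarith
  · simp only [if_neg h1]
    rw [av_const, mul_zero]
    refine mul_nonneg hA.le (add_nonneg (add_nonneg ?_ ?_) hj)
    · split_ifs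
      · refine add_nonneg (div_nonneg h.side.M4_nonneg h.reg.n4_pos.le) ?_
        unfold term3
        split_ifs <;> positivity
      · exact le_rfl
    · exact div_nonneg (mul_nonneg (by norm_num) hθ.1.le) hk0

end Vale.Agent.P049.An
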