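import Vale.Agent.P049.DC0

/-! P049: mixed statistic, l1 bounds of the remainders.  Pure use of the calculus with `fpp_eq`, `f1p_eq`,
`f1q_eq`, `Hs_inv` (side `C`), `Two.Hs_sr` and the factor bounds of DC0; `1 ≤ L ≤ ka ≤ ps`, `up ≤ ps`.
`H1_dfpp`: `d_b α r` (`H1.mul` of `T` and `F2.rank`), `(d_b a1)(β~ a1)`, `(d_b α~) a2 a2` (sup `ps nu`),
`(d_b a1) a2`.  `H1_bf1p`: `β (R1 C B) a a` (`H1.rank`, `dRCB`), `β d_a r`, `(αβ) Q`, `(β b1)(β~ a1)`,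
`(β α~) b2 a2`, `(β b1) a2`, `b2 (β a1)`.  `H1_f1q`: `b1 a b * a1 b a = (I_a + s Q)(J_b + s r)`; keep
`s I_a J_b`, bound `r~ I_a J_b`, `I_a r`, `Q J_b`, `Q r`; further `d_a β` (`H1.rank`), `(β~ b1) a2`,
`b2 (α~ a1 b a)` (`H2.swap` of `H2_ga1`), `b2 a2`. -/

namespace Vale.Agent.P049.An

open Finset Matrix

variable {ι : Type} [Fintype ι] [DecidableEq ι]
variable {P : Par} {s : ℝ} {B C : Matrix ι ι ℝ} {m w t : ι → ι → ℝ}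

private theorem mon (h : Two P s B C m w t) (j : ℕ) (hj : j ≤ 5) {x : ℝ} (hx0 : 0 ≤ x)
    (hx : x ≤ P.ps * (P.L ^ 4 + P.L ^ 2 * P.ps + P.L * P.ps ^ 2)) : P.nu ^ j * x ≤ P.Xi0 := by
  have h0 := h.sB.V_le.1
  have h1 : P.nu ^ j ≤ (1 + P.nu) ^ 5 :=
    (pow_le_pow_left₀ h0 (by linarith) j).trans (pow_le_pow_right₀ (by linarith) hj)
  unfold Par.Xi0
  rw [mul_assoc]
  exact mul_le_mul h1 hx hx0 (by positivity)

private theorem mons (h : Two P s B C m w t) (j : ℕ) (hj : j ≤ 5) :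
    P.nu ^ j * (P.ps * P.L ^ 4) ≤ P.Xi0 ∧ P.nu ^ j * (P.L ^ 2 * P.ps ^ 2) ≤ P.Xi0 ∧
    P.nu ^ j * (P.L * P.ps ^ 3) ≤ P.Xi0 ∧ P.nu ^ j * P.ps ^ 3 ≤ P.Xi0 ∧
    P.nu ^ j * P.ps ^ 2 ≤ P.Xi0 ∧ P.nu ^ j * P.L ^ 5 ≤ P.Xi0 ∧
    P.nu ^ j * (P.L ^ 3 * P.ps) ≤ P.Xi0 ∧ P.nu ^ j * (P.L ^ 2 * P.ps) ≤ P.Xi0 ∧
    P.nu ^ j * P.L ^ 2 ≤ P.Xi0 ∧ P.nu ^ j * (P.L * P.ps ^ 2) ≤ P.Xi0 := by
  have h1 := h.sB.ok.L_ge
  have h2 : P.L ≤ P.ps := h.sB.ok.L_le.trans h.sB.ok.ka_ps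
  have h3 : 1 ≤ P.ps := h1.trans h2
  have a1 : 0 ≤ P.ps * P.L ^ 4 := by positivity
  have a2 : 0 ≤ P.L ^ 2 * P.ps ^ 2 := by positivity
  have a3 : 0 ≤ P.L * P.ps ^ 3 := by positivity
  have b1 : 1 * P.ps ^ 3 ≤ P.L * P.ps ^ 3 := by gcongr
  have b2 : P.ps ^ 2 ≤ P.ps ^ 3 := pow_le_pow_right₀ h3 (by norm_num)
  have b3 : P.L * P.L ^ 4 ≤ P.ps * P.L ^ 4 := by gcongr
  have b4 : P.L ^ 3 * P.ps ≤ P.L ^ 4 * P.ps := by gcongr; norm_num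
  have b5 : P.L ^ 2 * P.ps ≤ P.L ^ 4 * P.ps := by gcongr; norm_num
  have b6 : P.L ^ 2 * 1 ≤ P.L ^ 2 * P.ps := by gcongr
  have b7 : P.L * P.ps ^ 2 ≤ P.L * P.ps ^ 3 := by gcongr
  refine ⟨?_, ?_, ?_, ?_, ?_, ?_, ?_, ?_, ?_, ?_⟩ <;>
    exact mon h j hj (by positivity) (by linarith)

omit [DecidableEq ι] in
private theorem rk (hm : Mask m) {p q : ι → ℝ} {c d : ℝ} (h1 : V2 p c) (h2 : V2 q d) :
    H2 m (fun a b => p a * q b) (c * d) := (F2.rank h1 h2).toH2 hm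

private theorem hsS (hS : Side P s B) : Hs m (fun _ _ => s) 1 :=
  ⟨zero_le_one, fun _ _ _ => hS.abs_s.le⟩

private theorem vD (hS : Side P s B) : V2 (fun c => R1 B c c) P.ps := hS.D_le.mono hS.ok.up_ps

private theorem vO (hS : Side P s B) : V2 (fun _ : ι => (1 : ℝ)) P.ps := hS.one.mono hS.ok.ka_ps

private theorem hT (hS : Side P s B) (hm : Mask m) : H2 m B P.ps :=
  (hS.FB.mono hS.ok.ka_ps).toH2 hm

private theorem sA (hS : Side P s B) {p : ι → ℝ} {c : ℝ} (hp : V2 p c) : ∑ a, |p a| ≤ P.ps * c :=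
  (V2.sum_abs hS.card hS.ok.ka_pos hS.ok.ka_sq hp).trans
    (mul_le_mul_of_nonneg_right hS.ok.ka_ps hp.1)

theorem H1_dfpp (h : Two P s B C m w t) :
    H1 m (fun a b => R1 B b b * (fpp s B C a b - (B * C * B) a a)) (30 * P.Xi0) := by
  have hm := h.wB.mask
  have t1 := (H1.mul_sup hm (hsS h.sB) (H1.mul hm (rk hm h.sB.V_le (vD h.sB)) (hT h.sB hm))).const_mul 2
  have t2 := H1.mul hm (h.H2_ga1 (vD h.sB)) (h.H2_ga1 h.sC.V_le)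
  have t3 := H1.mul_sup hm ((Hs.left (m := m) h.sC.V_le).mul (Hs.right (vD h.sB)))
    (H1.mul hm (h.H2_a2.swap hm) (h.H2_a2.swap hm))
  have t4 := (H1.mul_sup hm h.Hs_sr (H1.mul hm (h.H2_ga1 (vD h.sB)) (h.H2_a2.swap hm))).const_mul 2
  have t5 := t1.add hm (H1.mul_sup hm (h.wC.Hs_inv h.sC) ((t2.add hm t3).sub hm t4))
  refine (t5.of_abs_le hm fun a b hab => le_of_eq ?_).mono ?_
  · rw [h.fpp_eq hab]
    congr 1
    ring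
  · have m0 := mons h 0 (by norm_num)
    have m1 := mons h 1 (by norm_num)
    have m2 := mons h 2 (by norm_num)
    have m3 := mons h 3 (by norm_num)
    have := h.Xi0_le.1
    rw [abs_two]
    linarith [m1.1, m1.2.2.2.1, m1.2.2.2.2.1, m2.2.1, m3.2.2.2.1, m0.2.1]

theorem H1_bf1p (h : Two P s B C m w t) :
    H1 m (fun a b => B b b * f1p s B C a b) (50 * P.Xi0) := by
  have hm := h.wB.mask
  have t0 := H1.rank hm h.dRCB (sA h.sB h.sB.V_le)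
  have t1 := H1.mul hm (rk hm (vD h.sB) h.sB.V_le) (hT h.sB hm)
  have t1' := H1.mul hm (rk hm h.sB.V_le h.sB.V_le) (h.sB.M4_le.toH2 hm)
  have t2 := H1.mul hm (h.H2_gb1 h.sB.V_le) (h.H2_ga1 h.sC.V_le)
  have t3 := H1.mul_sup hm ((Hs.left (m := m) h.sC.V_le).mul (Hs.right h.sB.V_le))
    (H1.mul hm h.H2_b2 (h.H2_a2.swap hm))
  have t4 := H1.mul hm (h.H2_gb1 h.sB.V_le) (h.H2_a2.swap hm)
  have t4' := H1.mul hm h.H2_b2 (h.H2_ga1 h.sB.V_le)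
  have t5 := (t0.add hm (H1.mul_sup hm (hsS h.sB) (t1.add hm t1'))).add hm
    (H1.mul_sup hm (h.wC.Hs_inv h.sC) ((t2.add hm t3).sub hm (H1.mul_sup hm h.Hs_sr (t4.add hm t4'))))
  refine (t5.of_abs_le hm fun a b hab => le_of_eq ?_).mono ?_
  · rw [h.f1p_eq hab]
    congr 1
    ring
  · obtain ⟨a1, a2, a3, a4, a5, a6, a7, a8, a9, a10⟩ := mons h 1 (by norm_num)
    obtain ⟨b1, b2, b3, b4, b5, b6, b7, b8, b9, b10⟩ := mons h 2 (by norm_num)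
    obtain ⟨c1, c2, c3, c4, c5, c6, c7, c8, c9, c10⟩ := mons h 3 (by norm_num)
    have := h.Xi0_le.1
    linarith

theorem H1_f1q (h : Two P s B C m w t) :
    H1 m (fun a b => f1q s B C a b - (R1 B * C * B) a b
      + s * ((C * R1 B) a a * (C * B) b b) / rho (-s) C a b) (50 * P.Xi0) := by
  have hm := h.wB.mask
  have r1 : H2 m (fun a b => R1 B b a) (P.L ^ 2) :=
    (h.sB.M4_le.toH2 hm).of_abs_le hm fun a b hab => by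
      rw [R1_off B (h.wB.good a b hab).ne.symm, h.sB.Q_sym]
  have t0 := H1.rank hm (sA h.sB (vD h.sB)) (sA h.sB h.sB.V_le)
  have t1 := H1.mul hm (h.sB.M4_le.toH2 hm) (hT h.sB hm)
  have t2 := H1.mul hm (h.H2_gb1 h.sC.V_le) h.H2_a2
  have t3 := H1.mul hm h.H2_b2 ((h.H2_ga1 h.sC.V_le).swap hm)
  have t4 := H1.mul hm (hT h.sC hm) (rk hm h.VI h.VJ)
  have u1 := H1.mul hm (rk hm h.VI (vO h.sB)) (hT h.sB hm)
  have u2 := H1.mul hm r1 (rk hm (vO h.sB) h.VJ)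
  have u3 := H1.mul_sup hm (hsS h.sB) (H1.mul hm r1 (hT h.sB hm))
  have u4 := H1.mul hm h.H2_b2 h.H2_a2
  have t5 := (H1.mul_sup hm (hsS h.sB) (t0.add hm t1)).add hm
    (H1.mul_sup hm (h.wC.Hs_inv h.sC) (((t2.add hm t3).sub hm t4).sub hm (H1.mul_sup hm h.Hs_sr
      ((H1.mul_sup hm (hsS h.sB) ((u1.add hm u2).add hm u3)).add hm u4))))
  refine (t5.of_abs_le hm fun a b hab => le_of_eq ?_).mono ?_
  · rw [h.f1q_eq hab]
    congr 1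
    unfold a1 b1
    ring
  · obtain ⟨a1, a2, a3, a4, a5, a6, a7, a8, a9, a10⟩ := mons h 0 (by norm_num)
    obtain ⟨b1, b2, b3, b4, b5, b6, b7, b8, b9, b10⟩ := mons h 1 (by norm_num)
    obtain ⟨c1, c2, c3, c4, c5, c6, c7, c8, c9, c10⟩ := mons h 2 (by norm_num)
    have := h.Xi0_le.1
    linarith

end Vale.Agent.P049.An
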