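import Vale.Agent.P049.DU

/-! P049: drift of the Frobenius mass `T`.
PLAN.  `rhoT_mean`: `av_div_eq`, `v = w / rho`.  Rank one terms `y_a * 1`, `1 * y_b`, `y_a y_b`, `α (B^3)_bb`,
`β (B^3)_aa`, `αβ` by `rank_err` (`Y_le`, `one`, `V_le`, `VB3`; main parts `kT, kT, T^2, U M3, U M3, U^2`, with
`M3_le`, `U_le`); the linear term `-2 s (B^3)_ab` by `lin_err` (`FB3`, `sumB3`) and `t_matmul` with
`B * B * B = B * (B * B)` (`T_le`, `M4_le`); the terms `2 r (B^3)_ab`, `r^2`, `Q^2` by `abs_av_le`.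
`dT_sq`: `(T' - T)^2 ≤ 2 (4 rhoT^2/rho^2 + e1^4)`, `H2_rhoT` is too crude by a constant only:
`GT^2 ≤ 6 (sum of squares)`, `8 * 2 * 3.02^2 * 6 ≤ 900`, plus `2 * e1_four`.
`drift_D`: `step_T`, `av_shift_sq`, `(c + dT)^2 ≤ 2 c^2 + 2 dT^2`. -/

namespace Vale.Agent.P049.An

open Finset Matrix

variable {ι : Type} [Fintype ι] [DecidableEq ι]
variable {P : Par} {s : ℝ} {B : Matrix ι ι ℝ} {m w t : ι → ι → ℝ}

private theorem dT_step (hS : Side P s B) (hW : Wt P s B m w t) {a b : ι} (h : w a b ≠ 0) :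
    sT (step s B a b) - sT B
      = -2 * (rhoT s B a b / rho s B a b) + (rho1 s B a b / rho s B a b) ^ 2 := by
  have hg := hW.good a b (hW.supp h)
  have hρ : rho s B a b ≠ 0 := by
    have := hg.rho_ge hS
    intro h0
    rw [h0] at this
    norm_num at this
  rw [step_T hS.sgn hS.symm hg.ne hρ]
  ring

private theorem dT_e2_nonneg (hS : Side P s B) (hW : Wt P s B m w t) :
    0 ≤ av w (fun a b => (rho1 s B a b / rho s B a b) ^ 2) :=
  Finset.sum_nonneg fun a _ => Finset.sum_nonneg fun b _ =>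
    mul_nonneg (hW.w_nonneg hS a b) (sq_nonneg _)

private theorem dT_mean (hS : Side P s B) (hW : Wt P s B m w t) :
    av w (fun a b => sT (step s B a b) - sT B)
      = -2 * av w (fun a b => rhoT s B a b / rho s B a b)
        + av w (fun a b => (rho1 s B a b / rho s B a b) ^ 2) := by
  rw [av_congr (fun a b h => dT_step hS hW h), av_add, av_const_mul]

theorem rhoT_mean (hS : Side P s B) (hW : Wt P s B m w t) :
    |av w (fun a b => rhoT s B a b / rho s B a b) - (2 * P.k * sT B - sT B ^ 2 - 2 * P.k)|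
      ≤ P.eT := by
  rw [av_div_eq]
  obtain ⟨v, hv⟩ : ∃ v : ι → ι → ℝ, v = fun a b => w a b / rho s B a b := ⟨_, rfl⟩
  have hd : F2 (fun a b => v a b - 1 + t a b) P.vp := by rw [hv]; exact hW.devv
  have hvm : ∀ a b, |v a b| ≤ 2 * m a b := fun a b => by rw [hv]; exact hW.wr1_le hS a b
  rw [← hv]
  have hk : ∑ _a : ι, (1 : ℝ) = P.k := by simp [hS.card]
  have e0 : av v (rhoT s B) =
      av v (fun a _ => (B * B) a a * 1) + av v (fun _ b => 1 * (B * B) b b)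
      - av v (fun a b => (B * B) a a * (B * B) b b)
      - 2 * s * av v (fun a b => (B * B * B) a b)
      + 2 * av v (fun a b => B a b * (B * B * B) a b)
      - av v (fun a b => B a a * (B * B * B) b b)
      - av v (fun a b => (B * B * B) a a * B b b)
      + av v (fun a b => B a a * B b b) - av v (fun a b => B a b * B a b)
      + av v (fun a b => (B * B) a b * (B * B) a b) := by
    simp only [av, Finset.mul_sum, ← Finset.sum_add_distrib, ← Finset.sum_sub_distrib]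
    refine Finset.sum_congr rfl fun a _ => Finset.sum_congr rfl fun b _ => ?_
    rw [rhoT]
    ring
  have r1 := hW.rank_err hd hS.Y_le hS.one
  have r2 := hW.rank_err hd hS.one hS.Y_le
  have r3 := hW.rank_err hd hS.Y_le hS.Y_le
  have r4 := hW.rank_err hd hS.V_le hS.VB3
  have r5 := hW.rank_err hd hS.VB3 hS.V_le
  have r6 := hW.rank_err hd hS.V_le hS.V_le
  rw [← hS.T_eq_y, hk] at r1 r2
  rw [← hS.T_eq_y] at r3
  rw [← sM3_eq, ← sU_eq B] at r4 r5
  rw [← sU_eq] at r6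
  have l1 := lin_err hd hS.FB3
  rw [hS.sumB3] at l1
  have l2 : |av t (fun a b => (B * B * B) a b)| ≤ P.xi * P.tb * P.L ^ 2 := by
    have := hW.t_matmul hS hS.T_le hS.M4_le
    rw [Matrix.mul_assoc]
    exact this
  have a1 := abs_av_le (by norm_num : (0 : ℝ) ≤ 2) hvm
    (H1.mul hW.mask (hS.T_le.toH2 hW.mask) (hS.FB3.toH2 hW.mask))
  have a2 := abs_av_le (by norm_num : (0 : ℝ) ≤ 2) hvm
    (H1.mul hW.mask (hS.T_le.toH2 hW.mask) (hS.T_le.toH2 hW.mask))
  have a3 := abs_av_le (by norm_num : (0 : ℝ) ≤ 2) hvm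
    (H1.mul hW.mask (hS.M4_le.toH2 hW.mask) (hS.M4_le.toH2 hW.mask))
  have hu := hS.ok.u_ge
  have m1 : |sU B * sM3 B| ≤ P.u * (P.tb * P.L ^ 2) := by
    rw [abs_mul]
    exact mul_le_mul hS.U_le hS.M3_le (abs_nonneg _) hu
  have m2 : |sU B * sU B| ≤ P.u * P.u := by
    rw [abs_mul]
    exact mul_le_mul hS.U_le hS.U_le (abs_nonneg _) hu
  have l3 : |s * av v (fun a b => (B * B * B) a b) - P.k|
      ≤ P.vp * P.L ^ 3 + P.xi * P.tb * P.L ^ 2 := by
    have e : s * av v (fun a b => (B * B * B) a b) - P.k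
        = s * ((av v (B * B * B) - s * P.k + av t (B * B * B))
          - av t (fun a b => (B * B * B) a b)) := by
      have := hS.sq
      change s * av v (B * B * B) - P.k = s * ((av v (B * B * B) - s * P.k + av t (B * B * B))
          - av t (B * B * B))
      linear_combination (-P.k) * this + 2 * P.k * this
    rw [e, abs_mul, hS.abs_s, one_mul]
    exact (abs_sub _ _).trans (add_le_add l1 l2)
  have hη := hW.eta_nonneg hS
  have hvp := hW.vp_nonneg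
  have hxi := hS.ok.xi_ge
  have hka := hS.ok.ka_pos
  have hyb := hS.Y_le.1
  have hnu := hS.V_le.1
  have htb := hS.T_le.1
  have hL : 0 ≤ P.L := le_trans zero_le_one hS.ok.L_ge
  have p1 : 0 ≤ P.eta * P.ka * P.yb := by positivity
  have p2 : 0 ≤ P.eta * P.yb ^ 2 := by positivity
  have p3 : 0 ≤ P.vp * P.L ^ 3 := by positivity
  have p4 : 0 ≤ P.xi * P.tb * P.L ^ 2 := by positivity
  have p5 : 0 ≤ P.u * P.tb * P.L ^ 2 := by positivity
  have p6 : 0 ≤ P.eta * P.nu * P.L * P.yb := by positivity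
  have p7 : 0 ≤ P.u ^ 2 := by positivity
  have p8 : 0 ≤ P.eta * P.nu ^ 2 := by positivity
  have p9 : 0 ≤ P.tb ^ 2 := by positivity
  have p10 : 0 ≤ P.tb * P.L ^ 3 := by positivity
  have p11 : 0 ≤ P.L ^ 4 := by positivity
  rw [abs_le] at r1 r2 r3 r4 r5 r6 a1 a2 a3 m1 m2 l3 ⊢
  rw [e0, Par.eT]
  constructor
  · linarith [r1.1, r1.2, r2.1, r2.2, r3.1, r3.2, r4.1, r4.2, r5.1, r5.2, r6.1, r6.2,
      a1.1, a1.2, a2.1, a2.2, a3.1, a3.2, m1.1, m1.2, m2.1, m2.2, l3.1, l3.2]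
  · linarith [r1.1, r1.2, r2.1, r2.2, r3.1, r3.2, r4.1, r4.2, r5.1, r5.2, r6.1, r6.2,
      a1.1, a1.2, a2.1, a2.2, a3.1, a3.2, m1.1, m1.2, m2.1, m2.2, l3.1, l3.2]

theorem dT_sq (hS : Side P s B) (hW : Wt P s B m w t) :
    av w (fun a b => (sT (step s B a b) - sT B) ^ 2) ≤ P.eT2 := by
  have h1 : av w (fun a b => (sT (step s B a b) - sT B) ^ 2)
      ≤ av w (fun a b => 8 * (rhoT s B a b ^ 2 / rho s B a b ^ 2)
        + 2 * (rho1 s B a b / rho s B a b) ^ 4) := by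
    refine av_mono (hW.w_nonneg hS) fun a b h => ?_
    rw [dT_step hS hW h, ← div_pow]
    nlinarith [sq_nonneg (2 * (rhoT s B a b / rho s B a b) + (rho1 s B a b / rho s B a b) ^ 2)]
  rw [av_add, av_const_mul, av_const_mul, av_div_eq] at h1
  have h2 := av_sq_le (by norm_num : (0 : ℝ) ≤ 2) (hW.wr_le hS 2 (by norm_num)) (H2_rhoT hS hW)
  have h3 := e1_four hS hW
  have hk := hS.ok.ka_sq
  have h4 : P.GT ^ 2 ≤ 6 * (P.k * P.yb ^ 2 + P.yb ^ 4 + P.L ^ 6 + P.nu ^ 2 * P.L ^ 2 * P.yb ^ 2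
      + P.nu ^ 4 + P.tb ^ 2) := by
    have key : ∀ x1 x2 x3 x4 x5 x6 : ℝ, (x1 + x2 + x3 + x4 + x5 + x6) ^ 2
        ≤ 6 * (x1 ^ 2 + x2 ^ 2 + x3 ^ 2 + x4 ^ 2 + x5 ^ 2 + x6 ^ 2) := by
      intro x1 x2 x3 x4 x5 x6
      nlinarith [sq_nonneg (x1 - x2), sq_nonneg (x1 - x3), sq_nonneg (x1 - x4), sq_nonneg (x1 - x5),
        sq_nonneg (x1 - x6), sq_nonneg (x2 - x3), sq_nonneg (x2 - x4), sq_nonneg (x2 - x5),
        sq_nonneg (x2 - x6), sq_nonneg (x3 - x4), sq_nonneg (x3 - x5), sq_nonneg (x3 - x6),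
        sq_nonneg (x4 - x5), sq_nonneg (x4 - x6), sq_nonneg (x5 - x6)]
    refine (key _ _ _ _ _ _).trans (le_of_eq ?_)
    rw [← hk]
    ring
  have hk0 : 0 ≤ P.k := by rw [← hk]; positivity
  have p1 : 0 ≤ P.k * P.yb ^ 2 + P.yb ^ 4 + P.nu ^ 2 * P.L ^ 2 * P.yb ^ 2
      + P.nu ^ 4 + P.tb ^ 2 := by positivity
  have p2 : 0 ≤ P.L ^ 6 := by positivity
  have p3 : 0 ≤ P.L ^ 2 * P.nu ^ 2 * P.up ^ 2 := by positivity
  rw [Par.eT2]
  nlinarith

theorem drift_D (hS : Side P s B) (hW : Wt P s B m w t) (D c : ℝ) :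
    av w (fun a b => (D - c - (sT (step s B a b) - sT B)) ^ 2)
      ≤ tot w * D ^ 2 + 2 * D * (2 * (2 * P.k * sT B - sT B ^ 2 - 2 * P.k) - c * tot w)
        + 2 * |D| * (2 * P.eT + P.eU2) + 2 * c ^ 2 * tot w + 2 * P.eT2 := by
  have e1 : av w (fun a b => (D - c - (sT (step s B a b) - sT B)) ^ 2)
      = av w (fun a b => (D + (-c - (sT (step s B a b) - sT B))) ^ 2) :=
    av_congr fun a b _ => by ring
  have h1 : av w (fun a b => (-c - (sT (step s B a b) - sT B)) ^ 2)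
      ≤ av w (fun a b => 2 * c ^ 2 + 2 * (sT (step s B a b) - sT B) ^ 2) :=
    av_mono (hW.w_nonneg hS) fun a b _ => by
      nlinarith [sq_nonneg (c - (sT (step s B a b) - sT B))]
  rw [av_add, av_const, av_const_mul] at h1
  rw [e1, av_shift_sq, av_sub, av_const, dT_mean hS hW]
  have h2 := dT_sq hS hW
  have h3 := rhoT_mean hS hW
  have h4 := e1_sq hS hW
  have h5 := dT_e2_nonneg hS hW
  obtain ⟨x, hx⟩ : ∃ x, x = av w (fun a b => rhoT s B a b / rho s B a b) := ⟨_, rfl⟩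
  obtain ⟨y, hy⟩ : ∃ y, y = av w (fun a b => (rho1 s B a b / rho s B a b) ^ 2) := ⟨_, rfl⟩
  rw [← hx] at h3 ⊢
  rw [← hy] at h4 h5 ⊢
  have h6 : D * (2 * (x - (2 * P.k * sT B - sT B ^ 2 - 2 * P.k)) - y)
      ≤ |D| * (2 * P.eT + P.eU2) := by
    refine (le_abs_self _).trans ?_
    rw [abs_mul]
    refine mul_le_mul_of_nonneg_left ?_ (abs_nonneg _)
    rw [abs_le] at h3 ⊢
    constructor <;> linarith [h3.1, h3.2]
  nlinarith

theorem drift_T_abs (hS : Side P s B) (hW : Wt P s B m w t) :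
    |av w (fun a b => sT (step s B a b)) - tot w * sT B| ≤ 13 * P.k * P.GT + P.eU2 := by
  have e1 : av w (fun a b => sT (step s B a b)) - tot w * sT B
      = av w (fun a b => sT (step s B a b) - sT B) := by
    rw [av_sub, av_const]
  rw [e1, dT_mean hS hW, av_div_eq]
  have h1 := abs_av_le (by norm_num : (0 : ℝ) ≤ 2) (hW.wr1_le hS)
    (H1.of_H2 hW.mask hS.card (H2_rhoT hS hW))
  have h0 := H1.nonneg hW.mask (H1.of_H2 hW.mask hS.card (H2_rhoT hS hW))
  have h4 := e1_sq hS hW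
  have h5 := dT_e2_nonneg hS hW
  rw [abs_le] at h1 ⊢
  constructor <;> nlinarith [h1.1, h1.2]

end Vale.Agent.P049.An
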