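import Vale.Agent.P049.DC1
import Vale.Agent.P049.DC2
import Vale.Agent.P049.DT

/-! P049: drift of the mixed statistic.
PLAN `C_n1`.  `cN1_eq`, `v = w / rho s B` (symmetric, so mirrored terms are equal by `av_swap`).
`d_b (BCB) a a`: `rank_err` (`VBCB`, `D_le`, `sumBCB`, `trR1`); remainder `H1_dfpp`; `Q fpq`: `H1.mul` with
`H2_fpq`; `β f1p`: `H1_bf1p`; `2 (s - r) f1q`: remainder `H1_f1q`; `2 s (R1 C B) a b` by `lin_err`
(`FRCB`, `sum_R1_mul`, `tRCB`), `r (R1 C B) a b` by `H1.mul`; the main term `-2 I_a J_b w/(ρ ρ~)` by `rank_err`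
with `dev2` (`VI`, `VJ`, `sumI`), and `r I_a J_b` by `H1.mul`.
`drift_chi0`: `chi_step`, `av_congr`, `C_tr`, `C_n1`, `C_n0`.
`drift_chi`: add `drift_U_abs` for the side `C` and `drift_T_abs` for the side `B`. -/

namespace Vale.Agent.P049.An

open Finset Matrix

variable {ι : Type} [Fintype ι] [DecidableEq ι]
variable {P : Par} {s : ℝ} {B C : Matrix ι ι ℝ} {m w t : ι → ι → ℝ}

private theorem dc_vsymm (h : Two P s B C m w t) (a b : ι) :
    w a b / rho s B a b = w b a / rho s B b a := by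
  rw [h.wB.w_symm a b, rho_symm h.sB a b]

private theorem dc_sizes (h : Two P s B C m w t) :
    P.eta * (P.L * P.ps ^ 2) ≤ P.Xi ∧ P.eta * P.L ^ 4 ≤ P.Xi ∧ P.ps * P.L ^ 4 ≤ P.Xi ∧
      P.ps * (P.L * P.ps ^ 2) ≤ P.Xi ∧
      (1 + P.nu) ^ 2 * (P.ps * (P.L ^ 4 + P.L ^ 2 * P.ps)) ≤ P.Xi := by
  have ok := h.sB.ok
  have hn : 0 ≤ P.nu := h.sB.V_le.1
  have he : 0 ≤ P.eta := h.wB.eta_nonneg h.sB
  have hL : 0 ≤ P.L := le_trans zero_le_one ok.L_ge
  have hp : 0 ≤ P.ps := le_trans ok.ka_pos ok.ka_ps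
  have h5 : (1 + P.nu) ^ 2 ≤ (1 + P.nu) ^ 5 := pow_le_pow_right₀ (by linarith) (by norm_num)
  have h1 : 1 ≤ (1 + P.nu) ^ 2 := one_le_pow₀ (by linarith)
  have x1 : 0 ≤ P.L ^ 4 := by positivity
  have x2 : 0 ≤ P.L ^ 2 * P.ps := by positivity
  have x3 : 0 ≤ P.L * P.ps ^ 2 := by positivity
  set S := P.L ^ 4 + P.L ^ 2 * P.ps + P.L * P.ps ^ 2 with hS
  have key : ∀ y z : ℝ, 0 ≤ y → y ≤ P.eta + P.ps → 0 ≤ z → z ≤ S →
      (1 + P.nu) ^ 2 * (y * z) ≤ P.Xi := by
    intro y z hy hy' hz hz'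
    have e1 : y * z ≤ (P.eta + P.ps) * S := mul_le_mul hy' hz' hz (by positivity)
    have e2 : (1 + P.nu) ^ 2 * (y * z) ≤ (1 + P.nu) ^ 5 * ((P.eta + P.ps) * S) :=
      mul_le_mul h5 e1 (mul_nonneg hy hz) (by positivity)
    unfold Par.Xi
    rw [← hS]
    linarith [mul_assoc ((1 + P.nu) ^ 5) (P.eta + P.ps) S]
  have key' : ∀ y z : ℝ, 0 ≤ y → y ≤ P.eta + P.ps → 0 ≤ z → z ≤ S → y * z ≤ P.Xi := by
    intro y z hy hy' hz hz'
    exact le_trans (le_mul_of_one_le_left (mul_nonneg hy hz) h1) (key y z hy hy' hz hz')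
  exact ⟨key' _ _ he (by linarith) x3 (by linarith), key' _ _ he (by linarith) x1 (by linarith),
    key' _ _ hp (by linarith) x1 (by linarith), key' _ _ hp (by linarith) x3 (by linarith),
    key _ _ hp (by linarith) (by linarith) (by linarith)⟩

private theorem dc_A1 (h : Two P s B C m w t) :
    av (fun a b => w a b / rho s B a b) (fun a b => R1 B b b * fpp s B C a b)
      ≤ (P.k - sT B) * |sChi B C| + 61 * P.Xi := by
  obtain ⟨z1, -, -, -, -⟩ := dc_sizes h
  have hX := h.Xi0_le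
  have e : (fun a b => R1 B b b * fpp s B C a b) = fun a b =>
      (B * C * B) a a * R1 B b b + R1 B b b * (fpp s B C a b - (B * C * B) a a) := by
    funext a b; ring
  have r1 := h.wB.rank_err h.wB.devv h.VBCB h.sB.D_le
  rw [h.sumBCB, h.sB.trR1] at r1
  have r2 := abs_av_le (by norm_num) (h.wB.wr1_le h.sB) (H1_dfpp h)
  rw [e, av_add]
  have he : 0 ≤ P.eta := h.wB.eta_nonneg h.sB
  have hL : 0 ≤ P.L := le_trans zero_le_one h.sB.ok.L_ge
  have hp : 0 ≤ P.ps := le_trans h.sB.ok.ka_pos h.sB.ok.ka_ps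
  have r3 : P.eta * (P.L * P.ps) * P.up ≤ P.eta * (P.L * P.ps) * P.ps :=
    mul_le_mul_of_nonneg_left h.sB.ok.up_ps (by positivity)
  have r4 : sChi B C * (sT B - P.k) ≤ (P.k - sT B) * |sChi B C| := by
    have := h.sB.T_le_k
    nlinarith [neg_abs_le (sChi B C)]
  have r5 := (abs_le.1 r1).2
  have r6 := (abs_le.1 r2).2
  linarith

private theorem dc_A2 (h : Two P s B C m w t) :
    |av (fun a b => w a b / rho s B a b) (fun a b => (B * B) a b * fpq s B C a b)|
      ≤ 40 * P.Xi := by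
  obtain ⟨-, -, -, -, z5⟩ := dc_sizes h
  have r := abs_av_le (by norm_num) (h.wB.wr1_le h.sB)
    (H1.mul h.wB.mask (F2.toH2 h.wB.mask h.sB.M4_le) (H2_fpq h))
  refine r.trans (le_of_eq_of_le (b := 40 * ((1 + P.nu) ^ 2 * (P.ps * (P.L ^ 4 + P.L ^ 2 * P.ps))))
    (by ring) (by linarith))

private theorem dc_A3 (h : Two P s B C m w t) :
    |av (fun a b => w a b / rho s B a b) (fun a b => B b b * f1p s B C a b)| ≤ 100 * P.Xi := by
  have r := abs_av_le (by norm_num) (h.wB.wr1_le h.sB) (H1_bf1p h)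
  have := h.Xi0_le
  linarith

private theorem dc_A4 (h : Two P s B C m w t) :
    av (fun a b => w a b / rho s B a b) (fun a b => (s - B a b) * f1q s B C a b)
      ≤ -((C * B).trace * (sChi B C - sU C)) + 120 * P.Xi := by
  obtain ⟨z1, z2, z3, z4, -⟩ := dc_sizes h
  have hX := h.Xi0_le
  have ok := h.sB.ok
  have hm := h.wB.mask
  have hss := h.sB.sq
  have hL : 0 ≤ P.L := le_trans zero_le_one ok.L_ge
  have hp : 0 ≤ P.ps := le_trans ok.ka_pos ok.ka_ps
  have htb : P.tb ≤ P.ps := ok.tb_le.trans ok.ka_ps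
  have e : (fun a b => (s - B a b) * f1q s B C a b) = fun a b =>
      (s - B a b) * (f1q s B C a b - (R1 B * C * B) a b
        + s * ((C * R1 B) a a * (C * B) b b) / rho (-s) C a b)
      + s * (R1 B * C * B) a b - B a b * (R1 B * C * B) a b
      - (C * R1 B) a a * (C * B) b b / rho (-s) C a b
      + s * (1 / rho (-s) C a b * (B a b * ((C * R1 B) a a * (C * B) b b))) := by
    funext a b
    linear_combination (-((C * R1 B) a a * (C * B) b b / rho (-s) C a b)) * hss
  have r1 := abs_av_le (by norm_num) (h.wB.wr1_le h.sB)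
    (H1.mul_sup hm (h.wB.Hs_sr h.sB) (H1_f1q h))
  have r2 := lin_err h.wB.devv h.FRCB
  have s0 : ∑ a, ∑ b, (R1 B * C * B) a b = 0 := by
    rw [Matrix.mul_assoc]; exact h.sB.sum_R1_mul _
  rw [s0] at r2
  have r2' := h.tRCB
  have r3 := abs_av_le (by norm_num) (h.wB.wr1_le h.sB)
    (H1.mul hm (F2.toH2 hm h.sB.T_le) (F2.toH2 hm h.FRCB))
  have r4 := h.wB.rank_err h.dev2 h.VI h.VJ
  rw [h.sumI] at r4
  have r4' : av (fun a b => w a b / rho s B a b)
      (fun a b => (C * R1 B) a a * (C * B) b b / rho (-s) C a b) =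
      av (fun a b => w a b / (rho s B a b * rho (-s) C a b))
        (fun a b => (C * R1 B) a a * (C * B) b b) := by
    rw [av_div_eq]; simp only [div_div]
  have tr : ∑ b, (C * B) b b = (C * B).trace := rfl
  rw [tr] at r4
  have r5 := abs_av_le (by norm_num) (h.wB.wr1_le h.sB)
    (H1.mul_sup hm (h.wC.Hs_inv h.sC)
      (H1.mul hm (F2.toH2 hm h.sB.T_le) (F2.toH2 hm (F2.rank h.VI h.VJ))))
  rw [e, av_add, av_sub, av_sub, av_add, av_const_mul _ _ s, av_const_mul _ (R1 B * C * B) s, r4']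
  have hs1 : ∀ y : ℝ, s * y ≤ |y| := fun y => by
    have := le_abs_self (s * y)
    rwa [abs_mul, h.sB.abs_s, one_mul] at this
  have q2 : |av (fun a b => w a b / rho s B a b) (R1 B * C * B)| ≤ 2 * (P.eta * P.L ^ 4) := by
    have a1 := abs_le.1 r2
    have a2 := abs_le.1 r2'
    unfold Par.eta
    rw [abs_le]; constructor <;> nlinarith [a1.1, a1.2, a2.1, a2.2]
  have q3 : P.tb * (2 * P.L ^ 4) ≤ P.ps * (2 * P.L ^ 4) :=
    mul_le_mul_of_nonneg_right htb (by positivity)
  have q5 : P.tb * (2 * P.L * P.ps * P.ps) ≤ P.ps * (2 * P.L * P.ps * P.ps) :=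
    mul_le_mul_of_nonneg_right htb (by positivity)
  have t2 := (hs1 _).trans q2
  have t5 := (hs1 _).trans r5
  have t1 := (abs_le.1 r1).2
  have t3 := (abs_le.1 r3).1
  have t4 := (abs_le.1 r4).1
  linarith

theorem C_n1 (h : Two P s B C m w t) :
    av w (fun a b => cN1 s B C a b / rho s B a b)
      ≤ -4 * (C * B).trace * (sChi B C - sU C) + 2 * (P.k - sT B) * |sChi B C| + 2000 * P.Xi := by
  have e : cN1 s B C = fun a b => R1 B b b * fpp s B C a b + R1 B a a * fpp s B C b a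
      - 2 * ((B * B) a b * fpq s B C a b) + 2 * (B b b * f1p s B C a b)
      + 2 * (B a a * f1p s B C b a) + 2 * ((s - B a b) * f1q s B C a b)
      + 2 * ((s - B b a) * f1q s B C b a) := by
    funext a b
    rw [h.cN1_eq, h.sB.sym b a]; ring
  have m1 := av_swap (dc_vsymm h) (fun a b => R1 B b b * fpp s B C a b)
  have m3 := av_swap (dc_vsymm h) (fun a b => B b b * f1p s B C a b)
  have m4 := av_swap (dc_vsymm h) (fun a b => (s - B a b) * f1q s B C a b)
  rw [av_div_eq, e]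
  simp only [av_add, av_sub, av_const_mul]
  rw [m1, m3, m4]
  have a1 := dc_A1 h
  have a2 := (abs_le.1 (dc_A2 h)).1
  have a3 := (abs_le.1 (dc_A3 h)).2
  have a4 := dc_A4 h
  have := h.Xi0_le
  linarith

theorem drift_chi0 (h : Two P s B C m w t) :
    av w (fun a b => sChi (step s B a b) (step (-s) C a b) - sU (step (-s) C a b))
      ≤ tot w * (sChi B C - sU C) - 4 * (P.k + (C * B).trace) * (sChi B C - sU C)
        + 2 * (P.k - sT B) * |sChi B C| + 3200 * P.Xi := by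
  rw [av_congr (h := fun a b => (R1 B * step (-s) C a b).trace + cN1 s B C a b / rho s B a b
    - rho1 s B a b * cN0 s B C a b / rho s B a b ^ 2) fun a b hw => by
      have hg := h.wB.good a b (h.wB.supp hw)
      have := hg.rho_ge h.sB
      exact chi_step h.sB.sgn h.sB.symm h.sC.symm hg.ne (by linarith)]
  rw [av_sub, av_add]
  have a1 := C_tr h
  have a2 := C_n1 h
  have a3 := (abs_le.1 (C_n0 h)).1
  linarith

theorem drift_chi (h : Two P s B C m w t) :
    av w (fun a b => sChi (step s B a b) (step (-s) C a b) + sT (step s B a b))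
      ≤ tot w * (sChi B C + sT B) - 4 * (P.k + (C * B).trace) * (sChi B C - sU C)
        + 2 * (P.k - sT B) * |sChi B C| + 3200 * P.Xi
        + (5 * P.k * P.G1 + 13 * P.k * P.GT + P.eU2) := by
  have e : (fun a b => sChi (step s B a b) (step (-s) C a b) + sT (step s B a b)) = fun a b =>
      (sChi (step s B a b) (step (-s) C a b) - sU (step (-s) C a b)) + sU (step (-s) C a b)
        + sT (step s B a b) := by
    funext a b; ring
  rw [e, av_add, av_add]
  have a1 := drift_chi0 h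
  have a2 := (abs_le.1 (drift_U_abs h.sC h.wC)).2
  have a3 := (abs_le.1 (drift_T_abs h.sB h.wB)).2
  linarith

end Vale.Agent.P049.An
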