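import Vale.Agent.P049.Rho
import Vale.Agent.P049.Alg1

/-! P049: drift of the squared diagonal `V`.  `n c = nn0 s B a b c`.
PLAN.  `V_point`: `V' = ∑ c ∉ {a,b}, (α_c + n c / ρ)^2` (`step_diag`, `step_diag_a/b`); add and subtract the
terms `c = a, b`: `|α n_a| = |α (β α^2 + α r^2 + 2 (s-r) α r)| ≤ 3.03 th α^2`, and `2 * 1.032 * 3.03 ≤ 9`.
`V_rem`: `row_err` with `roww`, `p = α^2`, `q = 1`.
`V_first`: `av v (∑ c, α_c n c)`.  Terms `β p_a`, `α p_b` with `p_a = ∑ c, α_c B c a^2`, `∑ |p_a| ≤ nu yb`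
(`al_y`): `row_err` with `rowv` (and `av_swap`), main part `U ∑ α y`.  Term `2 s ∑ c, α_c av v (B c a * B c b)`:
write `v = 1 - t + E`; main `∑ c, α_c s^2 = U`, `|U| ≤ ka nu`; `E` part `F2.bil` for each `c` (`rowV`),
`vp ∑ |α_c| y_c`; `t` part: for `y_c ≤ 2` Cauchy-Schwarz in `a` with column `c` of `t B` (`tB`), total
`sqrt 2 nu xi2`; for `y_c > 2` `tbil` and `heavy` give `2 xi nu wb`.  Term with `r`: the matrix `v r` has
Frobenius norm `≤ 2 tb ≤ 2 vp`, `F2.bil` for each `c`.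
`V_second`: `n^2 ≤ (21/20)(β B_ca^2 + α B_cb^2)^2 + 21 * 4.1 B_ca^2 B_cb^2`, expand the square using
`|αβ| ≤ th`, bound `w/ρ^2` by `wr2_le` (`≤ 2`), drop the mask; `∑ a b c, β^2 B_ca^4 = V Z`,
`∑ a b c, B_ca^2 B_cb^2 = Y`. -/

namespace Vale.Agent.P049.An

open Finset Matrix

variable {ι : Type} [Fintype ι] [DecidableEq ι]
variable {P : Par} {s : ℝ} {B : Matrix ι ι ℝ} {m w t : ι → ι → ℝ}

private theorem DV_sum_two (F G : ι → ℝ) {a b : ι} (hab : a ≠ b) (ha : G a = 0) (hb : G b = 0)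
    (h : ∀ c, c ≠ a → c ≠ b → G c = F c) : ∑ c, G c = ∑ c, F c - F a - F b := by
  have h1 : ∀ c, G c = F c - (if c = a then F a else 0) - (if c = b then F b else 0) := by
    intro c
    by_cases hca : c = a
    · subst hca; simp [hab, ha]
    · by_cases hcb : c = b
      · subst hcb; simp [hca, hb]
      · simp [hca, hcb, h c hca hcb]
  rw [Finset.sum_congr rfl (fun c _ => h1 c), Finset.sum_sub_distrib, Finset.sum_sub_distrib]
  simp

private theorem DV_inv_sq (hS : Side P s B) {a b : ι} (hg : GoodPair P B a b) :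
    1 - 9 * P.th ≤ 1 / rho s B a b ^ 2 := by
  have h1 := hg.rho_close hS
  have h2 := hg.rho_ge hS
  have h3 := hg.r_le
  have h4 := hg.ab_le
  have h5 := hS.ok.th_pos
  have h6 := hS.ok.th_le
  have h7 : rho s B a b ≤ 1 + 301 / 100 * P.th := by
    have := (abs_le.1 h1).2
    linarith
  have h8 : 0 < rho s B a b := by linarith
  rw [le_div_iff₀ (by positivity)]
  have h9 : rho s B a b ^ 2 ≤ (1 + 301 / 100 * P.th) ^ 2 := pow_le_pow_left₀ h8.le h7 2
  have h10 : (1 - 9 * P.th) * rho s B a b ^ 2 ≤ (1 - 9 * P.th) * (1 + 301 / 100 * P.th) ^ 2 :=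
    mul_le_mul_of_nonneg_left h9 (by linarith)
  nlinarith [mul_pos h5 h5, mul_pos (mul_pos h5 h5) h5]

theorem V_point (hS : Side P s B) {a b : ι} (hg : GoodPair P B a b) :
    sV (step s B a b) ≤ sV B - (1 - 9 * P.th) * (B a a ^ 2 + B b b ^ 2)
      + 2 * ((∑ c, B c c * nn0 s B a b c) / rho s B a b)
      + (∑ c, nn0 s B a b c ^ 2) / rho s B a b ^ 2 := by
  have hρ : 0 < rho s B a b := by have := hg.rho_ge hS; linarith
  have hss := hS.sq
  have hsym := hS.sym b a
  have e1 : sV (step s B a b) = ∑ c, (B c c + nn0 s B a b c / rho s B a b) ^ 2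
      - (B a a + nn0 s B a b a / rho s B a b) ^ 2 - (B b b + nn0 s B a b b / rho s B a b) ^ 2 := by
    unfold sV
    refine DV_sum_two (fun c => (B c c + nn0 s B a b c / rho s B a b) ^ 2)
      (fun c => step s B a b c c ^ 2) hg.ne ?_ ?_ ?_
    · simp only [step_diag_a]; ring
    · simp only [step_diag_b]; ring
    · intro c hca hcb
      simp only [step_diag c hca hcb]
  have ea : B a a + nn0 s B a b a / rho s B a b = B a a / rho s B a b := by
    rw [eq_div_iff hρ.ne', add_mul, div_mul_cancel₀ _ hρ.ne']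
    unfold nn0 rho
    linear_combination (B a a) * hss
  have eb : B b b + nn0 s B a b b / rho s B a b = B b b / rho s B a b := by
    rw [eq_div_iff hρ.ne', add_mul, div_mul_cancel₀ _ hρ.ne']
    unfold nn0 rho
    rw [hsym]
    linear_combination (B b b) * hss
  have e2 : ∑ c, (B c c + nn0 s B a b c / rho s B a b) ^ 2
      = sV B + 2 * ((∑ c, B c c * nn0 s B a b c) / rho s B a b)
        + (∑ c, nn0 s B a b c ^ 2) / rho s B a b ^ 2 := by
    unfold sV
    rw [Finset.sum_div, Finset.sum_div, Finset.mul_sum, ← Finset.sum_add_distrib,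
      ← Finset.sum_add_distrib]
    refine Finset.sum_congr rfl fun c _ => ?_
    ring
  rw [e1, ea, eb, e2]
  have h1 := DV_inv_sq hS hg
  have h2 : (1 - 9 * P.th) * (B a a ^ 2 + B b b ^ 2)
      ≤ 1 / rho s B a b ^ 2 * (B a a ^ 2 + B b b ^ 2) :=
    mul_le_mul_of_nonneg_right h1 (by positivity)
  have h3 : 1 / rho s B a b ^ 2 * (B a a ^ 2 + B b b ^ 2)
      = (B a a / rho s B a b) ^ 2 + (B b b / rho s B a b) ^ 2 := by ring
  linarith

theorem V_rem (hS : Side P s B) (hW : Wt P s B m w t) :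
    2 * (P.k - P.ka * P.vs) * sV B ≤ av w (fun a b => B a a ^ 2 + B b b ^ 2) := by
  have h1 : av w (fun a b => B a a ^ 2 + B b b ^ 2) = 2 * av w (fun a _ => B a a ^ 2 * 1) := by
    rw [av_add, av_swap hW.w_symm (fun a _ => B a a ^ 2)]
    simp only [mul_one]
    ring
  have h2 : ∑ a, |B a a ^ 2| ≤ sV B := by
    unfold sV
    exact le_of_eq (Finset.sum_congr rfl fun c _ => abs_of_nonneg (sq_nonneg _))
  have h3 := row_err (p := fun a => B a a ^ 2) (q := fun _ => (1 : ℝ)) hS.ok.vs_ge hW.roww h2 hS.one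
  have h4 : ∑ _b : ι, (1 : ℝ) = P.k := by
    rw [← hS.card]; simp
  rw [h4] at h3
  have h5 := (abs_le.1 h3).1
  rw [h1]
  have h6 : ∑ a, B a a ^ 2 = sV B := rfl
  rw [h6] at h5
  linarith

private theorem DV_wsum (hS : Side P s B) (X : ι → ℝ) {e : ℝ} (he : 0 ≤ e)
    (hX : ∀ c, |X c| ≤ e * (B * B) c c) : |∑ c, B c c * X c| ≤ e * (P.nu * P.yb) := by
  calc |∑ c, B c c * X c| ≤ ∑ c, |B c c * X c| := Finset.abs_sum_le_sum_abs _ _
    _ ≤ ∑ c, e * (|B c c| * (B * B) c c) := by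
        refine Finset.sum_le_sum fun c _ => ?_
        rw [abs_mul]
        have := mul_le_mul_of_nonneg_left (hX c) (abs_nonneg (B c c))
        linarith
    _ = e * ∑ c, |B c c| * (B * B) c c := by rw [Finset.mul_sum]
    _ ≤ e * (P.nu * P.yb) := mul_le_mul_of_nonneg_left hS.al_y he

private theorem DV_bil (hS : Side P s B) {M : ι → ι → ℝ} {e : ℝ} (hM : F2 M e) (c : ι) :
    |av M (fun a b => B c a * B c b)| ≤ e * (B * B) c c := by
  have h := hM.bil (hS.rowV c) (hS.rowV c)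
  rw [mul_assoc, Real.mul_self_sqrt (hS.y_nonneg c)] at h
  exact h

private theorem DV_p (hS : Side P s B) :
    ∑ a, |∑ c, B c c * B c a ^ 2| ≤ P.nu * P.yb := by
  calc ∑ a, |∑ c, B c c * B c a ^ 2| ≤ ∑ a, ∑ c, |B c c| * B c a ^ 2 := by
        refine Finset.sum_le_sum fun a _ => (Finset.abs_sum_le_sum_abs _ _).trans ?_
        refine Finset.sum_le_sum fun c _ => le_of_eq ?_
        rw [abs_mul, abs_of_nonneg (sq_nonneg (B c a))]
    _ = ∑ c, |B c c| * (B * B) c c := by
        rw [Finset.sum_comm]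
        refine Finset.sum_congr rfl fun c _ => ?_
        rw [hS.y_eq, Finset.mul_sum]
    _ ≤ P.nu * P.yb := hS.al_y

private theorem DV_first1 (hS : Side P s B) (hW : Wt P s B m w t) :
    av (fun a b => w a b / rho s B a b) (fun a b => (∑ c, B c c * B c a ^ 2) * B b b)
      ≤ P.u * P.nu * P.yb + P.vs * P.nu ^ 2 * P.yb := by
  have h1 := row_err (p := fun a => ∑ c, B c c * B c a ^ 2) (q := fun b => B b b)
    hS.ok.vs_ge hW.rowv (DV_p hS) hS.V_le
  have h2 : |∑ a, ∑ c, B c c * B c a ^ 2| ≤ P.nu * P.yb :=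
    (Finset.abs_sum_le_sum_abs _ _).trans (DV_p hS)
  have h3 : |∑ b, B b b| ≤ P.u := by rw [← sU_eq]; exact hS.U_le
  have h4 : |(∑ a, ∑ c, B c c * B c a ^ 2) * ∑ b, B b b| ≤ P.nu * P.yb * P.u := by
    rw [abs_mul]
    exact mul_le_mul h2 h3 (abs_nonneg _) ((abs_nonneg _).trans h2)
  have h5 := (abs_le.1 h1).2
  have h6 := (abs_le.1 h4).2
  nlinarith

private theorem DV_tpart (hS : Side P s B) (hW : Wt P s B m w t) :
    |∑ c, B c c * av t (fun a b => B c a * B c b)|
      ≤ 2 * (P.nu * P.xi2) + 2 * (P.xi * P.nu * P.wb) := by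
  have hxi := hS.ok.xi_ge
  have hg : V2 (fun c => √(∑ a, (∑ b, t a b * B b c) ^ 2)) P.xi2 := by
    refine ⟨hW.tB.1, ?_⟩
    have h := hW.tB.2
    rw [Finset.sum_comm] at h
    refine le_of_eq_of_le (Finset.sum_congr rfl fun c _ => ?_) h
    exact Real.sq_sqrt (Finset.sum_nonneg fun a _ => sq_nonneg _)
  have hc : ∀ c, |av t (fun a b => B c a * B c b)|
      ≤ 2 * |√(∑ a, (∑ b, t a b * B b c) ^ 2)| + 2 * P.xi * |(B * B) c c - P.ta| := by
    intro c
    have n1 : 0 ≤ |√(∑ a, (∑ b, t a b * B b c) ^ 2)| := abs_nonneg _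
    have n2 : 0 ≤ P.xi * |(B * B) c c - P.ta| := mul_nonneg hxi (abs_nonneg _)
    rcases le_or_gt ((B * B) c c) 2 with hy | hy
    · have e1 : av t (fun a b => B c a * B c b) = ∑ a, B c a * ∑ b, t a b * B b c := by
        unfold av
        refine Finset.sum_congr rfl fun a _ => ?_
        rw [Finset.mul_sum]
        refine Finset.sum_congr rfl fun b _ => ?_
        rw [hS.sym b c]; ring
      have h1 := (hS.rowV c).dot (V2.sqrt (fun a => ∑ b, t a b * B b c))
      have h2 : √((B * B) c c) ≤ 2 := by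
        rw [Real.sqrt_le_left (by norm_num)]; linarith
      have h3 := mul_le_mul_of_nonneg_right h2
        (Real.sqrt_nonneg (∑ a, (∑ b, t a b * B b c) ^ 2))
      rw [e1, abs_of_nonneg (Real.sqrt_nonneg (∑ a, (∑ b, t a b * B b c) ^ 2))]
      linarith
    · have h1 := hW.tbil _ _ _ _ (hS.rowV c) (hS.rowV c)
      rw [mul_assoc, Real.mul_self_sqrt (hS.y_nonneg c)] at h1
      have h2 := (hS.heavy hy).2.1
      have h3 : (B * B) c c ≤ 2 * |(B * B) c c - P.ta| := by
        have := le_abs_self ((B * B) c c - P.ta)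
        linarith
      have h4 := mul_le_mul_of_nonneg_left h3 hxi
      have e1 : av t (fun a b => B c a * B c b) = ∑ a, ∑ b, t a b * (B c a * B c b) := rfl
      rw [e1]
      linarith
  have h1 := hS.V_le.sum_abs_mul hg
  have h2 := hS.V_le.sum_abs_mul hS.W_le
  have h3 := mul_le_mul_of_nonneg_left h2 hxi
  calc |∑ c, B c c * av t (fun a b => B c a * B c b)|
      ≤ ∑ c, |B c c * av t (fun a b => B c a * B c b)| := Finset.abs_sum_le_sum_abs _ _
    _ ≤ ∑ c, (2 * (|B c c| * |√(∑ a, (∑ b, t a b * B b c) ^ 2)|)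
          + 2 * (P.xi * (|B c c| * |(B * B) c c - P.ta|))) := by
        refine Finset.sum_le_sum fun c _ => ?_
        rw [abs_mul]
        have := mul_le_mul_of_nonneg_left (hc c) (abs_nonneg (B c c))
        linarith
    _ = 2 * ∑ c, |B c c| * |√(∑ a, (∑ b, t a b * B b c) ^ 2)|
          + 2 * (P.xi * ∑ c, |B c c| * |(B * B) c c - P.ta|) := by
        rw [Finset.sum_add_distrib, ← Finset.mul_sum, ← Finset.mul_sum, ← Finset.mul_sum]
    _ ≤ 2 * (P.nu * P.xi2) + 2 * (P.xi * P.nu * P.wb) := by linarith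

private theorem DV_first2 (hS : Side P s B) (hW : Wt P s B m w t) :
    |∑ c, B c c * av (fun a b => w a b / rho s B a b) (fun a b => B c a * B c b)|
      ≤ P.ka * P.nu + P.vp * (P.nu * P.yb)
        + (2 * (P.nu * P.xi2) + 2 * (P.xi * P.nu * P.wb)) := by
  have e1 : ∀ c, av (fun a b => w a b / rho s B a b) (fun a b => B c a * B c b)
      = 1 + av (fun a b => w a b / rho s B a b - 1 + t a b) (fun a b => B c a * B c b)
        - av t (fun a b => B c a * B c b) := by
    intro c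
    have h1 : (1 : ℝ) = ∑ a, ∑ b, B c a * B c b := by
      rw [← Finset.sum_mul_sum, hS.row c, hS.sq]
    rw [h1]
    unfold av
    rw [← Finset.sum_add_distrib, ← Finset.sum_sub_distrib]
    refine Finset.sum_congr rfl fun a _ => ?_
    rw [← Finset.sum_add_distrib, ← Finset.sum_sub_distrib]
    refine Finset.sum_congr rfl fun b _ => ?_
    rw [← h1]
    ring
  have e2 : ∑ c, B c c * av (fun a b => w a b / rho s B a b) (fun a b => B c a * B c b)
      = sU B + ∑ c, B c c * av (fun a b => w a b / rho s B a b - 1 + t a b)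
          (fun a b => B c a * B c b) - ∑ c, B c c * av t (fun a b => B c a * B c b) := by
    rw [sU_eq, ← Finset.sum_add_distrib, ← Finset.sum_sub_distrib]
    refine Finset.sum_congr rfl fun c _ => ?_
    rw [e1 c]; ring
  have h1 := abs_le.1 hS.U_le'
  have h2 := abs_le.1 (DV_wsum hS _ hW.vp_nonneg (DV_bil hS hW.devv))
  have h3 := abs_le.1 (DV_tpart hS hW)
  rw [e2, abs_le]
  constructor <;> linarith [h1.1, h1.2, h2.1, h2.2, h3.1, h3.2]

private theorem DV_first3 (hS : Side P s B) (hW : Wt P s B m w t) :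
    |∑ c, B c c * av (fun a b => w a b / rho s B a b * B a b) (fun a b => B c a * B c b)|
      ≤ 2 * P.vp * (P.nu * P.yb) := by
  have h1 : F2 (fun a b => w a b / rho s B a b * B a b) (2 * P.vp) := by
    have h2 := hS.T_le.const_mul 2
    refine (h2.of_abs_le fun a b => ?_).mono ?_
    · rw [abs_mul, abs_mul]
      refine mul_le_mul_of_nonneg_right ?_ (abs_nonneg _)
      have h3 := hW.wr1_le hS a b
      have h4 := hW.mask.le_one a b
      rw [abs_two]
      linarith
    · rw [abs_two]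
      have := hS.ok.tb_vp
      linarith
  exact DV_wsum hS _ h1.1 (DV_bil hS h1)

theorem V_first (hS : Side P s B) (hW : Wt P s B m w t) :
    av w (fun a b => (∑ c, B c c * nn0 s B a b c) / rho s B a b)
      ≤ 10 * (P.u * P.nu * P.yb + P.vs * P.nu ^ 2 * P.yb + P.ka * P.nu
        + P.vp * P.nu * P.yb + P.nu * P.xi2 + P.xi * P.nu * P.wb) := by
  have hv : ∀ a b, w a b / rho s B a b = w b a / rho s B b a := fun a b => by
    rw [hW.w_symm a b, rho_symm hS a b]
  have e1 : av w (fun a b => (∑ c, B c c * nn0 s B a b c) / rho s B a b)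
      = 2 * av (fun a b => w a b / rho s B a b) (fun a b => (∑ c, B c c * B c a ^ 2) * B b b)
        + 2 * s * ∑ c, B c c * av (fun a b => w a b / rho s B a b) (fun a b => B c a * B c b)
        - 2 * ∑ c, B c c * av (fun a b => w a b / rho s B a b * B a b)
          (fun a b => B c a * B c b) := by
    have f1 : ∀ a b, ∑ c, B c c * nn0 s B a b c
        = (∑ c, B c c * B c a ^ 2) * B b b + (∑ c, B c c * B c b ^ 2) * B a a
          + ∑ c, 2 * s * B c c * (B c a * B c b)
          - ∑ c, 2 * B c c * (B a b * (B c a * B c b)) := by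
      intro a b
      rw [Finset.sum_mul, Finset.sum_mul, ← Finset.sum_add_distrib, ← Finset.sum_add_distrib,
        ← Finset.sum_sub_distrib]
      refine Finset.sum_congr rfl fun c _ => ?_
      unfold nn0; ring
    have f2 : ∀ c, av (fun a b => w a b / rho s B a b) (fun a b => B a b * (B c a * B c b))
        = av (fun a b => w a b / rho s B a b * B a b) (fun a b => B c a * B c b) := by
      intro c
      unfold av
      refine Finset.sum_congr rfl fun a _ => Finset.sum_congr rfl fun b _ => ?_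
      ring
    rw [av_div_eq]
    simp only [f1]
    rw [av_sub, av_add, av_add,
      av_swap hv (fun a b => (∑ c, B c c * B c a ^ 2) * B b b), av_sum, av_sum]
    simp only [av_const_mul, f2]
    rw [Finset.mul_sum, Finset.mul_sum]
    have g1 : ∀ X : ι → ℝ, ∑ c, 2 * s * B c c * X c = ∑ c, 2 * s * (B c c * X c) :=
      fun X => Finset.sum_congr rfl fun c _ => by ring
    have g2 : ∀ X : ι → ℝ, ∑ c, 2 * B c c * X c = ∑ c, 2 * (B c c * X c) :=
      fun X => Finset.sum_congr rfl fun c _ => by ring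
    rw [g1, g2]
    ring
  have h1 := DV_first1 hS hW
  have h2 := DV_first2 hS hW
  have h3 := (abs_le.1 (DV_first3 hS hW)).1
  have h4 : s * ∑ c, B c c * av (fun a b => w a b / rho s B a b) (fun a b => B c a * B c b)
      ≤ P.ka * P.nu + P.vp * (P.nu * P.yb)
        + (2 * (P.nu * P.xi2) + 2 * (P.xi * P.nu * P.wb)) := by
    refine (le_abs_self _).trans ?_
    rw [abs_mul, hS.abs_s, one_mul]
    exact h2
  have hnu := hS.V_le.1
  have hyb := hS.Y_le.1
  have hwb := hS.W_le.1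
  have hu := hS.ok.u_ge
  have hvs := hS.ok.vs_ge
  have hka := hS.ok.ka_pos
  have hvp := hW.vp_nonneg
  have hxi := hS.ok.xi_ge
  have hx2 := hW.tB.1
  have p1 : 0 ≤ P.u * P.nu * P.yb := by positivity
  have p2 : 0 ≤ P.vs * P.nu ^ 2 * P.yb := by positivity
  have p3 : 0 ≤ P.ka * P.nu := by positivity
  have p4 : 0 ≤ P.vp * P.nu * P.yb := by positivity
  have p5 : 0 ≤ P.nu * P.xi2 := by positivity
  have p6 : 0 ≤ P.xi * P.nu * P.wb := by positivity
  rw [e1]
  linarith

private theorem DV_nsq (hS : Side P s B) {a b : ι} (hg : GoodPair P B a b) (c : ι) :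
    nn0 s B a b c ^ 2 ≤ 21 / 20 * (B b b ^ 2 * B c a ^ 4 + B a a ^ 2 * B c b ^ 4)
      + 86 * (B c a ^ 2 * B c b ^ 2) := by
  have h1 := hg.sr_le hS
  have h2 := (abs_le.1 hg.ab_le).2
  have h3 := hS.ok.th_le
  have h4 : (s - B a b) ^ 2 ≤ (101 / 100) ^ 2 := by
    rw [← sq_abs]; exact pow_le_pow_left₀ (abs_nonneg _) h1 2
  have h5 : 0 ≤ B c a ^ 2 * B c b ^ 2 := by positivity
  have h6 := mul_le_mul_of_nonneg_right h4 h5
  have h7 := mul_le_mul_of_nonneg_right (h2.trans h3) h5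
  unfold nn0
  nlinarith [sq_nonneg (B b b * B c a ^ 2 + B a a * B c b ^ 2
    - 40 * (s - B a b) * B c a * B c b)]

private theorem DV_sum2 (hS : Side P s B) :
    ∑ a, ∑ b, ∑ c, (21 / 20 * (B b b ^ 2 * B c a ^ 4 + B a a ^ 2 * B c b ^ 4)
      + 86 * (B c a ^ 2 * B c b ^ 2)) = 21 / 10 * (sZ B * sV B) + 86 * sY B := by
  have e1 : ∑ a, ∑ b, ∑ c, B b b ^ 2 * B c a ^ 4 = sZ B * sV B := by
    unfold sZ sV
    rw [Finset.sum_comm (f := fun c e => B c e ^ 4), Finset.sum_mul_sum]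
    refine Finset.sum_congr rfl fun a _ => Finset.sum_congr rfl fun b _ => ?_
    rw [Finset.sum_mul]
    exact Finset.sum_congr rfl fun c _ => by ring
  have e2 : ∑ a, ∑ b, ∑ c, B a a ^ 2 * B c b ^ 4 = sZ B * sV B := by
    rw [Finset.sum_comm, e1]
  have e3 : ∑ a, ∑ b, ∑ c, B c a ^ 2 * B c b ^ 2 = sY B := by
    unfold sY
    calc ∑ a, ∑ b, ∑ c, B c a ^ 2 * B c b ^ 2 = ∑ a, ∑ c, ∑ b, B c a ^ 2 * B c b ^ 2 :=
          Finset.sum_congr rfl fun a _ => Finset.sum_comm
      _ = ∑ c, ∑ a, ∑ b, B c a ^ 2 * B c b ^ 2 := Finset.sum_comm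
      _ = ∑ c, (B * B) c c ^ 2 := by
          refine Finset.sum_congr rfl fun c _ => ?_
          rw [← Finset.sum_mul_sum, hS.y_eq]; ring
  have e4 : ∀ (e : ℝ) (F : ι → ι → ι → ℝ),
      ∑ a, ∑ b, ∑ c, e * F a b c = e * ∑ a, ∑ b, ∑ c, F a b c := by
    intro e F
    simp only [Finset.mul_sum]
  simp only [Finset.sum_add_distrib]
  rw [e4, e4]
  simp only [Finset.sum_add_distrib]
  rw [e1, e2, e3]
  ring

theorem V_second (hS : Side P s B) (hW : Wt P s B m w t) :
    av w (fun a b => (∑ c, nn0 s B a b c ^ 2) / rho s B a b ^ 2)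
      ≤ 21 / 10 * (P.wbar * (1 + 9 * P.th)) * sZ B * sV B + 200 * P.yb ^ 2 := by
  have hwb := hS.ok.wbar_ge
  have hwb' := hS.ok.wbar_le
  have hth := hS.ok.th_pos
  have hth' := hS.ok.th_le
  have hW0 : 0 ≤ P.wbar * (1 + 9 * P.th) := by positivity
  have hW2 : P.wbar * (1 + 9 * P.th) ≤ 2 := by nlinarith
  have h1 : av w (fun a b => (∑ c, nn0 s B a b c ^ 2) / rho s B a b ^ 2)
      ≤ P.wbar * (1 + 9 * P.th) * (21 / 10 * (sZ B * sV B) + 86 * sY B) := by
    rw [av_div_eq, ← DV_sum2 hS, Finset.mul_sum]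
    unfold av
    refine Finset.sum_le_sum fun a _ => ?_
    rw [Finset.mul_sum]
    refine Finset.sum_le_sum fun b _ => ?_
    have n1 : 0 ≤ ∑ c, (21 / 20 * (B b b ^ 2 * B c a ^ 4 + B a a ^ 2 * B c b ^ 4)
        + 86 * (B c a ^ 2 * B c b ^ 2)) := Finset.sum_nonneg fun c _ => by positivity
    by_cases hm : m a b = 0
    · have hw0 : w a b = 0 := by rw [hW.w_eq, hm, zero_mul]
      simp only [hw0, zero_div, zero_mul]
      exact mul_nonneg hW0 n1
    · have h2 := hW.wr2_le hS a b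
      have h3 := mul_le_mul_of_nonneg_left (hW.mask.le_one a b) hW0
      have h4 : w a b / rho s B a b ^ 2 ≤ P.wbar * (1 + 9 * P.th) := by
        have := le_abs_self (w a b / rho s B a b ^ 2)
        linarith
      exact mul_le_mul h4 (Finset.sum_le_sum fun c _ => DV_nsq hS (hW.good a b hm) c)
        (Finset.sum_nonneg fun c _ => sq_nonneg _) hW0
  have h2 := hS.Y_le'
  have h3 : 0 ≤ sY B := Finset.sum_nonneg fun c _ => sq_nonneg _
  have h4 : P.wbar * (1 + 9 * P.th) * sY B ≤ 2 * P.yb ^ 2 :=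
    mul_le_mul hW2 h2 h3 (by norm_num)
  nlinarith [sq_nonneg P.yb]

theorem drift_V (hS : Side P s B) (hW : Wt P s B m w t) :
    av w (fun a b => sV (step s B a b))
      ≤ tot w * sV B - 2 * (1 - 9 * P.th) * (P.k - P.ka * P.vs) * sV B
        + 21 / 10 * (P.wbar * (1 + 9 * P.th)) * sZ B * sV B + P.eV := by
  have h1 : av w (fun a b => sV (step s B a b))
      ≤ av w (fun a b => sV B - (1 - 9 * P.th) * (B a a ^ 2 + B b b ^ 2)
        + 2 * ((∑ c, B c c * nn0 s B a b c) / rho s B a b)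
        + (∑ c, nn0 s B a b c ^ 2) / rho s B a b ^ 2) :=
    av_mono (hW.w_nonneg hS) fun a b hab => V_point hS (hW.good a b (hW.supp hab))
  rw [av_add, av_add, av_sub, av_const, av_const_mul, av_const_mul] at h1
  have h2 := V_rem hS hW
  have h3 := V_first hS hW
  have h4 := V_second hS hW
  have hth' := hS.ok.th_le
  have h5 := mul_le_mul_of_nonneg_left h2 (show 0 ≤ 1 - 9 * P.th by linarith)
  have hnu := hS.V_le.1
  have hyb := hS.Y_le.1
  have hwb := hS.W_le.1
  have hu := hS.ok.u_ge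
  have hvs := hS.ok.vs_ge
  have hka := hS.ok.ka_pos
  have hvp := hW.vp_nonneg
  have hxi := hS.ok.xi_ge
  have hx2 := hW.tB.1
  have p1 : 0 ≤ P.u * P.nu * P.yb + P.vs * P.nu ^ 2 * P.yb + P.ka * P.nu
      + P.vp * P.nu * P.yb + P.nu * P.xi2 + P.xi * P.nu * P.wb := by positivity
  have p2 : 0 ≤ P.yb ^ 2 := sq_nonneg _
  unfold Par.eV
  linarith

end Vale.Agent.P049.An
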