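import Vale.Agent.P049.Sch0

/-! P049: numerical verification of the error budgets, part V and chi.
PLAN.  Purely mechanical (all margins were checked by a script, each is at least 1/2 in the exponent).
For every monomial `y` of the error expression prove `y ≤ z / 10 ^ 12` where `z` is the budget, by
`Ub.small h.big (Ub.mul h.big h.uvp (h.uL.pow h.big 2)) (Lb.mul ...) (by
  rcases h.cs with c | c | c | c | c | c <;> obtain ⟨c1, c2, c3, c4, c5, c6, c7, c8, c9, c10, c11, c12, c13⟩ := c <;>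
  simp only [Ex.wb, Ex.yb, Ex.up, Ex.sg] <;> push_cast <;> linarith [h.A_lo, h.A_hi, h.M_lo, h.M_hi, h.K_lo, h.K_hi])`
(use `h.main`, `h.late`, `h.one`, `h.wn` instead of `h.cs` when the regime is restricted).  If the budget is
`th * v^2 * k` and the monomial contains a factor `v`, cancel that factor first (upper and lower exponents of
`v` differ).  Then unfold the error expression and finish with `nlinarith` / `linarith`.
Squares of the square roots: `Real.sq_sqrt`.  For `bud_C` use `nC ≥ q^30 k` and `nC ≥ μ / q`. -/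

namespace Vale.Agent.P049.An

variable {q : ℕ} {x μ : ℝ} {k : ℕ} {E : Ex}

private theorem exV (h : Reg q x μ k E) {n : ℝ}
    (n1 : (37 + E.t1) / 2 - 1 / 10 ≤ n) (n2 : (37 - E.K) / 2 ≤ n) :
    E.u + n + E.yb + 1 / 2 ≤ -1 + 2 * n + E.K ∧
    (40 + E.K / 4) + 2 * n + E.yb + 1 / 2 ≤ -1 + 2 * n + E.K ∧
    E.K / 2 + n + 1 / 2 ≤ -1 + 2 * n + E.K ∧
    (2 + E.K / 2) + n + E.yb + 1 / 2 ≤ -1 + 2 * n + E.K ∧
    n + E.xi2 + 1 / 2 ≤ -1 + 2 * n + E.K ∧
    E.xi + n + E.wb + 1 / 2 ≤ -1 + 2 * n + E.K ∧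
    2 * E.yb + 1 / 2 ≤ -1 + 2 * n + E.K := by
  have a1 := h.A_lo
  have a2 := h.A_hi
  have a3 := h.M_lo
  have a4 := h.M_hi
  have a5 := h.K_lo
  have a6 := h.K_hi
  simp only [Ex.wb, Ex.yb, Ex.up, Ex.sg] at *
  rcases h.cs with c | c | c | c | c | c <;>
    obtain ⟨c1, c2, c3, c4, c5, c6, c7, c8, c9, c10, c11, c12, c13⟩ := c <;>
    refine ⟨?_, ?_, ?_, ?_, ?_, ?_, ?_⟩ <;>
    linarith

private theorem nV_eq (h : Reg q x μ k E) : nV q x k = (sPar q x μ k).nu ^ 2 := by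
  have h1 := h.uta.nonneg
  refine (Real.sq_sqrt ?_).symm
  unfold nV
  positivity

theorem Reg.bud_V (h : Reg q x μ k E) : (sPar q x μ k).eV ≤ 1 / q * nV q x k * k := by
  have hq := h.big
  obtain ⟨n, un, ln⟩ := exists_exp hq (h.lnu1.pos hq)
  have hz : Lb q (1 / q * (sPar q x μ k).nu ^ 2 * k) _ := (h.lth.mul hq (ln.pow hq 2)).mul hq h.lk
  have hp := hz.pos hq
  obtain ⟨em1, em2, em3, em4, em5, em6, em7⟩ := exV h (exp_le hq h.lnu1 un) (exp_le hq h.lnu2 un)
  have m1 := Ub.small hq ((h.uu.mul hq un).mul hq h.uyb) hz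
    (by push_cast; linarith only [em1])
  have m2 := Ub.small hq ((h.uvs.mul hq (un.pow hq 2)).mul hq h.uyb) hz
    (by push_cast; linarith only [em2])
  have m3 := Ub.small hq (h.uka.mul hq un) hz
    (by push_cast; linarith only [em3])
  have m4 := Ub.small hq ((h.uvp.mul hq un).mul hq h.uyb) hz
    (by push_cast; linarith only [em4])
  have m5 := Ub.small hq (un.mul hq h.uxi2) hz
    (by push_cast; linarith only [em5])
  have m6 := Ub.small hq ((h.uxi.mul hq un).mul hq h.uwb) hz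
    (by push_cast; linarith only [em6])
  have m7 := Ub.small hq (h.uyb.pow hq 2) hz
    (by push_cast; linarith only [em7])
  rw [nV_eq h]
  unfold Par.eV
  linarith

private theorem exC (h : Reg q x μ k E) (hk : kOne q ≤ k) {c : ℝ}
    (n1 : 30 + E.K ≤ c) (n2 : E.M - 1 ≤ c) :
    5 * E.np + E.eta + 4 * E.L + 1 / 2 ≤ -1 + c + E.K ∧
    5 * E.np + E.eta + 2 * E.L + (13 + E.K / 2) + 1 / 2 ≤ -1 + c + E.K ∧
    5 * E.np + E.eta + E.L + 2 * (13 + E.K / 2) + 1 / 2 ≤ -1 + c + E.K ∧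
    5 * E.np + (13 + E.K / 2) + 4 * E.L + 1 / 2 ≤ -1 + c + E.K ∧
    5 * E.np + (13 + E.K / 2) + 2 * E.L + (13 + E.K / 2) + 1 / 2 ≤ -1 + c + E.K ∧
    5 * E.np + (13 + E.K / 2) + E.L + 2 * (13 + E.K / 2) + 1 / 2 ≤ -1 + c + E.K ∧
    E.K + 2 * E.L + 1 / 2 ≤ -1 + c + E.K ∧
    E.K + E.nu + E.up + 1 / 2 ≤ -1 + c + E.K ∧
    E.K + E.K / 2 + E.yb + 1 / 2 ≤ -1 + c + E.K ∧
    E.K + 2 * E.yb + 1 / 2 ≤ -1 + c + E.K ∧
    E.K + 3 * E.L + 1 / 2 ≤ -1 + c + E.K ∧
    E.K + E.nu + E.L + E.yb + 1 / 2 ≤ -1 + c + E.K ∧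
    E.K + 2 * E.nu + 1 / 2 ≤ -1 + c + E.K ∧
    E.K + E.tb + 1 / 2 ≤ -1 + c + E.K ∧
    4 * E.L + 1 / 2 ≤ -1 + c + E.K ∧
    2 * E.nu + 2 * E.up + 1 / 2 ≤ -1 + c + E.K ∧
    2 * E.K + 1 / 2 ≤ -1 + c + E.K := by
  have a1 := h.A_lo
  have a2 := h.A_hi
  have a3 := h.M_lo
  have a4 := h.M_hi
  have a5 := h.K_lo
  have a6 := h.K_hi
  have a7 := (h.one hk).1
  simp only [Ex.wb, Ex.yb, Ex.up, Ex.sg] at *
  rcases (h.one hk).2 with c | c | c <;>
    obtain ⟨c1, c2, c3, c4, c5, c6, c7, c8, c9, c10, c11, c12, c13⟩ := c <;>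
    refine ⟨?_, ?_, ?_, ?_, ?_, ?_, ?_, ?_, ?_, ?_, ?_, ?_, ?_, ?_, ?_, ?_, ?_⟩ <;>
    linarith

theorem Reg.bud_C (h : Reg q x μ k E) (hk : kOne q ≤ k) :
    3200 * (sPar q x μ k).Xi + (5 * k * (sPar q x μ k).G1 + 13 * k * (sPar q x μ k).GT
      + (sPar q x μ k).eU2) + 16 * (k : ℝ) ^ 2 ≤ 1 / q * nC q μ k * k := by
  have hq := h.big
  have p1 : 0 < (q : ℝ) ^ 30 * k := ((Lb.base q 30).mul hq h.lk).pos hq
  have p2 : 0 < μ / q := (h.lm.div hq (Ub.self hq) hq.pos).pos hq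
  have l1 : Lb q (nC q μ k) _ := ((Lb.base q 30).mul hq h.lk).of_le (by unfold nC; linarith)
  have l2 : Lb q (nC q μ k) _ := (h.lm.div hq (Ub.self hq) hq.pos).of_le (by unfold nC; linarith)
  obtain ⟨c, uc, lc⟩ := exists_exp hq (l1.pos hq)
  have hz : Lb q (1 / q * nC q μ k * k) _ := (h.lth.mul hq lc).mul hq h.lk
  have hp := hz.pos hq
  obtain ⟨em1, em2, em3, em4, em5, em6, em7, em8, em9, em10, em11, em12, em13, em14, em15, em16,
    em17⟩ := exC h hk (by simpa using exp_le hq l1 uc) (exp_le hq l2 uc)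
  have m1 := Ub.small hq (((h.unp.pow hq 5).mul hq h.ueta).mul hq (h.uL.pow hq 4)) hz
    (by push_cast; linarith only [em1])
  have m2 := Ub.small hq ((((h.unp.pow hq 5).mul hq h.ueta).mul hq (h.uL.pow hq 2)).mul hq h.ups)
    hz
    (by push_cast; linarith only [em2])
  have m3 := Ub.small hq ((((h.unp.pow hq 5).mul hq h.ueta).mul hq h.uL).mul hq (h.ups.pow hq 2))
    hz
    (by push_cast; linarith only [em3])
  have m4 := Ub.small hq (((h.unp.pow hq 5).mul hq h.ups).mul hq (h.uL.pow hq 4)) hz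
    (by push_cast; linarith only [em4])
  have m5 := Ub.small hq ((((h.unp.pow hq 5).mul hq h.ups).mul hq (h.uL.pow hq 2)).mul hq h.ups)
    hz
    (by push_cast; linarith only [em5])
  have m6 := Ub.small hq ((((h.unp.pow hq 5).mul hq h.ups).mul hq h.uL).mul hq (h.ups.pow hq 2))
    hz
    (by push_cast; linarith only [em6])
  have m7 := Ub.small hq (h.uk.mul hq (h.uL.pow hq 2)) hz
    (by push_cast; linarith only [em7])
  have m8 := Ub.small hq ((h.uk.mul hq h.unu).mul hq h.uup) hz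
    (by push_cast; linarith only [em8])
  have m9 := Ub.small hq ((h.uk.mul hq h.uka).mul hq h.uyb) hz
    (by push_cast; linarith only [em9])
  have m10 := Ub.small hq (h.uk.mul hq (h.uyb.pow hq 2)) hz
    (by push_cast; linarith only [em10])
  have m11 := Ub.small hq (h.uk.mul hq (h.uL.pow hq 3)) hz
    (by push_cast; linarith only [em11])
  have m12 := Ub.small hq (((h.uk.mul hq h.unu).mul hq h.uL).mul hq h.uyb) hz
    (by push_cast; linarith only [em12])
  have m13 := Ub.small hq (h.uk.mul hq (h.unu.pow hq 2)) hz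
    (by push_cast; linarith only [em13])
  have m14 := Ub.small hq (h.uk.mul hq h.utb) hz
    (by push_cast; linarith only [em14])
  have m15 := Ub.small hq (h.uL.pow hq 4) hz
    (by push_cast; linarith only [em15])
  have m16 := Ub.small hq ((h.unu.pow hq 2).mul hq (h.uup.pow hq 2)) hz
    (by push_cast; linarith only [em16])
  have m17 := Ub.small hq (h.uk.pow hq 2) hz
    (by push_cast; linarith only [em17])
  unfold Par.Xi Par.G1 Par.GT Par.eU2
  generalize 1 + (sPar q x μ k).nu = np at *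
  linarith

end Vale.Agent.P049.An
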