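import Vale.Agent.P049.St
import Vale.Agent.P049.DV
import Vale.Agent.P049.DC
import Vale.Agent.P049.Psd
import Vale.Agent.P049.SchV

/-! P049: scalar step for the terms `V / nV` and `(chi + T) / nC`.
General: `θ = 1 / q`, `A = tot w`, `τ = tau x k`, `X = k - T`.  Pull the constant denominator out with `av_div`,
apply `gen` (Rat1) with `κ = k`, `hA := h.tot_err hW`, and the `_step` lemma of Rat2 for `hN'`.  The fields of
`sPar q x μ k` unfold by `rfl` / `show` (`.k = k`, `.th = 1 / q`, `.ta = tau x k`).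
PLAN `sc_V`.  `drift_V`, `kavs`, `St.Z_le`, `wbar ≤ 3/2`, `bud_V`: `-2 (1-9θ)(k - ka vs) ≤ -2 k + 20 θ k`,
`2.1 * 1.5 * (1 + 9θ) Z ≤ (1.74 τ + 23 θ) k`; `ρ = rho0 ≤ 2 - 2τ + 2θ`, `c = 50`.
PLAN `sc_C`.  If `¬ kOne q ≤ k - 2` the left side is `0` and the right side is nonnegative (`hC0`, `nC_pos`, `tot_bd`).
Otherwise `kOne q ≤ k`; `F = chi + T`, `drift_chi`; `chi - U_C = F - T - U_C`; `2 k - θ k ≤ 4 (k + tr (C B)) ≤ 8 k`
(`h.tr`, `U_le` of both sides, `one_x`; `tr_mix_le`, `T_le_k`), `T + U_C ≤ 2 k` (`u_le`), `X ≤ 2 x ≤ θ k / 100`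
(`X_le`, `one_x`), `|chi| ≤ nC + k ≤ 2 nC` (`nC_ge`), `bud_C`; `ρ = 2`, `c = 3`. -/

namespace Vale.Agent.P049.An

open Finset Matrix

variable {ι : Type} [Fintype ι] [DecidableEq ι]
variable {q : ℕ} {x μ : ℝ} {k : ℕ} {E : Ex} {s : ℝ} {B C : Matrix ι ι ℝ} {m w t : ι → ι → ℝ}

private theorem scv_ar {A V N Z θ τ κ ρ kv wb eV S : ℝ} (hV : 0 ≤ V) (hVN : V ≤ N) (hκ : 0 ≤ κ)
    (hθ : 0 < θ) (hθ' : θ ≤ 1 / 100) (hτ : 0 ≤ τ) (hτ' : τ ≤ 1) (hZ0 : 0 ≤ Z)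
    (hZ : Z ≤ κ * (55 / 100 * τ + 21 / 10 * θ)) (hkv : kv ≤ θ * κ) (hw0 : 1 ≤ wb) (hw : wb ≤ 3 / 2)
    (hρ : ρ ≤ 2 * (1 - τ) + 2 * θ) (he : eV ≤ θ * N * κ)
    (hS : S ≤ A * V - 2 * (1 - 9 * θ) * (κ - kv) * V + 21 / 10 * (wb * (1 + 9 * θ)) * Z * V + eV) :
    S ≤ A * V - ρ * κ * V + 50 * (θ * N * κ) := by
  have hθκ : 0 ≤ θ * κ := mul_nonneg hθ.le hκ
  have h1 : 2 * κ - 20 * (θ * κ) ≤ 2 * (1 - 9 * θ) * (κ - kv) := by
    have a : (1 - 9 * θ) * (κ - θ * κ) ≤ (1 - 9 * θ) * (κ - kv) :=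
      mul_le_mul_of_nonneg_left (by linarith) (by linarith)
    have b : 0 ≤ θ * (θ * κ) := mul_nonneg hθ.le hθκ
    nlinarith
  have h2 : 21 / 10 * (wb * (1 + 9 * θ)) * Z ≤ 2 * (τ * κ) + 23 * (θ * κ) := by
    have a : wb * (1 + 9 * θ) ≤ 3 / 2 * (1 + 9 * θ) :=
      mul_le_mul_of_nonneg_right hw (by linarith)
    have b : 21 / 10 * (wb * (1 + 9 * θ)) * Z
        ≤ 21 / 10 * (3 / 2 * (1 + 9 * θ)) * (κ * (55 / 100 * τ + 21 / 10 * θ)) :=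
      mul_le_mul (by linarith) hZ hZ0 (by positivity)
    have c : τ * (θ * κ) ≤ θ * κ := by nlinarith
    have d : θ * (θ * κ) ≤ 1 / 100 * (θ * κ) := mul_le_mul_of_nonneg_right hθ' hθκ
    have e : 0 ≤ τ * κ := mul_nonneg hτ hκ
    nlinarith
  have h3 : ρ * κ ≤ 2 * κ - 2 * (τ * κ) + 2 * (θ * κ) := by
    have := mul_le_mul_of_nonneg_right hρ hκ
    linarith
  have h4 := mul_le_mul_of_nonneg_right h1 hV
  have h5 := mul_le_mul_of_nonneg_right h2 hV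
  have h6 := mul_le_mul_of_nonneg_right h3 hV
  have h7 : θ * κ * V ≤ θ * κ * N := mul_le_mul_of_nonneg_left hVN hθκ
  have h8 : 0 ≤ θ * κ * V := mul_nonneg hθκ hV
  nlinarith

theorem sc_V (h : St q x μ k E s B C) (hW : Wt (sPar q x μ k) s B m w t) :
    av w (fun a b => sV (step s B a b) / nV q x (k - 2))
      ≤ tot w * (sV B / nV q x k + 700 * (1 / q) / k) := by
  rw [av_div]
  have hθ := h.reg.th_le
  have hr := h.reg.rho0_abs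
  refine gen (ρ := rho0 x k) (c := 50) (sV_nonneg B) h.hV h.reg.nV_pos h.k_ge
    (abs_le.2 ⟨by linarith [hr.1], by linarith [hr.2]⟩) h.reg.nV_step hθ.1 hθ.2 (h.tot_err hW)
    (by norm_num) (by norm_num) ?_
  exact scv_ar (sV_nonneg B) h.hV (Nat.cast_nonneg k) hθ.1 hθ.2 h.reg.tau_pos.le h.reg.tau_lt.le
    (sZ_nonneg B) h.Z_le h.reg.kavs h.side.ok.wbar_ge h.side.ok.wbar_le h.reg.rho0_le h.reg.bud_V
    (drift_V h.side hW)

private theorem scc_ar {A chi T TC UB UC N θ κ tr u y e1 e2 S : ℝ} (hF : 0 ≤ chi + T)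
    (hFN : chi + T ≤ N) (hκ : 0 ≤ κ) (hκN : κ ≤ N) (hθ : 0 < θ) (hθ' : θ ≤ 1 / 100)
    (hT0 : 0 ≤ T) (hT : T ≤ κ) (hTC : TC ≤ κ) (hUB : |UB| ≤ u) (hUC : |UC| ≤ u) (hu : u ≤ κ)
    (htr : -(κ / 2) - |UB| - |UC| - 1 ≤ tr) (htr' : tr ≤ (T + TC) / 2)
    (hX : κ - T ≤ 2 * y) (hy : 200 * y ≤ θ * κ) (hu' : 8 * u + 4 ≤ θ * κ)
    (he : e1 + e2 + 16 * κ ^ 2 ≤ θ * N * κ)
    (hS : S ≤ A * (chi + T) - 4 * (κ + tr) * (chi - UC) + 2 * (κ - T) * |chi| + e1 + e2) :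
    S ≤ A * (chi + T) - 2 * κ * (chi + T) + 3 * (θ * N * κ) := by
  have hθκ : 0 ≤ θ * κ := mul_nonneg hθ.le hκ
  have hθκ' : θ * κ ≤ 1 / 100 * κ := mul_le_mul_of_nonneg_right hθ' hκ
  have h1 : 2 * κ - θ * κ ≤ 4 * (κ + tr) := by linarith
  have h2 : 4 * (κ + tr) ≤ 8 * κ := by linarith
  have h3 : T + UC ≤ 2 * κ := by linarith [le_abs_self UC]
  have h4 : 4 * (κ + tr) * (T + UC) ≤ 16 * κ ^ 2 := by
    calc 4 * (κ + tr) * (T + UC) ≤ 4 * (κ + tr) * (2 * κ) :=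
          mul_le_mul_of_nonneg_left h3 (by linarith)
      _ ≤ 8 * κ * (2 * κ) := mul_le_mul_of_nonneg_right h2 (by linarith)
      _ = 16 * κ ^ 2 := by ring
  have h5 : |chi| ≤ N := abs_le.2 ⟨by linarith, by linarith⟩
  have h6 : 2 * (κ - T) * |chi| ≤ θ * κ * N :=
    mul_le_mul (by linarith) h5 (abs_nonneg _) hθκ
  have h7 := mul_le_mul_of_nonneg_right h1 hF
  have h8 : θ * κ * (chi + T) ≤ θ * κ * N := mul_le_mul_of_nonneg_left hFN hθκ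
  nlinarith

theorem sc_C (h : St q x μ k E s B C) (hW : Wt (sPar q x μ k) s B m w t)
    (h2 : kOne q ≤ k → Two (sPar q x μ k) s B C m w t) :
    av w (fun a b => if kOne q ≤ k - 2 then
        (sChi (step s B a b) (step (-s) C a b) + sT (step s B a b)) / nC q μ (k - 2) else 0)
      ≤ tot w * ((if kOne q ≤ k then (sChi B C + sT B) / nC q μ k else 0) + 700 * (1 / q) / k) := by
  have hθ := h.reg.th_le
  have hk0 : (0 : ℝ) ≤ k := Nat.cast_nonneg k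
  by_cases h1 : kOne q ≤ k - 2
  · have hk : kOne q ≤ k := le_trans h1 (Nat.sub_le k 2)
    have T := h2 hk
    simp only [if_pos h1, if_pos hk]
    rw [av_div]
    refine gen (ρ := 2) (c := 3) h.hC0 (h.hC hk) h.reg.nC_pos h.k_ge
      (by norm_num) h.reg.nC_step hθ.1 hθ.2 (h.tot_err hW) (by norm_num) (by norm_num) ?_
    exact scc_ar h.hC0 (h.hC hk) hk0 h.reg.nC_ge hθ.1 hθ.2 h.side.T_nonneg h.side.T_le_k
      T.sC.T_le_k h.side.U_le T.sC.U_le (h.reg.u_le hk) h.tr (tr_mix_le h.side.symm T.sC.symm)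
      (h.reg.X_le h.hD) (h.reg.one_x hk).1 (h.reg.one_x hk).2 (h.reg.bud_C hk) (drift_chi T)
  · simp only [if_neg h1]
    rw [av_const, mul_zero]
    refine mul_nonneg (h.tot_bd hW).1.le (add_nonneg ?_ ?_)
    · split_ifs
      · exact div_nonneg h.hC0 h.reg.nC_pos.le
      · exact le_rfl
    · exact div_nonneg (mul_nonneg (by norm_num) hθ.1.le) hk0

end Vale.Agent.P049.An
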