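import Vale.Agent.P049.Rho
import Vale.Agent.P049.Alg1

/-! P049: second order part of the drift of `W`.  `b* = 1 + nu` bounds all entries (`ent_le`).
PLAN for `W_second`.  `dl = A/ρ + R`, `A = d_b B_ca^2 + d_a B_cb^2`, `dl^2 ≤ (1+th) A^2/ρ^2 + (1 + 1/th) R^2`.
Main part: `wr2_le`, drop the mask, `∑ a b c, A^2 = 2 (sW 1) Z + 2 S2` exactly.
`R` has nine terms, `R^2 ≤ 9 ∑ squares`, every weight `w/ρ^j ≤ 2 m`, `|s - r| ≤ 1.01`; with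
`Γ2 = ∑ y_c z4 c` (`Gam2`) and `H = ∑ m rho1^2 y_a` (`rho1_y`, symmetric in `a, b`):
`4 Q_ab^2 B_ca^2 B_cb^2 ≤ 4 b*^2 Q_ab^2 B_ca^2`, sum `4 b*^2 Γ2`; `4 β^2 B_ca^2 Q_ca^2`: `4 nu^2 Γ2` (twice;
`∑ a, B_ca^2 Q_ca^2 ≤ y_c z4 c`); `4.1 B_ca^2 Q_cb^2`: `4.1 Γ2` (twice); `β^2 B_ca^4 rho1^2 ≤ nu^2 b*^2 B_ca^2 rho1^2`:
`nu^2 b*^2 H` (twice); `4.1 B_ca^2 B_cb^2 rho1^2`: `4.1 b*^2 H`; `ϑ^2`: `ϑ^2 k^3`.
PLAN for `W_corr`: at `c = a`: `nn1 = d_b α^2 + d_a r^2 + 2 αβ y_a + 2 (s-r)(α Q + y_a r)`, `|nn0| ≤ 4 th |α| ≤ nu`;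
seven terms; `∑ d_b^2 α^4 ≤ up^2 nu^4`; `∑ m d_a^2 r^4 ≤ yb^2 + wb^2 yb` (light `a`: `d^2 ≤ 1`, `z_le`; heavy `a`:
`r^4 ≤ r^2`, `d ≤ φ`); `α^2 β^2 y_a^2`: `nu^4 yb^2`; `α^2 Q^2`: `nu^2 L^4`; `y_a^2 r^2`: `y3`;
`nu^2 (2.02 G1)^2`; `ϑ^2 k^2`.  The case `c = b` is the mirror image (`dl_swap`, `av_swap`). -/

namespace Vale.Agent.P049.An

open Finset Matrix

variable {ι : Type} [Fintype ι] [DecidableEq ι]
variable {P : Par} {s : ℝ} {B : Matrix ι ι ℝ} {m w t : ι → ι → ℝ}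

theorem dl_swap (hS : Side P s B) (ϑ : ℝ) (a b c : ι) : dl s ϑ B b a c = dl s ϑ B a b c := by
  simp only [dl, nn1, nn0]
  rw [rho_symm hS b a, rho1_symm hS b a, hS.sym b a, hS.Q_sym b a]
  ring

omit [DecidableEq ι] in
private theorem sumL (f : ι → ℝ) (g : ι → ι → ℝ) :
    ∑ a, ∑ b, ∑ c, f b * g c a = (∑ b, f b) * ∑ c, ∑ a, g c a := by
  rw [Finset.sum_comm (f := fun c a => g c a), Finset.mul_sum]
  refine Finset.sum_congr rfl fun a _ => ?_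
  rw [Finset.sum_mul_sum]

omit [DecidableEq ι] in
private theorem sumR (f : ι → ℝ) (g : ι → ι → ℝ) :
    ∑ a, ∑ b, ∑ c, f a * g c b = (∑ b, f b) * ∑ c, ∑ a, g c a := by
  rw [Finset.sum_comm]
  exact sumL f g

omit [DecidableEq ι] in
private theorem sumP (g h : ι → ι → ℝ) :
    ∑ a, ∑ b, ∑ c, g c a * h c b = ∑ c, (∑ a, g c a) * ∑ b, h c b := by
  calc ∑ a, ∑ b, ∑ c, g c a * h c b = ∑ a, ∑ c, ∑ b, g c a * h c b :=
        Finset.sum_congr rfl fun a _ => Finset.sum_comm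
    _ = ∑ c, ∑ a, ∑ b, g c a * h c b := Finset.sum_comm
    _ = _ := Finset.sum_congr rfl fun c _ => (Finset.sum_mul_sum _ _ _ _).symm

private def S3 (f : ι → ι → ι → ℝ) : ℝ := ∑ a, ∑ b, ∑ c, f a b c

omit [DecidableEq ι] in
private theorem S3_add (f g : ι → ι → ι → ℝ) :
    S3 (fun a b c => f a b c + g a b c) = S3 f + S3 g := by
  simp only [S3, Finset.sum_add_distrib]

omit [DecidableEq ι] in
private theorem S3_mul (e : ℝ) (f : ι → ι → ι → ℝ) :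
    S3 (fun a b c => e * f a b c) = e * S3 f := by
  simp only [S3, Finset.mul_sum]

omit [DecidableEq ι] in
private theorem S3_mono {f g : ι → ι → ι → ℝ} (h : ∀ a b c, f a b c ≤ g a b c) : S3 f ≤ S3 g :=
  Finset.sum_le_sum fun a _ => Finset.sum_le_sum fun b _ => Finset.sum_le_sum fun c _ => h a b c

private def S2 (f : ι → ι → ℝ) : ℝ := ∑ a, ∑ b, f a b

omit [DecidableEq ι] in
private theorem S2_add (f g : ι → ι → ℝ) : S2 (fun a b => f a b + g a b) = S2 f + S2 g := by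
  simp only [S2, Finset.sum_add_distrib]

omit [DecidableEq ι] in
private theorem S2_mul (e : ℝ) (f : ι → ι → ℝ) : S2 (fun a b => e * f a b) = e * S2 f := by
  simp only [S2, Finset.mul_sum]

omit [DecidableEq ι] in
private theorem S2_mono {f g : ι → ι → ℝ} (h : ∀ a b, f a b ≤ g a b) : S2 f ≤ S2 g :=
  Finset.sum_le_sum fun a _ => Finset.sum_le_sum fun b _ => h a b

private theorem sumA (B : Matrix ι ι ℝ) :
    ∑ a, ∑ b, ∑ c, (R1 B b b * B c a ^ 2 + R1 B a a * B c b ^ 2) ^ 2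
      = 2 * sW 1 B * sZ B + 2 * sS2 B := by
  have h1 := sumL (fun b => R1 B b b ^ 2) (fun c a => B c a ^ 4)
  have h2 := sumR (fun b => R1 B b b ^ 2) (fun c a => B c a ^ 4)
  have h3 := sumP (fun c a => R1 B a a * B c a ^ 2) (fun c a => R1 B a a * B c a ^ 2)
  have e : ∀ a b c, (R1 B b b * B c a ^ 2 + R1 B a a * B c b ^ 2) ^ 2 =
      R1 B b b ^ 2 * B c a ^ 4 + R1 B a a ^ 2 * B c b ^ 4
        + 2 * (R1 B a a * B c a ^ 2 * (R1 B b b * B c b ^ 2)) := fun a b c => by ring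
  simp only [e, Finset.sum_add_distrib, ← Finset.mul_sum]
  simp only [← Finset.mul_sum] at h1 h2
  rw [h1, h2, h3, sW_one, sZ, sS2]
  simp only [sq]
  ring

private theorem core {w m ρ N M ϑ n2 m2 : ℝ} (hw : 0 ≤ w) (h0 : |w / ρ ^ 0| ≤ 2 * m)
    (h2 : |w / ρ ^ 2| ≤ 2 * m) (h4 : |w / ρ ^ 4| ≤ 2 * m) (hm : m ≤ 1) (hN : N ^ 2 ≤ n2)
    (hM : M ^ 2 ≤ m2) :
    w * (N / ρ - M / ρ ^ 2 + ϑ) ^ 2 ≤ 14 / 5 * n2 + 14 * (m * m2) + 14 * ϑ ^ 2 := by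
  have e1 : (N / ρ - M / ρ ^ 2 + ϑ) ^ 2
      ≤ 7 / 5 * (N / ρ) ^ 2 + 7 * (M / ρ ^ 2) ^ 2 + 7 * ϑ ^ 2 := by
    nlinarith [sq_nonneg (N / ρ + 5 * (M / ρ ^ 2)), sq_nonneg (N / ρ - 5 * ϑ),
      sq_nonneg (M / ρ ^ 2 + ϑ)]
  have g0 : w ≤ 2 * m := by simpa using (le_abs_self _).trans h0
  have g2 := (le_abs_self _).trans h2
  have g4 := (le_abs_self _).trans h4
  have hm0 : 0 ≤ m := by linarith
  have a1 : w * (N / ρ) ^ 2 ≤ 2 * n2 := by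
    calc w * (N / ρ) ^ 2 = w / ρ ^ 2 * N ^ 2 := by ring
      _ ≤ 2 * n2 := mul_le_mul (by linarith) hN (sq_nonneg _) (by norm_num)
  have a2 : w * (M / ρ ^ 2) ^ 2 ≤ 2 * m * m2 := by
    calc w * (M / ρ ^ 2) ^ 2 = w / ρ ^ 4 * M ^ 2 := by ring
      _ ≤ 2 * m * m2 := mul_le_mul g4 hM (sq_nonneg _) (by linarith)
  have a3 : w * ϑ ^ 2 ≤ 2 * ϑ ^ 2 := mul_le_mul_of_nonneg_right (by linarith) (sq_nonneg _)
  have := mul_le_mul_of_nonneg_left e1 hw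
  linarith

private theorem sq5 (x1 x2 x3 x4 x5 : ℝ) :
    (x1 + x2 + x3 + x4 + x5) ^ 2 ≤ 5 * (x1 ^ 2 + x2 ^ 2 + x3 ^ 2 + x4 ^ 2 + x5 ^ 2) := by
  nlinarith [sq_nonneg (x1 - x2), sq_nonneg (x1 - x3), sq_nonneg (x1 - x4), sq_nonneg (x1 - x5),
    sq_nonneg (x2 - x3), sq_nonneg (x2 - x4), sq_nonneg (x2 - x5), sq_nonneg (x3 - x4),
    sq_nonneg (x3 - x5), sq_nonneg (x4 - x5)]

private theorem sq3 (x1 x2 x3 : ℝ) : (x1 + x2 + x3) ^ 2 ≤ 3 * (x1 ^ 2 + x2 ^ 2 + x3 ^ 2) := by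
  nlinarith [sq_nonneg (x1 - x2), sq_nonneg (x1 - x3), sq_nonneg (x2 - x3)]

private theorem sq_le_of_abs {x c : ℝ} (h : |x| ≤ c) : x ^ 2 ≤ c ^ 2 := by
  rw [← sq_abs x]
  exact pow_le_pow_left₀ (abs_nonneg x) h 2

private theorem ptN {Q x y qa qb α β σ b : ℝ} (hy : y ^ 2 ≤ b ^ 2) (hσ : σ ^ 2 ≤ 21 / 20) :
    (-(2 * Q * x * y) + 2 * β * x * qa + 2 * α * y * qb + 2 * σ * (x * qb + qa * y)) ^ 2
      ≤ 20 * b ^ 2 * (Q ^ 2 * x ^ 2) + 20 * (β ^ 2 * (x ^ 2 * qa ^ 2))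
        + 20 * (α ^ 2 * (y ^ 2 * qb ^ 2)) + 21 * (x ^ 2 * qb ^ 2) + 21 * (qa ^ 2 * y ^ 2) := by
  have h := sq5 (-(2 * Q * x * y)) (2 * β * x * qa) (2 * α * y * qb) (2 * σ * (x * qb))
    (2 * σ * (qa * y))
  have a1 := mul_le_mul_of_nonneg_right hy (show 0 ≤ Q ^ 2 * x ^ 2 by positivity)
  have a2 := mul_le_mul_of_nonneg_right hσ (show 0 ≤ x ^ 2 * qb ^ 2 by positivity)
  have a3 := mul_le_mul_of_nonneg_right hσ (show 0 ≤ qa ^ 2 * y ^ 2 by positivity)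
  linarith

private theorem ptM {x y α β σ b r : ℝ} (hb : 1 ≤ b) (hx : x ^ 2 ≤ b ^ 2) (hy : y ^ 2 ≤ b ^ 2)
    (hα : α ^ 2 ≤ b ^ 2) (hβ : β ^ 2 ≤ b ^ 2) (hσ : σ ^ 2 ≤ 21 / 20) :
    ((β * x ^ 2 + α * y ^ 2 + 2 * σ * x * y) * r) ^ 2
      ≤ b ^ 4 * (16 * (r ^ 2 * x ^ 2) + 3 * (r ^ 2 * y ^ 2)) := by
  have h := sq3 (β * x ^ 2) (α * y ^ 2) (2 * σ * x * y)
  have b2 : 1 ≤ b ^ 2 := one_le_pow₀ hb
  have a1 : β ^ 2 * x ^ 2 ≤ b ^ 2 * b ^ 2 := mul_le_mul hβ hx (sq_nonneg _) (sq_nonneg _)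
  have a2 : α ^ 2 * y ^ 2 ≤ b ^ 2 * b ^ 2 := mul_le_mul hα hy (sq_nonneg _) (sq_nonneg _)
  have a3 : σ ^ 2 * y ^ 2 ≤ 21 / 20 * (b ^ 2 * b ^ 2) :=
    mul_le_mul hσ (hy.trans (le_mul_of_one_le_left (sq_nonneg _) b2)) (sq_nonneg _) (by norm_num)
  have c1 := mul_le_mul_of_nonneg_right a1 (sq_nonneg x)
  have c2 := mul_le_mul_of_nonneg_right a2 (sq_nonneg y)
  have c3 := mul_le_mul_of_nonneg_right a3 (sq_nonneg x)
  have c4 : 0 ≤ b ^ 2 * b ^ 2 * x ^ 2 := by positivity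
  have e : (β * x ^ 2 + α * y ^ 2 + 2 * σ * x * y) ^ 2 ≤ b ^ 4 * (16 * x ^ 2 + 3 * y ^ 2) := by
    linarith
  have := mul_le_mul_of_nonneg_right e (sq_nonneg r)
  linarith

private theorem split_sq {th : ℝ} (h : 0 < th) (x y : ℝ) :
    (x + y) ^ 2 ≤ (1 + th) * x ^ 2 + (1 + 1 / th) * y ^ 2 := by
  have : (1 + th) * x ^ 2 + (1 + 1 / th) * y ^ 2 - (x + y) ^ 2 = (th * x - y) ^ 2 / th := by
    field_simp
    ring
  have h2 : 0 ≤ (th * x - y) ^ 2 / th := by positivity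
  linarith

private theorem nu0 (hS : Side P s B) : 0 ≤ P.nu := hS.V_le.1

private theorem al_sq (hS : Side P s B) (a : ι) : B a a ^ 2 ≤ P.nu ^ 2 :=
  sq_le_of_abs (hS.V_le.sup a)

private theorem sig_sq (hS : Side P s B) {a b : ι} (hg : GoodPair P B a b) :
    (s - B a b) ^ 2 ≤ 21 / 20 := (sq_le_of_abs (hg.sr_le hS)).trans (by norm_num)

private theorem col_sq (hS : Side P s B) (a : ι) : ∑ c, B c a ^ 2 = (B * B) a a := by
  rw [hS.y_eq]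
  exact Finset.sum_congr rfl fun c _ => by rw [hS.sym c a]

/-- the pointwise bound for the second moment -/
private theorem pt_second (hS : Side P s B) (hW : Wt P s B m w t) (ϑ : ℝ) (a b c : ι) :
    w a b * dl s ϑ B a b c ^ 2 ≤ (1 + P.th) * (P.wbar * (1 + 9 * P.th))
        * (R1 B b b * B c a ^ 2 + R1 B a a * B c b ^ 2) ^ 2
      + (1 + 1 / P.th) * (14 / 5 * (20 * (1 + P.nu) ^ 2 * ((B * B) a b ^ 2 * B c a ^ 2)
        + 20 * (B b b ^ 2 * (B c a ^ 2 * (B * B) c a ^ 2))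
        + 20 * (B a a ^ 2 * (B c b ^ 2 * (B * B) c b ^ 2)) + 21 * (B c a ^ 2 * (B * B) c b ^ 2)
        + 21 * ((B * B) c a ^ 2 * B c b ^ 2))
        + 14 * (m a b * ((1 + P.nu) ^ 4 * (16 * (rho1 s B a b ^ 2 * B c a ^ 2)
          + 3 * (rho1 s B a b ^ 2 * B c b ^ 2)))) + 14 * ϑ ^ 2) := by
  have hth := hS.ok.th_pos
  have hwb := hS.ok.wbar_ge
  have hm0 := hW.mask.nonneg a b
  have hn := nu0 hS
  by_cases h0 : w a b = 0
  · rw [h0, zero_mul]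
    positivity
  have hg := hW.good a b (hW.supp h0)
  have hw := hW.w_nonneg hS a b
  have hb : ∀ c e, B c e ^ 2 ≤ (1 + P.nu) ^ 2 := fun c e => sq_le_of_abs (hS.ent_le c e)
  have e : dl s ϑ B a b c = (R1 B b b * B c a ^ 2 + R1 B a a * B c b ^ 2) / rho s B a b
      + ((-(2 * (B * B) a b * B c a * B c b) + 2 * B b b * B c a * (B * B) c a
        + 2 * B a a * B c b * (B * B) c b
        + 2 * (s - B a b) * (B c a * (B * B) c b + (B * B) c a * B c b)) / rho s B a b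
      - (B b b * B c a ^ 2 + B a a * B c b ^ 2 + 2 * (s - B a b) * B c a * B c b) * rho1 s B a b
        / rho s B a b ^ 2 + ϑ) := by
    simp only [dl, nn1, nn0]
    ring
  have h1 := core (ϑ := ϑ) hw (hW.wr_le hS 0 (by norm_num) a b) (hW.wr_le hS 2 (by norm_num) a b)
    (hW.wr_le hS 4 (by norm_num) a b) (hW.mask.le_one a b)
    (ptN (Q := (B * B) a b) (x := B c a) (qa := (B * B) c a) (qb := (B * B) c b) (α := B a a)
      (β := B b b) (hb c b) (sig_sq hS hg))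
    (ptM (r := rho1 s B a b) (by linarith) (hb c a) (hb c b) (hb a a) (hb b b) (sig_sq hS hg))
  have h2 : w a b * ((R1 B b b * B c a ^ 2 + R1 B a a * B c b ^ 2) / rho s B a b) ^ 2
      ≤ P.wbar * (1 + 9 * P.th) * (R1 B b b * B c a ^ 2 + R1 B a a * B c b ^ 2) ^ 2 := by
    have g := (le_abs_self _).trans (hW.wr2_le hS a b)
    have g' : P.wbar * (1 + 9 * P.th) * m a b ≤ P.wbar * (1 + 9 * P.th) :=
      mul_le_of_le_one_right (by positivity) (hW.mask.le_one a b)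
    rw [div_pow, ← mul_div_assoc, mul_div_right_comm]
    exact mul_le_mul_of_nonneg_right (g.trans g') (sq_nonneg _)
  rw [e]
  refine (mul_le_mul_of_nonneg_left (split_sq hth _ _) hw).trans ?_
  rw [mul_add, mul_left_comm (w a b), mul_left_comm (w a b), mul_assoc (1 + P.th)]
  exact add_le_add (mul_le_mul_of_nonneg_left h2 (by positivity))
    (mul_le_mul_of_nonneg_left h1 (by positivity))

private theorem sumBQ (hS : Side P s B) :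
    ∑ c, ∑ a, B c a ^ 2 * (B * B) c a ^ 2 ≤ ∑ c, (B * B) c c * ∑ e, (B * B) c e ^ 2 := by
  refine Finset.sum_le_sum fun c _ => ?_
  rw [Finset.mul_sum]
  refine Finset.sum_le_sum fun a _ => mul_le_mul_of_nonneg_right ?_ (sq_nonneg _)
  rw [hS.y_eq]
  exact Finset.single_le_sum (f := fun e => B c e ^ 2) (fun _ _ => sq_nonneg _) (mem_univ a)

theorem W_second (hS : Side P s B) (hW : Wt P s B m w t) (ϑ : ℝ) :
    av w (fun a b => ∑ c, dl s ϑ B a b c ^ 2)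
      ≤ (1 + P.th) * (P.wbar * (1 + 9 * P.th)) * (2 * sW 1 B * sZ B + 2 * sS2 B)
        + 20000 / P.th * P.Th ϑ := by
  have hth := hS.ok.th_pos
  have hth' := hS.ok.th_le
  have hn := nu0 hS
  have hyb := hS.Y_le.1
  obtain ⟨Γ, hΓ⟩ : ∃ Γ, Γ = ∑ c, (B * B) c c * ∑ e, (B * B) c e ^ 2 := ⟨_, rfl⟩
  obtain ⟨H, hH⟩ : ∃ H, H = ∑ a, ∑ b, m a b * (rho1 s B a b ^ 2 * (B * B) a a) := ⟨_, rfl⟩
  have t1 : ∑ a, ∑ b, ∑ c, (B * B) a b ^ 2 * B c a ^ 2 = Γ := by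
    rw [hΓ]
    refine Finset.sum_congr rfl fun a _ => ?_
    rw [← Finset.sum_mul_sum, col_sq hS, mul_comm]
  have t23 : (∑ b, B b b ^ 2) * ∑ c, ∑ a, B c a ^ 2 * (B * B) c a ^ 2 ≤ P.nu ^ 2 * Γ := by
    rw [hΓ]
    exact mul_le_mul hS.V_le.2 (sumBQ hS) (by positivity) (sq_nonneg _)
  have t2 := (sumL (fun b => B b b ^ 2) (fun c a => B c a ^ 2 * (B * B) c a ^ 2)).le.trans t23
  have t3 := (sumR (fun b => B b b ^ 2) (fun c a => B c a ^ 2 * (B * B) c a ^ 2)).le.trans t23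
  have t4 : ∑ a, ∑ b, ∑ c, B c a ^ 2 * (B * B) c b ^ 2 = Γ := by
    rw [sumP (fun c a => B c a ^ 2) (fun c b => (B * B) c b ^ 2), hΓ]
    exact Finset.sum_congr rfl fun c _ => by rw [hS.y_eq]
  have t5 : ∑ a, ∑ b, ∑ c, (B * B) c a ^ 2 * B c b ^ 2 = Γ := by
    rw [sumP (fun c b => (B * B) c b ^ 2) (fun c a => B c a ^ 2), hΓ]
    exact Finset.sum_congr rfl fun c _ => by rw [hS.y_eq, mul_comm]
  have t6 : ∑ a, ∑ b, ∑ c, m a b * (rho1 s B a b ^ 2 * B c a ^ 2) = H := by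
    rw [hH]
    refine Finset.sum_congr rfl fun a _ => Finset.sum_congr rfl fun b _ => ?_
    rw [← Finset.mul_sum, ← Finset.mul_sum, col_sq hS]
  have t7 : ∑ a, ∑ b, ∑ c, m a b * (rho1 s B a b ^ 2 * B c b ^ 2) = H := by
    rw [← t6, Finset.sum_comm]
    refine Finset.sum_congr rfl fun a _ => Finset.sum_congr rfl fun b _ => ?_
    rw [hW.mask.2 b a, rho1_symm hS b a]
  have t8 : ∑ _a : ι, ∑ _b : ι, ∑ _c : ι, ϑ ^ 2 = ϑ ^ 2 * P.k ^ 3 := by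
    simp only [Finset.sum_const, Finset.card_univ, nsmul_eq_mul, hS.card]
    ring
  have key : av w (fun a b => ∑ c, dl s ϑ B a b c ^ 2)
      ≤ (1 + P.th) * (P.wbar * (1 + 9 * P.th)) * (2 * sW 1 B * sZ B + 2 * sS2 B)
        + (1 + 1 / P.th) * (14 / 5 * (20 * (1 + P.nu) ^ 2 * Γ + 20 * (P.nu ^ 2 * Γ)
          + 20 * (P.nu ^ 2 * Γ) + 21 * Γ + 21 * Γ)
          + 14 * ((1 + P.nu) ^ 4 * (16 * H + 3 * H)) + 14 * (ϑ ^ 2 * P.k ^ 3)) := by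
    have e : ∀ a b c, m a b * ((1 + P.nu) ^ 4 * (16 * (rho1 s B a b ^ 2 * B c a ^ 2)
        + 3 * (rho1 s B a b ^ 2 * B c b ^ 2))) = (1 + P.nu) ^ 4
          * (16 * (m a b * (rho1 s B a b ^ 2 * B c a ^ 2))
            + 3 * (m a b * (rho1 s B a b ^ 2 * B c b ^ 2))) := fun a b c => by ring
    have h := S3_mono fun a b c => (pt_second hS hW ϑ a b c).trans_eq (by rw [e])
    have e2 : av w (fun a b => ∑ c, dl s ϑ B a b c ^ 2)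
        = S3 fun a b c => w a b * dl s ϑ B a b c ^ 2 := by
      simp only [av, S3, Finset.mul_sum]
    rw [e2]
    refine h.trans ?_
    simp only [S3_add, S3_mul]
    simp only [S3]
    rw [sumA, t1, t4, t5, t6, t7, t8]
    gcongr
  refine key.trans (add_le_add_right ?_ _)
  obtain ⟨X, hX⟩ : ∃ X, X = P.L ^ 4 + P.L ^ 2 * P.wb ^ 2 + P.nu ^ 2 * P.yb * P.up ^ 2
    + P.nu ^ 2 * P.tb ^ 2 + (1 + P.nu) ^ 2 * P.wb ^ 2 * P.yb + P.yb ^ 2 := ⟨_, rfl⟩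
  have p1 : 0 ≤ P.L ^ 4 := by positivity
  have p2 : 0 ≤ P.L ^ 2 * P.wb ^ 2 := by positivity
  have p3 : 0 ≤ P.nu ^ 2 * P.yb * P.up ^ 2 := by positivity
  have p4 : 0 ≤ P.nu ^ 2 * P.tb ^ 2 := by positivity
  have p5 : 0 ≤ (1 + P.nu) ^ 2 * P.wb ^ 2 * P.yb := by positivity
  have p6 : 0 ≤ P.yb ^ 2 := by positivity
  have p7 : 0 ≤ P.nu ^ 4 * P.up ^ 2 := by positivity
  have p8 : 0 ≤ ϑ ^ 2 * P.k ^ 3 := by
    have := hS.ok.k_ge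
    positivity
  have n1 : P.nu ^ 2 ≤ (1 + P.nu) ^ 2 := by nlinarith
  have n2 : (1 + P.nu) ^ 2 ≤ (1 + P.nu) ^ 4 := pow_le_pow_right₀ (by linarith) (by norm_num)
  have n3 : 1 ≤ (1 + P.nu) ^ 4 := one_le_pow₀ (by linarith)
  have n4 : P.nu ^ 2 * P.wb ^ 2 * P.yb ≤ (1 + P.nu) ^ 2 * P.wb ^ 2 * P.yb := by gcongr
  have g1 : Γ ≤ 4 * X := by
    have := hS.Gam2
    rw [← hΓ] at this
    linarith
  have g0 : 0 ≤ Γ := by
    rw [← t1]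
    positivity
  have g2 : H ≤ 50 * X := by
    have := rho1_y hS hW
    rw [← hH] at this
    linarith
  have hX0 : 0 ≤ X := by linarith
  have c1 : (1 + P.nu) ^ 2 * Γ ≤ (1 + P.nu) ^ 4 * (4 * X) :=
    mul_le_mul n2 g1 g0 (by positivity)
  have c2 : P.nu ^ 2 * Γ ≤ (1 + P.nu) ^ 4 * (4 * X) :=
    mul_le_mul (n1.trans n2) g1 g0 (by positivity)
  have c3 : 1 * Γ ≤ (1 + P.nu) ^ 4 * (4 * X) := mul_le_mul n3 g1 g0 (by positivity)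
  have c4 : (1 + P.nu) ^ 4 * H ≤ (1 + P.nu) ^ 4 * (50 * X) :=
    mul_le_mul_of_nonneg_left g2 (by positivity)
  have c5 : 0 ≤ (1 + P.nu) ^ 4 * X := by positivity
  have hT : P.Th ϑ = (1 + P.nu) ^ 4 * X + P.nu ^ 4 * P.up ^ 2 + ϑ ^ 2 * P.k ^ 3 := by
    rw [hX, Par.Th]
  have d1 : 1 + 1 / P.th ≤ 20000 / P.th / 15000 := by
    rw [le_div_iff₀ (by norm_num), le_div_iff₀ hth]
    have : (1 + 1 / P.th) * 15000 * P.th = 15000 * P.th + 15000 := by field_simp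
    linarith
  calc _ ≤ 20000 / P.th / 15000 * (15000 * P.Th ϑ) := by
        refine mul_le_mul d1 ?_ ?_ (by positivity)
        · rw [hT]
          linarith
        · have : 0 ≤ H := by
            rw [← t6]
            exact Finset.sum_nonneg fun a _ => Finset.sum_nonneg fun b _ =>
              Finset.sum_nonneg fun c _ => mul_nonneg (hW.mask.nonneg a b) (by positivity)
          positivity
    _ = _ := by ring

private theorem ptN' {d e α β r y Q σ nu : ℝ} (hα : α ^ 2 ≤ nu ^ 2) (hr : r ^ 2 ≤ 1) (hy : 0 ≤ y)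
    (he : e = y - 1) (hσ : σ ^ 2 ≤ 21 / 20) :
    (d * α ^ 2 + e * r ^ 2 - 2 * Q * α * r + 2 * β * α * y + 2 * α * r * Q
        + 2 * σ * (α * Q + y * r)) ^ 2
      ≤ 5 * nu ^ 2 * (α ^ 2 * d ^ 2) + 5 * r ^ 4 + 26 * (y ^ 2 * r ^ 2)
        + 20 * nu ^ 2 * (y ^ 2 * β ^ 2) + 21 * nu ^ 2 * Q ^ 2 := by
  have h := sq5 (d * α ^ 2) (e * r ^ 2) (2 * β * α * y) (2 * σ * (α * Q)) (2 * σ * (y * r))
  have a1 := mul_le_mul_of_nonneg_right hα (show 0 ≤ α ^ 2 * d ^ 2 by positivity)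
  have a2 : e ^ 2 ≤ 1 + y ^ 2 := by rw [he]; nlinarith
  have a3 := mul_le_mul_of_nonneg_right a2 (show 0 ≤ r ^ 4 by positivity)
  have a4 := mul_le_mul_of_nonneg_right hr (show 0 ≤ y ^ 2 * r ^ 2 by positivity)
  have a5 := mul_le_mul_of_nonneg_right hα (show 0 ≤ y ^ 2 * β ^ 2 by positivity)
  have a6 := mul_le_mul_of_nonneg_right
    (mul_le_mul hσ hα (sq_nonneg _) (by norm_num)) (sq_nonneg Q)
  have a7 := mul_le_mul_of_nonneg_right hσ (show 0 ≤ y ^ 2 * r ^ 2 by positivity)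
  linarith

private theorem ptM' {α β r σ nu q th : ℝ} (hα : α ^ 2 ≤ nu ^ 2) (hth : th ≤ 1 / 100)
    (hr : |r| ≤ th) (hab : |α * β| ≤ th) (hσ : |σ| ≤ 101 / 100) :
    ((β * α ^ 2 + α * r ^ 2 + 2 * σ * α * r) * q) ^ 2 ≤ nu ^ 2 * q ^ 2 := by
  have h1 : |σ * r| ≤ 101 / 100 * th := by
    rw [abs_mul]
    exact mul_le_mul hσ hr (abs_nonneg _) (by norm_num)
  have h2 : r ^ 2 ≤ (1 / 100) ^ 2 := sq_le_of_abs (hr.trans hth)
  have h3 : |α * β + r ^ 2 + 2 * (σ * r)| ≤ 1 := by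
    rw [abs_le] at h1 hab ⊢
    constructor <;> nlinarith [sq_nonneg r]
  have h4 := mul_le_mul hα (sq_le_of_abs h3) (sq_nonneg _) (sq_nonneg _)
  have h5 := mul_le_mul_of_nonneg_right h4 (sq_nonneg q)
  linarith

private theorem pt_corr (hS : Side P s B) (hW : Wt P s B m w t) (ϑ : ℝ) (a b : ι) :
    w a b * dl s ϑ B a b a ^ 2 ≤ 14 / 5 * (5 * P.nu ^ 2 * (B a a ^ 2 * R1 B b b ^ 2)
        + 5 * B a b ^ 4 + 26 * ((B * B) a a ^ 2 * B a b ^ 2)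
        + 20 * P.nu ^ 2 * ((B * B) a a ^ 2 * B b b ^ 2) + 21 * P.nu ^ 2 * (B * B) a b ^ 2)
      + 14 * (P.nu ^ 2 * (m a b * rho1 s B a b ^ 2)) + 14 * ϑ ^ 2 := by
  have hm0 := hW.mask.nonneg a b
  by_cases h0 : w a b = 0
  · rw [h0, zero_mul]
    positivity
  have hg := hW.good a b (hW.supp h0)
  have hr : B a b ^ 2 ≤ 1 :=
    (sq_le_of_abs (hg.r_le.trans hS.ok.th_le)).trans (by norm_num)
  have h1 := core (ϑ := ϑ) (hW.w_nonneg hS a b) (hW.wr_le hS 0 (by norm_num) a b)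
    (hW.wr_le hS 2 (by norm_num) a b) (hW.wr_le hS 4 (by norm_num) a b) (hW.mask.le_one a b)
    (ptN' (d := R1 B b b) (β := B b b) (Q := (B * B) a b) (al_sq hS a) hr (hS.y_nonneg a)
      (R1_diag B a) (sig_sq hS hg))
    (ptM' (q := rho1 s B a b) (al_sq hS a) hS.ok.th_le hg.r_le hg.ab_le (hg.sr_le hS))
  rw [mul_left_comm (m a b)] at h1
  exact h1

theorem W_corr (hS : Side P s B) (hW : Wt P s B m w t) (ϑ : ℝ) :
    av w (fun a b => dl s ϑ B a b a ^ 2 + dl s ϑ B a b b ^ 2) ≤ 1000 * P.Th ϑ := by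
  have hn := nu0 hS
  have hyb := hS.Y_le.1
  have hk := hS.ok.k_ge
  have e1 : av w (fun a b => dl s ϑ B a b b ^ 2) = av w (fun a b => dl s ϑ B a b a ^ 2) := by
    rw [← av_swap hW.w_symm]
    simp only [dl_swap hS ϑ]
  have t1 : S2 (fun a b => B a a ^ 2 * R1 B b b ^ 2) ≤ P.nu ^ 2 * P.up ^ 2 := by
    rw [S2, ← Finset.sum_mul_sum]
    exact mul_le_mul hS.V_le.2 hS.D_le.2 (by positivity) (sq_nonneg _)
  have t2 : S2 (fun a b => B a b ^ 4) ≤ P.yb ^ 2 := hS.Z_le_Y.trans hS.Y_le'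
  have t3 : S2 (fun a b => (B * B) a a ^ 2 * B a b ^ 2) ≤ 2 * P.yb ^ 2 + 4 * P.wb ^ 2 * P.yb := by
    refine le_trans (le_of_eq (Finset.sum_congr rfl fun a _ => ?_)) hS.y3
    rw [← Finset.mul_sum, ← hS.y_eq]
    ring
  have t4 : S2 (fun a b => (B * B) a a ^ 2 * B b b ^ 2) ≤ P.yb ^ 2 * P.nu ^ 2 := by
    rw [S2, ← Finset.sum_mul_sum]
    exact mul_le_mul hS.Y_le.2 hS.V_le.2 (by positivity) (sq_nonneg _)
  have t5 : S2 (fun a b => (B * B) a b ^ 2) ≤ (P.L ^ 2) ^ 2 := hS.M4_le.2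
  have t6 : S2 (fun a b => m a b * rho1 s B a b ^ 2) ≤ 9 * (P.L ^ 4 + P.nu ^ 2 * P.up ^ 2) := by
    refine le_trans (H2_rho1 hS hW).2 ?_
    rw [Par.G1]
    nlinarith [sq_nonneg (P.L ^ 2 - P.nu * P.up), sq_nonneg (P.L ^ 2), sq_nonneg (P.nu * P.up)]
  have t7 : S2 (fun _ _ : ι => ϑ ^ 2) ≤ ϑ ^ 2 * P.k ^ 3 := by
    simp only [S2, Finset.sum_const, Finset.card_univ, nsmul_eq_mul, hS.card]
    have : P.k ^ 2 ≤ P.k ^ 3 := pow_le_pow_right₀ (by linarith) (by norm_num)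
    nlinarith [mul_le_mul_of_nonneg_left this (sq_nonneg ϑ)]
  have key : av w (fun a b => dl s ϑ B a b a ^ 2)
      ≤ 14 / 5 * (5 * P.nu ^ 2 * (P.nu ^ 2 * P.up ^ 2) + 5 * P.yb ^ 2
        + 26 * (2 * P.yb ^ 2 + 4 * P.wb ^ 2 * P.yb) + 20 * P.nu ^ 2 * (P.yb ^ 2 * P.nu ^ 2)
        + 21 * P.nu ^ 2 * (P.L ^ 2) ^ 2)
      + 14 * (P.nu ^ 2 * (9 * (P.L ^ 4 + P.nu ^ 2 * P.up ^ 2))) + 14 * (ϑ ^ 2 * P.k ^ 3) := by
    refine le_trans (S2_mono (pt_corr hS hW ϑ)) ?_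
    simp only [S2_add, S2_mul]
    gcongr
  have n0 : P.nu ≤ 1 + P.nu := by linarith
  have n1 : 1 ≤ 1 + P.nu := by linarith
  have n2 : P.nu ^ 2 ≤ (1 + P.nu) ^ 4 :=
    (pow_le_pow_left₀ hn n0 2).trans (pow_le_pow_right₀ n1 (by norm_num))
  have n3 : 1 ≤ (1 + P.nu) ^ 4 := one_le_pow₀ n1
  have n4 : P.nu ^ 4 ≤ (1 + P.nu) ^ 4 := pow_le_pow_left₀ hn n0 4
  have n5 : 1 ≤ (1 + P.nu) ^ 4 * (1 + P.nu) ^ 2 := one_le_mul_of_one_le_of_one_le n3 (one_le_pow₀ n1)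
  have c1 := mul_le_mul_of_nonneg_right n2 (show 0 ≤ P.L ^ 4 by positivity)
  have c2 := mul_le_mul_of_nonneg_right n3 (sq_nonneg P.yb)
  have c3 := mul_le_mul_of_nonneg_right n4 (sq_nonneg P.yb)
  have c4 := mul_le_mul_of_nonneg_right n5 (show 0 ≤ P.wb ^ 2 * P.yb by positivity)
  obtain ⟨b4, hb4⟩ : ∃ b4, b4 = (1 + P.nu) ^ 4 := ⟨_, rfl⟩
  obtain ⟨b2, hb2⟩ : ∃ b2, b2 = (1 + P.nu) ^ 2 := ⟨_, rfl⟩
  have q4 : 0 ≤ b4 := by rw [hb4]; positivity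
  have q2 : 0 ≤ b2 := by rw [hb2]; positivity
  have p1 : 0 ≤ b4 * P.L ^ 4 := by positivity
  have p2 : 0 ≤ b4 * (P.L ^ 2 * P.wb ^ 2) := by positivity
  have p3 : 0 ≤ b4 * (P.nu ^ 2 * P.yb * P.up ^ 2) := by positivity
  have p4 : 0 ≤ b4 * (P.nu ^ 2 * P.tb ^ 2) := by positivity
  have p5 : 0 ≤ b4 * b2 * (P.wb ^ 2 * P.yb) := by positivity
  have p6 : 0 ≤ b4 * P.yb ^ 2 := by positivity
  have p7 : 0 ≤ P.nu ^ 4 * P.up ^ 2 := by positivity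
  have p8 : 0 ≤ ϑ ^ 2 * P.k ^ 3 := by positivity
  rw [av_add, e1, Par.Th]
  rw [← hb4] at c1 c2 c3 c4 ⊢
  rw [← hb2] at c4 ⊢
  linarith

end Vale.Agent.P049.An
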