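import Vale.Agent.P049.DW1
import Vale.Agent.P049.DW2

/-! P049: drift of `W`.  The new centre is `ta - ϑ`, the new number of half-edges `k - 2`.
PLAN.  `W_point`: with `τ' = ta - ϑ`, `Y' - 2 τ' T' + (k-2) τ'^2 = ∑ c ∉ {a,b}, (y'_c - τ')^2`
(`step_sq_diag_a/b`, `step_symm`, `T' = ∑ y'`), `y'_c - τ' = φ_c + dl c` (`step_sq_diag`); add and subtract
the terms `c = a, b` and use `-2 φ δ ≤ th φ^2 + δ^2 / th`.  `W_rem`: `row_err roww` with `p = φ^2`, `q = 1`.
`drift_W`: `av_mono` and the four estimates. -/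

namespace Vale.Agent.P049.An

open Finset Matrix

variable {ι : Type} [Fintype ι] [DecidableEq ι]
variable {P : Par} {s : ℝ} {B : Matrix ι ι ℝ} {m w t : ι → ι → ℝ}

theorem W_point (hS : Side P s B) {a b : ι} (hg : GoodPair P B a b) (ϑ : ℝ) :
    sY (step s B a b) - 2 * (P.ta - ϑ) * sT (step s B a b) + (P.k - 2) * (P.ta - ϑ) ^ 2
      ≤ sW P.ta B - (1 - P.th) * (((B * B) a a - P.ta) ^ 2 + ((B * B) b b - P.ta) ^ 2)
        + 2 * (∑ c, ((B * B) c c - P.ta) * dl s ϑ B a b c)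
        + (dl s ϑ B a b a ^ 2 + dl s ϑ B a b b ^ 2) / P.th + ∑ c, dl s ϑ B a b c ^ 2 := by
  have hab := hg.ne
  have hρ : rho s B a b ≠ 0 := by
    have := hg.rho_ge hS
    intro h0
    rw [h0] at this
    norm_num at this
  obtain ⟨G, hG⟩ : ∃ G : ι → ℝ, G = fun c => (((B * B) c c - P.ta) + dl s ϑ B a b c) ^ 2 :=
    ⟨_, rfl⟩
  have h1 : ∀ c, ((step s B a b * step s B a b) c c - (P.ta - ϑ)) ^ 2 =
      G c - (if c = a then G c - (P.ta - ϑ) ^ 2 else 0)
        - (if c = b then G c - (P.ta - ϑ) ^ 2 else 0) := by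
    intro c
    by_cases hca : c = a
    · subst hca
      rw [step_sq_diag_a, if_pos rfl, if_neg hab]
      ring
    · by_cases hcb : c = b
      · subst hcb
        rw [step_sq_diag_b, if_neg hca, if_pos rfl]
        ring
      · rw [step_sq_diag hS.sgn hS.symm hab hρ c hca hcb, if_neg hca, if_neg hcb, hG]
        simp only [dl]
        ring
  have h2 : ∑ c, ((step s B a b * step s B a b) c c - (P.ta - ϑ)) ^ 2 =
      sY (step s B a b) - 2 * (P.ta - ϑ) * sT (step s B a b) + P.k * (P.ta - ϑ) ^ 2 := by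
    have e : P.k * (P.ta - ϑ) ^ 2 = ∑ _c : ι, (P.ta - ϑ) ^ 2 := by
      rw [sum_const, card_univ, nsmul_eq_mul, hS.card]
    rw [e]
    simp only [sY, sT, Matrix.trace, Matrix.diag_apply, mul_sum, ← sum_sub_distrib,
      ← sum_add_distrib]
    exact sum_congr rfl fun c _ => by ring
  have h3 : ∑ c, G c = sW P.ta B + 2 * (∑ c, ((B * B) c c - P.ta) * dl s ϑ B a b c)
      + ∑ c, dl s ϑ B a b c ^ 2 := by
    simp only [hG, sW, mul_sum, ← sum_add_distrib]
    exact sum_congr rfl fun c _ => by ring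
  simp only [h1, sum_sub_distrib, sum_ite_eq', mem_univ, if_true, h3] at h2
  have h4 : ∀ x y : ℝ, -(x + y) ^ 2 ≤ -((1 - P.th) * x ^ 2) + y ^ 2 / P.th := fun x y => by
    have t0 := hS.ok.th_pos
    have e : y ^ 2 / P.th + 2 * x * y + P.th * x ^ 2 = (y + P.th * x) ^ 2 / P.th := by
      field_simp
      ring
    have e2 : 0 ≤ (y + P.th * x) ^ 2 / P.th := by positivity
    nlinarith [sq_nonneg y]
  have h5 := h4 ((B * B) a a - P.ta) (dl s ϑ B a b a)
  have h6 := h4 ((B * B) b b - P.ta) (dl s ϑ B a b b)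
  simp only [hG] at h2
  rw [add_div]
  linarith

theorem W_rem (hS : Side P s B) (hW : Wt P s B m w t) :
    2 * (P.k - P.ka * P.vs) * sW P.ta B
      ≤ av w (fun a b => ((B * B) a a - P.ta) ^ 2 + ((B * B) b b - P.ta) ^ 2) := by
  have h1 := row_err (p := fun a => ((B * B) a a - P.ta) ^ 2) (c := sW P.ta B) hS.ok.vs_ge hW.roww
    (le_of_eq (sum_congr rfl fun a _ => abs_of_nonneg (sq_nonneg _))) hS.one
  simp only [mul_one, sum_const, card_univ, nsmul_eq_mul, hS.card] at h1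
  have h2 := av_swap hW.w_symm fun a _ => ((B * B) a a - P.ta) ^ 2
  rw [av_add, h2]
  have h3 := (abs_le.1 h1).1
  unfold sW at h3 ⊢
  linarith

theorem drift_W (hS : Side P s B) (hW : Wt P s B m w t) (ϑ : ℝ) :
    av w (fun a b => sY (step s B a b) - 2 * (P.ta - ϑ) * sT (step s B a b)
        + (P.k - 2) * (P.ta - ϑ) ^ 2)
      ≤ tot w * sW P.ta B - 2 * (1 - P.th) * (P.k - P.ka * P.vs) * sW P.ta B
        - 4 * (P.k - sT B) * sW P.ta B
        + (1 + P.th) * (P.wbar * (1 + 9 * P.th)) * (2 * sW 1 B * sZ B + 2 * sS2 B)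
        + 2 * |ϑ * tot w - 2 * (P.k - sT B) * P.ta| * (P.ka * P.wb) + P.eW1
        + 21000 / P.th * P.Th ϑ := by
  refine (av_mono (hW.w_nonneg hS) fun a b h0 => W_point hS (hW.good a b (hW.supp h0)) ϑ).trans ?_
  rw [av_add, av_add, av_add, av_sub, av_const, av_const_mul, av_const_mul, av_div]
  have t0 := hS.ok.th_pos
  have t1 := hS.ok.th_le
  have h1 := mul_le_mul_of_nonneg_left (W_rem hS hW) (by linarith : 0 ≤ 1 - P.th)
  have h2 := W_first hS hW ϑ
  have h3 := div_le_div_of_nonneg_right (W_corr hS hW ϑ) t0.le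
  have h4 := W_second hS hW ϑ
  have e : 21000 / P.th * P.Th ϑ = 1000 * P.Th ϑ / P.th + 20000 / P.th * P.Th ϑ := by ring
  rw [e]
  linarith

end Vale.Agent.P049.An
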