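import Vale.Agent.P049.Sch0

/-! P049: numerical verification of the error budgets, part W.
PLAN.  Purely mechanical (all margins were checked by a script, each is at least 1/2 in the exponent).
For every monomial `y` of the error expression prove `y ≤ z / 10 ^ 12` where `z` is the budget, by
`Ub.small h.big (Ub.mul h.big h.uvp (h.uL.pow h.big 2)) (Lb.mul ...) (by
  rcases h.cs with c | c | c | c | c | c <;> obtain ⟨c1, c2, c3, c4, c5, c6, c7, c8, c9, c10, c11, c12, c13⟩ := c <;>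
  simp only [Ex.wb, Ex.yb, Ex.up, Ex.sg] <;> push_cast <;> linarith [h.A_lo, h.A_hi, h.M_lo, h.M_hi, h.K_lo, h.K_hi])`
(use `h.main`, `h.late`, `h.one`, `h.wn` instead of `h.cs` when the regime is restricted).  If the budget is
`th * v^2 * k` and the monomial contains a factor `v`, cancel that factor first (upper and lower exponents of
`v` differ).  Then unfold the error expression and finish with `nlinarith` / `linarith`.
Squares of the square roots: `Real.sq_sqrt`.  For the `Th` part the budget is `th^2 wb^2 k`. -/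

namespace Vale.Agent.P049.An

variable {q : ℕ} {x μ : ℝ} {k : ℕ} {E : Ex}

private theorem exW0 (h : Reg q x μ k E) {w : ℝ}
    (w1 : E.wb - 2 / 10 ≤ w) :
    E.t1 + E.sg + E.K / 2 + w + 1 / 2 ≤ -1 + 2 * w + E.K ∧
    E.t1 + E.K / 2 + w + 1 / 2 ≤ -1 + 2 * w + E.K ∧
    E.t1 + E.t2 + E.eta + E.K / 2 + w + 1 / 2 ≤ -1 + 2 * w + E.K ∧
    (40 + E.K / 4) + w + E.yb + E.up + 1 / 2 ≤ -1 + 2 * w + E.K ∧
    E.u + E.L + 2 * w + 1 / 2 ≤ -1 + 2 * w + E.K ∧
    E.u + 2 * E.L + w + 1 / 2 ≤ -1 + 2 * w + E.K ∧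
    (40 + E.K / 4) + E.nu + E.L + 2 * w + 1 / 2 ≤ -1 + 2 * w + E.K := by
  have a1 := h.A_lo
  have a2 := h.A_hi
  have a3 := h.M_lo
  have a4 := h.M_hi
  have a5 := h.K_lo
  have a6 := h.K_hi
  simp only [Ex.wb, Ex.yb, Ex.up, Ex.sg] at *
  rcases h.cs with c | c | c | c | c | c <;>
    obtain ⟨c1, c2, c3, c4, c5, c6, c7, c8, c9, c10, c11, c12, c13⟩ := c <;>
    refine ⟨?_, ?_, ?_, ?_, ?_, ?_, ?_⟩ <;>
    linarith

private theorem exW1 (h : Reg q x μ k E) {w : ℝ}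
    (w1 : E.wb - 2 / 10 ≤ w) :
    (40 + E.K / 4) + E.nu + 2 * E.L + w + 1 / 2 ≤ -1 + 2 * w + E.K ∧
    E.eta + E.L + 2 * w + 1 / 2 ≤ -1 + 2 * w + E.K ∧
    E.eta + 2 * E.L + w + 1 / 2 ≤ -1 + 2 * w + E.K ∧
    E.np + 2 * E.L + w + E.yb + 1 / 2 ≤ -1 + 2 * w + E.K ∧
    E.np + E.nu + E.up + w + E.yb + 1 / 2 ≤ -1 + 2 * w + E.K ∧
    E.K / 2 + w + 1 / 2 ≤ -1 + 2 * w + E.K ∧
    1 + 4 * E.np + 4 * E.L + 1 / 2 ≤ -1 + 2 * w + E.K := by
  have a1 := h.A_lo
  have a2 := h.A_hi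
  have a3 := h.M_lo
  have a4 := h.M_hi
  have a5 := h.K_lo
  have a6 := h.K_hi
  simp only [Ex.wb, Ex.yb, Ex.up, Ex.sg] at *
  rcases h.cs with c | c | c | c | c | c <;>
    obtain ⟨c1, c2, c3, c4, c5, c6, c7, c8, c9, c10, c11, c12, c13⟩ := c <;>
    refine ⟨?_, ?_, ?_, ?_, ?_, ?_, ?_⟩ <;>
    linarith

private theorem exW2 (h : Reg q x μ k E) {w : ℝ}
    (w1 : E.wb - 2 / 10 ≤ w) :
    1 + 4 * E.np + 2 * E.L + 2 * w + 1 / 2 ≤ -1 + 2 * w + E.K ∧
    1 + 4 * E.np + 2 * E.nu + E.yb + 2 * E.up + 1 / 2 ≤ -1 + 2 * w + E.K ∧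
    1 + 4 * E.np + 2 * E.nu + 2 * E.tb + 1 / 2 ≤ -1 + 2 * w + E.K ∧
    1 + 4 * E.np + 2 * E.np + 2 * w + E.yb + 1 / 2 ≤ -1 + 2 * w + E.K ∧
    1 + 4 * E.np + 2 * E.yb + 1 / 2 ≤ -1 + 2 * w + E.K ∧
    1 + 4 * E.nu + 2 * E.up + 1 / 2 ≤ -1 + 2 * w + E.K ∧
    1 + 2 * E.t1 + 2 * E.t2 + E.K + 1 / 2 ≤ -1 + 2 * w + E.K := by
  have a1 := h.A_lo
  have a2 := h.A_hi
  have a3 := h.M_lo
  have a4 := h.M_hi
  have a5 := h.K_lo
  have a6 := h.K_hi
  simp only [Ex.wb, Ex.yb, Ex.up, Ex.sg] at *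
  rcases h.cs with c | c | c | c | c | c <;>
    obtain ⟨c1, c2, c3, c4, c5, c6, c7, c8, c9, c10, c11, c12, c13⟩ := c <;>
    refine ⟨?_, ?_, ?_, ?_, ?_, ?_, ?_⟩ <;>
    linarith


private theorem nW_eq (h : Reg q x μ k E) : nW q x k = (sPar q x μ k).wb ^ 2 := by
  have h1 := h.uta.nonneg
  refine (Real.sq_sqrt ?_).symm
  unfold nW
  positivity

theorem Reg.bud_W (h : Reg q x μ k E) :
    2 * (6 * tau x k * (sSig q x k + 1) + 3 * tau x k * (1 - tau x k) * (sPar q x μ k).eta)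
        * ((sPar q x μ k).ka * (sPar q x μ k).wb) + (sPar q x μ k).eW1
      + 21000 / (sPar q x μ k).th * (sPar q x μ k).Th (sVt x k) ≤ 1 / q * nW q x k * k := by
  have hq := h.big
  have uq := Ub.self hq
  obtain ⟨w, uw, lw⟩ := exists_exp hq (h.lwb.pos hq)
  have hz : Lb q (1 / q * (sPar q x μ k).wb ^ 2 * k) _ := (h.lth.mul hq (lw.pow hq 2)).mul hq h.lk
  have hp := hz.pos hq
  obtain ⟨ea1, ea2, ea3, ea4, ea5, ea6, ea7⟩ := exW0 h (exp_le hq h.lwb uw)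
  have a1 := Ub.small hq (((h.uta.mul hq h.usg).mul hq h.uka).mul hq uw) hz
    (by push_cast; linarith only [ea1])
  have a2 := Ub.small hq ((h.uta.mul hq h.uka).mul hq uw) hz
    (by push_cast; linarith only [ea2])
  have a3 := Ub.small hq ((((h.uta.mul hq h.uot).mul hq h.ueta).mul hq h.uka).mul hq uw) hz
    (by push_cast; linarith only [ea3])
  have a4 := Ub.small hq (((h.uvs.mul hq uw).mul hq h.uyb).mul hq h.uup) hz
    (by push_cast; linarith only [ea4])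
  have a5 := Ub.small hq ((h.uu.mul hq h.uL).mul hq (uw.pow hq 2)) hz
    (by push_cast; linarith only [ea5])
  have a6 := Ub.small hq ((h.uu.mul hq (h.uL.pow hq 2)).mul hq uw) hz
    (by push_cast; linarith only [ea6])
  have a7 := Ub.small hq (((h.uvs.mul hq h.unu).mul hq h.uL).mul hq (uw.pow hq 2)) hz
    (by push_cast; linarith only [ea7])
  obtain ⟨eb1, eb2, eb3, eb4, eb5, eb6, eb7⟩ := exW1 h (exp_le hq h.lwb uw)
  have b1 := Ub.small hq (((h.uvs.mul hq h.unu).mul hq (h.uL.pow hq 2)).mul hq uw) hz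
    (by push_cast; linarith only [eb1])
  have b2 := Ub.small hq ((h.ueta.mul hq h.uL).mul hq (uw.pow hq 2)) hz
    (by push_cast; linarith only [eb2])
  have b3 := Ub.small hq ((h.ueta.mul hq (h.uL.pow hq 2)).mul hq uw) hz
    (by push_cast; linarith only [eb3])
  have b4 := Ub.small hq (((h.unp.mul hq (h.uL.pow hq 2)).mul hq uw).mul hq h.uyb) hz
    (by push_cast; linarith only [eb4])
  have b5 := Ub.small hq ((((h.unp.mul hq h.unu).mul hq h.uup).mul hq uw).mul hq h.uyb) hz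
    (by push_cast; linarith only [eb5])
  have b6 := Ub.small hq (h.uka.mul hq uw) hz
    (by push_cast; linarith only [eb6])
  have b7 := Ub.small hq ((uq.mul hq (h.unp.pow hq 4)).mul hq (h.uL.pow hq 4)) hz
    (by push_cast; linarith only [eb7])
  obtain ⟨ec1, ec2, ec3, ec4, ec5, ec6, ec7⟩ := exW2 h (exp_le hq h.lwb uw)
  have c1 := Ub.small hq (((uq.mul hq (h.unp.pow hq 4)).mul hq (h.uL.pow hq 2)).mul hq (uw.pow hq
    2)) hz
    (by push_cast; linarith only [ec1])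
  have c2 := Ub.small hq ((((uq.mul hq (h.unp.pow hq 4)).mul hq (h.unu.pow hq 2)).mul hq
    h.uyb).mul hq (h.uup.pow hq 2)) hz
    (by push_cast; linarith only [ec2])
  have c3 := Ub.small hq (((uq.mul hq (h.unp.pow hq 4)).mul hq (h.unu.pow hq 2)).mul hq
    (h.utb.pow hq 2)) hz
    (by push_cast; linarith only [ec3])
  have c4 := Ub.small hq ((((uq.mul hq (h.unp.pow hq 4)).mul hq (h.unp.pow hq 2)).mul hq (uw.pow
    hq 2)).mul hq h.uyb) hz
    (by push_cast; linarith only [ec4])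
  have c5 := Ub.small hq ((uq.mul hq (h.unp.pow hq 4)).mul hq (h.uyb.pow hq 2)) hz
    (by push_cast; linarith only [ec5])
  have c6 := Ub.small hq ((uq.mul hq (h.unu.pow hq 4)).mul hq (h.uup.pow hq 2)) hz
    (by push_cast; linarith only [ec6])
  have c7 := Ub.small hq (((uq.mul hq (h.uta.pow hq 2)).mul hq (h.uot.pow hq 2)).mul hq h.uk) hz
    (by push_cast; linarith only [ec7])
  have hk := h.lk.pos hq
  have t1 : 21000 / (sPar q x μ k).th = 21000 * q := by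
    change 21000 / (1 / (q : ℝ)) = _
    rw [div_div_eq_mul_div, div_one]
  have t2 : sVt x k ^ 2 * (sPar q x μ k).k ^ 3 = 9 * (tau x k ^ 2 * (1 - tau x k) ^ 2 * k) := by
    change (3 * tau x k * (1 - tau x k) / k) ^ 2 * (k : ℝ) ^ 3 = _
    field_simp
    ring
  rw [nW_eq h, t1]
  unfold Par.eW1 Par.Th Par.Ga Par.G1
  rw [t2]
  generalize 1 + (sPar q x μ k).nu = np at *
  generalize 1 - tau x k = ot at *
  linarith

private theorem exM (h : Reg q x μ k E) (hk : kTwo q ≤ k)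
     :
    E.K + 2 * E.t2 + 1 / 2 ≤ -1 + 2 * (E.wb - 2 / 10) + E.K ∧
    E.K + 2 * E.t2 + E.K + E.t1 + 1 / 2 ≤ -1 + 2 * (E.wb - 2 / 10) + E.K ∧
    E.K + 2 * E.t2 + E.sg + 1 / 2 ≤ -1 + 2 * (E.wb - 2 / 10) + E.K ∧
    E.K + 2 * E.t2 + 2 * E.nu + E.yb + 1 / 2 ≤ -1 + 2 * (E.wb - 2 / 10) + E.K := by
  have a1 := h.A_lo
  have a2 := h.A_hi
  have a3 := h.M_lo
  have a4 := h.M_hi
  have a5 := h.K_lo
  have a6 := h.K_hi
  simp only [Ex.wb, Ex.yb, Ex.up, Ex.sg] at *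
  rcases h.main hk with c | c | c | c <;>
    obtain ⟨c1, c2, c3, c4, c5, c6, c7, c8, c9, c10, c11, c12, c13⟩ := c <;>
    refine ⟨?_, ?_, ?_, ?_⟩ <;>
    linarith

theorem Reg.bud_W_main (h : Reg q x μ k E) (hk : kTwo q ≤ k) :
    140 * k * (1 - tau x k) ^ 2 * (1 + k * tau x k + sSig q x k
      + 21 * (sPar q x μ k).nu ^ 2 * (sPar q x μ k).yb) ≤ 1 / q * nW q x k * k := by
  have hq := h.big
  have hz : Lb q (1 / q * (sPar q x μ k).wb ^ 2 * k) _ :=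
    (h.lth.mul hq (h.lwb.pow hq 2)).mul hq h.lk
  have hp := hz.pos hq
  obtain ⟨em1, em2, em3, em4⟩ := exM h hk
  have m1 := Ub.small hq (h.uk.mul hq (h.uot.pow hq 2)) hz
    (by push_cast; linarith only [em1])
  have m2 := Ub.small hq (((h.uk.mul hq (h.uot.pow hq 2)).mul hq h.uk).mul hq h.uta) hz
    (by push_cast; linarith only [em2])
  have m3 := Ub.small hq ((h.uk.mul hq (h.uot.pow hq 2)).mul hq h.usg) hz
    (by push_cast; linarith only [em3])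
  have m4 := Ub.small hq (((h.uk.mul hq (h.uot.pow hq 2)).mul hq (h.unu.pow hq 2)).mul hq h.uyb)
    hz
    (by push_cast; linarith only [em4])
  rw [nW_eq h]
  generalize 1 - tau x k = ot at *
  linarith

private theorem exL (h : Reg q x μ k E) (hk : k < kTwo q)
     :
    1 + 2 * E.K + 2 * E.t1 + 1 / 2 ≤ -1 + 2 * (E.wb - 2 / 10) + E.K ∧
    2 * E.yb + 1 / 2 ≤ -1 + 2 * (E.wb - 2 / 10) + E.K ∧
    4 * E.yb + 1 / 2 ≤ -1 + 2 * (E.wb - 2 / 10) + E.K ∧
    2 * E.yb ≤ -1 + E.K := by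
  have a1 := h.A_lo
  have a2 := h.A_hi
  have a3 := h.M_lo
  have a4 := h.M_hi
  have a5 := h.K_lo
  have a6 := h.K_hi
  simp only [Ex.wb, Ex.yb, Ex.up, Ex.sg] at *
  rcases h.late hk with c | c <;>
    obtain ⟨c1, c2, c3, c4, c5, c6, c7, c8, c9, c10, c11, c12, c13⟩ := c <;>
    refine ⟨?_, ?_, ?_, ?_⟩ <;>
    linarith

theorem Reg.bud_W_late (h : Reg q x μ k E) (hk : k < kTwo q) :
    (sPar q x μ k).yb ^ 2 ≤ 1 / q * k ∧
    5 * q * (k : ℝ) ^ 2 * tau x k ^ 2 + 5 * (sPar q x μ k).yb ^ 2 + 5 * (sPar q x μ k).yb ^ 4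
      ≤ 1 / q * nW q x k * k := by
  have hq := h.big
  have uq := Ub.self hq
  have hz : Lb q (1 / q * (sPar q x μ k).wb ^ 2 * k) _ :=
    (h.lth.mul hq (h.lwb.pow hq 2)).mul hq h.lk
  have hp := hz.pos hq
  obtain ⟨em1, em2, em3, em4⟩ := exL h hk
  have m1 := Ub.small hq ((uq.mul hq (h.uk.pow hq 2)).mul hq (h.uta.pow hq 2)) hz
    (by push_cast; linarith only [em1])
  have m2 := Ub.small hq (h.uyb.pow hq 2) hz
    (by push_cast; linarith only [em2])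
  have m3 := Ub.small hq (h.uyb.pow hq 4) hz
    (by push_cast; linarith only [em3])
  refine ⟨Ub.le hq (h.uyb.pow hq 2) (h.lth.mul hq h.lk) (by push_cast; linarith only [em4]), ?_⟩
  rw [nW_eq h]
  linarith

end Vale.Agent.P049.An
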