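import Vale.Agent.P049.St
import Vale.Agent.P049.DW
import Vale.Agent.P049.SchW

/-! P049: scalar step for the term `cen / nW`.
General: `θ = 1 / q`, `A = tot w`, `τ = tau x k`, `X = k - T`.  Pull the constant denominator out with `av_div`,
apply `gen` (Rat1) with `κ = k`, `hA := h.tot_err hW`, and the `_step` lemma of Rat2 for `hN'`.  The fields of
`sPar q x μ k` unfold by `rfl` / `show` (`.k = k`, `.th = 1 / q`, `.ta = tau x k`).
PLAN.  `ϑ = τ - tau x (k-2)`; `cen x (k-2) T' Y'` is the function under `av` in `drift_W` (`cast_sub`; `ta - ϑ = tau x (k-2)`),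
`cen x k T Y = sW τ B` (`Side.sW_eq`).  `F = W = sW τ B`, `N = nW`, `ρ = 4 - 6τ + 3θ`, `nW_step`.
`W_lin`: `|ϑ A - 2 X τ| ≤ 6τ(σ+1) + 3τ(1-τ) eta` (`vt_main`, `vt_bd`, `tot_eta`, `sVt x k * k = 3τ(1-τ)`), `Th` is monotone in
`ϑ^2` (`vt_bd`), `bud_W`; `-2 (1-θ)(k - ka vs) ≤ -2k + 4θk` (`kavs`), `-4 X ≤ -4 k (1-τ) + 8 θ k` (`X_ge`).
`W_quad` main phase: `S2_le`, `W1_le τ`, `St.Z_le` for the part `(21/20) W`
(`4 * 1.5 * (1+θ)(1+9θ) * 1.05 * (0.55τ + 2.1θ) ≤ 3.47 τ + 53 θ ≤ 2 + 2τ + 53θ`), and for the part `21 k (1-τ)^2`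
`Side.Z_le`, `T_le`, `bud_W_main` (`84 * 1.5 * 1.101 ≤ 140`).  Late phase: `wbar_late`, `W1_le'`, `Y_le'`, `bud_W_late.1` give
`sW 1 B ≤ (1+θ) k`; `Z_le_Y`, `Y_le_W τ` (`1 / th = q`), `S2_le'`, `bud_W_late.2`;
`2 (1+θ)(1+9θ)(1+θ)(1+θ) ≤ 2 + 28θ`.  Finally `gen` with `c = 12 + 1 + 60 + 3`. -/

namespace Vale.Agent.P049.An

open Finset Matrix

variable {ι : Type} [Fintype ι] [DecidableEq ι]
variable {q : ℕ} {x μ : ℝ} {k : ℕ} {E : Ex} {s : ℝ} {B C : Matrix ι ι ℝ} {m w t : ι → ι → ℝ}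

private theorem scw_main {θ wb τ κ W N W1 Z S2 Z2 : ℝ} (t0 : 0 < θ) (t1 : θ ≤ 1 / 100)
    (w0 : 0 ≤ wb) (w1 : wb ≤ 3 / 2) (a0 : 0 ≤ τ) (a1 : τ ≤ 1) (k0 : 0 ≤ κ) (hW : 0 ≤ W)
    (hWN : W ≤ N) (hZ : 0 ≤ Z) (hS : S2 ≤ Z * W1) (hW1 : W1 ≤ 21 / 20 * W + 21 * κ * (1 - τ) ^ 2)
    (hZ1 : Z ≤ κ * (55 / 100 * τ + 21 / 10 * θ)) (hZ2 : Z ≤ Z2)
    (hb : 140 * κ * (1 - τ) ^ 2 * Z2 ≤ θ * N * κ) :
    (1 + θ) * (wb * (1 + 9 * θ)) * (2 * W1 * Z + 2 * S2) ≤ (2 + 2 * τ) * κ * W + 60 * (θ * N * κ) := by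
  obtain ⟨f, hf⟩ : ∃ f, f = (1 + θ) * (wb * (1 + 9 * θ)) := ⟨_, rfl⟩
  have f0 : 0 ≤ f := by rw [hf]; positivity
  have f1 : f ≤ 3 / 2 * (1 + 1009 / 100 * θ) := by
    have h1 : f ≤ (1 + θ) * (3 / 2 * (1 + 9 * θ)) := by rw [hf]; gcongr
    nlinarith
  have f2 : f ≤ 5 / 3 := by linarith
  have h1 : 2 * W1 * Z + 2 * S2 ≤ 21 / 5 * (W * Z) + 84 * (κ * (1 - τ) ^ 2 * Z) := by
    have := mul_le_mul_of_nonneg_right hW1 hZ
    linarith
  have h2 : f * Z ≤ 3 / 2 * (1 + 1009 / 100 * θ) * (κ * (55 / 100 * τ + 21 / 10 * θ)) :=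
    mul_le_mul f1 hZ1 hZ (by positivity)
  have h3 : 21 / 5 * (3 / 2 * (1 + 1009 / 100 * θ) * (55 / 100 * τ + 21 / 10 * θ))
      ≤ 2 + 2 * τ + 53 * θ := by
    nlinarith [mul_le_mul_of_nonneg_left a1 t0.le, mul_le_mul_of_nonneg_left t1 t0.le]
  have h4 := mul_le_mul_of_nonneg_left h3 (mul_nonneg k0 hW)
  have h5 := mul_le_mul_of_nonneg_left h2 hW
  have h6 : f * Z ≤ 5 / 3 * Z2 := mul_le_mul f2 hZ2 hZ (by norm_num)
  have h7 := mul_le_mul_of_nonneg_left h6 (show 0 ≤ κ * (1 - τ) ^ 2 by positivity)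
  have h8 := mul_le_mul_of_nonneg_left hWN (mul_nonneg t0.le k0)
  have h9 := mul_le_mul_of_nonneg_left h1 f0
  have h10 : 0 ≤ θ * N * κ := mul_nonneg (mul_nonneg t0.le (hW.trans hWN)) k0
  rw [← hf]
  linarith

private theorem scw_late {θ Q τ κ W N W1 Z S2 y : ℝ} (t0 : 0 < θ) (t1 : θ ≤ 1 / 100)
    (hQ : θ * Q = 1) (a0 : 0 ≤ τ) (k0 : 0 ≤ κ) (hW : 0 ≤ W) (hWN : W ≤ N) (hZ : 0 ≤ Z)
    (hS : S2 ≤ 2 * y ^ 2 + 2 * y ^ 4) (hW1 : W1 ≤ (1 + θ) * κ)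
    (hZ1 : Z ≤ (1 + θ) * W + (1 + Q) * κ * τ ^ 2)
    (hb : 5 * Q * κ ^ 2 * τ ^ 2 + 5 * y ^ 2 + 5 * y ^ 4 ≤ θ * N * κ) :
    (1 + θ) * (1 * (1 + 9 * θ)) * (2 * W1 * Z + 2 * S2) ≤ (2 + 2 * τ) * κ * W + 60 * (θ * N * κ) := by
  have q0 : 0 < Q := by
    by_contra h
    nlinarith [not_lt.1 h]
  obtain ⟨f, hf⟩ : ∃ f, f = (1 + θ) * (1 * (1 + 9 * θ)) := ⟨_, rfl⟩
  have f0 : 0 ≤ f := by rw [hf]; positivity
  have f1 : f ≤ 1 + 1009 / 100 * θ := by rw [hf]; nlinarith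
  have g1 : (1 + θ) ^ 2 ≤ 1 + 201 / 100 * θ := by nlinarith
  have f2 : f * (1 + θ) ^ 2 ≤ 1 + 14 * θ := by
    refine (mul_le_mul f1 g1 (by positivity) (by positivity)).trans ?_
    nlinarith
  have e1 : (1 + θ) * W + (1 + Q) * κ * τ ^ 2 = (1 + θ) * (W + Q * κ * τ ^ 2) := by
    linear_combination (-κ * τ ^ 2) * hQ
  rw [e1] at hZ1
  have h1 : W1 * Z ≤ (1 + θ) * κ * ((1 + θ) * (W + Q * κ * τ ^ 2)) :=
    mul_le_mul hW1 hZ1 hZ (by positivity)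
  have h2 := mul_le_mul_of_nonneg_left h1 f0
  have h3 := mul_le_mul_of_nonneg_right f2 (show 0 ≤ κ * (W + Q * κ * τ ^ 2) by positivity)
  have h4 : f * S2 ≤ 5 / 4 * (2 * y ^ 2 + 2 * y ^ 4) :=
    (mul_le_mul_of_nonneg_left hS f0).trans
      (mul_le_mul_of_nonneg_right (by linarith) (by positivity))
  have h5 := mul_le_mul_of_nonneg_left hWN (mul_nonneg t0.le k0)
  have h6 := mul_le_mul_of_nonneg_right t1 (show 0 ≤ Q * κ ^ 2 * τ ^ 2 by positivity)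
  have h7 : 0 ≤ Q * κ ^ 2 * τ ^ 2 := by positivity
  have h8 : 0 ≤ τ * κ * W := by positivity
  have h10 : 0 ≤ θ * N * κ := mul_nonneg (mul_nonneg t0.le (hW.trans hWN)) k0
  rw [← hf]
  linarith

theorem W_quad (h : St q x μ k E s B C) :
    (1 + 1 / q) * ((sPar q x μ k).wbar * (1 + 9 * (1 / q))) * (2 * sW 1 B * sZ B + 2 * sS2 B)
      ≤ (2 + 2 * tau x k) * k * sW (tau x k) B + 60 * (1 / q * nW q x k * k) := by
  have r := h.reg
  have ok := h.side.ok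
  have k0 : (0 : ℝ) ≤ k := Nat.cast_nonneg k
  by_cases hk : kTwo q ≤ k
  · refine scw_main r.th_le.1 r.th_le.2 (le_trans zero_le_one ok.wbar_ge) ok.wbar_le r.tau_pos.le
      r.tau_lt.le k0 (sW_nonneg _ _) h.hW (sZ_nonneg _) h.side.S2_le (h.side.W1_le _) h.Z_le ?_
      (r.bud_W_main hk)
    linarith [h.side.Z_le, r.T_le h.hD, h.side.T_nonneg]
  · have hk' := not_le.1 hk
    have q0 : (0 : ℝ) < q := r.big.pos
    have hb := r.bud_W_late hk'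
    rw [r.wbar_late hk']
    refine scw_late r.th_le.1 r.th_le.2 (Q := q) (by field_simp) r.tau_pos.le k0 (sW_nonneg _ _)
      h.hW (sZ_nonneg _) h.side.S2_le' ?_ ?_ hb.2
    · have h1 : sW 1 B ≤ k + sY B := h.side.W1_le'
      linarith [h.side.Y_le', hb.1]
    · have h1 : sY B ≤ (1 + 1 / q) * sW (tau x k) B + (1 + 1 / (1 / q)) * k * tau x k ^ 2 :=
        h.side.Y_le_W (tau x k)
      rw [one_div_one_div] at h1
      exact h.side.Z_le_Y.trans h1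

theorem W_lin (h : St q x μ k E s B C) (hW : Wt (sPar q x μ k) s B m w t) :
    av w (fun a b => cen x (k - 2) (sT (step s B a b)) (sY (step s B a b)))
      ≤ tot w * sW (tau x k) B - (6 - 4 * tau x k) * k * sW (tau x k) B
        + (1 + 1 / q) * ((sPar q x μ k).wbar * (1 + 9 * (1 / q))) * (2 * sW 1 B * sZ B + 2 * sS2 B)
        + 13 * (1 / q * nW q x k * k) := by
  have r := h.reg
  have ok := h.side.ok
  have k0 : (0 : ℝ) < k := by linarith [h.k_ge]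
  have t0 := r.th_le.1
  have t1 := r.th_le.2
  have hd : av w (fun a b => sY (step s B a b)
        - 2 * (tau x k - (tau x k - tau x (k - 2))) * sT (step s B a b)
        + (k - 2) * (tau x k - (tau x k - tau x (k - 2))) ^ 2)
      ≤ tot w * sW (tau x k) B
        - 2 * (1 - 1 / q) * (k - (sPar q x μ k).ka * (sPar q x μ k).vs) * sW (tau x k) B
        - 4 * (k - sT B) * sW (tau x k) B
        + (1 + 1 / q) * ((sPar q x μ k).wbar * (1 + 9 * (1 / q))) * (2 * sW 1 B * sZ B + 2 * sS2 B)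
        + 2 * |(tau x k - tau x (k - 2)) * tot w - 2 * (k - sT B) * tau x k|
          * ((sPar q x μ k).ka * (sPar q x μ k).wb) + (sPar q x μ k).eW1
        + 21000 / (sPar q x μ k).th * (sPar q x μ k).Th (tau x k - tau x (k - 2)) :=
    drift_W h.side hW (tau x k - tau x (k - 2))
  simp only [sub_sub_cancel] at hd
  simp only [cen, r.cast_sub]
  refine hd.trans ?_
  have v := r.vt_bd
  have b1 : |(tau x k - tau x (k - 2)) * tot w - 2 * (k - sT B) * tau x k|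
      ≤ 6 * tau x k * (sSig q x k + 1) + 3 * tau x k * (1 - tau x k) * (sPar q x μ k).eta := by
    have e : (tau x k - tau x (k - 2)) * tot w - 2 * (k - sT B) * tau x k
        = ((tau x k - tau x (k - 2)) * k ^ 2 - 2 * (k - sT B) * tau x k)
          + (tau x k - tau x (k - 2)) * (tot w - k ^ 2) := by ring
    rw [e]
    refine (abs_add_le _ _).trans (add_le_add (r.vt_main h.hD) ?_)
    rw [abs_mul, abs_of_nonneg v.1]
    refine (mul_le_mul v.2 (h.tot_eta hW) (abs_nonneg _) (v.1.trans v.2)).trans (le_of_eq ?_)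
    rw [sVt]
    field_simp
  have b2 := mul_le_mul_of_nonneg_right b1 (mul_nonneg ok.ka_pos h.side.W_le.1)
  have b3 : (sPar q x μ k).Th (tau x k - tau x (k - 2)) ≤ (sPar q x μ k).Th (sVt x k) := by
    unfold Par.Th
    refine add_le_add le_rfl (mul_le_mul_of_nonneg_right (pow_le_pow_left₀ v.1 v.2 2) ?_)
    exact pow_nonneg k0.le 3
  have b4 := mul_le_mul_of_nonneg_left b3 (div_nonneg (by norm_num : (0 : ℝ) ≤ 21000) ok.th_pos.le)
  have b5 := r.bud_W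
  have hW0 := sW_nonneg (tau x k) B
  have b6 := mul_le_mul_of_nonneg_right (r.X_ge h.hD) hW0
  have b7 := mul_le_mul_of_nonneg_right r.kavs hW0
  have b8 := mul_nonneg (mul_nonneg t0.le (mul_nonneg ok.ka_pos ok.vs_ge)) hW0
  have b9 := mul_le_mul_of_nonneg_left h.hW (mul_nonneg t0.le k0.le)
  linarith

theorem sc_W (h : St q x μ k E s B C) (hW : Wt (sPar q x μ k) s B m w t) :
    av w (fun a b => cen x (k - 2) (sT (step s B a b)) (sY (step s B a b)) / nW q x (k - 2))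
      ≤ tot w * (cen x k (sT B) (sY B) / nW q x k + 700 * (1 / q) / k) := by
  have r := h.reg
  have k0 : (0 : ℝ) ≤ k := Nat.cast_nonneg k
  have t0 := r.th_le.1
  have t1 := r.th_le.2
  have e : cen x k (sT B) (sY B) = sW (tau x k) B := (h.side.sW_eq (tau x k)).symm
  rw [av_div, e]
  refine gen (c := 76) (sW_nonneg _ _) h.hW r.nW_pos h.k_ge ?_ r.nW_step t0 t1 (h.tot_err hW)
    (by norm_num) (by norm_num) ?_
  · exact abs_le.2 ⟨by linarith [r.tau_lt], by linarith [r.tau_pos]⟩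
  · have b9 := mul_le_mul_of_nonneg_left h.hW (mul_nonneg t0.le k0)
    linarith [W_lin h hW, W_quad h]

end Vale.Agent.P049.An
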