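import Vale.Agent.P049.Sch0

/-! P049: the exponents exist.
PLAN.  `exists_exp` gives `K, A, M` for `k, x, μ`; ranges by `exp_le` (with `Ub.base`, `Lb.base`, casts of
`kEnd`, `kOne`, `kTwo`).  `tau = k/(k+x)`, `1 - tau = x/(k+x)`; if `k ≤ x` then `k/(2x) ≤ tau ≤ k/x` and
`1/2 ≤ 1 - tau ≤ 1`; if `x ≤ k` symmetric.  First prove the regime independent bounds as lemmas in terms of
`t1, t2` (wb, yb, up, sg, lnu, lu, the bound `nu^2 ≤ q^38 sqrt tau` from `1/k ≤ q^(1/2) sqrt tau`-type exponent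
inequality `-K ≤ 1/2 + t1/2` and `Ub.add`; `yb^2 ≤ 4 q^25 k tau`, `up^2 ≤ 2 q^25 k (1-tau)^2 (tau + 1)`),
then split: `k < kTwo` (two subcases comparing `K` with `A - 76`; there `nu^2 = q^37 (tau + 1/k) ≤ 1`),
`kTwo ≤ k ≤ x`, `x ≤ k ≤ kOne`, `win`, else.  `uh = q^2040` if `k ≤ kOne`, and always
`q^2040 ≤ uh ≤ 2 q^2197`.  Outside the window `sBe = 0`, so `xi = xi2 = 0`, `eta = vp` (`Ub.zero`). -/

namespace Vale.Agent.P049.An

variable {q : ℕ} {x μ : ℝ} {k : ℕ}

private theorem Ub.cmul {Q y e c : ℝ} (B : Big Q) (h : Ub Q y e) (h0 : 0 ≤ c) (hc : c ≤ 1000) :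
    Ub Q (c * y) (1 / 20 + e) := Ub.mul B (Ub.const B h0 hc) h

private theorem reg_of (B : Big q) (E : Ex) (A_lo : 4098 ≤ E.A) (A_hi : E.A ≤ 4099)
    (M_lo : 6000 ≤ E.M) (M_hi : E.M ≤ 6001) (K_lo : 1366 ≤ E.K) (K_hi : E.K ≤ 6001)
    (uk : Ub q k E.K) (lk : Lb q k E.K) (ux : Ub q x E.A) (lx : Lb q x E.A)
    (um : Ub q μ E.M) (lm : Lb q μ E.M)
    (uta : Ub q (tau x k) E.t1) (lta : Lb q (tau x k) (E.t1 - 1 / 20))
    (uot : Ub q (1 - tau x k) E.t2) (lot : Lb q (1 - tau x k) (E.t2 - 1 / 20))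
    (t1 : E.t1 ≤ 0) (t2 : E.t2 ≤ 0)
    (cs : E.Late1 ∨ E.Late2 ∨ E.Low ∨ E.Mid ∨ E.Win ∨ E.High)
    (late : k < kTwo q → E.Late1 ∨ E.Late2)
    (main : kTwo q ≤ k → E.Low ∨ E.Mid ∨ E.Win ∨ E.High)
    (one : kOne q ≤ k → 4750 ≤ E.K ∧ (E.Mid ∨ E.Win ∨ E.High))
    (wn : win q k → E.Win)
    (uL : Ub q (sPar q x μ k).L E.L) (lL : Lb q (sPar q x μ k).L E.L)
    (utb : Ub q (sPar q x μ k).tb E.tb) (ltb : Lb q (sPar q x μ k).tb E.tb)
    (unu : Ub q (sPar q x μ k).nu E.nu) (unp : Ub q (1 + (sPar q x μ k).nu) E.np)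
    (uu : Ub q (sPar q x μ k).u E.u) (ube : Ub q (sBe q μ k) E.be)
    (uxi : Ub q (sPar q x μ k).xi E.xi) (uxi2 : Ub q (sPar q x μ k).xi2 E.xi2)
    (ueta : Ub q (sPar q x μ k).eta E.eta) : Reg q x μ k E := by
  have uW : Ub q (nW q x k) (25 + E.K + E.t1 + 2 * E.t2) :=
    ((((Ub.base B 25).mul B uk).mul B uta).mul B (uot.pow B 2)).mono B (by push_cast; linarith)
  have lW : Lb q (nW q x k) (25 + E.K + E.t1 + 2 * E.t2 - 3 / 20) :=
    ((((Lb.base q 25).mul B lk).mul B lta).mul B (lot.pow B 2)).mono B (by push_cast; linarith)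
  have kp : (0 : ℝ) < k := lk.pos B
  have lik : Lb q (1 / (k : ℝ)) (0 - E.K) := (Lb.one q).div B uk kp
  refine ⟨B, A_lo, A_hi, M_lo, M_hi, K_lo, K_hi, cs, late, main, one, wn, uk, lk, ux, lx, um, lm,
    uk.sqrt B, lk.sqrt B, ((Ub.one q).div B (Lb.self q)).mono B (by norm_num),
    ((Lb.one q).div B (Ub.self B) B.pos).mono B (by norm_num), uta, lta.mono B (by linarith), uot,
    lot.mono B (by linarith), uL, lL, utb, ltb, unu, unp, ?_, ?_, ?_, ?_,
    ((Ub.base B 13).mul B (uk.sqrt B)).mono B (by push_cast; linarith),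
    ((Lb.base q 13).mul B (lk.sqrt B)).mono B (by push_cast; linarith),
    (uW.sqrt B).mono B (by unfold Ex.wb; linarith), (lW.sqrt B).mono B (by unfold Ex.wb; linarith),
    uu, ?_,
    ((Ub.base B 2).mul B (uk.sqrt B)).mono B (by push_cast; linarith),
    ((Lb.base q 2).mul B (lk.sqrt B)).mono B (by push_cast; linarith),
    ((Ub.base B 40).mul B ((uk.sqrt B).sqrt B)).mono B (by push_cast; linarith),
    ((Lb.base q 40).mul B ((lk.sqrt B).sqrt B)).mono B (by push_cast; linarith),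
    ube, uxi, uxi2, ueta, ?_, ?_⟩
  · have a : Lb q (tau x k + 1 / k) (E.t1 - 1 / 20) :=
      lta.of_le (le_add_of_nonneg_right (lik.pos B).le)
    exact (((Lb.base q 37).mul B a).sqrt B).mono B (by push_cast; linarith)
  · have a : Lb q (tau x k + 1 / k) (0 - E.K) := lik.of_le (le_add_of_nonneg_left uta.1)
    exact (((Lb.base q 37).mul B a).sqrt B).mono B (by push_cast; linarith)
  · have a : Ub q (2 * nW q x k) (1 / 20 + (25 + E.K + 2 * E.t2)) :=
      (uW.cmul B (by norm_num) (by norm_num)).mono B (by linarith)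
    have b : Ub q (2 * k * (1 - tau x k) ^ 2) (1 / 20 + (25 + E.K + 2 * E.t2)) :=
      ((uk.cmul B (by norm_num) (by norm_num)).mul B (uot.pow B 2)).mono B (by push_cast; linarith)
    exact ((a.add B b).sqrt B).mono B (by unfold Ex.up; linarith)
  · have a : Ub q (2 * nW q x k) (1 / 20 + (25 + E.K + E.t1)) :=
      (uW.cmul B (by norm_num) (by norm_num)).mono B (by linarith)
    have b : Ub q (2 * k * tau x k ^ 2) (1 / 20 + (25 + E.K + E.t1)) :=
      ((uk.cmul B (by norm_num) (by norm_num)).mul B (uta.pow B 2)).mono B (by push_cast; linarith)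
    exact ((a.add B b).sqrt B).mono B (by unfold Ex.yb; linarith)
  · have a : Lb q (uh ℝ q k) (2040 : ℕ) := (Lb.base q 2040).of_le (le_add_of_nonneg_right
      (mul_nonneg (pow_nonneg B.pos.le _) (le_min zero_le_one (le_max_left _ _))))
    exact (((a.pow B 2).mul B lta).sqrt B).mono B (by push_cast; linarith)
  · exact ((((ux.pow B 2).mul B (uta.pow B 3)).div B (Lb.base q 2)).sqrt B).mono B
      (by unfold Ex.sg; push_cast; linarith)
  · exact ((((lx.pow B 2).mul B (lta.pow B 3)).div B (Ub.base B 2) (pow_pos B.pos 2)).sqrt B).mono B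
      (by unfold Ex.sg; push_cast; linarith)

private theorem frac_small {Q a b e f : ℝ} (B : Big Q) (ua : Ub Q a e) (la : Lb Q a e)
    (ub : Ub Q b f) (lb : Lb Q b f) (hab : a ≤ b) :
    Ub Q (a / (a + b)) (e - f) ∧ Lb Q (a / (a + b)) (e - f - 1 / 20) ∧
      Ub Q (b / (a + b)) 0 ∧ Lb Q (b / (a + b)) (0 - 1 / 20) := by
  have ha := la.pos B
  have hb := lb.pos B
  have l1 : Lb Q (a + b) f := lb.of_le (by linarith)
  have u1 : Ub Q (a + b) (1 / 20 + f) :=
    (ub.cmul B (c := 2) (by norm_num) (by norm_num)).of_le (by linarith) (by linarith)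
  exact ⟨ua.div B l1, (la.div B u1 (by linarith)).mono B (by linarith),
    (ub.div B l1).mono B (by linarith), (lb.div B u1 (by linarith)).mono B (by linarith)⟩

private theorem nu_gen (B : Big q) {K t : ℝ} (lk : Lb q k K) (uta : Ub q (tau x k) t) (ht : t ≤ 0)
    (hK : -K ≤ 1 / 2 + t / 2) : Ub q (sPar q x μ k).nu (19 + t / 4) := by
  have a : Ub q (tau x k) (1 / 2 + t / 2) := uta.mono B (by linarith)
  have b : Ub q (1 / (k : ℝ)) (1 / 2 + t / 2) := ((Ub.one q).div B lk).mono B (by linarith)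
  exact (((Ub.base B 37).mul B (a.add B b)).sqrt B).mono B (by push_cast; linarith)

private theorem u_low (B : Big q) {t : ℝ} (hk : k ≤ kOne q) (uta : Ub q (tau x k) t) :
    Ub q (sPar q x μ k).u (2040 + t / 2) := by
  have e : uh ℝ q k = (q : ℝ) ^ 2040 := by
    have h1 : ((k : ℝ) - kOne q) / kOne q ≤ 0 :=
      div_nonpos_of_nonpos_of_nonneg (sub_nonpos.2 (by exact_mod_cast hk)) (Nat.cast_nonneg _)
    rw [uh, max_eq_left h1, min_eq_right zero_le_one, mul_zero, add_zero]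
  have a : Ub q (uh ℝ q k) (2040 : ℕ) := e ▸ Ub.base B 2040
  exact (((a.pow B 2).mul B uta).sqrt B).mono B (by push_cast; linarith)

private theorem u_high (B : Big q) (uta : Ub q (tau x k) 0) :
    Ub q (sPar q x μ k).u (2197 + 1 / 10) := by
  have b : Ub q (min 1 (max 0 (((k : ℝ) - kOne q) / kOne q))) 0 :=
    (Ub.one q).of_le (le_min zero_le_one (le_max_left _ _)) (min_le_left _ _)
  have a : Ub q (uh ℝ q k) (2197 + 1 / 200) :=
    Ub.add B ((Ub.base B 2040).mono B (by norm_num))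
      (((Ub.base B 2197).mul B b).mono B (by norm_num))
  exact (((a.pow B 2).mul B uta).sqrt B).mono B (by push_cast; linarith)

private theorem nowin (B : Big q) {K : ℝ} (uk : Ub q k K) (hw : ¬win q k) :
    Ub q (sBe q μ k) 0 ∧ Ub q (sPar q x μ k).xi 0 ∧ Ub q (sPar q x μ k).xi2 0 ∧
      Ub q (sPar q x μ k).eta (2 + K / 2) := by
  have e : sBe q μ k = 0 := if_neg hw
  have e1 : (sPar q x μ k).xi = 0 := by simp only [sPar, e, zero_mul]
  have e2 : (sPar q x μ k).xi2 = 0 := by simp only [sPar, e, zero_mul]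
  rw [Par.eta, e, e1, e2, zero_add]
  exact ⟨Ub.zero B _, Ub.zero B _, Ub.zero B _,
    ((Ub.base B 2).mul B (uk.sqrt B)).mono B (by push_cast; linarith)⟩

private theorem L_late (B : Big q) {K A : ℝ} (uk : Ub q k K) (lk : Lb q k K) (ux : Ub q x A)
    (lx : Lb q x A) (hk : k < kTwo q) :
    Ub q (sPar q x μ k).L ((1 + 3 / 2 * K - A / 2) / 2) ∧
      Lb q (sPar q x μ k).L ((1 + 3 / 2 * K - A / 2) / 2) ∧
      Ub q (sPar q x μ k).tb ((1 + 3 / 2 * K - A / 2) / 2) ∧
      Lb q (sPar q x μ k).tb ((1 + 3 / 2 * K - A / 2) / 2) := by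
  have e : (sPar q x μ k).L = √(q * k * √k / √x) := if_neg (not_le.2 hk)
  have e' : (sPar q x μ k).tb = (sPar q x μ k).L := if_neg (not_le.2 hk)
  rw [e', e]
  have a := (((((Ub.self B).mul B uk).mul B (uk.sqrt B)).div B (lx.sqrt B)).sqrt B).mono B
    (f := (1 + 3 / 2 * K - A / 2) / 2) (by linarith)
  have b := (((((Lb.self q).mul B lk).mul B (lk.sqrt B)).div B (ux.sqrt B)
    ((lx.sqrt B).pos B)).sqrt B).mono B (f := (1 + 3 / 2 * K - A / 2) / 2) (by linarith)
  exact ⟨a, b, a, b⟩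

private theorem L_main (B : Big q) {K : ℝ} (uk : Ub q k K) (lk : Lb q k K) (hk : kTwo q ≤ k) :
    Ub q (sPar q x μ k).L ((12066 - K) / 4) ∧ Lb q (sPar q x μ k).L ((12066 - K) / 4) ∧
      Ub q (sPar q x μ k).tb (K / 2) ∧ Lb q (sPar q x μ k).tb (K / 2) := by
  have e : (sPar q x μ k).L = √(√(n4 ℝ q k)) := if_pos hk
  have e' : (sPar q x μ k).tb = √k := if_pos hk
  rw [e', e]
  exact ⟨((((Ub.base B 12066).div B lk).sqrt B).sqrt B).mono B (by push_cast; linarith),
    ((((Lb.base q 12066).div B uk (lk.pos B)).sqrt B).sqrt B).mono B (by push_cast; linarith),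
    uk.sqrt B, lk.sqrt B⟩

theorem Rng.reg {q : ℕ} {x μ : ℝ} {k : ℕ} (h : Rng q x μ k) : ∃ E, Reg q x μ k E := by
  have B := h.big
  have castL : ∀ n : ℕ, q ^ n ≤ k → Lb q k n := fun n hn =>
    (Lb.base q n).of_le (by exact_mod_cast hn)
  have castU : ∀ n : ℕ, k ≤ q ^ n → Ub q k n := fun n hn =>
    (Ub.base B n).of_le (Nat.cast_nonneg k) (by exact_mod_cast hn)
  have lk0 := castL 1366 h.k_lo
  have lx0 : Lb q x (4098 : ℕ) := (Lb.base q 4098).of_le h.x_lo
  have lm0 : Lb q μ (6000 : ℕ) := (Lb.base q 6000).of_le h.mu_lo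
  obtain ⟨K, uk, lk⟩ := exists_exp B (lk0.pos B)
  obtain ⟨A, ux, lx⟩ := exists_exp B (lx0.pos B)
  obtain ⟨M, um, lm⟩ := exists_exp B (lm0.pos B)
  have K_lo : 1366 ≤ K := by exact_mod_cast exp_le B lk0 uk
  have K_hi : K ≤ 6001 := by exact_mod_cast exp_le B lk (castU 6001 h.k_hi)
  have A_lo : 4098 ≤ A := by exact_mod_cast exp_le B lx0 ux
  have A_hi : A ≤ 4099 := by
    exact_mod_cast exp_le B lx ((Ub.base B 4099).of_le ux.1 h.x_hi)
  have M_lo : 6000 ≤ M := by exact_mod_cast exp_le B lm0 um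
  have M_hi : M ≤ 6001 := by
    exact_mod_cast exp_le B lm ((Ub.base B 6001).of_le um.1 h.mu_hi)
  have hone : kOne q ≤ k → 4750 ≤ K := fun hk => by exact_mod_cast exp_le B (castL 4750 hk) uk
  have kp := lk.pos B
  have xp := lx.pos B
  have eo : 1 - tau x k = x / (k + x) := by
    unfold tau
    field_simp
    ring
  have one1 : ∀ {e : ℝ}, 0 ≤ e → Ub q 1 e := fun he => (Ub.one q).mono B he
  rcases le_total (k : ℝ) x with hkx | hkx
  · have hKA : K ≤ A := exp_le B lk (ux.of_le uk.1 hkx)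
    obtain ⟨uta, lta, uot, lot⟩ := frac_small B uk lk ux lx hkx
    rw [← eo] at uot lot
    have n1 : ¬kOne q ≤ k := fun hk => by linarith [hone hk]
    have nw : ¬win q k := fun hw => n1 hw.1.le
    obtain ⟨w1, w2, w3, w4⟩ := nowin (x := x) (μ := μ) B uk nw
    have uu := u_low (μ := μ) B (not_le.1 n1).le uta
    have unu := nu_gen (μ := μ) B lk uta (by linarith) (by linarith)
    rcases lt_or_ge k (kTwo q) with hk | hk
    · have hK : K ≤ 4058 := by exact_mod_cast exp_le B lk (castU 4058 hk.le)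
      obtain ⟨l1, l2, l3, l4⟩ := L_late (μ := μ) B uk lk ux lx hk
      rcases le_total K (A - 76) with hc | hc
      · let E : Ex := ⟨K, A, M, K - A, 0, (1 + 3 / 2 * K - A / 2) / 2, (1 + 3 / 2 * K - A / 2) / 2,
          2040 + (K - A) / 2, 0, 2 + K / 2, 0, 0, 19 + (K - A) / 4, 1 / 10⟩
        have c : E.Late1 := ⟨hc, hK, rfl, rfl, rfl, rfl, rfl, rfl, rfl, rfl, rfl, rfl, rfl⟩
        exact ⟨E, reg_of B E A_lo A_hi M_lo M_hi K_lo K_hi uk lk ux lx um lm uta lta uot lot
          (sub_nonpos.2 hKA) le_rfl (Or.inl c) (fun _ => Or.inl c)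
          (fun h' => absurd hk (not_lt.2 h')) (fun h' => absurd h' n1) (fun h' => absurd h' nw)
          l1 l2 l3 l4 unu
          ((Ub.add B (Ub.one q) (unu.mono B (by linarith))).mono B (by norm_num [E]))
          uu w1 w2 w3 w4⟩
      · let E : Ex := ⟨K, A, M, K - A, 0, (1 + 3 / 2 * K - A / 2) / 2, (1 + 3 / 2 * K - A / 2) / 2,
          2040 + (K - A) / 2, 0, 2 + K / 2, 0, 0, 0, 1 / 10⟩
        have c : E.Late2 := ⟨hc, hK, rfl, rfl, rfl, rfl, rfl, rfl, rfl, rfl, rfl, rfl, rfl⟩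
        have unu0 : Ub q (sPar q x μ k).nu 0 := by
          have a : Ub q (tau x k) (-40) := uta.mono B (by linarith)
          have b : Ub q (1 / (k : ℝ)) (-40) := ((Ub.one q).div B lk).mono B (by linarith)
          exact (((Ub.base B 37).mul B (a.add B b)).sqrt B).mono B (by norm_num)
        exact ⟨E, reg_of B E A_lo A_hi M_lo M_hi K_lo K_hi uk lk ux lx um lm uta lta uot lot
          (sub_nonpos.2 hKA) le_rfl (Or.inr (Or.inl c)) (fun _ => Or.inr c)
          (fun h' => absurd hk (not_lt.2 h')) (fun h' => absurd h' n1) (fun h' => absurd h' nw)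
          l1 l2 l3 l4 unu0 ((Ub.add B (Ub.one q) unu0).mono B (by norm_num [E]))
          uu w1 w2 w3 w4⟩
    · have hK : 4058 ≤ K := by exact_mod_cast exp_le B (castL 4058 hk) uk
      obtain ⟨l1, l2, l3, l4⟩ := L_main (x := x) (μ := μ) B uk lk hk
      let E : Ex := ⟨K, A, M, K - A, 0, (12066 - K) / 4, K / 2,
        2040 + (K - A) / 2, 0, 2 + K / 2, 0, 0, 19 + (K - A) / 4, 19 + (K - A) / 4 + 1 / 10⟩
      have c : E.Low := ⟨hK, hKA, rfl, rfl, rfl, rfl, rfl, rfl, rfl, rfl, rfl, rfl, rfl⟩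
      exact ⟨E, reg_of B E A_lo A_hi M_lo M_hi K_lo K_hi uk lk ux lx um lm uta lta uot lot
        (sub_nonpos.2 hKA) le_rfl (Or.inr (Or.inr (Or.inl c)))
        (fun h' => absurd h' (not_lt.2 hk)) (fun _ => Or.inl c)
        (fun h' => absurd h' n1) (fun h' => absurd h' nw) l1 l2 l3 l4 unu
        ((Ub.add B (one1 (by linarith)) unu).mono B (by simp only [E]; linarith))
        uu w1 w2 w3 w4⟩
  · have hKA : A ≤ K := exp_le B lx (uk.of_le ux.1 hkx)
    obtain ⟨uot, lot, uta, lta⟩ := frac_small B ux lx uk lk hkx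
    rw [add_comm x] at uot lot uta lta
    rw [← eo] at uot lot
    have hk : kTwo q ≤ k := by
      by_contra hk
      have : K ≤ 4058 := by exact_mod_cast exp_le B lk (castU 4058 (not_le.1 hk).le)
      linarith
    obtain ⟨l1, l2, l3, l4⟩ := L_main (x := x) (μ := μ) B uk lk hk
    have unu := nu_gen (μ := μ) B lk uta le_rfl (by linarith)
    have unp : Ub q (1 + (sPar q x μ k).nu) (19 + 0 / 4 + 1 / 10) :=
      (Ub.add B (one1 (by norm_num)) unu).mono B (by norm_num)
    rcases le_or_gt k (kOne q) with h1 | h1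
    · have hK : K ≤ 4750 := by exact_mod_cast exp_le B lk (castU 4750 h1)
      have nw : ¬win q k := fun hw => absurd hw.1 (not_lt.2 h1)
      obtain ⟨w1, w2, w3, w4⟩ := nowin (x := x) (μ := μ) B uk nw
      let E : Ex := ⟨K, A, M, 0, A - K, (12066 - K) / 4, K / 2,
        2040 + 0 / 2, 0, 2 + K / 2, 0, 0, 19 + 0 / 4, 19 + 0 / 4 + 1 / 10⟩
      have c : E.Mid := ⟨hKA, hK, rfl, rfl, rfl, rfl, rfl, rfl, rfl, rfl, rfl, rfl, rfl⟩
      exact ⟨E, reg_of B E A_lo A_hi M_lo M_hi K_lo K_hi uk lk ux lx um lm uta lta uot lot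
        le_rfl (sub_nonpos.2 hKA) (Or.inr (Or.inr (Or.inr (Or.inl c))))
        (fun h' => absurd h' (not_lt.2 hk)) (fun _ => Or.inr (Or.inl c))
        (fun h' => ⟨hone h', Or.inl c⟩) (fun h' => absurd h' nw) l1 l2 l3 l4 unu unp
        (u_low B h1 uta) w1 w2 w3 w4⟩
    · have hK := hone h1.le
      by_cases hw : win q k
      · have uO : Ub q (kOne q : ℝ) (4750 : ℕ) := by
          have := Ub.base B 4750
          rwa [← Nat.cast_pow] at this
        have hK' : K ≤ 4750 + 1 / 10 := by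
          have a : Ub q k (1 / 20 + (4750 : ℕ)) := by
            refine (uO.cmul B (c := 3) (by norm_num) (by norm_num)).of_le uk.1 ?_
            have h3 : 1 ≤ kOne q := Nat.one_le_pow _ _ (by exact_mod_cast B.pos)
            have h4 : k ≤ 3 * kOne q := by have := hw.2; omega
            exact_mod_cast h4
          have := exp_le B lk a
          push_cast at this
          linarith
        have ube : Ub q (sBe q μ k) (947 + 1 / 10) := by
          have e : sBe q μ k = 72 * (q : ℝ) ^ 2197 * kOne q / μ := if_pos hw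
          rw [e]
          exact (((((Ub.base B 2197).cmul B (by norm_num) (by norm_num)).mul B uO).div B lm)).mono B
            (by push_cast; linarith)
        have uW : Ub q (√(nW q x k)) ((12066 - K) / 4) :=
          (((((Ub.base B 25).mul B uk).mul B uta).mul B (uot.pow B 2)).sqrt B).mono B
            (by push_cast; linarith)
        have l1' : Ub q (sL q x k) ((12066 - K) / 4) := l1
        have uxi : Ub q (sPar q x μ k).xi (947 + 1 / 10 + (12066 - K) / 4 + 1 / 10) :=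
          (ube.mul B (Ub.add B (l1'.cmul B (by norm_num) (by norm_num))
            ((ube.cmul B (by norm_num) (by norm_num)).mono B (by linarith)))).mono B (by linarith)
        have uxi2 : Ub q (sPar q x μ k).xi2 (947 + 1 / 10 + 2 * ((12066 - K) / 4) + 1 / 10) := by
          have a1 : Ub q (2 * sL q x k ^ 2) (1 / 20 + 2 * ((12066 - K) / 4)) :=
            ((l1'.pow B 2).cmul B (by norm_num) (by norm_num)).mono B (by push_cast; linarith)
          have a2 : Ub q (6 * sL q x k * √(nW q x k)) (1 / 20 + 2 * ((12066 - K) / 4)) :=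
            ((l1'.cmul B (by norm_num) (by norm_num)).mul B uW).mono B (by linarith)
          have a3 : Ub q (16 * sBe q μ k * √k) (1 / 20 + 2 * ((12066 - K) / 4) + 1 / 200) :=
            ((ube.cmul B (by norm_num) (by norm_num)).mul B (uk.sqrt B)).mono B (by linarith)
          exact (ube.mul B ((a1.add B a2).add B a3)).mono B (by linarith)
        have ueta : Ub q (sPar q x μ k).eta (947 + 1 / 10 + (12066 - K) / 4 + 2 / 10) :=
          (Ub.add B uxi (((Ub.base B 2).mul B (uk.sqrt B)).mono B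
            (by push_cast; linarith))).mono B (by linarith)
        let E : Ex := ⟨K, A, M, 0, A - K, (12066 - K) / 4, K / 2, 2197 + 1 / 10, 947 + 1 / 10,
          947 + 1 / 10 + (12066 - K) / 4 + 2 / 10, 947 + 1 / 10 + (12066 - K) / 4 + 1 / 10,
          947 + 1 / 10 + 2 * ((12066 - K) / 4) + 1 / 10, 19 + 0 / 4, 19 + 0 / 4 + 1 / 10⟩
        have c : E.Win := ⟨hK, hK', rfl, rfl, rfl, rfl, rfl, rfl, rfl, rfl, rfl, rfl, rfl⟩
        exact ⟨E, reg_of B E A_lo A_hi M_lo M_hi K_lo K_hi uk lk ux lx um lm uta lta uot lot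
          le_rfl (sub_nonpos.2 hKA) (Or.inr (Or.inr (Or.inr (Or.inr (Or.inl c)))))
          (fun h' => absurd h' (not_lt.2 hk)) (fun _ => Or.inr (Or.inr (Or.inl c)))
          (fun h' => ⟨hone h', Or.inr (Or.inl c)⟩) (fun _ => c) l1 l2 l3 l4 unu unp
          (u_high B uta) ube uxi uxi2 ueta⟩
      · obtain ⟨w1, w2, w3, w4⟩ := nowin (x := x) (μ := μ) B uk hw
        let E : Ex := ⟨K, A, M, 0, A - K, (12066 - K) / 4, K / 2,
          2197 + 1 / 10, 0, 2 + K / 2, 0, 0, 19 + 0 / 4, 19 + 0 / 4 + 1 / 10⟩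
        have c : E.High := ⟨hK, K_hi, rfl, rfl, rfl, rfl, rfl, rfl, rfl, rfl, rfl, rfl, rfl⟩
        exact ⟨E, reg_of B E A_lo A_hi M_lo M_hi K_lo K_hi uk lk ux lx um lm uta lta uot lot
          le_rfl (sub_nonpos.2 hKA) (Or.inr (Or.inr (Or.inr (Or.inr (Or.inr c)))))
          (fun h' => absurd h' (not_lt.2 hk)) (fun _ => Or.inr (Or.inr (Or.inr c)))
          (fun h' => ⟨hone h', Or.inr (Or.inr c)⟩) (fun h' => absurd h' hw) l1 l2 l3 l4 unu unp
          (u_high B uta) w1 w2 w3 w4⟩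

end Vale.Agent.P049.An
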