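import Vale.Agent.P049.Calc2
import Vale.Agent.P049.Norm2

/-! P049: the tilt matrix.  `x = σp Bp - σm Bm`, `light a` means both squared row norms are `≤ 2`.
`tilt = β (x^l - x^tr)` where `x^l a b = x a b` on light pairs (else 0) and `x^tr = x^l` on the pairs with
`1/2 < |β x|` (else 0).
PLAN.  `tilt_bil`: for `x^l` cut `p, q` to light coordinates (`V2.of_abs_le`) and use `bil_le` for both sides
(`2 L`); for `x^tr` the Schur test `schur_bil`: `|x| ≤ 2 β x^2` there, and for light `a`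
`∑ b, x a b ^2 ≤ 2 (y+ + y-) ≤ 8`, so row sums are `≤ 16 β`.  `tilt_row`: `≤ β^2 * 8` for light `a`, 0 otherwise.
`tilt_F`: for `D ∈ {Bp, Bm}` and `B ∈ {Bp, Bm}`: `P_l D P_l B` has Frobenius norm at most that of
`D P_l B = D B - D P_h B`; `Fmix` / `M4_le` give `L^2`, `mulL` gives `L sqrt (∑ heavy y)`, and
`∑ heavy (y+ + y-) ≤ 8 wb^2` (`heavy_sum`, from `Side.heavy`: the sum is at most twice the larger one);
for `x^tr B` use `V2.of_bil` columnwise: `16 β ka`.
`tilt_gain`: `av tilt (R1 B) = β (∑ x R1 - (pairs with a heavy index) - (truncated pairs))`;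
`∑ a b, Bp a b * R1 Bp a b = M3 - U`, `∑ a b, Bm a b * R1 Bp a b = chi - U(Bm)`; pairs with heavy `a`:
`V2.dot` on row `a`, `|x_a| ≤ sqrt (2 (y+ + y-))`, `|R1_a| ≤ sqrt (L^2 y + 1) ≤ L sqrt (1.5 (y+ + y-))`
(`R1row_le`), total `2 sqrt 3 L * 8 wb^2 ≤ 28 L wb^2`; truncated light pairs: `|R1 a b| ≤ 2` (`Q_ent`),
`|x| ≤ 2 β x^2`, `∑ x^2 ≤ 4 k`.  The statement for the second side follows from `tilt_neg`. -/

namespace Vale.Agent.P049.An

open Finset Matrix

variable {ι : Type} [Fintype ι] [DecidableEq ι]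

def light (B C : Matrix ι ι ℝ) (a : ι) : Prop := (B * B) a a ≤ 2 ∧ (C * C) a a ≤ 2

open Classical in
noncomputable def tilt (β σ σ' : ℝ) (B C : Matrix ι ι ℝ) (a b : ι) : ℝ :=
  if light B C a ∧ light B C b ∧ |β * (σ * B a b - σ' * C a b)| ≤ 1 / 2
  then β * (σ * B a b - σ' * C a b) else 0

variable {P : Par} {s s' β σ σ' : ℝ} {B C : Matrix ι ι ℝ}

theorem tilt_neg (β σ σ' : ℝ) (B C : Matrix ι ι ℝ) (a b : ι) :
    tilt β σ' σ C B a b = - tilt β σ σ' B C a b := by
  have e : β * (σ' * C a b - σ * B a b) = -(β * (σ * B a b - σ' * C a b)) := by ring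
  have hl : ∀ c, light C B c ↔ light B C c := fun c => and_comm
  unfold tilt
  rw [e, abs_neg]
  split_ifs with h1 h2 h2
  · rfl
  · exact absurd ⟨(hl a).1 h1.1, (hl b).1 h1.2.1, h1.2.2⟩ h2
  · exact absurd ⟨(hl a).2 h2.1, (hl b).2 h2.2.1, h2.2.2⟩ h1
  · rw [neg_zero]

theorem tilt_zero (σ σ' : ℝ) (B C : Matrix ι ι ℝ) (a b : ι) : tilt 0 σ σ' B C a b = 0 := by
  simp [tilt]

theorem tilt_symm (hB : Side P s B) (hC : Side P s' C) (a b : ι) :
    tilt β σ σ' B C a b = tilt β σ σ' B C b a := by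
  unfold tilt
  rw [hB.sym a b, hC.sym a b]
  classical exact if_congr and_left_comm rfl rfl

theorem tilt_le (β σ σ' : ℝ) (B C : Matrix ι ι ℝ) (a b : ι) : |tilt β σ σ' B C a b| ≤ 1 / 2 := by
  unfold tilt
  split_ifs with h
  · exact h.2.2
  · norm_num

open Classical in
theorem heavy_sum (hB : Side P s B) (hC : Side P s' C) :
    ∑ a, (if light B C a then 0 else (B * B) a a + (C * C) a a) ≤ 8 * P.wb ^ 2 := by
  have h : ∀ a, (if light B C a then 0 else (B * B) a a + (C * C) a a) ≤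
      4 * ((B * B) a a - P.ta) ^ 2 + 4 * ((C * C) a a - P.ta) ^ 2 := fun a => by
    have h1 := sq_nonneg ((B * B) a a - P.ta)
    have h2 := sq_nonneg ((C * C) a a - P.ta)
    split_ifs with hl
    · positivity
    · rw [light, not_and_or, not_le, not_le] at hl
      rcases le_total ((B * B) a a) ((C * C) a a) with k | k
      · have := (hC.heavy (c := a) (hl.elim (fun h => h.trans_le k) id)).1
        linarith
      · have := (hB.heavy (c := a) (hl.elim id fun h => h.trans_le k)).1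
        linarith
  refine (sum_le_sum fun a _ => h a).trans ?_
  rw [sum_add_distrib, ← mul_sum, ← mul_sum]
  linarith [hB.W_le.2, hC.W_le.2]

open Classical in
/-- Indicator of the light indices. -/
private noncomputable def li (B C : Matrix ι ι ℝ) (a : ι) : ℝ := if light B C a then 1 else 0

open Classical in
/-- The truncated part. -/
private noncomputable def trc (β σ σ' : ℝ) (B C : Matrix ι ι ℝ) (a b : ι) : ℝ :=
  if light B C a ∧ light B C b ∧ ¬ |β * (σ * B a b - σ' * C a b)| ≤ 1 / 2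
  then σ * B a b - σ' * C a b else 0

private theorem tilt_eq (β σ σ' : ℝ) (B C : Matrix ι ι ℝ) (a b : ι) :
    tilt β σ σ' B C a b =
      β * (li B C a * li B C b * (σ * B a b - σ' * C a b) - trc β σ σ' B C a b) := by
  unfold tilt li trc
  by_cases h1 : light B C a <;> by_cases h2 : light B C b <;>
    by_cases h3 : |β * (σ * B a b - σ' * C a b)| ≤ 1 / 2 <;> simp only [h1, h2, h3] <;> simp

private theorem li_abs (B C : Matrix ι ι ℝ) (a : ι) (x : ℝ) : |li B C a * x| ≤ |x| := by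
  unfold li
  split_ifs <;> simp

private theorem x_row (hB : Side P s B) (hC : Side P s' C) (hσ : |σ| = 1) (hσ' : |σ'| = 1) (a : ι) :
    ∑ b, (σ * B a b - σ' * C a b) ^ 2 ≤ 2 * ((B * B) a a + (C * C) a a) := by
  have h1 : σ ^ 2 = 1 := by rw [← sq_abs, hσ, one_pow]
  have h2 : σ' ^ 2 = 1 := by rw [← sq_abs, hσ', one_pow]
  rw [hB.y_eq, hC.y_eq, ← sum_add_distrib, mul_sum]
  refine sum_le_sum fun b _ => ?_
  have h3 : (σ * B a b) ^ 2 = B a b ^ 2 := by rw [mul_pow, h1, one_mul]
  have h4 : (σ' * C a b) ^ 2 = C a b ^ 2 := by rw [mul_pow, h2, one_mul]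
  nlinarith [sq_nonneg (σ * B a b + σ' * C a b)]

private theorem trc_le (hβ : 0 ≤ β) (a b : ι) :
    |trc β σ σ' B C a b| ≤ 2 * β * (σ * B a b - σ' * C a b) ^ 2 := by
  unfold trc
  split_ifs with h
  · have h1 := not_le.1 h.2.2
    rw [abs_mul, abs_of_nonneg hβ] at h1
    rw [← sq_abs]
    nlinarith [abs_nonneg (σ * B a b - σ' * C a b)]
  · rw [abs_zero]
    positivity

private theorem trc_bil (hB : Side P s B) (hC : Side P s' C) (hβ : 0 ≤ β) (hσ : |σ| = 1)
    (hσ' : |σ'| = 1) (p q : ι → ℝ) (cp cq : ℝ) (hp : V2 p cp) (hq : V2 q cq) :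
    |∑ a, ∑ b, trc β σ σ' B C a b * (p a * q b)| ≤ 16 * β * cp * cq := by
  refine schur_bil (fun a b => ?_) (by positivity) (fun a => ?_) hp hq
  · unfold trc
    rw [hB.sym a b, hC.sym a b]
    classical exact if_congr and_left_comm rfl rfl
  · by_cases hl : light B C a
    · refine (sum_le_sum fun b _ => trc_le hβ a b).trans ?_
      rw [← mul_sum]
      have h1 := x_row hB hC hσ hσ' a
      have h2 : ∑ b, (σ * B a b - σ' * C a b) ^ 2 ≤ 8 := by linarith [hl.1, hl.2]
      nlinarith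
    · simp only [trc, hl, false_and, if_false, abs_zero, sum_const_zero]
      positivity

theorem tilt_bil (hB : Side P s B) (hC : Side P s' C) (hβ : 0 ≤ β) (hσ : |σ| = 1) (hσ' : |σ'| = 1)
    (p q : ι → ℝ) (cp cq : ℝ) (hp : V2 p cp) (hq : V2 q cq) :
    |∑ a, ∑ b, tilt β σ σ' B C a b * (p a * q b)| ≤ β * (2 * P.L + 16 * β) * cp * cq := by
  have hp' : V2 (fun a => li B C a * p a) cp := hp.of_abs_le fun a => li_abs B C a _
  have hq' : V2 (fun a => li B C a * q a) cq := hq.of_abs_le fun a => li_abs B C a _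
  have h1 := hB.bil_le hp' hq'
  have h2 := hC.bil_le hp' hq'
  have h3 := trc_bil hB hC hβ hσ hσ' p q cp cq hp hq
  have e : ∑ a, ∑ b, tilt β σ σ' B C a b * (p a * q b) =
      β * (σ * ∑ a, ∑ b, B a b * (li B C a * p a * (li B C b * q b)) -
        σ' * ∑ a, ∑ b, C a b * (li B C a * p a * (li B C b * q b)) -
        ∑ a, ∑ b, trc β σ σ' B C a b * (p a * q b)) := by
    simp only [mul_sum, ← sum_sub_distrib]
    refine sum_congr rfl fun a _ => sum_congr rfl fun b _ => ?_
    rw [tilt_eq]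
    ring
  rw [e, abs_mul, abs_of_nonneg hβ, mul_assoc, mul_assoc]
  refine mul_le_mul_of_nonneg_left ?_ hβ
  refine (abs_sub _ _).trans ((add_le_add_left (abs_sub _ _) _).trans ?_)
  rw [abs_mul, abs_mul, hσ, hσ']
  linarith

theorem tilt_row (hB : Side P s B) (hC : Side P s' C) (hβ : 0 ≤ β) (hσ : |σ| = 1) (hσ' : |σ'| = 1)
    (a : ι) : V2 (fun b => tilt β σ σ' B C a b) (3 * β) := by
  refine ⟨by positivity, ?_⟩
  by_cases hl : light B C a
  · have h : ∀ b, tilt β σ σ' B C a b ^ 2 ≤ β ^ 2 * (σ * B a b - σ' * C a b) ^ 2 := fun b => by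
      unfold tilt
      split_ifs
      · rw [mul_pow]
      · rw [zero_pow two_ne_zero]
        positivity
    refine (sum_le_sum fun b _ => h b).trans ?_
    rw [← mul_sum]
    have h1 := x_row hB hC hσ hσ' a
    have h2 : ∑ b, (σ * B a b - σ' * C a b) ^ 2 ≤ 8 := by linarith [hl.1, hl.2]
    nlinarith [sq_nonneg β]
  · simp only [tilt, hl, false_and, if_false, zero_pow two_ne_zero, sum_const_zero]
    positivity

private theorem heavy_F (hB : Side P s B) (hC : Side P s' C) :
    F2 (Matrix.of fun b c => (1 - li B C b) * B b c) (3 * P.wb) := by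
  classical
  have hw := hB.W_le.1
  refine ⟨by positivity, ?_⟩
  have h : ∀ b, ∑ c, (Matrix.of fun b c => (1 - li B C b) * B b c) b c ^ 2 ≤
      if light B C b then 0 else (B * B) b b + (C * C) b b := fun b => by
    simp only [of_apply, li]
    split_ifs
    · simp
    · simp only [sub_zero, one_mul, ← hB.y_eq]
      linarith [hC.y_nonneg b]
  have h2 := (sum_le_sum fun b _ => h b).trans (heavy_sum hB hC)
  nlinarith [sq_nonneg P.wb]

private theorem light_F {D : Matrix ι ι ℝ} {s'' : ℝ} (hB : Side P s B) (hC : Side P s' C)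
    (hD : Side P s'' D) :
    F2 (fun a c => ∑ b, D a b * (li B C b * B b c)) (P.L ^ 2 + P.L * (3 * P.wb)) := by
  refine ((hB.Fmix hD).sub (hD.mulL (heavy_F hB hC))).of_abs_le fun a c => le_of_eq ?_
  simp only [Matrix.mul_apply, of_apply, ← sum_sub_distrib]
  congr 1
  exact sum_congr rfl fun b _ => by ring

theorem tilt_F (hB : Side P s B) (hC : Side P s' C) (hβ : 0 ≤ β) (hσ : |σ| = 1) (hσ' : |σ'| = 1) :
    F2 (fun a c => ∑ b, tilt β σ σ' B C a b * B b c)
      (β * (2 * P.L ^ 2 + 6 * P.L * P.wb + 16 * β * P.ka)) := by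
  have h1 := ((light_F hB hC hB).const_mul σ).sub ((light_F hB hC hC).const_mul σ')
  have h2 := h1.of_abs_le (N := fun a c => li B C a * (σ * ∑ b, B a b * (li B C b * B b c) -
    σ' * ∑ b, C a b * (li B C b * B b c))) fun a c => li_abs B C a _
  have hka := hB.ok.ka_pos
  have h3 : F2 (fun a c => ∑ b, trc β σ σ' B C a b * B b c) (16 * β * P.ka) := by
    refine ⟨by positivity, ?_⟩
    rw [sum_comm]
    have h : ∀ c, ∑ a, (∑ b, trc β σ σ' B C a b * B b c) ^ 2 ≤ (16 * β) ^ 2 * ∑ b, B b c ^ 2 :=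
      fun c => by
        have k := (V2.of_bil (by positivity) (trc_bil hB hC hβ hσ hσ')
          (V2.sqrt fun b => B b c)).2
        rwa [mul_pow, Real.sq_sqrt (sum_nonneg fun b _ => sq_nonneg _)] at k
    refine (sum_le_sum fun c _ => h c).trans ?_
    rw [← mul_sum, mul_pow (16 * β), sum_comm]
    exact mul_le_mul_of_nonneg_left hB.FB.2 (by positivity)
  have h4 := (h2.sub h3).const_mul β
  rw [hσ, hσ', abs_of_nonneg hβ] at h4
  refine (h4.of_abs_le fun a c => le_of_eq ?_).mono (le_of_eq (by ring))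
  simp only [mul_sum, ← sum_sub_distrib]
  congr 1
  refine sum_congr rfl fun b _ => ?_
  rw [tilt_eq]
  ring

private theorem sum_R1 {D : Matrix ι ι ℝ} (hD : ∀ a b, D a b = D b a) (B : Matrix ι ι ℝ) :
    ∑ a, ∑ b, D a b * R1 B a b = (B * B * D).trace - D.trace := by
  simp only [R1, Matrix.trace, diag_apply, Matrix.sub_apply, mul_sub, sum_sub_distrib,
    one_apply, mul_ite, mul_one, mul_zero, sum_ite_eq, mem_univ, if_true]
  congr 1
  refine sum_congr rfl fun a _ => ?_
  rw [Matrix.mul_apply]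
  exact sum_congr rfl fun b _ => by rw [hD a b, mul_comm]

open Classical in
private theorem heavy_row (hB : Side P s B) (hC : Side P s' C) (hσ : |σ| = 1) (hσ' : |σ'| = 1)
    (a : ι) : ∑ b, (1 - li B C a) * (|σ * B a b - σ' * C a b| * |R1 B a b|) ≤
      7 / 4 * P.L * if light B C a then 0 else (B * B) a a + (C * C) a a := by
  unfold li
  split_ifs with hl
  · simp
  · have hL := hB.ok.L_ge
    have hL0 : 0 < P.L := by linarith
    have y1 := hB.y_nonneg a
    have y2 := hC.y_nonneg a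
    have hY : 2 ≤ (B * B) a a + (C * C) a a := by
      rw [light, not_and_or, not_le, not_le] at hl
      rcases hl with h | h <;> linarith
    have h : ∀ b, (1 - 0) * (|σ * B a b - σ' * C a b| * |R1 B a b|) ≤
        P.L / 2 * (σ * B a b - σ' * C a b) ^ 2 + 1 / (2 * P.L) * R1 B a b ^ 2 := fun b => by
      rw [← sq_abs (σ * B a b - σ' * C a b), ← sq_abs (R1 B a b)]
      generalize |σ * B a b - σ' * C a b| = u
      generalize |R1 B a b| = v
      have e : P.L / 2 * u ^ 2 + 1 / (2 * P.L) * v ^ 2 - (1 - 0) * (u * v) =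
          (P.L * u - v) ^ 2 / (2 * P.L) := by
        field_simp
        ring
      have : 0 ≤ (P.L * u - v) ^ 2 / (2 * P.L) := by positivity
      linarith
    refine (sum_le_sum fun b _ => h b).trans ?_
    rw [sum_add_distrib, ← mul_sum, ← mul_sum]
    have h1 := mul_le_mul_of_nonneg_left (x_row hB hC hσ hσ' a) (show 0 ≤ P.L / 2 by positivity)
    have h2 : ∑ b, R1 B a b ^ 2 ≤ 3 / 2 * P.L ^ 2 * ((B * B) a a + (C * C) a a) := by
      have h3 := hB.R1row_le a
      have h4 : 1 ≤ P.L ^ 2 := one_le_pow₀ hL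
      nlinarith [mul_nonneg (sq_nonneg P.L) y2]
    have h3 := mul_le_mul_of_nonneg_left h2 (show 0 ≤ 1 / (2 * P.L) by positivity)
    have e : 1 / (2 * P.L) * (3 / 2 * P.L ^ 2 * ((B * B) a a + (C * C) a a)) =
        3 / 4 * P.L * ((B * B) a a + (C * C) a a) := by
      field_simp
      ring
    linarith

private theorem heavy_pairs (hB : Side P s B) (hC : Side P s' C) (hσ : |σ| = 1) (hσ' : |σ'| = 1) :
    |∑ a, ∑ b, (1 - li B C a * li B C b) * ((σ * B a b - σ' * C a b) * R1 B a b)| ≤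
      28 * P.L * P.wb ^ 2 := by
  have hL : 0 ≤ P.L := by linarith [hB.ok.L_ge]
  have h1 : ∑ a, ∑ b, (1 - li B C a) * (|σ * B a b - σ' * C a b| * |R1 B a b|) ≤
      14 * P.L * P.wb ^ 2 := by
    refine (sum_le_sum fun a _ => heavy_row hB hC hσ hσ' a).trans ?_
    rw [← mul_sum]
    have := mul_le_mul_of_nonneg_left (heavy_sum hB hC) (show 0 ≤ 7 / 4 * P.L by positivity)
    linarith
  have h2 : ∑ a, ∑ b, (1 - li B C b) * (|σ * B a b - σ' * C a b| * |R1 B a b|) ≤
      14 * P.L * P.wb ^ 2 := by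
    rw [sum_comm]
    refine le_of_eq_of_le (sum_congr rfl fun a _ => sum_congr rfl fun b _ => ?_) h1
    rw [hB.sym b a, hC.sym b a, hB.R1_sym b a]
  have h3 : ∀ a b, |(1 - li B C a * li B C b) * ((σ * B a b - σ' * C a b) * R1 B a b)| ≤
      (1 - li B C a) * (|σ * B a b - σ' * C a b| * |R1 B a b|) +
        (1 - li B C b) * (|σ * B a b - σ' * C a b| * |R1 B a b|) := fun a b => by
    rw [abs_mul, abs_mul]
    have : 0 ≤ |σ * B a b - σ' * C a b| * |R1 B a b| := by positivity
    unfold li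
    split_ifs <;> simp [this]
  refine (abs_sum_le_sum_abs _ _).trans ((sum_le_sum fun a _ =>
    (abs_sum_le_sum_abs _ _).trans (sum_le_sum fun b _ => h3 a b)).trans ?_)
  simp only [sum_add_distrib]
  linarith

private theorem trc_pairs (hB : Side P s B) (hC : Side P s' C) (hβ : 0 ≤ β) (hσ : |σ| = 1)
    (hσ' : |σ'| = 1) : |∑ a, ∑ b, trc β σ σ' B C a b * R1 B a b| ≤ 16 * β * P.k := by
  have h : ∀ a b, |trc β σ σ' B C a b * R1 B a b| ≤ 4 * β * (σ * B a b - σ' * C a b) ^ 2 :=
    fun a b => by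
      by_cases hl : light B C a ∧ light B C b
      · have h1 : |R1 B a b| ≤ 2 := by
          by_cases hab : a = b
          · subst hab
            rw [R1_diag, abs_le]
            constructor <;> linarith [hl.1.1, hB.y_nonneg a]
          · rw [R1_off B hab]
            refine abs_le_of_sq_le_sq' ?_ (by norm_num) |> abs_le.2
            have := mul_le_mul hl.1.1 hl.2.1 (hB.y_nonneg b) (by norm_num)
            linarith [hB.Q_ent a b]
        rw [abs_mul]
        have h2 := mul_le_mul (trc_le (σ := σ) (σ' := σ') (B := B) (C := C) hβ a b) h1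
          (abs_nonneg _) (by positivity)
        linarith
      · have e : trc β σ σ' B C a b = 0 := if_neg fun k => hl ⟨k.1, k.2.1⟩
        rw [e, zero_mul, abs_zero]
        positivity
  refine (abs_sum_le_sum_abs _ _).trans ((sum_le_sum fun a _ =>
    (abs_sum_le_sum_abs _ _).trans (sum_le_sum fun b _ => h a b)).trans ?_)
  simp only [← mul_sum]
  have h1 : ∑ a, ∑ b, (σ * B a b - σ' * C a b) ^ 2 ≤ 4 * P.k := by
    refine (sum_le_sum fun a _ => x_row hB hC hσ hσ' a).trans ?_
    rw [← mul_sum, sum_add_distrib, ← hB.T_eq_y, ← hC.T_eq_y]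
    linarith [hB.T_le_k, hC.T_le_k]
  nlinarith

theorem tilt_gain (hB : Side P s B) (hC : Side P s' C) (hβ : 0 ≤ β) (hσ : |σ| = 1) (hσ' : |σ'| = 1) :
    β * (sM3 B - |sU B| - |sChi B C - sU C| - 28 * P.L * P.wb ^ 2 - 16 * β * P.k)
      ≤ σ * av (tilt β σ σ' B C) (R1 B) := by
  have h1 := heavy_pairs hB hC hσ hσ'
  have h2 := trc_pairs hB hC hβ hσ hσ'
  have e : av (tilt β σ σ' B C) (R1 B) =
      β * (σ * ∑ a, ∑ b, B a b * R1 B a b - σ' * ∑ a, ∑ b, C a b * R1 B a b -
        ∑ a, ∑ b, (1 - li B C a * li B C b) * ((σ * B a b - σ' * C a b) * R1 B a b) -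
        ∑ a, ∑ b, trc β σ σ' B C a b * R1 B a b) := by
    simp only [av, mul_sum, ← sum_sub_distrib]
    refine sum_congr rfl fun a _ => sum_congr rfl fun b _ => ?_
    rw [tilt_eq]
    ring
  rw [e, sum_R1 hB.sym, sum_R1 hC.sym, mul_left_comm]
  refine mul_le_mul_of_nonneg_left ?_ hβ
  generalize ∑ a, ∑ b, (1 - li B C a * li B C b) * ((σ * B a b - σ' * C a b) * R1 B a b) = u
    at h1 ⊢
  generalize ∑ a, ∑ b, trc β σ σ' B C a b * R1 B a b = v at h2 ⊢
  have k1 := le_abs_self (σ * u)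
  have k2 := le_abs_self (σ * v)
  have k3 := le_abs_self (σ * (σ' * (sChi B C - sU C)))
  have k4 := le_abs_self (sU B)
  simp only [abs_mul, hσ, hσ', one_mul] at k1 k2 k3
  have k5 : σ * (σ * (sM3 B - sU B)) = sM3 B - sU B := by
    rw [← mul_assoc, ← abs_mul_abs_self, hσ, one_mul, one_mul]
  change _ ≤ σ * (σ * (sM3 B - sU B) - σ' * (sChi B C - sU C) - u - v)
  rw [mul_sub, mul_sub, mul_sub, k5]
  linarith

end Vale.Agent.P049.An
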