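import Vale.Agent.P049.ScU
import Vale.Agent.P049.ScV
import Vale.Agent.P049.ScM
import Vale.Agent.P049.ScW
import Vale.Agent.P049.Extract
import Vale.Agent.P049.Tilt
import Vale.Agent.P049.Build
import Vale.Agent.P049.SchB

/-! P049: the step on the type of alive half-edges. -/

namespace Vale.Agent.P049.An

open Finset Matrix

variable {ι : Type} [Fintype ι] [DecidableEq ι]
variable {q : ℕ} {x μ : ℝ} {k : ℕ} {E : Ex} {s : ℝ} {B C : Matrix ι ι ℝ} {m w t : ι → ι → ℝ}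

theorem side_drift (h : St q x μ k E s B C) (hW : Wt (sPar q x μ k) s B m w t)
    (h2 : kOne q ≤ k → Two (sPar q x μ k) s B C m w t)
    (hγ : sBe q μ k * μ / 4 * |sU B| ≤ sU B * (s * av t (R1 B))) :
    av w (fun a b => side q x μ (k - 2) (step s B a b) (step (-s) C a b))
      ≤ tot w * (side q x μ k B C + incr ℝ q k / 2) := by
  have e1 := sc_U h hW hγ
  have e2 := sc_D h hW
  have e3 := sc_W h hW
  have e4 := sc_V h hW
  have e5 := sc_M h hW
  have e6 := sc_C h hW h2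
  have hA := (h.tot_bd hW).1
  have hk := h.k_ge
  have hq := h.reg.big.pos
  have e7 : (7 * (700 * (1 / q) / k) + if kOne q ≤ k ∧ k < kOne q + 2 then 1 / 100 else 0 : ℝ)
      ≤ incr ℝ q k / 2 := by
    have e8 : (7 * (700 * (1 / q) / k) : ℝ) ≤ 10000 / (q * k) / 2 := by
      have : (7 * (700 * (1 / q) / k) : ℝ) = 4900 * (1 / (q * k)) := by field_simp; norm_num
      have h3 : (10000 / (q * k) / 2 : ℝ) = 5000 * (1 / (q * k)) := by ring
      have h4 : (0 : ℝ) ≤ 1 / (q * k) := by positivity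
      rw [this, h3]; linarith
    unfold incr
    split_ifs <;> linarith
  have e9 := mul_le_mul_of_nonneg_left e7 hA.le
  simp only [side, sidePot, av_add]
  have e10 : (1400 * (1 / q) / k : ℝ) = 2 * (700 * (1 / q) / k) := by ring
  rw [e10] at e5
  linarith

/-- a sign with values in `1, -1` -/
noncomputable def sgn (U : ℝ) : ℝ := if 0 ≤ U then 1 else -1

theorem abs_sgn (U : ℝ) : |sgn U| = 1 := by unfold sgn; split_ifs <;> simp

theorem abs_mul_sgn (U : ℝ) : |U| * sgn U = U := by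
  unfold sgn
  split_ifs with h
  · rw [abs_of_nonneg h, mul_one]
  · rw [abs_of_neg (not_le.1 h)]; ring

theorem gain_side {s' σ : ℝ} (h : St q x μ k E s B C) (h' : St q x μ k E s' C B) (hσ : |σ| = 1) :
    sBe q μ k * μ / 4 * |sU B|
      ≤ sU B * av (tilt (sBe q μ k) (sgn (sU B)) σ B C) (R1 B) := by
  have hb := h.reg.be_nonneg
  have h1 := tilt_gain h.side h'.side hb (abs_sgn (sU B)) hσ
  have h2 : sBe q μ k * μ / 4
      ≤ sgn (sU B) * av (tilt (sBe q μ k) (sgn (sU B)) σ B C) (R1 B) := by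
    refine le_trans ?_ h1
    by_cases hw : win q k
    · have hk : kOne q ≤ k := hw.1.le
      have g := h.reg.gain hw
      have g1 := abs_le.1 (h.M3_near hk)
      have g2 := h.side.U_le
      have g3 := h'.side.U_le
      have g4 := h.hC hk
      have g5 := h.hC0
      have g6 := h.side.T_nonneg
      have g7 : sT B ≤ k := h.side.T_le_k
      have g8 := h.reg.nC_pos
      have g9 : |sChi B C - sU C| ≤ nC q μ k + k + (sPar q x μ k).u := by
        have := abs_le.1 g3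
        rw [abs_le]; constructor <;> linarith
      have g10 : (sPar q x μ k).k = k := rfl
      rw [mul_div_assoc]
      refine mul_le_mul_of_nonneg_left ?_ hb
      rw [g10]
      linarith
    · have : sBe q μ k = 0 := by simp [sBe, hw]
      rw [this]; simp
  calc sBe q μ k * μ / 4 * |sU B|
      ≤ sgn (sU B) * av (tilt (sBe q μ k) (sgn (sU B)) σ B C) (R1 B) * |sU B| :=
        mul_le_mul_of_nonneg_right h2 (abs_nonneg _)
    _ = |sU B| * sgn (sU B) * av (tilt (sBe q μ k) (sgn (sU B)) σ B C) (R1 B) := by ring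
    _ = _ := by rw [abs_mul_sgn]

omit [DecidableEq ι] in
theorem av_neg (t f : ι → ι → ℝ) : av (fun a b => - t a b) f = - av t f := by
  simp [av, Finset.sum_neg_distrib]

theorem core {mm : ℝ} {Bp Bm : Matrix ι ι ℝ} (hR : Rng q x μ k) (hm0 : 0 ≤ mm) (hm : mm ^ 2 ≤ 1 / 2)
    (hk : Fintype.card ι = k) (hp : Inv univ 1 mm Bp) (hn : Inv univ (-1) mm Bm)
    (hpot : pot q x μ k Bp Bm ≤ 1) (bad : ι → ι → Prop) [DecidableRel bad]
    (hsym : ∀ a b, bad a b → bad b a) (hdeg : ∀ a, (univ.filter (bad a)).card ≤ q) :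
    ∃ a b, a ≠ b ∧ ¬ bad a b ∧ 0 < rho 1 Bp a b ∧ 0 < rho (-1) Bm a b ∧
      pot q x μ (k - 2) (step 1 Bp a b) (step (-1) Bm a b) ≤ pot q x μ k Bp Bm + incr ℝ q k := by
  obtain ⟨E, hE⟩ := hR.reg
  have hp' : Inv univ (-(-1)) mm Bp := by rwa [neg_neg]
  have n1 := side_nonneg hE (Or.inl rfl) hm0 hm hk hp hn
  have n2 := side_nonneg hE (Or.inr rfl) hm0 hm hk hn hp'
  have hpot' : side q x μ k Bp Bm + side q x μ k Bm Bp ≤ 1 := hpot
  have Sp : St q x μ k E 1 Bp Bm := st_of_side hE (Or.inl rfl) hm0 hm hk hp hn (by linarith)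
  have Sm : St q x μ k E (-1) Bm Bp := st_of_side hE (Or.inr rfl) hm0 hm hk hn hp' (by linarith)
  have hb := hE.be_nonneg
  have a1 := abs_sgn (sU Bp)
  have a2 := abs_sgn (sU Bm)
  set β := sBe q μ k with hβ
  set t : ι → ι → ℝ := tilt β (sgn (sU Bp)) (sgn (sU Bm)) Bp Bm with ht
  have hneg : tilt β (sgn (sU Bm)) (sgn (sU Bp)) Bm Bp = fun a b => - t a b := by
    funext a b; exact tilt_neg _ _ _ _ _ a b
  have t_le : ∀ a b, |t a b| ≤ (sPar q x μ k).wbar - 1 := by
    intro a b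
    by_cases hw : win q k
    · have : (sPar q x μ k).wbar = 3 / 2 := by simp [sPar, hw]
      rw [this]
      exact le_trans (tilt_le _ _ _ _ _ a b) (by norm_num)
    · have h1 : (sPar q x μ k).wbar = 1 := by simp [sPar, hw]
      have h2 : β = 0 := by simp [hβ, sBe, hw]
      rw [h1, ht, h2, tilt_zero]; simp
  have tC : F2 (fun a c => ∑ b, t a b * Bm b c) (sPar q x μ k).xi2 := by
    have h1 := tilt_F Sm.side Sp.side hb a2 a1
    rw [hneg] at h1
    refine F2.of_abs_le h1 fun a c => le_of_eq ?_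
    simp only [neg_mul, Finset.sum_neg_distrib, abs_neg]
  obtain ⟨W1, W2, W3⟩ := build (dq := (q : ℝ)) (β := β) (t := t) Sp.side Sm.side hsym
    (fun a => by exact_mod_cast hdeg a) (tilt_symm Sp.side Sm.side) t_le
    (tilt_bil Sp.side Sm.side hb a1 a2) (tilt_row Sp.side Sm.side hb a1 a2)
    (tilt_F Sp.side Sm.side hb a1 a2) tC hE.hvp hE.hvs
  set mk := msk (sPar q x μ k) Bp Bm bad with hmk
  set w : ι → ι → ℝ := fun a b => mk a b * (1 - t a b) with hw
  have hL : kOne q ≤ k → (sPar q x μ k).ka ≤ (sPar q x μ k).L ^ 2 := fun h =>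
    hE.main_L (by have := hE.phase; omega)
  have T1 : kOne q ≤ k → Two (sPar q x μ k) 1 Bp Bm mk w t := fun h =>
    ⟨Sp.side, Sm.side, W1, W2, W3, hL h⟩
  have T2 : kOne q ≤ k → Two (sPar q x μ k) (-1) Bm Bp mk w t := fun h =>
    ⟨Sm.side, by rw [neg_neg]; exact Sp.side, W2, by rw [neg_neg]; exact W1,
      by rw [neg_neg]; simpa only [mul_comm (rho (-1) Bm _ _)] using W3, hL h⟩
  have g1 : β * μ / 4 * |sU Bp| ≤ sU Bp * (1 * av t (R1 Bp)) := by
    rw [one_mul]; exact gain_side Sp Sm a2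
  have g2 : β * μ / 4 * |sU Bm| ≤ sU Bm * (-1 * av t (R1 Bm)) := by
    have h1 := gain_side Sm Sp a1
    rw [← hβ, hneg] at h1
    rw [neg_one_mul]; exact h1.trans (le_of_eq (congrArg _ (av_neg t (R1 Bm))))
  have d1 := side_drift Sp W1 T1 g1
  have d2 := side_drift Sm W2 T2 g2
  rw [neg_neg] at d2
  have d3 : av w (fun a b => pot q x μ (k - 2) (step 1 Bp a b) (step (-1) Bm a b))
      ≤ tot w * (pot q x μ k Bp Bm + incr ℝ q k) := by
    simp only [pot, av_add]
    linarith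
  obtain ⟨a, b, hab, hle⟩ := exists_le_of_av (W1.w_nonneg Sp.side) (Sp.tot_bd W1).1 d3
  have hadm := msk_adm (W1.supp hab)
  exact ⟨a, b, hadm.2.1.ne, hadm.1, lt_of_lt_of_le (by norm_num) (hadm.2.1.rho_ge Sp.side),
    lt_of_lt_of_le (by norm_num) (hadm.2.2.rho_ge Sm.side), hle⟩

/-- sizes of the Frobenius masses -/
theorem core_T {mm : ℝ} {Bp Bm : Matrix ι ι ℝ} (hR : Rng q x μ k) (hm0 : 0 ≤ mm)
    (hm : mm ^ 2 ≤ 1 / 2) (hk : Fintype.card ι = k) (hp : Inv univ 1 mm Bp)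
    (hn : Inv univ (-1) mm Bm) (hpot : pot q x μ k Bp Bm ≤ 1) :
    (sT Bp ≤ k ∧ sT Bm ≤ k) ∧ sT Bp ≤ 1 + k * tau x k + sSig q x k ∧
      sT Bm ≤ 1 + k * tau x k + sSig q x k := by
  obtain ⟨E, hE⟩ := hR.reg
  have hp' : Inv univ (-(-1)) mm Bp := by rwa [neg_neg]
  have n1 := side_nonneg hE (Or.inl rfl) hm0 hm hk hp hn
  have n2 := side_nonneg hE (Or.inr rfl) hm0 hm hk hn hp'
  have hpot' : side q x μ k Bp Bm + side q x μ k Bm Bp ≤ 1 := hpot
  have Sp : St q x μ k E 1 Bp Bm := st_of_side hE (Or.inl rfl) hm0 hm hk hp hn (by linarith)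
  have Sm : St q x μ k E (-1) Bm Bp := st_of_side hE (Or.inr rfl) hm0 hm hk hn hp' (by linarith)
  exact ⟨⟨Sp.side.T_le_k, Sm.side.T_le_k⟩, hE.T_le Sp.hD, hE.T_le Sm.hD⟩

end Vale.Agent.P049.An
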