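import Vale.Agent.P049.ADefs
import Mathlib.Analysis.SpecialFunctions.Pow.Real
import Mathlib.Analysis.SpecialFunctions.Sqrt

/-! P049 analysis: contexts for the one-step lemmas.  Here the index type is the set of ALIVE
half-edges (`Fintype.card ι = k`), `step s B a b` is padded by zeros in rows/columns `a, b`. -/

namespace Vale.Agent.P049.An

open Finset Matrix

noncomputable section

variable {ι : Type} [Fintype ι] [DecidableEq ι]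

/-- l2 bound for a vector -/
def V2 (p : ι → ℝ) (c : ℝ) : Prop := 0 ≤ c ∧ ∑ a, p a ^ 2 ≤ c ^ 2
/-- Frobenius bound -/
def F2 (M : ι → ι → ℝ) (c : ℝ) : Prop := 0 ≤ c ∧ ∑ a, ∑ b, M a b ^ 2 ≤ c ^ 2
/-- masked l1 bound -/
def H1 (m f : ι → ι → ℝ) (c : ℝ) : Prop := ∑ a, ∑ b, m a b * |f a b| ≤ c
/-- masked l2 bound -/
def H2 (m f : ι → ι → ℝ) (c : ℝ) : Prop := 0 ≤ c ∧ ∑ a, ∑ b, m a b * f a b ^ 2 ≤ c ^ 2
/-- masked sup bound -/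
def Hs (m f : ι → ι → ℝ) (c : ℝ) : Prop := 0 ≤ c ∧ ∀ a b, m a b ≠ 0 → |f a b| ≤ c
/-- a symmetric 0-1 mask -/
def Mask (m : ι → ι → ℝ) : Prop := (∀ a b, m a b = 0 ∨ m a b = 1) ∧ ∀ a b, m a b = m b a
/-- weighted sum over ordered pairs -/
def av (w f : ι → ι → ℝ) : ℝ := ∑ a, ∑ b, w a b * f a b
/-- total weight -/
def tot (w : ι → ι → ℝ) : ℝ := ∑ a, ∑ b, w a b

def R1 (B : Matrix ι ι ℝ) : Matrix ι ι ℝ := B * B - 1
def R2 (B : Matrix ι ι ℝ) : Matrix ι ι ℝ := B * R1 B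
def R3 (B : Matrix ι ι ℝ) : Matrix ι ι ℝ := B * R2 B
def R4 (B : Matrix ι ι ℝ) : Matrix ι ι ℝ := B * R3 B

def rho1 (s : ℝ) (B : Matrix ι ι ℝ) (a b : ι) : ℝ :=
  -2 * (s - B a b) * R1 B a b - B a a * R1 B b b - B b b * R1 B a a
def rho2 (s : ℝ) (B : Matrix ι ι ℝ) (a b : ι) : ℝ :=
  -2 * (s - B a b) * R2 B a b + R1 B a b ^ 2 - R1 B a a * R1 B b b
    - B a a * R2 B b b - B b b * R2 B a a
def rho3 (s : ℝ) (B : Matrix ι ι ℝ) (a b : ι) : ℝ :=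
  -2 * (s - B a b) * R3 B a b + 2 * R1 B a b * R2 B a b - R1 B a a * R2 B b b
    - R2 B a a * R1 B b b - B a a * R3 B b b - B b b * R3 B a a
def rho4 (s : ℝ) (B : Matrix ι ι ℝ) (a b : ι) : ℝ :=
  -2 * (s - B a b) * R4 B a b + 2 * R1 B a b * R3 B a b + R2 B a b ^ 2 - R2 B a a * R2 B b b
    - R1 B a a * R3 B b b - R3 B a a * R1 B b b - B a a * R4 B b b - B b b * R4 B a a
/-- equals `rho + rho2` when `a ≠ b` and `s * s = 1` -/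
def rhoT (s : ℝ) (B : Matrix ι ι ℝ) (a b : ι) : ℝ :=
  (B * B) a a + (B * B) b b - (B * B) a a * (B * B) b b - 2 * (s - B a b) * (B * B * B) a b
    - B a a * (B * B * B) b b - B b b * (B * B * B) a a + B a a * B b b - B a b ^ 2
    + (B * B) a b ^ 2
/-- numerator of the change of the diagonal entry `c` -/
def nn0 (s : ℝ) (B : Matrix ι ι ℝ) (a b c : ι) : ℝ :=
  B b b * B c a ^ 2 + B a a * B c b ^ 2 + 2 * (s - B a b) * B c a * B c b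
/-- first order numerator of the change of the squared norm of row `c` -/
def nn1 (s : ℝ) (B : Matrix ι ι ℝ) (a b c : ι) : ℝ :=
  R1 B b b * B c a ^ 2 + R1 B a a * B c b ^ 2 - 2 * (B * B) a b * B c a * B c b
    + 2 * B b b * B c a * (B * B) c a + 2 * B a a * B c b * (B * B) c b
    + 2 * (s - B a b) * (B c a * (B * B) c b + (B * B) c a * B c b)
/-- change of `y c - τ` when the centre moves down by `ϑ` -/
def dl (s ϑ : ℝ) (B : Matrix ι ι ℝ) (a b c : ι) : ℝ :=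
  nn1 s B a b c / rho s B a b - nn0 s B a b c * rho1 s B a b / rho s B a b ^ 2 + ϑ
/-- sum of fourth powers of the entries -/
def sZ (B : Matrix ι ι ℝ) : ℝ := ∑ c, ∑ e, B c e ^ 4
/-- `∑ (y c - τ)^2` -/
def sW (τ : ℝ) (B : Matrix ι ι ℝ) : ℝ := ∑ c, ((B * B) c c - τ) ^ 2
def sS2 (B : Matrix ι ι ℝ) : ℝ := ∑ c, (∑ a, R1 B a a * B c a ^ 2) ^ 2
/-- the bilinear form of a matrix -/
def bil (C : Matrix ι ι ℝ) (x y : ι → ℝ) : ℝ := ∑ i, ∑ j, x i * C i j * y j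

/-- numerical parameters of a step -/
structure Par where
  k : ℝ
  ka : ℝ
  th : ℝ
  L : ℝ
  tb : ℝ
  nu : ℝ
  up : ℝ
  yb : ℝ
  ps : ℝ
  wb : ℝ
  ta : ℝ
  u : ℝ
  vp : ℝ
  vs : ℝ
  xi : ℝ
  xi2 : ℝ
  wbar : ℝ

structure Par.Ok (P : Par) : Prop where
  ka_sq : P.ka ^ 2 = P.k
  ka_pos : 0 ≤ P.ka
  k_ge : 400 ≤ P.k
  th_pos : 0 < P.th
  th_le : P.th ≤ 1 / 100
  L_ge : 1 ≤ P.L
  L_le : P.L ≤ P.ka
  tb_ge : 1 ≤ P.tb
  tb_le : P.tb ≤ P.ka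
  tb_vp : P.tb ≤ P.vp
  ka_ps : P.ka ≤ P.ps
  yb_ps : P.yb ≤ P.ps
  up_ps : P.up ≤ P.ps
  nu_ps : P.nu ≤ P.ps
  ta_ge : 0 ≤ P.ta
  ta_le : P.ta ≤ 1
  u_ge : 0 ≤ P.u
  vs_ge : 0 ≤ P.vs
  xi_ge : 0 ≤ P.xi
  wbar_ge : 1 ≤ P.wbar
  wbar_le : P.wbar ≤ 3 / 2

/-- what is known about one side before the step -/
structure Side (P : Par) (s : ℝ) (B : Matrix ι ι ℝ) : Prop where
  ok : P.Ok
  card : (Fintype.card ι : ℝ) = P.k
  sgn : s = 1 ∨ s = -1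
  symm : B.IsSymm
  row : ∀ c, ∑ e, B c e = s
  T_le : F2 B P.tb
  M4_le : F2 (B * B) (P.L ^ 2)
  V_le : V2 (fun c => B c c) P.nu
  Y_le : V2 (fun c => (B * B) c c) P.yb
  W_le : V2 (fun c => (B * B) c c - P.ta) P.wb
  D_le : V2 (fun c => R1 B c c) P.up
  U_le : |sU B| ≤ P.u
  ent : ∀ c e, |B c e| ≤ 18 / 25 + (|B c c| + |B e e|) / 2

/-- the pointwise conditions on an admissible pair -/
structure GoodPair (P : Par) (B : Matrix ι ι ℝ) (a b : ι) : Prop where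
  ne : a ≠ b
  r_le : |B a b| ≤ P.th
  ab_le : |B a a * B b b| ≤ P.th
  Q_le : |(B * B) a b| ≤ P.L
  ad_le : |B a a * R1 B b b| ≤ P.L
  bd_le : |B b b * R1 B a a| ≤ P.L

/-- the weights: `m` mask of admissible pairs, `t` tilt, `w = m (1 - t)` -/
structure Wt (P : Par) (s : ℝ) (B : Matrix ι ι ℝ) (m w t : ι → ι → ℝ) : Prop where
  mask : Mask m
  good : ∀ a b, m a b ≠ 0 → GoodPair P B a b
  w_eq : ∀ a b, w a b = m a b * (1 - t a b)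
  tsymm : ∀ a b, t a b = t b a
  t_le : ∀ a b, |t a b| ≤ P.wbar - 1
  tbil : ∀ (p q : ι → ℝ) (cp cq : ℝ), V2 p cp → V2 q cq →
    |∑ a, ∑ b, t a b * (p a * q b)| ≤ P.xi * cp * cq
  tB : F2 (fun a c => ∑ b, t a b * B b c) P.xi2
  devw : F2 (fun a b => w a b - 1 + t a b) P.vp
  devv : F2 (fun a b => w a b / rho s B a b - 1 + t a b) P.vp
  roww : ∀ a, V2 (fun b => w a b - 1) P.vs
  rowv : ∀ a, V2 (fun b => w a b / rho s B a b - 1) P.vs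

/-- everything known about both sides and the weights in the main phase -/
structure Two (P : Par) (s : ℝ) (B C : Matrix ι ι ℝ) (m w t : ι → ι → ℝ) : Prop where
  sB : Side P s B
  sC : Side P (-s) C
  wB : Wt P s B m w t
  wC : Wt P (-s) C m w t
  dev2 : F2 (fun a b => w a b / (rho s B a b * rho (-s) C a b) - 1 + t a b) P.vp
  main : P.ka ≤ P.L ^ 2

namespace Par

variable (P : Par)

def eta : ℝ := P.xi + P.vp
def G : ℝ := P.L ^ 3 + P.ps ^ 2 + P.nu * P.L * P.ps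
def G1 : ℝ := P.L ^ 2 + P.nu * P.up
def Ga : ℝ := P.L * P.wb ^ 2 + P.L ^ 2 * P.wb
/-- error of the mean of `e1` -/
def eU : ℝ := 10 * (P.vp * P.L ^ 2 + P.vp * P.ka + P.eta * P.nu * P.up + P.tb * P.L ^ 2)
/-- second moment of `e1` -/
def eU2 : ℝ := 100 * (P.L ^ 4 + P.nu ^ 2 * P.up ^ 2)
/-- error of the mean of `rhoT / rho` -/
def eT : ℝ := 10 * (P.eta * P.ka * P.yb + P.eta * P.yb ^ 2 + P.vp * P.L ^ 3
  + P.xi * P.tb * P.L ^ 2 + P.u * P.tb * P.L ^ 2 + P.eta * P.nu * P.L * P.yb + P.u ^ 2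
  + P.eta * P.nu ^ 2 + P.tb ^ 2 + P.tb * P.L ^ 3 + P.L ^ 4)
/-- l2 size of `rhoT` -/
def GT : ℝ := P.ka * P.yb + P.yb ^ 2 + P.L ^ 3 + P.nu * P.L * P.yb + P.nu ^ 2 + P.tb
def eT2 : ℝ := 3000 * (P.k * P.yb ^ 2 + P.yb ^ 4 + P.L ^ 6 + P.nu ^ 2 * P.L ^ 2 * P.yb ^ 2
  + P.nu ^ 4 + P.tb ^ 2 + P.L ^ 2 * P.nu ^ 2 * P.up ^ 2)
def e3 : ℝ := 1000 * (P.eta * P.L * P.G + P.G ^ 2 / P.L)
def e3sq : ℝ := 100000 * P.L ^ 2 * P.G ^ 2
def e4 : ℝ := 2000 * (P.eta * P.L ^ 2 * P.G + P.G ^ 2 + P.u * P.L ^ 5 + P.k ^ 2 + P.u ^ 2)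
def eV : ℝ := 1000 * (P.u * P.nu * P.yb + P.vs * P.nu ^ 2 * P.yb + P.ka * P.nu
  + P.vp * P.nu * P.yb + P.nu * P.xi2 + P.xi * P.nu * P.wb + P.yb ^ 2)
def eW1 : ℝ := 100 * (P.vs * P.wb * P.yb * P.up + (P.u + P.vs * P.nu + P.eta) * P.Ga
  + (1 + P.nu) * P.G1 * P.wb * P.yb + P.ka * P.wb)
def Th (ϑ : ℝ) : ℝ := (1 + P.nu) ^ 4 * (P.L ^ 4 + P.L ^ 2 * P.wb ^ 2 + P.nu ^ 2 * P.yb * P.up ^ 2
  + P.nu ^ 2 * P.tb ^ 2 + (1 + P.nu) ^ 2 * P.wb ^ 2 * P.yb + P.yb ^ 2) + P.nu ^ 4 * P.up ^ 2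
  + ϑ ^ 2 * P.k ^ 3
def Xi0 : ℝ := (1 + P.nu) ^ 5 * P.ps * (P.L ^ 4 + P.L ^ 2 * P.ps + P.L * P.ps ^ 2)
def Xi : ℝ := (1 + P.nu) ^ 5 * (P.eta + P.ps) * (P.L ^ 4 + P.L ^ 2 * P.ps + P.L * P.ps ^ 2)

end Par

end

end Vale.Agent.P049.An
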