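import Vale.Agent.P049.Rho
import Vale.Agent.P049.Alg3

/-! P049: norm facts for the mixed statistic.  `J a = (C*B) a a`, `I a = (C * R1 B) a a`.
PLAN.  `|J a| ≤ sqrt (y~ a) sqrt (y a)` (`V2.dot` with `rowV`), so `∑ J^2 ≤ ∑ y~ y ≤ yb^2`;
`I a ^2 ≤ y~ a (L^2 y a + 1)` (`R1row_le`); `(B*C*B) a a = ∑ C i j B a i B a j`, `bil_le`;
Frobenius norms by `mulL`, `mulR`, `Fmix`, `FR1'`; `C * R1 B * C = (C*B)*(B*C) - C*C` and `F2.diag_abs`.
The factors `a1 a2 b1 b2` are rewritten with `du_cl` and bounded with the calculus; recall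
`1 ≤ L ≤ ka ≤ ps`, `yb, up, nu ≤ ps`, `|B a b| ≤ th` and `|Q a b| ≤ L` on the support, `V2.sup`. -/

namespace Vale.Agent.P049.An

open Finset Matrix

variable {ι : Type} [Fintype ι] [DecidableEq ι]
variable {P : Par} {s : ℝ} {B C : Matrix ι ι ℝ} {m w t : ι → ι → ℝ} {g : ι → ℝ} {c : ℝ}

def a1 (s : ℝ) (B C : Matrix ι ι ℝ) (a b : ι) : ℝ := (C * B) a a + s * B b a
def a2 (s : ℝ) (B C : Matrix ι ι ℝ) (a b : ι) : ℝ := (C * B) a b + s * B b b
def b1 (s : ℝ) (B C : Matrix ι ι ℝ) (a b : ι) : ℝ := (C * R1 B) a a + s * R1 B b a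
def b2 (s : ℝ) (B C : Matrix ι ι ℝ) (a b : ι) : ℝ := (C * R1 B) b a + s * R1 B a a

noncomputable def fpp (s : ℝ) (B C : Matrix ι ι ℝ) (a b : ι) : ℝ :=
  bil (step (-s) C a b) (cl B a) (cl B a)
noncomputable def fpq (s : ℝ) (B C : Matrix ι ι ℝ) (a b : ι) : ℝ :=
  bil (step (-s) C a b) (cl B a) (cl B b)
noncomputable def f1p (s : ℝ) (B C : Matrix ι ι ℝ) (a b : ι) : ℝ :=
  bil (step (-s) C a b) (cl (R1 B) a) (cl B a)
noncomputable def f1q (s : ℝ) (B C : Matrix ι ι ℝ) (a b : ι) : ℝ :=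
  bil (step (-s) C a b) (cl (R1 B) a) (cl B b)

private theorem rho_ne (h : Two P s B C m w t) {a b : ι} (hm : m a b ≠ 0) :
    rho (-s) C a b ≠ 0 := by
  have := (h.wC.good a b hm).rho_ge h.sC
  linarith

private theorem R1_sy (h : Two P s B C m w t) : (R1 B).IsSymm :=
  Matrix.IsSymm.ext fun a b => h.sB.R1_sym b a

private theorem ka_ge (h : Two P s B C m w t) : 20 ≤ P.ka := by
  have h1 := h.sB.ok.ka_sq
  have h2 := h.sB.ok.k_ge
  have h3 := h.sB.ok.ka_pos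
  nlinarith

private theorem ps_ge (h : Two P s B C m w t) : 20 ≤ P.ps := (ka_ge h).trans h.sB.ok.ka_ps

private theorem k_le (h : Two P s B C m w t) : P.k ≤ P.L ^ 4 := by
  rw [← h.sB.ok.ka_sq, show P.L ^ 4 = (P.L ^ 2) ^ 2 by ring]
  exact pow_le_pow_left₀ h.sB.ok.ka_pos h.main 2

private theorem ent_sq {s' : ℝ} (hC : Side P s' C) (M : Matrix ι ι ℝ) (a b : ι) :
    (C * M) a b ^ 2 ≤ (C * C) a a * ∑ j, M j b ^ 2 := by
  rw [hC.y_eq, Matrix.mul_apply]
  exact sum_mul_sq_le_sq_mul_sq _ _ _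

private theorem col_sq {s' : ℝ} (hB : Side P s' B) (b : ι) : ∑ j, B j b ^ 2 = (B * B) b b := by
  rw [hB.y_eq]
  exact sum_congr rfl fun j _ => by rw [hB.sym j b]

omit [DecidableEq ι] in
private theorem F2_row {M : ι → ι → ℝ} {e : ℝ} (hg : V2 g c) (he : 0 ≤ e)
    (hM : ∀ b, ∑ a, M b a ^ 2 ≤ e ^ 2) : F2 (fun a b => g b * M b a) (c * e) := by
  refine ⟨mul_nonneg hg.1 he, ?_⟩
  rw [sum_comm]
  have h : ∀ b, ∑ a, (g b * M b a) ^ 2 ≤ g b ^ 2 * e ^ 2 := fun b => by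
    simp only [mul_pow, ← mul_sum]
    exact mul_le_mul_of_nonneg_left (hM b) (sq_nonneg _)
  refine (sum_le_sum fun b _ => h b).trans ?_
  rw [← sum_mul, mul_pow]
  exact mul_le_mul_of_nonneg_right hg.2 (sq_nonneg _)

private theorem CRC_eq (B C : Matrix ι ι ℝ) : C * R1 B * C = C * B * (B * C) - C * C := by
  simp only [R1, Matrix.mul_sub, Matrix.sub_mul, Matrix.mul_one, Matrix.mul_assoc]

theorem Two.fpp_eq (h : Two P s B C m w t) {a b : ι} (hm : m a b ≠ 0) :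
    fpp s B C a b = (B * C * B) a a + 2 * s * B a a * B a b
      + (C b b * a1 s B C a b ^ 2 + C a a * a2 s B C b a ^ 2
        - 2 * (s + C a b) * a1 s B C a b * a2 s B C b a) / rho (-s) C a b := by
  rw [fpp, bil_step h.sB.sgn h.sC.symm (h.wC.good a b hm).ne (rho_ne h hm), bil_cl h.sB.symm]
  simp only [du_cl, cl, a1, a2, h.sB.sym b a]
  ring

theorem Two.fpq_eq (h : Two P s B C m w t) {a b : ι} (hm : m a b ≠ 0) :
    fpq s B C a b = (B * C * B) a b + s * (B a a * B b b + B a b ^ 2)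
      + (C b b * a1 s B C a b * a2 s B C a b + C a a * a2 s B C b a * a1 s B C b a
        - (s + C a b) * (a1 s B C a b * a1 s B C b a + a2 s B C b a * a2 s B C a b))
        / rho (-s) C a b := by
  rw [fpq, bil_step h.sB.sgn h.sC.symm (h.wC.good a b hm).ne (rho_ne h hm), bil_cl h.sB.symm]
  simp only [du_cl, cl, a1, a2, h.sB.sym b a]
  ring

theorem Two.f1p_eq (h : Two P s B C m w t) {a b : ι} (hm : m a b ≠ 0) :
    f1p s B C a b = (R1 B * C * B) a a + s * (R1 B a a * B a b + (B * B) a b * B a a)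
      + (C b b * b1 s B C a b * a1 s B C a b + C a a * b2 s B C a b * a2 s B C b a
        - (s + C a b) * (b1 s B C a b * a2 s B C b a + b2 s B C a b * a1 s B C a b))
        / rho (-s) C a b := by
  rw [f1p, bil_step h.sB.sgn h.sC.symm (h.wC.good a b hm).ne (rho_ne h hm), bil_cl (R1_sy h)]
  simp only [du_cl, cl, a1, a2, b1, b2, h.sB.sym b a, h.sB.R1_sym b a,
    R1_off B (h.wC.good a b hm).ne]

theorem Two.f1q_eq (h : Two P s B C m w t) {a b : ι} (hm : m a b ≠ 0) :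
    f1q s B C a b = (R1 B * C * B) a b + s * (R1 B a a * B b b + (B * B) a b * B a b)
      + (C b b * b1 s B C a b * a2 s B C a b + C a a * b2 s B C a b * a1 s B C b a
        - (s + C a b) * (b1 s B C a b * a1 s B C b a + b2 s B C a b * a2 s B C a b))
        / rho (-s) C a b := by
  rw [f1q, bil_step h.sB.sgn h.sC.symm (h.wC.good a b hm).ne (rho_ne h hm), bil_cl (R1_sy h)]
  simp only [du_cl, cl, a1, a2, b1, b2, h.sB.sym b a, h.sB.R1_sym b a,
    R1_off B (h.wC.good a b hm).ne]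

theorem Two.cN0_eq (h : Two P s B C m w t) (a b : ι) :
    cN0 s B C a b = B b b * fpp s B C a b + B a a * fpp s B C b a
      + 2 * (s - B a b) * fpq s B C a b := by
  simp only [cN0, fpp, fpq, step_swap h.sC.symm (-s) a b]

theorem Two.cN1_eq (h : Two P s B C m w t) (a b : ι) :
    cN1 s B C a b = R1 B b b * fpp s B C a b + R1 B a a * fpp s B C b a
      - 2 * (B * B) a b * fpq s B C a b + 2 * B b b * f1p s B C a b + 2 * B a a * f1p s B C b a
      + 2 * (s - B a b) * (f1q s B C a b + f1q s B C b a) := by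
  simp only [cN1, fpp, fpq, f1p, f1q, step_swap h.sC.symm (-s) a b]


theorem Two.Hs_sr (h : Two P s B C m w t) : Hs m (fun a b => s + C a b) (101 / 100) := by
  refine ⟨by norm_num, fun a b hm => ?_⟩
  have k := (h.wC.good a b hm).sr_le h.sC
  rwa [← abs_neg, neg_sub, sub_neg_eq_add, add_comm] at k

theorem Two.VJ (h : Two P s B C m w t) : V2 (fun a => (C * B) a a) P.ps := by
  refine ⟨by linarith [ps_ge h], ?_⟩
  have h1 : ∀ a, (C * B) a a ^ 2 ≤ (C * C) a a * (B * B) a a := fun a => by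
    rw [← col_sq h.sB]
    exact ent_sq h.sC B a a
  have h2 := (le_abs_self _).trans (h.sC.Y_le.dot h.sB.Y_le)
  have h3 := h.sB.Y_le.1
  have h4 := h.sB.ok.yb_ps
  refine ((sum_le_sum fun a _ => h1 a).trans h2).trans ?_
  nlinarith

theorem Two.VI (h : Two P s B C m w t) : V2 (fun a => (C * R1 B) a a) (2 * P.L * P.ps) := by
  have hL := h.sB.ok.L_ge
  have hp := ps_ge h
  refine ⟨by positivity, ?_⟩
  have h1 : ∀ a, (C * R1 B) a a ^ 2 ≤ P.L ^ 2 * ((C * C) a a * (B * B) a a) + (C * C) a a :=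
    fun a => by
      have k1 := ent_sq h.sC (R1 B) a a
      have k2 : ∑ j, R1 B j a ^ 2 ≤ P.L ^ 2 * (B * B) a a + 1 :=
        le_of_eq_of_le (sum_congr rfl fun j _ => by rw [h.sB.R1_sym j a]) (h.sB.R1row_le a)
      have k3 := mul_le_mul_of_nonneg_left k2 (h.sC.y_nonneg a)
      linarith
  refine (sum_le_sum fun a _ => h1 a).trans ?_
  rw [sum_add_distrib, ← mul_sum, ← h.sC.T_eq_y]
  have h2 := (le_abs_self _).trans (h.sC.Y_le.dot h.sB.Y_le)
  have h3 : P.yb * P.yb ≤ P.ps ^ 2 := by nlinarith [h.sB.Y_le.1, h.sB.ok.yb_ps]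
  have h4 := mul_le_mul_of_nonneg_left (h2.trans h3) (sq_nonneg P.L)
  have h5 : P.k ≤ P.ps ^ 2 := by
    rw [← h.sB.ok.ka_sq]
    exact pow_le_pow_left₀ h.sB.ok.ka_pos h.sB.ok.ka_ps 2
  have h6 : 1 * P.ps ^ 2 ≤ P.L ^ 2 * P.ps ^ 2 :=
    mul_le_mul_of_nonneg_right (one_le_pow₀ hL) (sq_nonneg _)
  have h7 := h.sC.T_le_k
  have h8 : 0 ≤ P.L ^ 2 * P.ps ^ 2 := by positivity
  have e : (2 * P.L * P.ps) ^ 2 = 4 * (P.L ^ 2 * P.ps ^ 2) := by ring
  linarith

theorem Two.VBCB (h : Two P s B C m w t) : V2 (fun a => (B * C * B) a a) (P.L * P.ps) := by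
  have hL : 0 ≤ P.L := by linarith [h.sB.ok.L_ge]
  have h1 := h.sB.Y_le.const_mul P.L
  rw [abs_of_nonneg hL] at h1
  refine (h1.of_abs_le fun a => ?_).mono (mul_le_mul_of_nonneg_left h.sB.ok.yb_ps hL)
  have h2 := h.sC.bil_le (h.sB.rowV a) (h.sB.rowV a)
  rw [mul_assoc, Real.mul_self_sqrt (h.sB.y_nonneg a)] at h2
  refine le_trans (le_of_eq ?_) (h2.trans (le_abs_self _))
  rw [← bil_cl h.sB.symm, bil]
  congr 1
  refine sum_congr rfl fun i _ => sum_congr rfl fun j _ => ?_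
  rw [cl, cl, h.sB.sym i a, h.sB.sym j a]
  ring

theorem Two.CB_ent (h : Two P s B C m w t) (a b : ι) : |(C * B) a b| ≤ P.ps := by
  have h1 := ent_sq h.sC B a b
  rw [col_sq h.sB] at h1
  have h2 := mul_le_mul (h.sC.y_le a) (h.sB.y_le b) (h.sB.y_nonneg b) h.sB.Y_le.1
  refine abs_le_of_sq_le_sq ?_ (by linarith [ps_ge h])
  nlinarith [h.sB.Y_le.1, h.sB.ok.yb_ps]

theorem Two.FCR (h : Two P s B C m w t) : F2 (C * R1 B) (2 * P.L ^ 3) := by
  exact (h.sC.mulL (h.sB.FR1' h.main)).mono (le_of_eq (by ring))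

theorem Two.FBCB (h : Two P s B C m w t) : F2 (B * C * B) (P.L ^ 3) := by
  rw [Matrix.mul_assoc]
  exact (h.sB.mulL (h.sB.Fmix h.sC)).mono (le_of_eq (by ring))

theorem Two.FCRC (h : Two P s B C m w t) : F2 (C * R1 B * C) (2 * P.L ^ 4) := by
  exact (h.sC.mulR h.FCR).mono (le_of_eq (by ring))

theorem Two.FRCB (h : Two P s B C m w t) : F2 (R1 B * C * B) (2 * P.L ^ 4) := by
  exact (h.sB.mulR (h.sC.mulR (h.sB.FR1' h.main))).mono (le_of_eq (by ring))

theorem Two.dCRC (h : Two P s B C m w t) : ∑ a, |(C * R1 B * C) a a| ≤ 2 * P.L ^ 4 := by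
  have h1 := (h.sB.Fmix h.sC).diag_abs (h.sC.Fmix h.sB)
  have h2 : ∀ a, |(C * R1 B * C) a a| ≤ |∑ x, (C * B) a x * (B * C) x a| + (C * C) a a :=
    fun a => by
      rw [CRC_eq, Matrix.sub_apply, ← Matrix.mul_apply]
      exact (abs_sub _ _).trans (by rw [abs_of_nonneg (h.sC.y_nonneg a)])
  refine (sum_le_sum fun a _ => h2 a).trans ?_
  rw [sum_add_distrib, ← h.sC.T_eq_y]
  have e : P.L ^ 2 * P.L ^ 2 = P.L ^ 4 := by ring
  linarith [h.sC.T_le_k, k_le h]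

theorem Two.dRCB (h : Two P s B C m w t) : ∑ a, |(R1 B * C * B) a a| ≤ 2 * P.L ^ 4 := by
  have h1 := (h.sB.FR1' h.main).diag_abs (h.sB.Fmix h.sC)
  simp only [← Matrix.mul_apply, ← Matrix.mul_assoc] at h1
  exact h1.trans (le_of_eq (by ring))

theorem Two.sumI (h : Two P s B C m w t) : ∑ a, (C * R1 B) a a = sChi B C - sU C := by
  rw [← chi0_eq, Matrix.trace_mul_comm]
  rfl

theorem Two.sumBCB (h : Two P s B C m w t) : ∑ a, (B * C * B) a a = sChi B C := by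
  rw [sChi, ← Matrix.trace_mul_cycle]
  rfl

theorem Two.sumCRC (h : Two P s B C m w t) : ∑ a, ∑ b, (C * R1 B * C) a b = 0 := by
  have h1 : ∀ a, ∑ b, (C * R1 B * C) a b = -s * ∑ x, (C * R1 B) a x := fun a => by
    simp only [Matrix.mul_apply (M := C * R1 B)]
    rw [sum_comm, mul_sum]
    exact sum_congr rfl fun x _ => by rw [← mul_sum, h.sC.row, mul_comm]
  simp only [h1, ← mul_sum, h.sB.sum_mul_R1, mul_zero]

theorem Two.tCRC (h : Two P s B C m w t) :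
    |av t (C * R1 B * C)| ≤ 2 * P.xi * P.L ^ 4 := by
  have h1 := h.wB.t_matmul h.sB (h.sB.Fmix h.sC) (h.sC.Fmix h.sB)
  have h2 := h.wB.t_matmul h.sB h.sC.FB h.sC.FB
  have e : av t (C * R1 B * C) = av t (fun a b => ∑ x, (C * B) a x * (B * C) x b) -
      av t fun a b => ∑ x, C a x * C x b := by
    rw [← av_sub, CRC_eq]
    rfl
  have h3 := mul_le_mul_of_nonneg_left (k_le h) h.sB.ok.xi_ge
  rw [← h.sB.ok.ka_sq] at h3
  rw [e]
  refine (abs_sub _ _).trans ?_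
  nlinarith

theorem Two.tRCB (h : Two P s B C m w t) :
    |av t (R1 B * C * B)| ≤ 2 * P.xi * P.L ^ 4 := by
  have h1 := h.wB.t_matmul h.sB (h.sB.FR1' h.main) (h.sB.Fmix h.sC)
  rw [Matrix.mul_assoc]
  exact h1.trans (le_of_eq (by ring))


theorem Two.Hs_a1 (h : Two P s B C m w t) : Hs m (a1 s B C) (2 * P.ps) := by
  have hp := ps_ge h
  refine ⟨by positivity, fun a b hm => (abs_add_le _ _).trans ?_⟩
  rw [abs_mul, h.sB.abs_s, one_mul, h.sB.sym b a]
  linarith [h.CB_ent a a, (h.wB.good a b hm).r_le, h.sB.ok.th_le]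

theorem Two.H2_ga1 (h : Two P s B C m w t) (hg : V2 g c) :
    H2 m (fun a b => g b * a1 s B C a b) (2 * c * P.ps) := by
  have hp := ps_ge h
  have h1 := F2.rank h.VJ hg
  have h2 := (F2_row (M := B) hg (e := P.ps) (by linarith) fun b => by
    rw [← h.sB.y_eq]
    nlinarith [h.sB.y_le b, h.sB.ok.yb_ps]).const_mul s
  rw [h.sB.abs_s] at h2
  refine (((h1.add h2).of_abs_le fun a b => le_of_eq ?_).toH2 h.wB.mask).mono (le_of_eq (by ring))
  rw [a1]
  congr 1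
  ring

theorem Two.H2_a1a1 (h : Two P s B C m w t) :
    H2 m (fun a b => a1 s B C a b * a1 s B C b a) (4 * P.ps ^ 2) := by
  have hm := h.wB.mask
  have hp := ps_ge h
  have h1 := (h.H2_ga1 h.VJ).swap hm
  have h2 := (H2.mul_sup hm h.Hs_a1 ((h.sB.FB.const_mul s).toH2 hm)).swap hm
  rw [h.sB.abs_s] at h2
  refine ((h1.add hm h2).of_abs_le hm fun a b _ => le_of_eq ?_).mono ?_
  · rw [a1]
    congr 1
    ring
  · nlinarith [h.sB.ok.ka_ps]

theorem Two.Hs_a2 (h : Two P s B C m w t) : Hs m (a2 s B C) (2 * P.ps) := by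
  have hp := ps_ge h
  refine ⟨by positivity, fun a b _ => (abs_add_le _ _).trans ?_⟩
  rw [abs_mul, h.sB.abs_s, one_mul]
  linarith [h.CB_ent a b, h.sB.V_le.sup b, h.sB.ok.nu_ps]

theorem Two.H2_a2 (h : Two P s B C m w t) : H2 m (a2 s B C) (P.L ^ 2 + P.ps * P.nu) := by
  have h1 := (F2.rank h.sB.one h.sB.V_le).const_mul s
  rw [h.sB.abs_s] at h1
  refine ((((h.sB.Fmix h.sC).add h1).of_abs_le fun a b => le_of_eq ?_).toH2 h.wB.mask).mono ?_
  · rw [a2, one_mul]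
  · nlinarith [h.sB.ok.ka_ps, h.sB.V_le.1]

theorem Two.H2_gb1 (h : Two P s B C m w t) (hg : V2 g c) :
    H2 m (fun a b => g b * b1 s B C a b) (3 * c * P.L * P.ps) := by
  have hp := ps_ge h
  have hL := h.sB.ok.L_ge
  have h1 := F2.rank h.VI hg
  have h2 := (F2_row (M := R1 B) hg (e := P.L * P.ps) (by positivity) fun b => by
    have k1 := mul_le_mul_of_nonneg_left ((h.sB.y_le b).trans h.sB.ok.yb_ps) (sq_nonneg P.L)
    have k2 : 1 ≤ P.L ^ 2 := one_le_pow₀ hL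
    have k3 : P.L ^ 2 * (P.ps + 1) ≤ P.L ^ 2 * P.ps ^ 2 :=
      mul_le_mul_of_nonneg_left (by nlinarith) (sq_nonneg _)
    rw [mul_pow]
    linarith [h.sB.R1row_le b]).const_mul s
  rw [h.sB.abs_s] at h2
  refine (((h1.add h2).of_abs_le fun a b => le_of_eq ?_).toH2 h.wB.mask).mono (le_of_eq (by ring))
  rw [b1]
  congr 1
  ring

theorem Two.H2_b2 (h : Two P s B C m w t) : H2 m (b2 s B C) (2 * P.L ^ 3 + P.ps ^ 2) := by
  have h1 := (F2.rank h.sB.D_le h.sB.one).const_mul s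
  rw [h.sB.abs_s] at h1
  refine (((h.FCR.swap.add h1).of_abs_le fun a b => le_of_eq ?_).toH2 h.wB.mask).mono ?_
  · rw [b2, mul_one]
  · have := mul_le_mul h.sB.ok.up_ps h.sB.ok.ka_ps h.sB.ok.ka_pos (by linarith [ps_ge h])
    nlinarith

theorem Two.Xi0_le (h : Two P s B C m w t) : 0 ≤ P.Xi0 ∧ P.Xi0 ≤ P.Xi := by
  have hp := ps_ge h
  have hL := h.sB.ok.L_ge
  have hn := h.sB.V_le.1
  have he := h.wB.eta_nonneg h.sB
  unfold Par.Xi0 Par.Xi
  refine ⟨by positivity, ?_⟩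
  gcongr
  linarith


end Vale.Agent.P049.An
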