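import Vale.Agent.P049.DC0

/-! P049: mixed statistic, the term `tr (R1 B * C')`, and the term with `cN0`.
PLAN `C_tr`.  `trR1_step`, `chi0_eq`; `v~ = w / rho (-s) C` (`h.wC.devv`, `h.wC.wr1_le`).  Terms needing
cancellation: `-2 (I_a + I_b)` (`rank_err` with `VI`, `one`, `sumI`; error `eta 2 L ps ka` each) and
`-2 s (C R1 C) a b` (`lin_err`, `FCRC`, `sumCRC`, `tCRC`).  Everything else in absolute value with `H1`:
`Q a b` (`H1.of_H2`: `k L^2`), `β~ (C R1 C) a a` (`H1.rank`, `dCRC`, `V2.sum_abs`), `β~ (C R1) a b`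
(`H1.mul` with `F2.rank one V_le`), `β~ d_b`, `r~ (C R1 C) a b`, `r~ I_a`.  Use `1 ≤ L ≤ ka ≤ ps`, `k = ka^2`.
PLAN `H2_fpq`, `H2_bfpp`: `fpq_eq`, `fpp_eq` (`H2.of_abs_le` with equality on the support), `Hs_inv` of the
side `C`, and the factor bounds of DC0: `β~ a1 * a2` is `H2_ga1` times `Hs_a2`; `a2 a2` is `Hs_a2` times `H2_a2`;
`β β~ a1^2 = (β~ a1) * (β a1)`.  `C_n0`: `wr_le 2`, `H1.mul H2_rho1 (H2 cN0)`, `G1 ≤ L^2 + nu ps`. -/

namespace Vale.Agent.P049.An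

open Finset Matrix

variable {ι : Type} [Fintype ι] [DecidableEq ι]
variable {P : Par} {s : ℝ} {B C : Matrix ι ι ℝ} {m w t : ι → ι → ℝ}

omit [Fintype ι] [DecidableEq ι] in
private theorem dc1_swap {f : ι → ι → ℝ} {c : ℝ} (hm : Mask m) (h1 : Hs m f c) :
    Hs m (fun a b => f b a) c :=
  ⟨h1.1, fun a b h0 => h1.2 b a (by rwa [hm.2 b a])⟩

private theorem dc1_r (h : Two P s B C m w t) : Hs m B (1 / 100) :=
  ⟨by norm_num, fun a b h0 => (h.wB.good a b h0).r_le.trans h.sB.ok.th_le⟩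

private theorem dc1_rho (h : Two P s B C m w t) {a b : ι} (h0 : m a b ≠ 0) :
    rho (-s) C a b ≠ 0 := by
  have := (h.wC.good a b h0).rho_ge h.sC
  intro h1
  rw [h1] at this
  norm_num at this

/-- the terms of the trace that are bounded in absolute value -/
private theorem dc1_rem (h : Two P s B C m w t) :
    H1 m (fun a b => (C * R1 B * C) a a * C b b + (C * R1 B * C) b b * C a a
        + 2 * s * (1 * C b b * (C * R1 B) a b) + 2 * s * (1 * C a a * (C * R1 B) b a)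
        + 1 * (C b b * R1 B b b) + 1 * (C a a * R1 B a a) - 2 * s * (B * B) a b
        - 2 * (C a b * (C * R1 B * C) a b) - 2 * s * (C a b * ((C * R1 B) a a * 1))
        - 2 * s * (C a b * (1 * (C * R1 B) b b)) - 2 * (C a b * (B * B) a b))
      (4 * (P.L ^ 4 * P.ka * P.nu) + 8 * (P.ka * P.nu * P.L ^ 3) + 2 * (P.k * P.nu * P.up)
        + 2 * (P.k * P.L ^ 2) + 4 * (P.ka * P.L ^ 4) + 8 * (P.ka * P.ka * P.L * P.ps)
        + 2 * (P.ka * P.L ^ 2)) := by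
  have hm := h.wB.mask
  have ok := h.sB.ok
  have hs : |2 * s| = 2 := by rw [abs_mul, h.sB.abs_s]; norm_num
  have h2 : |(2 : ℝ)| = 2 := by norm_num
  have r1 := H1.rank hm h.dCRC (V2.sum_abs h.sB.card ok.ka_pos ok.ka_sq h.sC.V_le)
  have r2 := (H1.mul hm ((F2.rank h.sB.one h.sC.V_le).toH2 hm) (h.FCR.toH2 hm)).const_mul (2 * s)
  have r3 := H1.rank hm (p := fun _ : ι => (1 : ℝ)) (c := P.k)
    (q := fun b => C b b * R1 B b b) (d := P.nu * P.up) (by simp [h.sB.card])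
    (by simpa only [abs_mul] using h.sC.V_le.sum_abs_mul h.sB.D_le)
  have r4 := (H1.of_H2 hm h.sB.card (h.sB.M4_le.toH2 hm)).const_mul (2 * s)
  have r5 := (H1.mul hm (h.sC.FB.toH2 hm) (h.FCRC.toH2 hm)).const_mul 2
  have r6 := (H1.mul hm (h.sC.FB.toH2 hm) ((F2.rank h.VI h.sB.one).toH2 hm)).const_mul (2 * s)
  have r7 := (H1.mul hm (h.sC.FB.toH2 hm) ((F2.rank h.sB.one h.VI).toH2 hm)).const_mul (2 * s)
  have r8 := (H1.mul hm (h.sC.FB.toH2 hm) (h.sB.M4_le.toH2 hm)).const_mul 2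
  rw [hs] at r2 r4 r6 r7
  rw [h2] at r5 r8
  refine ((((((((((r1.add hm (r1.swap hm)).add hm r2).add hm (r2.swap hm)).add hm r3).add hm
    (r3.swap hm)).sub hm r4).sub hm r5).sub hm r6).sub hm r7).sub hm r8).mono (le_of_eq ?_)
  ring

theorem C_tr (h : Two P s B C m w t) :
    av w (fun a b => (R1 B * step (-s) C a b).trace)
      ≤ tot w * (sChi B C - sU C) - 4 * P.k * (sChi B C - sU C) + 200 * P.Xi := by
  have hm := h.wB.mask
  have ok := h.sB.ok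
  have hss := h.sB.sq
  have e1 : av w (fun a b => (R1 B * step (-s) C a b).trace) =
      av w (fun a b => (sChi B C - sU C) + 2 * s * (B * B) a b
        + (-2 * ((C * R1 B) a a * 1) + -2 * (1 * (C * R1 B) b b) + -2 * s * (C * R1 B * C) a b
          + ((C * R1 B * C) a a * C b b + (C * R1 B * C) b b * C a a
          + 2 * s * (1 * C b b * (C * R1 B) a b) + 2 * s * (1 * C a a * (C * R1 B) b a)
          + 1 * (C b b * R1 B b b) + 1 * (C a a * R1 B a a) - 2 * s * (B * B) a b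
          - 2 * (C a b * (C * R1 B * C) a b) - 2 * s * (C a b * ((C * R1 B) a a * 1))
          - 2 * s * (C a b * (1 * (C * R1 B) b b)) - 2 * (C a b * (B * B) a b)))
          / rho (-s) C a b) := by
    refine av_congr fun a b h0 => ?_
    have h1 := h.wB.supp h0
    rw [trR1_step h.sB.sgn h.sB.symm h.sC.symm (h.wB.good a b h1).ne (dc1_rho h h1), chi0_eq]
    congr 2
    linear_combination (-2 * (C * R1 B) a a - 2 * (C * R1 B) b b) * hss
  rw [e1, av_add, av_add, av_const, av_const_mul w (B * B), av_div_eq, av_add, av_add, av_add,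
    av_const_mul _ (C * R1 B * C), av_const_mul, av_const_mul]
  have b1 : |av w (B * B)| ≤ 2 * (P.k * P.L ^ 2) := by
    refine abs_av_le (by norm_num) (fun a b => ?_) (H1.of_H2 hm h.sB.card (h.sB.M4_le.toH2 hm))
    simpa using h.wB.wr_le h.sB 0 (by norm_num) a b
  have b2 := h.wC.rank_err h.wC.devv h.VI h.sB.one
  have b3 := h.wC.rank_err h.wC.devv h.sB.one h.VI
  have hone : ∑ _a : ι, (1 : ℝ) = P.k := by simp [h.sB.card]
  rw [h.sumI, hone] at b2 b3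
  have b4 := lin_err h.wC.devv h.FCRC
  rw [h.sumCRC, sub_zero] at b4
  have b5 := h.tCRC
  have b6 := abs_av_le (by norm_num) (h.wC.wr1_le h.sC) (dc1_rem h)
  have b7 : |av (fun a b => w a b / rho (-s) C a b) (C * R1 B * C)| ≤ 2 * (P.eta * P.L ^ 4) := by
    have h1 := abs_le.1 b4
    have h2 := abs_le.1 b5
    rw [Par.eta]
    exact abs_le.2 ⟨by linarith [h1.1, h2.2], by linarith [h1.2, h2.1]⟩
  have c1 : 2 * s * av w (B * B) ≤ 4 * (P.k * P.L ^ 2) := by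
    have h1 := abs_le.1 b1
    rcases h.sB.sgn with e | e <;> rw [e] <;> linarith [h1.1, h1.2]
  have c7 : -2 * s * av (fun a b => w a b / rho (-s) C a b) (C * R1 B * C)
      ≤ 4 * (P.eta * P.L ^ 4) := by
    have h1 := abs_le.1 b7
    generalize av (fun a b => w a b / rho (-s) C a b) (C * R1 B * C) = x at h1 ⊢
    rcases h.sB.sgn with e | e <;> rw [e] <;> linarith [h1.1, h1.2]
  have c2 := (abs_le.1 b2).1
  have c3 := (abs_le.1 b3).1
  have c6 := (abs_le.1 b6).2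
  -- sizes
  have hL := ok.L_ge
  have hL0 : 0 ≤ P.L := by linarith
  have hka := ok.ka_pos
  have hkp := ok.ka_ps
  have hps : 1 ≤ P.ps := hL.trans (ok.L_le.trans hkp)
  have hps0 : 0 ≤ P.ps := by linarith
  have hnu := h.sB.V_le.1
  have hup := h.sB.D_le.1
  have heta := h.wB.eta_nonneg h.sB
  have hk : P.k ≤ P.ps ^ 2 := ok.ka_sq ▸ pow_le_pow_left₀ hka hkp 2
  have hk0 : 0 ≤ P.k := ok.ka_sq ▸ sq_nonneg _
  have l2 : P.L ^ 2 ≤ P.L ^ 4 := pow_le_pow_right₀ hL (by norm_num)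
  have l3 : P.L ^ 3 ≤ P.L ^ 4 := pow_le_pow_right₀ hL (by norm_num)
  obtain ⟨Z, hZ⟩ : ∃ Z, Z = (P.eta + P.ps) * (P.L ^ 4 + P.L ^ 2 * P.ps + P.L * P.ps ^ 2) := ⟨_, rfl⟩
  have z0 : P.eta * P.L ^ 4 + P.eta * (P.L * P.ps ^ 2) + P.ps * P.L ^ 4 + P.ps ^ 2 * P.L ^ 2
      + P.L * P.ps ^ 3 ≤ Z := by
    have : 0 ≤ P.eta * (P.L ^ 2 * P.ps) := by positivity
    rw [hZ]; linarith
  have p1 : 0 ≤ P.eta * P.L ^ 4 := by positivity
  have p2 : 0 ≤ P.eta * (P.L * P.ps ^ 2) := by positivity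
  have p3 : 0 ≤ P.ps * P.L ^ 4 := by positivity
  have p4 : 0 ≤ P.ps ^ 2 * P.L ^ 2 := by positivity
  have p5 : 0 ≤ P.L * P.ps ^ 3 := by positivity
  have z1 : P.k * P.L ^ 2 ≤ Z := by
    have : P.k * P.L ^ 2 ≤ P.ps ^ 2 * P.L ^ 2 := by gcongr
    linarith
  have z2 : P.eta * (P.L * P.ps * P.ka) ≤ Z := by
    have : P.eta * (P.L * P.ps * P.ka) ≤ P.eta * (P.L * P.ps * P.ps) := by gcongr
    linarith
  have z3 : P.ka * P.L ^ 4 ≤ Z := by
    have : P.ka * P.L ^ 4 ≤ P.ps * P.L ^ 4 := by gcongr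
    linarith
  have z4 : P.ka * P.L ^ 3 ≤ Z := le_trans (by gcongr) z3
  have z5 : P.ka * P.L ^ 2 ≤ Z := le_trans (by gcongr) z3
  have z6 : P.k * P.up ≤ Z := by
    have h1 : P.k * P.up ≤ P.ps ^ 2 * P.ps := by gcongr; exact ok.up_ps
    have h2 : 1 * P.ps ^ 3 ≤ P.L * P.ps ^ 3 := by gcongr
    linarith
  have z7 : P.ka * P.ka * P.L * P.ps ≤ Z := by
    have : P.ka * P.ka * P.L * P.ps ≤ P.ps * P.ps * P.L * P.ps := by gcongr
    linarith
  have hZ0 : 0 ≤ Z := by linarith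
  have y3 := mul_le_mul_of_nonneg_left z3 hnu
  have y4 := mul_le_mul_of_nonneg_left z4 hnu
  have y6 := mul_le_mul_of_nonneg_left z6 hnu
  have y0 := mul_nonneg hnu hZ0
  have hX : (1 + P.nu) * Z ≤ P.Xi := by
    rw [Par.Xi, mul_assoc, ← hZ]
    exact mul_le_mul_of_nonneg_right (le_self_pow₀ (by linarith) (by norm_num)) hZ0
  linarith

theorem H2_fpq (h : Two P s B C m w t) :
    H2 m (fpq s B C) (20 * (1 + P.nu) ^ 2 * (P.ps * P.L ^ 2 + P.ps ^ 2)) := by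
  have hm := h.wB.mask
  have ok := h.sB.ok
  have r1 := h.FBCB.toH2 hm
  have r2 := (((F2.rank h.sB.V_le h.sB.V_le).toH2 hm).add hm
    (H2.mul_sup hm (dc1_r h) (h.sB.FB.toH2 hm))).const_mul s
  have r3 := H2.mul_sup hm h.Hs_a2 (h.H2_ga1 h.sC.V_le)
  have r4 := H2.mul_sup hm h.Hs_sr
    (h.H2_a1a1.add hm (H2.mul_sup hm (dc1_swap hm h.Hs_a2) h.H2_a2))
  have r5 := H2.mul_sup hm (h.wC.Hs_inv h.sC) ((r3.add hm (r3.swap hm)).sub hm r4)
  rw [h.sB.abs_s] at r2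
  refine (((r1.add hm r2).add hm r5).of_abs_le hm fun a b h0 => le_of_eq ?_).mono ?_
  · rw [h.fpq_eq h0]
    congr 1
    ring
  · have hL := ok.L_ge
    have hL0 : 0 ≤ P.L := by linarith
    have hLp : P.L ≤ P.ps := ok.L_le.trans ok.ka_ps
    have hps : 1 ≤ P.ps := hL.trans hLp
    have hps0 : 0 ≤ P.ps := by linarith
    have hnu := h.sB.V_le.1
    have z1 : P.L * P.L ^ 2 ≤ P.ps * P.L ^ 2 := by gcongr
    have z2 : P.nu * P.nu ≤ P.ps * P.ps := by gcongr <;> exact ok.nu_ps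
    have z3 : 1 * P.ps ≤ P.ps * P.ps := by gcongr
    have z4 := ok.ka_ps
    have p1 : 0 ≤ P.ps * P.L ^ 2 := by positivity
    have p2 : 0 ≤ P.ps ^ 2 := by positivity
    have p3 := mul_nonneg hnu p1
    have p4 := mul_nonneg hnu p2
    have p5 := mul_nonneg hnu p3
    have p6 := mul_nonneg hnu p4
    linarith

theorem H2_bfpp (h : Two P s B C m w t) :
    H2 m (fun a b => B b b * fpp s B C a b)
      (20 * (1 + P.nu) ^ 3 * (P.ps * P.L ^ 2 + P.ps ^ 2)) := by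
  have hm := h.wB.mask
  have ok := h.sB.ok
  have hs : |2 * s| = 2 := by rw [abs_mul, h.sB.abs_s]; norm_num
  have h2 : |(2 : ℝ)| = 2 := by norm_num
  have r1 := (F2.rank h.VBCB h.sB.V_le).toH2 hm
  have r2 := (H2.mul_sup hm (dc1_r h) ((F2.rank h.sB.V_le h.sB.V_le).toH2 hm)).const_mul (2 * s)
  have r3 := H2.mul_sup hm ((Hs.right h.sC.V_le).mul h.Hs_a1) (h.H2_ga1 h.sB.V_le)
  have r4 := H2.mul_sup hm (((Hs.right h.sB.V_le).mul (Hs.left h.sC.V_le)).mul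
    (dc1_swap hm h.Hs_a2)) (h.H2_a2.swap hm)
  have r5 := (H2.mul_sup hm (h.Hs_sr.mul (dc1_swap hm h.Hs_a2)) (h.H2_ga1 h.sB.V_le)).const_mul 2
  have r6 := H2.mul_sup hm (h.wC.Hs_inv h.sC) ((r3.add hm r4).sub hm r5)
  rw [hs] at r2
  rw [h2] at r6
  refine (((r1.add hm r2).add hm r6).of_abs_le hm fun a b h0 => le_of_eq ?_).mono ?_
  · rw [h.fpp_eq h0]
    congr 1
    ring
  · have hL := ok.L_ge
    have hL0 : 0 ≤ P.L := by linarith
    have hLp : P.L ≤ P.ps := ok.L_le.trans ok.ka_ps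
    have hps : 1 ≤ P.ps := hL.trans hLp
    have hps0 : 0 ≤ P.ps := by linarith
    have hnu := h.sB.V_le.1
    have z1 : P.nu * (P.ps * P.L) ≤ P.nu * (P.ps * P.ps) := by gcongr
    have z2 : P.nu * P.nu ≤ P.ps * P.ps := by gcongr <;> exact ok.nu_ps
    have p1 : 0 ≤ P.ps * P.L ^ 2 := by positivity
    have p2 : 0 ≤ P.ps ^ 2 := by positivity
    have p3 := mul_nonneg hnu p1
    have p4 := mul_nonneg hnu p2
    have p5 := mul_nonneg hnu p3
    have p6 := mul_nonneg hnu p4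
    have p7 := mul_nonneg hnu p5
    have p8 := mul_nonneg hnu p6
    linarith

theorem C_n0 (h : Two P s B C m w t) :
    |av w (fun a b => rho1 s B a b * cN0 s B C a b / rho s B a b ^ 2)| ≤ 1000 * P.Xi := by
  have hm := h.wB.mask
  have ok := h.sB.ok
  have h2 : |(2 : ℝ)| = 2 := by norm_num
  have r1 := H2_bfpp h
  have r2 := (H2.mul_sup hm (h.wB.Hs_sr h.sB) (H2_fpq h)).const_mul 2
  rw [h2] at r2
  have hL := ok.L_ge
  have hL0 : 0 ≤ P.L := by linarith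
  have hLp : P.L ≤ P.ps := ok.L_le.trans ok.ka_ps
  have hps : 1 ≤ P.ps := hL.trans hLp
  have hps0 : 0 ≤ P.ps := by linarith
  have hnu := h.sB.V_le.1
  have hn1 : 1 ≤ 1 + P.nu := by linarith
  have r3 : H2 m (cN0 s B C) (81 * ((1 + P.nu) ^ 3 * (P.ps * (P.L ^ 2 + P.ps)))) := by
    refine (((r1.add hm (r1.swap hm)).add hm r2).of_abs_le hm fun a b _ => le_of_eq ?_).mono ?_
    · rw [h.cN0_eq]
      congr 1
      ring
    · have z1 : (1 + P.nu) ^ 2 * (P.ps * (P.L ^ 2 + P.ps))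
          ≤ (1 + P.nu) ^ 3 * (P.ps * (P.L ^ 2 + P.ps)) :=
        mul_le_mul_of_nonneg_right (pow_le_pow_right₀ hn1 (by norm_num)) (by positivity)
      have z2 : 0 ≤ (1 + P.nu) ^ 3 * (P.ps * (P.L ^ 2 + P.ps)) := by positivity
      linarith
  have r4 : H2 m (rho1 s B) (202 / 100 * ((1 + P.nu) * (P.L ^ 2 + P.ps))) := by
    refine (H2_rho1 h.sB h.wB).mono (mul_le_mul_of_nonneg_left ?_ (by norm_num))
    have z1 := mul_le_mul_of_nonneg_left ok.up_ps hnu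
    have z2 : 0 ≤ P.nu * P.L ^ 2 := by positivity
    rw [Par.G1]
    linarith
  rw [av_div_eq w (fun a b => rho1 s B a b * cN0 s B C a b) fun a b => rho s B a b ^ 2]
  refine (abs_av_le (by norm_num) (h.wB.wr_le h.sB 2 (by norm_num)) (H1.mul hm r4 r3)).trans ?_
  have z1 : (P.L ^ 2 + P.ps) ^ 2 ≤ 2 * (P.L ^ 4 + P.L ^ 2 * P.ps + P.L * P.ps ^ 2) := by
    have y1 : 1 * P.ps ^ 2 ≤ P.L * P.ps ^ 2 := by gcongr
    have y2 : 0 ≤ P.L ^ 4 := by positivity
    have y3 : 0 ≤ P.ps ^ 2 := by positivity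
    linarith
  have z2 : (1 + P.nu) ^ 4 * P.ps * (P.L ^ 2 + P.ps) ^ 2
      ≤ (1 + P.nu) ^ 5 * P.ps * (2 * (P.L ^ 4 + P.L ^ 2 * P.ps + P.L * P.ps ^ 2)) := by
    gcongr
    norm_num
  have z3 := h.Xi0_le
  rw [Par.Xi0] at z3
  linarith [z3.1, z3.2]

end Vale.Agent.P049.An
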