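import Vale.Agent.P049.Rho
import Vale.Agent.P049.Alg1

/-! P049: drift of the trace.  `v = w / rho`, `X = k - T`.
PLAN.  `e1_mean`: `av_div_eq`; `rho1 = -2 s R1 a b - α d_b - β d_a + 2 r R1 a b`; `lin_err` with `devv`,
`FR1`, `sumR1` (error `2 vp (L^2 + ka)`); `rank_err` twice (`∑ α = U`, `∑ d = T - k`); the last term by
`abs_av_le`, `wr1_le`, `H1.mul` (`2 * 2 * tb * L^2`, use `R1 a b = Q a b` on the support).
`e1_sq`: `av w (rho1^2 / rho^2)`, `av_div_eq`, `av_sq_le`, `wr_le 2`, `H2_rho1`.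
`e1_four`: `H2.mul_sup Hs_rho1 H2_rho1`, `wr_le 4`.  `drift_U`: `step_U`, `av_congr`, `av_shift_sq`.
`drift_U_abs`: `H1.of_H2`. -/

namespace Vale.Agent.P049.An

open Finset Matrix

variable {ι : Type} [Fintype ι] [DecidableEq ι]
variable {P : Par} {s : ℝ} {B : Matrix ι ι ℝ} {m w t : ι → ι → ℝ}

theorem e1_mean (hS : Side P s B) (hW : Wt P s B m w t) :
    |av w (fun a b => rho1 s B a b / rho s B a b) - 2 * sU B * (P.k - sT B)
      - 2 * s * av t (R1 B)| ≤ P.eU := by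
  rw [av_div_eq]
  set v : ι → ι → ℝ := fun a b => w a b / rho s B a b with hv
  have hsplit : av v (rho1 s B) = -2 * s * av v (R1 B)
      - av v (fun a b => B a a * R1 B b b) - av v (fun a b => R1 B a a * B b b)
      + 2 * av v (fun a b => B a b * R1 B a b) := by
    simp only [av, Finset.mul_sum, ← Finset.sum_sub_distrib, ← Finset.sum_add_distrib]
    refine Finset.sum_congr rfl fun a _ => Finset.sum_congr rfl fun b _ => ?_
    unfold rho1
    ring
  have h1 := lin_err (f := v) (t := t) (M := R1 B) hW.devv hS.FR1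
  rw [hS.sumR1] at h1
  have h2 := hW.rank_err (f := v) hW.devv hS.V_le hS.D_le
  have h3 := hW.rank_err (f := v) hW.devv hS.D_le hS.V_le
  rw [hS.trR1, ← sU_eq B] at h2 h3
  have hQ : H2 m (R1 B) (P.L ^ 2) :=
    (hS.M4_le.toH2 hW.mask).of_abs_le hW.mask fun a b hab => by
      rw [R1_off B (hW.good a b hab).ne]
  have h4 := abs_av_le (w := v) (by norm_num : (0 : ℝ) ≤ 2) (hW.wr1_le hS)
    (H1.mul hW.mask (hS.T_le.toH2 hW.mask) hQ)
  have hvp := hW.vp_nonneg
  have heta := hW.eta_nonneg hS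
  have hnu := hS.V_le.1
  have hup := hS.D_le.1
  have htb := hS.T_le.1
  have hka := hS.ok.ka_pos
  have p1 : 0 ≤ P.vp * P.L ^ 2 := by positivity
  have p2 : 0 ≤ P.vp * P.ka := by positivity
  have p3 : 0 ≤ P.eta * P.nu * P.up := by positivity
  have p4 : 0 ≤ P.tb * P.L ^ 2 := by positivity
  have e3 : P.eta * P.up * P.nu = P.eta * P.nu * P.up := by ring
  have e1 : P.vp * (P.L ^ 2 + P.ka) = P.vp * P.L ^ 2 + P.vp * P.ka := by ring
  rw [e3] at h3
  rw [e1] at h1
  rw [hsplit, Par.eU]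
  rw [abs_le] at h1 h2 h3 h4 ⊢
  rcases hS.sgn with hs | hs <;> subst hs <;> constructor <;> nlinarith [h1.1, h1.2, h2.1, h2.2, h3.1, h3.2, h4.1, h4.2]

theorem e1_sq (hS : Side P s B) (hW : Wt P s B m w t) :
    av w (fun a b => (rho1 s B a b / rho s B a b) ^ 2) ≤ P.eU2 := by
  have h0 : av w (fun a b => (rho1 s B a b / rho s B a b) ^ 2)
      = av (fun a b => w a b / rho s B a b ^ 2) (fun a b => rho1 s B a b ^ 2) := by
    rw [← av_div_eq]
    exact av_congr fun a b _ => div_pow _ _ _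
  rw [h0]
  refine (av_sq_le (by norm_num : (0 : ℝ) ≤ 2) (hW.wr_le hS 2 (by norm_num))
    (H2_rho1 hS hW)).trans ?_
  unfold Par.eU2 Par.G1
  nlinarith [sq_nonneg (P.L ^ 2 - P.nu * P.up), sq_nonneg (P.L ^ 2), sq_nonneg (P.nu * P.up)]

theorem e1_four (hS : Side P s B) (hW : Wt P s B m w t) :
    av w (fun a b => (rho1 s B a b / rho s B a b) ^ 4)
      ≤ 300 * P.L ^ 2 * (P.L ^ 4 + P.nu ^ 2 * P.up ^ 2) := by
  have h0 : av w (fun a b => (rho1 s B a b / rho s B a b) ^ 4)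
      = av (fun a b => w a b / rho s B a b ^ 4)
        (fun a b => (rho1 s B a b * rho1 s B a b) ^ 2) := by
    rw [← av_div_eq]
    refine av_congr fun a b _ => ?_
    rw [div_pow]
    ring
  rw [h0]
  refine (av_sq_le (by norm_num : (0 : ℝ) ≤ 2) (hW.wr_le hS 4 (by norm_num))
    (H2.mul_sup hW.mask (Hs_rho1 hS hW) (H2_rho1 hS hW))).trans ?_
  have h1 : P.G1 ^ 2 ≤ 2 * (P.L ^ 4 + P.nu ^ 2 * P.up ^ 2) := by
    unfold Par.G1
    nlinarith [sq_nonneg (P.L ^ 2 - P.nu * P.up)]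
  have h2 : P.L ^ 2 * P.G1 ^ 2 ≤ P.L ^ 2 * (2 * (P.L ^ 4 + P.nu ^ 2 * P.up ^ 2)) :=
    mul_le_mul_of_nonneg_left h1 (sq_nonneg _)
  have h3 : 0 ≤ P.L ^ 2 * P.G1 ^ 2 := by positivity
  nlinarith

private theorem du_step (hS : Side P s B) (hW : Wt P s B m w t) {a b : ι} (h : w a b ≠ 0) :
    sU (step s B a b) = sU B + -(rho1 s B a b / rho s B a b) := by
  have hg := hW.good a b (hW.supp h)
  have h1 := hg.rho_ge hS
  rw [step_U hS.sgn hS.symm hg.ne (by linarith), sub_eq_add_neg]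

omit [DecidableEq ι] in
private theorem du_neg (w f : ι → ι → ℝ) : av w (fun a b => -f a b) = -av w f := by
  have := av_const_mul w f (-1)
  simpa using this

theorem drift_U (hS : Side P s B) (hW : Wt P s B m w t) (γ : ℝ)
    (hγ : γ * |sU B| ≤ sU B * (s * av t (R1 B))) :
    av w (fun a b => sU (step s B a b) ^ 2)
      ≤ tot w * sU B ^ 2 - 4 * (P.k - sT B) * sU B ^ 2 - 4 * γ * |sU B|
        + 2 * P.u * P.eU + P.eU2 := by
  have h0 : av w (fun a b => sU (step s B a b) ^ 2)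
      = av w (fun a b => (sU B + -(rho1 s B a b / rho s B a b)) ^ 2) :=
    av_congr fun a b h => by rw [du_step hS hW h]
  rw [h0, av_shift_sq, du_neg]
  have h1 : av w (fun a b => (-(rho1 s B a b / rho s B a b)) ^ 2) ≤ P.eU2 := by
    refine le_of_eq_of_le (av_congr fun a b _ => ?_) (e1_sq hS hW)
    ring
  have h2 := e1_mean hS hW
  set E := av w (fun a b => rho1 s B a b / rho s B a b) - 2 * sU B * (P.k - sT B)
      - 2 * s * av t (R1 B) with hE
  have h3 : av w (fun a b => rho1 s B a b / rho s B a b)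
      = E + 2 * sU B * (P.k - sT B) + 2 * s * av t (R1 B) := by rw [hE]; ring
  have h4 : |sU B * E| ≤ P.u * P.eU := by
    rw [abs_mul]
    exact mul_le_mul hS.U_le h2 (abs_nonneg _) hS.ok.u_ge
  rw [h3]
  have h5 := (abs_le.1 h4).1
  nlinarith

theorem drift_U_abs (hS : Side P s B) (hW : Wt P s B m w t) :
    |av w (fun a b => sU (step s B a b)) - tot w * sU B| ≤ 5 * P.k * P.G1 := by
  have h0 : av w (fun a b => sU (step s B a b))
      = av w (fun a b => sU B + -(rho1 s B a b / rho s B a b)) :=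
    av_congr fun a b h => du_step hS hW h
  rw [h0, av_add, av_const, du_neg, add_sub_cancel_left, abs_neg, av_div_eq]
  refine (abs_av_le (by norm_num : (0 : ℝ) ≤ 2) (hW.wr1_le hS)
    (H1.of_H2 hW.mask hS.card (H2_rho1 hS hW))).trans ?_
  have h1 := Par.G1_nonneg hS
  have h2 := hS.ok.k_ge
  have h3 : 0 ≤ P.k * P.G1 := by positivity
  nlinarith

end Vale.Agent.P049.An
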