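import Vale.Agent.P049.Rho
import Vale.Agent.P049.Alg1

/-! P049: first order part of the drift of `W = ∑ φ_c^2`, `φ_c = y_c - ta`; `X = k - T`, `v = w / rho`,
`Φ = ∑ φ_c = T - k ta`, `Γ' = ∑ |φ_c| sqrt (y_c) sqrt (z4 c) ≤ 2 Ga` (`Gam`), `∑ |φ_c| y_c ≤ wb yb` (`phi_y`).
PLAN for `W_n1` (six terms of `nn1`, use `av_swap` for the mirrored ones):
(t1) `d_b p_a`, `p_a = ∑ c, φ_c B_ca^2`, `∑ p = ∑ φ y = W + ta Φ`; `row_err rowv`: error `vs wb yb up`.
(t2) `2 β p'_a`, `p'_a = ∑ c, φ_c B_ca Q_ca`, `∑ |p'| ≤ Γ'`; `row_err`: main `≤ u Γ'`, error `vs nu Γ'`.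
(t3) `|v| ≤ 2`, for each `c` `F2.bil_abs` with `Q`: `2 * 2 * L^2 * wb yb`.
(t4) `2 s ∑ c, φ_c av v (B_ca Q_cb)`: `rank_err` for each `c` with `p = B c`, `q = Q c` (norms `sqrt y_c`,
`sqrt (z4 c)`, sums `s`, `1`): main `Φ`, `|Φ| ≤ ka wb`, error `eta Γ'`; the `r` part through the matrix `v r` of
Frobenius norm `≤ 2 tb ≤ 2 eta`.
`W_n0`: `|w/ρ^2| ≤ 2 m`; the matrix `m rho1` has Frobenius norm `2.02 G1` (`H2.toF2`); term
`2 (s-r) B_ca B_cb`: `F2.bil_abs` for each `c`; term `β B_ca^2`: for fixed `a` Cauchy-Schwarz in `b`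
(`F2.row`, `V_le`), then sum `∑ a c, |φ_c| B_ca^2 ≤ wb yb`. -/

namespace Vale.Agent.P049.An

open Finset Matrix

variable {ι : Type} [Fintype ι] [DecidableEq ι]
variable {P : Par} {s : ℝ} {B : Matrix ι ι ℝ} {m w t : ι → ι → ℝ}

omit [DecidableEq ι] in
private theorem sum_err {φ E g : ι → ℝ} {e : ℝ} (h : ∀ c, |E c - e| ≤ g c) :
    |∑ c, φ c * E c - e * ∑ c, φ c| ≤ ∑ c, |φ c| * g c := by
  rw [mul_sum, ← sum_sub_distrib]
  refine (abs_sum_le_sum_abs _ _).trans (sum_le_sum fun c _ => ?_)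
  rw [show φ c * E c - e * φ c = φ c * (E c - e) by ring, abs_mul]
  exact mul_le_mul_of_nonneg_left (h c) (abs_nonneg _)

omit [DecidableEq ι] in
private theorem F2_of_H2 {v f : ι → ι → ℝ} {c : ℝ} (hm : Mask m) (hv : ∀ a b, |v a b| ≤ 2 * m a b)
    (h : H2 m f c) : F2 (fun a b => v a b * f a b) (2 * c) := by
  have h1 := (h.toF2 hm).const_mul 2
  rw [abs_two] at h1
  refine h1.of_abs_le fun a b => ?_
  rw [← mul_assoc, abs_mul, abs_mul (2 * m a b), abs_of_nonneg (mul_nonneg zero_le_two (hm.nonneg a b))]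
  exact mul_le_mul_of_nonneg_right (hv a b) (abs_nonneg _)

omit [DecidableEq ι] in
private theorem l1_le {φ g : ι → ℝ} {f : ι → ι → ℝ} (h : ∀ c, ∑ a, |f c a| ≤ g c) :
    ∑ a, |∑ c, φ c * f c a| ≤ ∑ c, |φ c| * g c := by
  calc ∑ a, |∑ c, φ c * f c a| ≤ ∑ a, ∑ c, |φ c| * |f c a| :=
        sum_le_sum fun a _ => (abs_sum_le_sum_abs _ _).trans (le_of_eq (by simp only [abs_mul]))
    _ = ∑ c, |φ c| * ∑ a, |f c a| := by rw [sum_comm]; simp only [mul_sum]
    _ ≤ _ := sum_le_sum fun c _ => mul_le_mul_of_nonneg_left (h c) (abs_nonneg _)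

omit [DecidableEq ι] in
private theorem av_bil {v f : ι → ι → ℝ} {p q : ι → ℝ} {e c d : ℝ}
    (h0 : F2 (fun a b => v a b * f a b) e) (h1 : V2 p c) (h2 : V2 q d) :
    |av v (fun a b => f a b * (p a * q b))| ≤ e * c * d := by
  simpa only [av, mul_assoc] using h0.bil h1 h2

/-- the terms of `nn1` treated separately for each `c` -/
private theorem per_c (hS : Side P s B) (hW : Wt P s B m w t) (c : ι) :
    |av (fun a b => w a b / rho s B a b) (fun a b => -2 * (B * B) a b * B c a * B c b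
        + 2 * (s - B a b) * (B c a * (B * B) c b + (B * B) c a * B c b)) - 4|
      ≤ 4 * P.L ^ 2 * (B * B) c c
        + 12 * P.eta * (√((B * B) c c) * √(∑ e, (B * B) c e ^ 2)) := by
  obtain ⟨v, hv⟩ : ∃ v : ι → ι → ℝ, v = fun a b => w a b / rho s B a b := ⟨_, rfl⟩
  have hdev : F2 (fun a b => v a b - 1 + t a b) P.vp := hv ▸ hW.devv
  have hvm : ∀ a b, |v a b| ≤ 2 * m a b := hv ▸ hW.wr1_le hS
  rw [← hv]
  have hm := hW.mask
  have e : av v (fun a b => -2 * (B * B) a b * B c a * B c b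
        + 2 * (s - B a b) * (B c a * (B * B) c b + (B * B) c a * B c b))
      = -2 * av v (fun a b => (B * B) a b * (B c a * B c b))
        + 2 * (s * av v (fun a b => B c a * (B * B) c b))
        + 2 * (s * av v (fun a b => (B * B) c a * B c b))
        - 2 * av v (fun a b => B a b * (B c a * (B * B) c b))
        - 2 * av v (fun a b => B a b * ((B * B) c a * B c b)) := by
    simp only [av, mul_sum, ← sum_add_distrib, ← sum_sub_distrib]
    exact sum_congr rfl fun a _ => sum_congr rfl fun b _ => by ring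
  have hp := hS.rowV c
  have hq := V2.sqrt fun e => (B * B) c e
  have h1 := av_bil (F2_of_H2 hm hvm (hS.M4_le.toH2 hm)) hp hp
  have h2 := hW.rank_err hdev hp hq
  have h3 := hW.rank_err hdev hq hp
  have h4 := av_bil (F2_of_H2 hm hvm (hS.T_le.toH2 hm)) hp hq
  have h5 := av_bil (F2_of_H2 hm hvm (hS.T_le.toH2 hm)) hq hp
  rw [hS.row, hS.rowQ] at h2 h3
  rw [mul_assoc, Real.mul_self_sqrt (hS.y_nonneg c)] at h1
  have k : ∀ x y : ℝ, |x - s| ≤ y → |s * x - 1| ≤ y := fun x y hx => by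
    rw [← hS.sq, ← mul_sub, abs_mul, hS.abs_s, one_mul]; exact hx
  have k2 := k _ _ (by simpa only [mul_one] using h2)
  have k3 := k _ _ (by simpa only [one_mul] using h3)
  have k4 : P.tb * (√((B * B) c c) * √(∑ e, (B * B) c e ^ 2))
      ≤ P.eta * (√((B * B) c c) * √(∑ e, (B * B) c e ^ 2)) := by
    refine mul_le_mul_of_nonneg_right ?_ (mul_nonneg (Real.sqrt_nonneg _) (Real.sqrt_nonneg _))
    have := hS.ok.tb_vp
    have := hS.ok.xi_ge
    unfold Par.eta
    linarith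
  rw [e]
  rw [abs_le] at h1 k2 k3 h4 h5 ⊢
  constructor <;> linarith [h1.1, h1.2, k2.1, k2.2, k3.1, k3.2, h4.1, h4.2, h5.1, h5.2]

private theorem phi_eq (hS : Side P s B) :
    ∑ c, ((B * B) c c - P.ta) = sT B - P.k * P.ta := by
  rw [sum_sub_distrib, ← hS.T_eq_y, sum_const, card_univ, nsmul_eq_mul, hS.card]

private theorem Ga_nonneg (hS : Side P s B) : 0 ≤ P.Ga := by
  have hL : 0 ≤ P.L := zero_le_one.trans hS.ok.L_ge
  have := hS.W_le.1
  unfold Par.Ga
  positivity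

theorem W_n1 (hS : Side P s B) (hW : Wt P s B m w t) :
    av w (fun a b => (∑ c, ((B * B) c c - P.ta) * nn1 s B a b c) / rho s B a b)
      ≤ -2 * (P.k - sT B) * (sW P.ta B + P.ta * (sT B - P.k * P.ta))
        + 30 * (P.vs * P.wb * P.yb * P.up + (P.u + P.vs * P.nu + P.eta) * P.Ga
          + P.L ^ 2 * P.wb * P.yb + P.ka * P.wb) := by
  rw [av_div_eq]
  have h0 := sum_err (φ := fun c => (B * B) c c - P.ta) (per_c hS hW)
  obtain ⟨v, hv⟩ : ∃ v : ι → ι → ℝ, v = fun a b => w a b / rho s B a b := ⟨_, rfl⟩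
  have hrow : ∀ a, V2 (fun b => v a b - 1) P.vs := hv ▸ hW.rowv
  have hsym : ∀ a b, v a b = v b a := fun a b => by
    rw [hv]; dsimp only; rw [hW.w_symm, rho_symm hS]
  rw [← hv] at h0 ⊢
  obtain ⟨p, hp⟩ : ∃ p : ι → ℝ, p = fun a => ∑ c, ((B * B) c c - P.ta) * B c a ^ 2 := ⟨_, rfl⟩
  obtain ⟨q, hq⟩ : ∃ q : ι → ℝ,
      q = fun a => ∑ c, ((B * B) c c - P.ta) * (B c a * (B * B) c a) := ⟨_, rfl⟩
  have e : av v (fun a b => ∑ c, ((B * B) c c - P.ta) * nn1 s B a b c)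
      = av v (fun a b => p a * R1 B b b) + av v (fun a b => p b * R1 B a a)
        + 2 * av v (fun a b => q a * B b b) + 2 * av v (fun a b => q b * B a a)
        + ∑ c, ((B * B) c c - P.ta) * av v (fun a b => -2 * (B * B) a b * B c a * B c b
          + 2 * (s - B a b) * (B c a * (B * B) c b + (B * B) c a * B c b)) := by
    simp only [← av_const_mul, ← av_sum, ← av_add]
    refine av_congr fun a b _ => ?_
    simp only [hp, hq, sum_mul, mul_sum, ← sum_add_distrib]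
    exact sum_congr rfl fun c _ => by unfold nn1; ring
  rw [e, av_swap hsym fun a b => p a * R1 B b b, av_swap hsym fun a b => q a * B b b]
  have hp1 : ∑ a, |p a| ≤ P.wb * P.yb := by
    rw [hp]
    refine (l1_le (g := fun c => (B * B) c c) fun c => ?_).trans hS.phi_y
    simp only [abs_pow, sq_abs, hS.y_eq, le_refl]
  have hq1 : ∑ a, |q a| ≤ 2 * P.Ga := by
    rw [hq]
    refine (l1_le fun c => ?_).trans hS.Gam
    simpa only [abs_mul] using (hS.rowV c).sum_abs_mul (V2.sqrt fun e => (B * B) c e)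
  have hp2 : ∑ a, p a = sW P.ta B + P.ta * (sT B - P.k * P.ta) := by
    rw [hp, ← phi_eq hS, sW, mul_sum, ← sum_add_distrib, sum_comm]
    refine sum_congr rfl fun c _ => ?_
    rw [← mul_sum, ← hS.y_eq]
    ring
  have h1 := row_err hS.ok.vs_ge hrow hp1 hS.D_le
  have h2 := row_err hS.ok.vs_ge hrow hq1 hS.V_le
  rw [hp2, hS.trR1] at h1
  rw [← sU_eq] at h2
  have h3 : |(∑ a, q a) * sU B| ≤ 2 * P.Ga * P.u := by
    rw [abs_mul]
    exact mul_le_mul ((abs_sum_le_sum_abs _ _).trans hq1) hS.U_le (abs_nonneg _)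
      (mul_nonneg zero_le_two (Ga_nonneg hS))
  have h4 : ∑ c, |(B * B) c c - P.ta| * (4 * P.L ^ 2 * (B * B) c c
        + 12 * P.eta * (√((B * B) c c) * √(∑ e, (B * B) c e ^ 2)))
      = 4 * P.L ^ 2 * ∑ c, |(B * B) c c - P.ta| * (B * B) c c
        + 12 * P.eta * ∑ c, |(B * B) c c - P.ta|
          * (√((B * B) c c) * √(∑ e, (B * B) c e ^ 2)) := by
    simp only [mul_sum, ← sum_add_distrib]
    exact sum_congr rfl fun c _ => by ring
  have hE := hW.eta_nonneg hS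
  have h5 := mul_le_mul_of_nonneg_left hS.phi_y (show 0 ≤ 4 * P.L ^ 2 by positivity)
  have h6 := mul_le_mul_of_nonneg_left hS.Gam (show 0 ≤ 12 * P.eta by positivity)
  have h7 := hS.phi_sum
  rw [h4, phi_eq hS] at h0
  have hwb := hS.W_le.1
  have hyb := hS.Y_le.1
  have hup := hS.D_le.1
  have hnu := hS.V_le.1
  have hvs := hS.ok.vs_ge
  have hu := hS.ok.u_ge
  have hka := hS.ok.ka_pos
  have hGa := Ga_nonneg hS
  have k1 : 0 ≤ P.vs * P.wb * P.yb * P.up := by positivity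
  have k2 : 0 ≤ P.u * P.Ga := by positivity
  have k3 : 0 ≤ P.vs * P.nu * P.Ga := by positivity
  have k4 : 0 ≤ P.eta * P.Ga := by positivity
  have k5 : 0 ≤ P.L ^ 2 * P.wb * P.yb := by positivity
  have k6 : 0 ≤ P.ka * P.wb := by positivity
  rw [abs_le] at h0 h1 h2 h3 h7
  linarith [h0.2, h1.2, h2.2, h3.2, h7.2]

theorem W_n0 (hS : Side P s B) (hW : Wt P s B m w t) :
    |av w (fun a b => (∑ c, ((B * B) c c - P.ta) * nn0 s B a b c) * rho1 s B a b / rho s B a b ^ 2)|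
      ≤ 10 * (1 + P.nu) * P.G1 * P.wb * P.yb := by
  have hm := hW.mask
  have hvm := hW.wr_le hS 2 (by norm_num)
  rw [av_div_eq]
  obtain ⟨v, hv⟩ : ∃ v : ι → ι → ℝ, v = fun a b => w a b / rho s B a b ^ 2 := ⟨_, rfl⟩
  replace hvm : ∀ a b, |v a b| ≤ 2 * m a b := hv ▸ hvm
  rw [← hv]
  have F1 := F2_of_H2 hm hvm (H2_rho1 hS hW)
  have F3 := F2_of_H2 hm hvm (H2.mul_sup hm (hW.Hs_sr hS) (H2_rho1 hS hW))
  have hG := Par.G1_nonneg hS
  have hnu := hS.V_le.1
  have hc : ∀ c, |av v (fun a b => nn0 s B a b c * rho1 s B a b) - 0|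
      ≤ 10 * (1 + P.nu) * P.G1 * (B * B) c c := fun c => by
    have hz : V2 (fun a => B c a ^ 2) ((B * B) c c) :=
      ⟨hS.y_nonneg c, by simpa only [← pow_mul] using hS.z_le c⟩
    have h1 := av_bil F1 hz hS.V_le
    have h2 := av_bil F1 hS.V_le hz
    have h3 := av_bil F3 (hS.rowV c) (hS.rowV c)
    rw [mul_assoc, Real.mul_self_sqrt (hS.y_nonneg c)] at h3
    have e : av v (fun a b => nn0 s B a b c * rho1 s B a b)
        = av v (fun a b => rho1 s B a b * (B c a ^ 2 * B b b))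
          + av v (fun a b => rho1 s B a b * (B a a * B c b ^ 2))
          + 2 * av v (fun a b => (s - B a b) * rho1 s B a b * (B c a * B c b)) := by
      simp only [← av_const_mul, ← av_add]
      exact av_congr fun a b _ => by unfold nn0; ring
    have k1 := mul_nonneg hG (hS.y_nonneg c)
    have k2 := mul_nonneg hnu k1
    rw [sub_zero, e]
    rw [abs_le] at h1 h2 h3 ⊢
    constructor <;> linarith [h1.1, h1.2, h2.1, h2.2, h3.1, h3.2]
  have h0 := sum_err (φ := fun c => (B * B) c c - P.ta) hc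
  have e : av v (fun a b => (∑ c, ((B * B) c c - P.ta) * nn0 s B a b c) * rho1 s B a b)
      = ∑ c, ((B * B) c c - P.ta) * av v (fun a b => nn0 s B a b c * rho1 s B a b) := by
    simp only [← av_const_mul, ← av_sum, sum_mul, mul_assoc]
  rw [zero_mul, sub_zero, ← e] at h0
  refine h0.trans ?_
  have h5 := mul_le_mul_of_nonneg_left hS.phi_y
    (show 0 ≤ 10 * (1 + P.nu) * P.G1 by positivity)
  rw [mul_sum] at h5
  refine le_trans (le_of_eq (sum_congr rfl fun c _ => ?_)) (h5.trans (le_of_eq ?_)) <;> ring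

theorem W_first (hS : Side P s B) (hW : Wt P s B m w t) (ϑ : ℝ) :
    av w (fun a b => ∑ c, ((B * B) c c - P.ta) * dl s ϑ B a b c)
      ≤ -2 * (P.k - sT B) * sW P.ta B
        + |ϑ * tot w - 2 * (P.k - sT B) * P.ta| * (P.ka * P.wb) + P.eW1 / 2 := by
  have e : av w (fun a b => ∑ c, ((B * B) c c - P.ta) * dl s ϑ B a b c)
      = av w (fun a b => (∑ c, ((B * B) c c - P.ta) * nn1 s B a b c) / rho s B a b)
        - av w (fun a b =>
          (∑ c, ((B * B) c c - P.ta) * nn0 s B a b c) * rho1 s B a b / rho s B a b ^ 2)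
        + tot w * (ϑ * (sT B - P.k * P.ta)) := by
    rw [← av_const, ← av_sub, ← av_add, ← phi_eq hS]
    refine av_congr fun a b _ => ?_
    simp only [sum_div, sum_mul, mul_sum, ← sum_add_distrib, ← sum_sub_distrib]
    exact sum_congr rfl fun c _ => by unfold dl; ring
  have h1 := W_n1 hS hW
  have h2 := (abs_le.1 (W_n0 hS hW)).1
  have h3 : (ϑ * tot w - 2 * (P.k - sT B) * P.ta) * (sT B - P.k * P.ta)
      ≤ |ϑ * tot w - 2 * (P.k - sT B) * P.ta| * (P.ka * P.wb) := by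
    refine (le_abs_self _).trans ?_
    rw [abs_mul]
    exact mul_le_mul_of_nonneg_left hS.phi_sum (abs_nonneg _)
  have hwb := hS.W_le.1
  have hyb := hS.Y_le.1
  have hup := hS.D_le.1
  have hnu := hS.V_le.1
  have hvs := hS.ok.vs_ge
  have hu := hS.ok.u_ge
  have hka := hS.ok.ka_pos
  have hGa := Ga_nonneg hS
  have hE := hW.eta_nonneg hS
  have hG := Par.G1_nonneg hS
  have k1 : 0 ≤ P.vs * P.wb * P.yb * P.up := by positivity
  have k2 : 0 ≤ (P.u + P.vs * P.nu + P.eta) * P.Ga := by positivity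
  have k3 : 0 ≤ P.ka * P.wb := by positivity
  have k4 : 0 ≤ (1 + P.nu) * P.G1 * P.wb * P.yb := by positivity
  have k5 : P.L ^ 2 * (P.wb * P.yb) ≤ (1 + P.nu) * P.G1 * (P.wb * P.yb) := by
    refine mul_le_mul_of_nonneg_right ?_ (mul_nonneg hwb hyb)
    have t1 := mul_nonneg hnu hG
    have t2 := mul_nonneg hnu hup
    have t3 : P.G1 = P.L ^ 2 + P.nu * P.up := rfl
    linarith
  rw [e]
  unfold Par.eW1
  linarith

end Vale.Agent.P049.An
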