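import Vale.Agent.P049.ADefs
import Mathlib.LinearAlgebra.Matrix.Determinant.Basic
import Mathlib.Data.Real.Basic

/-! P049: matchings of half-edges, the block quadratic form, integrality (owner helper11). -/

namespace Vale.Agent.P049

open Finset Matrix

/-- half-edges -/
abbrev HE (n d : ℕ) : Type := Fin n × Fin d

variable {n d : ℕ}

/-- `π` matches the half-edges outside `H`, fixes those in `H`, and gives a simple graph -/
structure Mt (H : Finset (HE n d)) (π : HE n d → HE n d) : Prop where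
  inv : ∀ c, π (π c) = c
  alive : ∀ c, c ∈ H ↔ π c = c
  loop : ∀ c, π c ≠ c → (π c).1 ≠ c.1
  multi : ∀ c c', π c ≠ c → π c' ≠ c' → c.1 = c'.1 → (π c).1 = (π c').1 → c = c'

/-- matching `a` with `b` would create a loop or a double edge -/
def bad (π : HE n d → HE n d) (a b : HE n d) : Prop :=
  a.1 = b.1 ∨ ∃ c, π c ≠ c ∧ c.1 = a.1 ∧ (π c).1 = b.1

instance (π : HE n d → HE n d) : DecidableRel (bad π) := fun a b => by
  unfold bad; infer_instance

/-- match `a` with `b` -/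
def link (π : HE n d → HE n d) (a b : HE n d) : HE n d → HE n d := fun c =>
  if c = a then b else if c = b then a else π c

/-- the block quadratic form -/
noncomputable def Qf (u s m : ℝ) (H : Finset (HE n d)) (π : HE n d → HE n d)
    (B : Matrix (HE n d) (HE n d) ℝ) (f : Fin n → ℝ) (x : HE n d → ℝ) : ℝ :=
  u * ∑ v, f v ^ 2 - s * ∑ c ∈ Hᶜ, f c.1 * f (π c).1 - m * ∑ c ∈ H, f c.1 ^ 2
    + (s * d - u) * (∑ v, f v) ^ 2 / n + 2 * ∑ c ∈ H, f c.1 * x c
    + ((∑ c, ∑ e, x c * B c e * x e) + m * ∑ c, x c ^ 2) / (1 - m ^ 2)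

/-- the linear functional cutting out the relevant hyperplane -/
def ell (s m : ℝ) (H : Finset (HE n d)) (f : Fin n → ℝ) (x : HE n d → ℝ) : ℝ :=
  (s - m) * ∑ c ∈ H, f c.1 + ∑ c, x c

/-- the block invariant -/
def BInv (u s m : ℝ) (H : Finset (HE n d)) (π : HE n d → HE n d)
    (B : Matrix (HE n d) (HE n d) ℝ) : Prop :=
  ∀ (f : Fin n → ℝ) (x : HE n d → ℝ), (∀ c, c ∉ H → x c = 0) → ell s m H f x = 0 →
    0 ≤ Qf u s m H π B f x

/-- symmetric, supported on `H`, row sums `s` -/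
structure Str {ι K : Type} [Fintype ι] [Field K] (H : Finset ι) (s : K) (B : Matrix ι ι K) :
    Prop where
  symm : B.IsSymm
  supp : ∀ c e, c ∉ H → B c e = 0
  row : ∀ c ∈ H, ∑ e, B c e = s

/-- integrality of all perturbed minors after scaling -/
def IInv {ι : Type} (c0 : ℕ) (D : ℤ) (H : Finset ι) (B : Matrix ι ι ℚ) : Prop :=
  ∀ (κ : Type) [Fintype κ] [DecidableEq κ] (r c : κ → ι) (E : Matrix κ κ ℤ),
    (∀ i, r i ∈ H) → (∀ i, c i ∈ H) →
    ∃ z : ℤ, (c0 : ℚ) ^ Fintype.card κ * D *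
      (B.submatrix r c + E.map (Int.cast : ℤ → ℚ)).det = z

/-- real version of a rational matrix -/
def toR {ι : Type} (B : Matrix ι ι ℚ) : Matrix ι ι ℝ := B.map (Rat.cast : ℚ → ℝ)

end Vale.Agent.P049
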