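import Vale.Agent.P049.GDefs
import Mathlib.Tactic

/-! P049: simple matchings of half-edges. -/

namespace Vale.Agent.P049

open Finset

variable {n d : ℕ} {H : Finset (HE n d)} {π : HE n d → HE n d}

theorem mt_init : Mt (univ : Finset (HE n d)) id :=
  ⟨fun _ => rfl, fun c => ⟨fun _ => rfl, fun _ => mem_univ c⟩, fun _ h => absurd rfl h,
    fun _ _ h => absurd rfl h⟩

private theorem link_a (π : HE n d → HE n d) (a b : HE n d) : link π a b a = b := by
  simp [link]

private theorem link_b (π : HE n d → HE n d) (a b : HE n d) : link π a b b = a := by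
  unfold link
  by_cases h : b = a
  · simp [h]
  · simp [h]

private theorem link_o (π : HE n d → HE n d) {a b c : HE n d} (ha : c ≠ a) (hb : c ≠ b) :
    link π a b c = π c := by
  simp [link, ha, hb]

theorem mt_link (hM : Mt H π) {a b : HE n d} (ha : a ∈ H) (hb : b ∈ H) (hbad : ¬ bad π a b) :
    Mt ((H.erase a).erase b) (link π a b) := by
  have hab1 : a.1 ≠ b.1 := fun h => hbad (Or.inl h)
  have hab : a ≠ b := fun h => hab1 (by rw [h])
  have hno : ∀ c, π c ≠ c → c.1 = a.1 → (π c).1 ≠ b.1 := fun c h1 h2 h3 =>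
    hbad (Or.inr ⟨c, h1, h2, h3⟩)
  have hno' : ∀ c, π c ≠ c → c.1 = b.1 → (π c).1 ≠ a.1 := by
    intro c h1 h2 h3
    refine hno (π c) ?_ h3 ?_
    · rw [hM.inv]; exact fun h => h1 h.symm
    · rw [hM.inv]; exact h2
  have pa : π a = a := (hM.alive a).1 ha
  have pb : π b = b := (hM.alive b).1 hb
  refine ⟨fun c => ?_, fun c => ?_, fun c hc => ?_, fun c c' hc hc' h1 h2 => ?_⟩
  · by_cases h1 : c = a
    · rw [h1, link_a, link_b]
    by_cases h2 : c = b
    · rw [h2, link_b, link_a]
    have h3 : π c ≠ a := fun h => h1 (by rw [← hM.inv c, h, pa])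
    have h4 : π c ≠ b := fun h => h2 (by rw [← hM.inv c, h, pb])
    rw [link_o π h1 h2, link_o π h3 h4, hM.inv]
  · by_cases h1 : c = a
    · rw [h1, link_a]; simp [hab.symm]
    by_cases h2 : c = b
    · rw [h2, link_b]; simp [hab]
    rw [link_o π h1 h2, ← hM.alive]; simp [h1, h2]
  · by_cases h1 : c = a
    · rw [h1, link_a]; exact hab1.symm
    by_cases h2 : c = b
    · rw [h2, link_b]; exact hab1
    rw [link_o π h1 h2] at hc ⊢
    exact hM.loop c hc
  · by_cases h3 : c = a
    · by_cases h4 : c' = a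
      · rw [h3, h4]
      by_cases h5 : c' = b
      · rw [h3, h5] at h1; exact absurd h1 hab1
      rw [link_o π h4 h5] at hc' h2
      rw [h3, link_a] at h2
      rw [h3] at h1
      exact absurd h2.symm (hno c' hc' h1.symm)
    by_cases h3' : c = b
    · by_cases h4 : c' = a
      · rw [h3', h4] at h1; exact absurd h1.symm hab1
      by_cases h5 : c' = b
      · rw [h3', h5]
      rw [link_o π h4 h5] at hc' h2
      rw [h3', link_b] at h2
      rw [h3'] at h1
      exact absurd h2.symm (hno' c' hc' h1.symm)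
    rw [link_o π h3 h3'] at hc h2
    by_cases h4 : c' = a
    · rw [h4, link_a] at h2
      rw [h4] at h1
      exact absurd h2 (hno c hc h1)
    by_cases h5 : c' = b
    · rw [h5, link_b] at h2
      rw [h5] at h1
      exact absurd h2 (hno' c hc h1)
    rw [link_o π h4 h5] at hc' h2
    exact hM.multi c c' hc hc' h1 h2

theorem bad_symm (hM : Mt H π) (a b : HE n d) (h : bad π a b) : bad π b a := by
  rcases h with h | ⟨c, h1, h2, h3⟩
  · exact Or.inl h.symm
  · refine Or.inr ⟨π c, ?_, h3, ?_⟩
    · rw [hM.inv]; exact fun h => h1 h.symm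
    · rw [hM.inv]; exact h2

theorem bad_card (S : Finset (HE n d)) (π : HE n d → HE n d) (a : HE n d) :
    (S.filter (bad π a)).card ≤ d + d * d := by
  have hs : S.filter (bad π a) ⊆ (univ.image fun j : Fin d => ((a.1, j) : HE n d)) ∪
      (univ.image fun p : Fin d × Fin d => (((π (a.1, p.1)).1, p.2) : HE n d)) := by
    intro b hb
    rcases (mem_filter.1 hb).2 with h | ⟨c, _, h2, h3⟩
    · exact mem_union_left _ (mem_image.2 ⟨b.2, mem_univ _, by rw [h]⟩)
    · refine mem_union_right _ (mem_image.2 ⟨(c.2, b.2), mem_univ _, ?_⟩)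
      have : ((a.1, c.2) : HE n d) = c := by rw [← h2]
      simp only [this, h3]
  refine (card_le_card hs).trans ((card_union_le _ _).trans (add_le_add ?_ ?_))
  · exact card_image_le.trans (by simp)
  · exact card_image_le.trans (by simp)

/-- remove the edge at `x` -/
private def unlink (π : HE n d → HE n d) (x : HE n d) : HE n d → HE n d := fun c =>
  if c = x ∨ c = π x then c else π c

private theorem unlink_ne {x c : HE n d} (h : unlink π x c ≠ c) :
    unlink π x c = π c := by
  unfold unlink at h ⊢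
  split_ifs at h ⊢ with h1
  · exact absurd rfl h
  · rfl

private theorem mt_unlink (hM : Mt H π) (x : HE n d) :
    Mt (insert x (insert (π x) H)) (unlink π x) := by
  refine ⟨fun c => ?_, fun c => ?_, fun c hc => ?_, fun c c' hc hc' h1 h2 => ?_⟩
  · by_cases h : c = x ∨ c = π x
    · have : unlink π x c = c := by simp only [unlink, if_pos h]
      rw [this, this]
    · have e1 : unlink π x c = π c := by simp only [unlink, if_neg h]
      have h' : ¬ (π c = x ∨ π c = π x) := by
        rintro (h1 | h1)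
        · exact h (Or.inr (by rw [← h1, hM.inv]))
        · exact h (Or.inl (by rw [← hM.inv c, h1, hM.inv]))
      have e2 : unlink π x (π c) = π (π c) := by simp only [unlink, if_neg h']
      rw [e1, e2, hM.inv]
  · by_cases h : c = x ∨ c = π x
    · have : unlink π x c = c := by simp only [unlink, if_pos h]
      refine ⟨fun _ => this, fun _ => ?_⟩
      rcases h with h | h
      · rw [h]; exact mem_insert_self _ _
      · rw [h]; exact mem_insert_of_mem (mem_insert_self _ _)
    · have e1 : unlink π x c = π c := by simp only [unlink, if_neg h]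
      rw [e1, ← hM.alive, mem_insert, mem_insert]
      tauto
  · have e := unlink_ne hc
    rw [e] at hc ⊢
    exact hM.loop c hc
  · have e := unlink_ne hc
    have e' := unlink_ne hc'
    rw [e, e'] at h2
    rw [e] at hc
    rw [e'] at hc'
    exact hM.multi c c' hc hc' h1 h2

private theorem mt_swap (hM : Mt H π) {a b x : HE n d} (ha : a ∈ H) (hb : b ∈ H) (hab : a ≠ b)
    (hx : x ∉ H) (h1 : ¬ bad π a x) (h2 : ¬ bad π b (π x)) (h3 : ¬ bad π b x) :
    Mt ((H.erase a).erase b) (link (link π a x) b (π x)) := by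
  have hxx : π x ≠ x := fun h => hx ((hM.alive x).2 h)
  have hpx : π x ∉ H := fun h => hxx (by
    have := (hM.alive _).1 h
    rw [hM.inv] at this
    exact this.symm)
  have hU := mt_unlink hM x
  have b1 : ¬ bad (unlink π x) a x := by
    rintro (h | ⟨c, c1, c2, c3⟩)
    · exact h1 (Or.inl h)
    · have e := unlink_ne c1
      rw [e] at c1 c3
      exact h1 (Or.inr ⟨c, c1, c2, c3⟩)
  have hL := mt_link hU (mem_insert_of_mem (mem_insert_of_mem ha)) (mem_insert_self _ _) b1
  have hbx : b ≠ x := fun h => hx (h ▸ hb)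
  have hax : a ≠ x := fun h => hx (h ▸ ha)
  have hbp : b ≠ π x := fun h => hpx (h ▸ hb)
  have hap : a ≠ π x := fun h => hpx (h ▸ ha)
  have b2 : ¬ bad (link (unlink π x) a x) b (π x) := by
    rintro (h | ⟨c, c1, c2, c3⟩)
    · exact h2 (Or.inl h)
    · by_cases e1 : c = a
      · rw [e1, link_a] at c3
        exact hM.loop x hxx c3.symm
      by_cases e2 : c = x
      · rw [e2] at c2
        exact h3 (Or.inl c2.symm)
      rw [link_o _ e1 e2] at c1 c3
      have e := unlink_ne c1
      rw [e] at c1 c3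
      exact h2 (Or.inr ⟨c, c1, c2, c3⟩)
  have hL2 := mt_link hL (a := b) (b := π x)
    (mem_erase.2 ⟨hbx, mem_erase.2 ⟨hab.symm, mem_insert_of_mem (mem_insert_of_mem hb)⟩⟩)
    (mem_erase.2 ⟨hxx, mem_erase.2 ⟨hap.symm, mem_insert_of_mem (mem_insert_self _ _)⟩⟩) b2
  have e1 : ((((insert x (insert (π x) H)).erase a).erase x).erase b).erase (π x)
      = (H.erase a).erase b := by
    ext c
    simp only [mem_erase, mem_insert]
    constructor
    · rintro ⟨p1, p2, p3, p4, p5 | p5 | p5⟩
      · exact absurd p5 p3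
      · exact absurd p5 p1
      · exact ⟨p2, p4, p5⟩
    · rintro ⟨p1, p2, p3⟩
      exact ⟨fun h => hpx (h ▸ p3), p1, fun h => hx (h ▸ p3), p2, Or.inr (Or.inr p3)⟩
  have e2 : link (link (unlink π x) a x) b (π x) = link (link π a x) b (π x) := by
    funext c
    by_cases p1 : c = b
    · rw [p1, link_a, link_a]
    by_cases p2 : c = π x
    · rw [p2, link_b, link_b]
    rw [link_o _ p1 p2, link_o _ p1 p2]
    by_cases p3 : c = a
    · rw [p3, link_a, link_a]
    by_cases p4 : c = x
    · rw [p4, link_b, link_b]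
    rw [link_o _ p3 p4, link_o _ p3 p4]
    simp [unlink, p4, p2]
  rw [e1, e2] at hL2
  exact hL2

/-- one step of the completion: a direct link or a swap with an edge made inside `H0` -/
theorem complete_step {H0 : Finset (HE n d)} (hM : Mt H π) (hsub : H ⊆ H0)
    (hcl : ∀ x ∈ H0, π x ∈ H0) (h2 : 2 ≤ H.card) (hbig : 10 * d * d + 10 ≤ H0.card) :
    ∃ a ∈ H, ∃ b ∈ H, a ≠ b ∧ (Mt ((H.erase a).erase b) (link π a b) ∨
      ∃ x ∈ H0, x ∉ H ∧ Mt ((H.erase a).erase b) (link (link π a x) b (π x))) := by
  obtain ⟨a, ha, b, hb, hab⟩ := one_lt_card.1 (by omega : 1 < H.card)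
  by_cases hd : ∃ b' ∈ H, ¬ bad π a b'
  · obtain ⟨b', hb', hn⟩ := hd
    exact ⟨a, ha, b', hb', fun h => hn (Or.inl (by rw [h])), Or.inl (mt_link hM ha hb' hn)⟩
  have hH : H.card ≤ d + d * d := by
    have : H.filter (bad π a) = H := filter_true_of_mem fun c hc => by
      by_contra h
      exact hd ⟨c, hc, h⟩
    rw [← this]
    exact bad_card _ _ _
  have c3 : (H0.filter fun x => bad π b (π x)).card ≤ d + d * d := by
    refine le_trans (card_le_card_of_injOn π (t := H0.filter (bad π b)) ?_ ?_) (bad_card _ _ _)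
    · intro x hx
      have hx' := mem_filter.1 (mem_coe.1 hx)
      exact mem_coe.2 (mem_filter.2 ⟨hcl x hx'.1, hx'.2⟩)
    · intro x _ y _ h
      rw [← hM.inv x, h, hM.inv]
  have c1 := bad_card H0 π a
  have c2 := bad_card H0 π b
  have hdd : d ≤ d * d := Nat.le_mul_self d
  have hex : ∃ x ∈ H0, x ∉ ((H ∪ H0.filter (bad π a)) ∪ H0.filter (bad π b)) ∪
      H0.filter fun x => bad π b (π x) := by
    by_contra hne
    have hs : H0 ⊆ ((H ∪ H0.filter (bad π a)) ∪ H0.filter (bad π b)) ∪
        H0.filter fun x => bad π b (π x) := by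
      intro x hx
      by_contra h
      exact hne ⟨x, hx, h⟩
    have u1 := card_le_card hs
    have u2 := card_union_le ((H ∪ H0.filter (bad π a)) ∪ H0.filter (bad π b))
      (H0.filter fun x => bad π b (π x))
    have u3 := card_union_le (H ∪ H0.filter (bad π a)) (H0.filter (bad π b))
    have u4 := card_union_le H (H0.filter (bad π a))
    have : 10 * d * d = 10 * (d * d) := by ring
    omega
  obtain ⟨x, hx, hn⟩ := hex
  simp only [mem_union, mem_filter, not_or, not_and] at hn
  obtain ⟨⟨⟨n1, n2⟩, n3⟩, n4⟩ := hn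
  have _ := hsub
  exact ⟨a, ha, b, hb, hab, Or.inr ⟨x, hx, n1, mt_swap hM ha hb hab n1 (n2 hx) (n4 hx) (n3 hx)⟩⟩

end Vale.Agent.P049
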