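import Vale.Agent.P049.Calc1

/-! P049: operator and Frobenius norm facts for one side.
PLAN.  `y c = (B*B) c c = ∑ e, B c e ^ 2` by symmetry.  `op`: for `v = B p`,
`∑ v^2 = ∑ a b, (B*B) a b * (p a * p b) ≤ L^2 c^2` by `F2.bil` with `M4_le` (no spectral theorem).
`mulL`: apply `op` to every column (with `V2.sqrt`), `mulR` by transposition.
`R1 = B*B - 1`, the identity matrix has Frobenius norm `ka`; when `ka ≤ L^2` this gives `2 L^2`.
`R2 = B * R1` etc. by `mulL`.  Row sums: `B 1 = s 1`, `s^2 = 1`.  Diagonal entries: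
`(B*B*(B*B)) c c = ∑ e, (B*B) c e ^2 = |B (B e_c)|^2 ≤ L^2 y c`, `|(B*B*B) c c| = |<B e_c, B (B e_c)>| ≤ L y c`,
`|B c c| ≤ sqrt (y c) ≤ (1 + y c)/2`; `R2 = B^3 - B`, `R3 = B^4 - B^2`, `R4 = B^5 - B^3`, so
`|R2 c c| ≤ (3/2) L (y c + 1)` with `V2 (y + 1) (yb + ka)`, `yb + ka ≤ 2 ps`; `|R3 c c| ≤ L^2 y c`,
`|R4 c c| ≤ 2 L^3 y c`.  `Fmix`: `∑ (C*B) a b ^2 = tr (B C C B) = ∑ x y, (C*C) x y * (B*B) x y ≤ L^2 L^2` by `F2.dot`. -/

namespace Vale.Agent.P049.An

open Finset Matrix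

variable {ι : Type} [Fintype ι] [DecidableEq ι]
variable {P : Par} {s s' : ℝ} {B C M : Matrix ι ι ℝ} {p : ι → ℝ} {c : ℝ}

theorem Side.sq (hS : Side P s B) : s * s = 1 := by
  rcases hS.sgn with h | h <;> rw [h] <;> norm_num

theorem Side.abs_s (hS : Side P s B) : |s| = 1 := by
  rcases hS.sgn with h | h <;> rw [h] <;> norm_num

theorem Side.sym (hS : Side P s B) (a b : ι) : B a b = B b a := by
  exact hS.symm.apply b a

private theorem n1_R2 (B : Matrix ι ι ℝ) : R2 B = B * B * B - B := by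
  simp only [R2, R1, mul_sub, mul_one, mul_assoc]
private theorem n1_R3 (B : Matrix ι ι ℝ) : R3 B = B * B * (B * B) - B * B := by
  simp only [R3, R2, R1, mul_sub, mul_one, mul_assoc]
private theorem n1_R4 (B : Matrix ι ι ℝ) : R4 B = B * B * B * (B * B) - B * B * B := by
  simp only [R4, R3, R2, R1, mul_sub, mul_one, mul_assoc]
omit [DecidableEq ι] in
private theorem n1_tr (X Y : Matrix ι ι ℝ) : (X * Y).trace = ∑ a, ∑ b, X a b * Y b a := rfl
omit [DecidableEq ι] [Fintype ι] in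
private theorem n1_sym {X : Matrix ι ι ℝ} (h : Xᵀ = X) (a b : ι) : X a b = X b a :=
  (congrFun (congrFun h b) a).trans rfl
omit [DecidableEq ι] in
private theorem n1_row (X Y : Matrix ι ι ℝ) (a : ι) {r : ℝ} (h : ∀ x, ∑ b, Y x b = r) :
    ∑ b, (X * Y) a b = (∑ x, X a x) * r := by
  simp only [mul_apply]
  rw [sum_comm, sum_mul]
  exact sum_congr rfl fun x _ => by rw [← mul_sum, h]
private theorem n1_one (a : ι) : ∑ b, (1 : Matrix ι ι ℝ) a b = 1 := by
  simp [one_apply]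

theorem Side.Q_sym (hS : Side P s B) (a b : ι) : (B * B) a b = (B * B) b a := by
  exact n1_sym (by rw [transpose_mul, hS.symm.eq]) a b

theorem Side.B3_sym (hS : Side P s B) (a b : ι) : (B * B * B) a b = (B * B * B) b a := by
  exact n1_sym (by simp only [transpose_mul, hS.symm.eq, mul_assoc]) a b

theorem Side.R1_sym (hS : Side P s B) (a b : ι) : R1 B a b = R1 B b a := by
  exact n1_sym (by rw [R1, transpose_sub, transpose_mul, hS.symm.eq, transpose_one]) a b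

theorem Side.R2_sym (hS : Side P s B) (a b : ι) : R2 B a b = R2 B b a := by
  exact n1_sym (by simp only [n1_R2, transpose_sub, transpose_mul, hS.symm.eq, mul_assoc]) a b

theorem Side.R3_sym (hS : Side P s B) (a b : ι) : R3 B a b = R3 B b a := by
  exact n1_sym (by simp only [n1_R3, transpose_sub, transpose_mul, hS.symm.eq, mul_assoc]) a b

theorem Side.R4_sym (hS : Side P s B) (a b : ι) : R4 B a b = R4 B b a := by
  exact n1_sym (by simp only [n1_R4, transpose_sub, transpose_mul, hS.symm.eq, mul_assoc]) a b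

theorem R1_diag (B : Matrix ι ι ℝ) (a : ι) : R1 B a a = (B * B) a a - 1 := by
  rw [R1, Matrix.sub_apply, one_apply_eq]

theorem R1_off (B : Matrix ι ι ℝ) {a b : ι} (h : a ≠ b) : R1 B a b = (B * B) a b := by
  rw [R1, Matrix.sub_apply, one_apply_ne h, sub_zero]

theorem Side.y_eq (hS : Side P s B) (a : ι) : (B * B) a a = ∑ e, B a e ^ 2 := by
  rw [mul_apply]
  exact sum_congr rfl fun e _ => by rw [hS.sym e a, pow_two]

theorem Side.y_nonneg (hS : Side P s B) (a : ι) : 0 ≤ (B * B) a a := by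
  rw [hS.y_eq]
  exact sum_nonneg fun e _ => sq_nonneg _

theorem Side.y_le (hS : Side P s B) (a : ι) : (B * B) a a ≤ P.yb := by
  exact (le_abs_self _).trans (hS.Y_le.sup a)

theorem Side.rowV (hS : Side P s B) (a : ι) : V2 (fun e => B a e) (√((B * B) a a)) := by
  exact ⟨Real.sqrt_nonneg _, by rw [Real.sq_sqrt (hS.y_nonneg a), hS.y_eq]⟩

theorem Side.T_eq (hS : Side P s B) : sT B = ∑ a, ∑ b, B a b ^ 2 := by
  exact sum_congr rfl fun a _ => hS.y_eq a

theorem Side.T_eq_y (hS : Side P s B) : sT B = ∑ a, (B * B) a a := by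
  rfl

theorem Side.T_nonneg (hS : Side P s B) : 0 ≤ sT B := by
  exact sum_nonneg fun a _ => hS.y_nonneg a

theorem Side.T_le' (hS : Side P s B) : sT B ≤ P.tb ^ 2 := by
  rw [hS.T_eq]
  exact hS.T_le.2

theorem Side.T_le_k (hS : Side P s B) : sT B ≤ P.k := by
  rw [← hS.ok.ka_sq]
  exact hS.T_le'.trans (pow_le_pow_left₀ hS.T_le.1 hS.ok.tb_le 2)

theorem Side.M4_eq (hS : Side P s B) : sM4 B = ∑ a, ∑ b, (B * B) a b ^ 2 := by
  rw [sM4, n1_tr]
  exact sum_congr rfl fun a _ => sum_congr rfl fun b _ => by rw [hS.Q_sym b a, pow_two]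

theorem Side.M4_nonneg (hS : Side P s B) : 0 ≤ sM4 B := by
  rw [hS.M4_eq]
  exact sum_nonneg fun a _ => sum_nonneg fun b _ => sq_nonneg _

theorem Side.M4_le' (hS : Side P s B) : sM4 B ≤ P.L ^ 4 := by
  rw [hS.M4_eq]
  exact hS.M4_le.2.trans_eq (by ring)

theorem Side.M3_le (hS : Side P s B) : |sM3 B| ≤ P.tb * P.L ^ 2 := by
  rw [sM3, n1_tr, mul_comm]
  exact hS.M4_le.dot hS.T_le.swap

theorem Side.one (hS : Side P s B) : V2 (fun _ : ι => (1 : ℝ)) P.ka := by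
  exact V2.one hS.card hS.ok.ka_pos hS.ok.ka_sq

theorem Side.U_le' (hS : Side P s B) : |sU B| ≤ P.ka * P.nu := by
  exact (abs_sum_le_sum_abs _ _).trans (V2.sum_abs hS.card hS.ok.ka_pos hS.ok.ka_sq hS.V_le)

theorem Side.FB (hS : Side P s B) : F2 B P.ka := by
  exact hS.T_le.mono hS.ok.tb_le


theorem Side.op (hS : Side P s B) (hp : V2 p c) : V2 (fun a => ∑ b, B a b * p b) (P.L * c) := by
  refine ⟨mul_nonneg (by linarith [hS.ok.L_ge]) hp.1, ?_⟩
  have e1 : ∑ a, (∑ b, B a b * p b) ^ 2 = ∑ x, ∑ y, (B * B) x y * (p x * p y) := by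
    simp only [pow_two, sum_mul_sum]
    simp only [mul_apply, sum_mul]
    rw [sum_comm]
    refine sum_congr rfl fun x _ => ?_
    rw [sum_comm]
    exact sum_congr rfl fun y _ => sum_congr rfl fun a _ => by rw [hS.sym x a]; ring
  rw [e1]
  exact (le_abs_self _).trans ((hS.M4_le.bil hp hp).trans_eq (by ring))

theorem Side.bil_le (hS : Side P s B) {q : ι → ℝ} {d : ℝ} (hp : V2 p c) (hq : V2 q d) :
    |∑ a, ∑ b, B a b * (p a * q b)| ≤ P.L * c * d := by
  have e1 : ∑ a, ∑ b, B a b * (p a * q b) = ∑ a, p a * ∑ b, B a b * q b := by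
    simp only [mul_sum]
    exact sum_congr rfl fun a _ => sum_congr rfl fun b _ => by ring
  rw [e1]
  exact (hp.dot (hS.op hq)).trans_eq (by ring)

theorem Side.mulL (hS : Side P s B) (hM : F2 M c) : F2 (B * M) (P.L * c) := by
  refine ⟨mul_nonneg (by linarith [hS.ok.L_ge]) hM.1, ?_⟩
  rw [sum_comm]
  have h1 : ∑ b, ∑ a, (B * M) a b ^ 2 ≤ ∑ b, P.L ^ 2 * ∑ x, M x b ^ 2 := sum_le_sum fun b _ => by
    have h2 := (hS.op (V2.sqrt fun x => M x b)).2
    rwa [mul_pow, Real.sq_sqrt (sum_nonneg fun x _ => sq_nonneg _)] at h2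
  rw [← mul_sum, sum_comm (f := fun b x => M x b ^ 2)] at h1
  rw [mul_pow]
  exact h1.trans (mul_le_mul_of_nonneg_left hM.2 (sq_nonneg _))

theorem Side.mulR (hS : Side P s B) (hM : F2 M c) : F2 (M * B) (P.L * c) := by
  have h1 : F2 (B * Mᵀ) (P.L * c) := hS.mulL (M := Mᵀ) hM.swap
  have e1 : B * Mᵀ = (M * B)ᵀ := by rw [transpose_mul, hS.symm.eq]
  rw [e1] at h1
  exact h1.swap

theorem Side.FB3 (hS : Side P s B) : F2 (B * B * B) (P.L ^ 3) := by
  exact (hS.mulR hS.M4_le).mono (le_of_eq (by ring))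

theorem Side.FR1 (hS : Side P s B) : F2 (R1 B) (P.L ^ 2 + P.ka) := by
  have h1 : F2 (1 : Matrix ι ι ℝ) P.ka := ⟨hS.ok.ka_pos, by
    rw [hS.ok.ka_sq, ← hS.card]
    simp [one_apply]⟩
  exact hS.M4_le.sub h1

theorem Side.FR1' (hS : Side P s B) (h : P.ka ≤ P.L ^ 2) : F2 (R1 B) (2 * P.L ^ 2) := by
  exact hS.FR1.mono (by linarith)

theorem Side.FR2 (hS : Side P s B) (h : P.ka ≤ P.L ^ 2) : F2 (R2 B) (2 * P.L ^ 3) := by
  exact (hS.mulL (hS.FR1' h)).mono (le_of_eq (by ring))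

theorem Side.FR3 (hS : Side P s B) (h : P.ka ≤ P.L ^ 2) : F2 (R3 B) (2 * P.L ^ 4) := by
  exact (hS.mulL (hS.FR2 h)).mono (le_of_eq (by ring))

theorem Side.FR4 (hS : Side P s B) (h : P.ka ≤ P.L ^ 2) : F2 (R4 B) (2 * P.L ^ 5) := by
  exact (hS.mulL (hS.FR3 h)).mono (le_of_eq (by ring))

/-- mixed product of the two sides -/
theorem Side.Fmix (hS : Side P s B) (hC : Side P s' C) : F2 (C * B) (P.L ^ 2) := by
  refine ⟨sq_nonneg _, ?_⟩
  have e1 : ∑ a, ∑ b, (C * B) a b ^ 2 = (C * B * (C * B)ᵀ).trace := by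
    rw [n1_tr]
    exact sum_congr rfl fun a _ => sum_congr rfl fun b _ => pow_two _
  have e2 : (C * B * (C * B)ᵀ).trace = (C * C * (B * B)).trace := by
    rw [transpose_mul, hS.symm.eq, hC.symm.eq, ← mul_assoc, trace_mul_comm]
    simp only [mul_assoc]
  rw [e1, e2, n1_tr]
  exact (le_abs_self _).trans ((hC.M4_le.dot hS.M4_le.swap).trans_eq (by ring))


theorem Side.col (hS : Side P s B) (c : ι) : ∑ e, B e c = s := by
  rw [← hS.row c]
  exact sum_congr rfl fun e _ => hS.sym e c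

theorem Side.rowQ (hS : Side P s B) (c : ι) : ∑ e, (B * B) c e = 1 := by
  rw [n1_row B B c hS.row, hS.row, hS.sq]

theorem Side.rowR1 (hS : Side P s B) (c : ι) : ∑ e, R1 B c e = 0 := by
  simp only [R1, Matrix.sub_apply, sum_sub_distrib]
  rw [hS.rowQ, n1_one, sub_self]

theorem Side.sumB3 (hS : Side P s B) : ∑ a, ∑ b, (B * B * B) a b = s * P.k := by
  rw [sum_congr rfl fun a _ => n1_row (B * B) B a hS.row]
  simp only [hS.rowQ, one_mul, sum_const, card_univ, nsmul_eq_mul, hS.card]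
  exact mul_comm _ _

theorem Side.sum_mul_R1 (hS : Side P s B) (M : Matrix ι ι ℝ) :
    ∑ a, ∑ b, (M * R1 B) a b = 0 := by
  exact sum_eq_zero fun a _ => by rw [n1_row M _ a hS.rowR1, mul_zero]

theorem Side.sum_R1_mul (hS : Side P s B) (M : Matrix ι ι ℝ) :
    ∑ a, ∑ b, (R1 B * M) a b = 0 := by
  have h1 := hS.sum_mul_R1 Mᵀ
  have e1 : Mᵀ * R1 B = (R1 B * M)ᵀ := by
    rw [transpose_mul, R1, transpose_sub, transpose_mul, hS.symm.eq, transpose_one]
  rw [e1] at h1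
  exact sum_comm.trans h1

theorem Side.sumR1 (hS : Side P s B) : ∑ a, ∑ b, R1 B a b = 0 := by
  exact sum_eq_zero fun a _ => hS.rowR1 a

theorem Side.sumR3 (hS : Side P s B) : ∑ a, ∑ b, R3 B a b = 0 := by
  rw [R3, R2, ← mul_assoc]
  exact hS.sum_mul_R1 _

theorem Side.sumR4 (hS : Side P s B) : ∑ a, ∑ b, R4 B a b = 0 := by
  rw [R4, R3, R2, ← mul_assoc, ← mul_assoc]
  exact hS.sum_mul_R1 _

theorem R3_eq (B : Matrix ι ι ℝ) : R3 B = B * B * R1 B := by
  rw [R3, R2, mul_assoc]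

theorem R4_eq (B : Matrix ι ι ℝ) : R4 B = B * B * R2 B := by
  rw [R4, R3, mul_assoc]

theorem sU_eq (B : Matrix ι ι ℝ) : sU B = ∑ a, B a a := by
  rfl

theorem sM3_eq (B : Matrix ι ι ℝ) : sM3 B = ∑ a, (B * B * B) a a := by
  rfl

theorem Side.trR1 (hS : Side P s B) : ∑ a, R1 B a a = sT B - P.k := by
  simp only [R1_diag, sum_sub_distrib, sum_const, card_univ, nsmul_eq_mul, hS.card, mul_one]
  rfl

theorem trR2 (B : Matrix ι ι ℝ) : ∑ a, R2 B a a = sM3 B - sU B := by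
  simp only [n1_R2, Matrix.sub_apply, sum_sub_distrib]
  rfl

theorem trR3 (B : Matrix ι ι ℝ) : ∑ a, R3 B a a = sM4 B - sT B := by
  simp only [n1_R3, Matrix.sub_apply, sum_sub_distrib]
  rfl

theorem Side.trR4 (hS : Side P s B) (h : P.ka ≤ P.L ^ 2) : |∑ a, R4 B a a| ≤ 2 * P.L ^ 5 := by
  rw [R4_eq]
  exact (hS.M4_le.dot (hS.FR2 h).swap).trans_eq (by ring)


theorem Side.Qrow_le (hS : Side P s B) (c : ι) :
    ∑ e, (B * B) c e ^ 2 ≤ P.L ^ 2 * (B * B) c c := by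
  have h1 := (hS.op (hS.rowV c)).2
  rw [mul_pow, Real.sq_sqrt (hS.y_nonneg c)] at h1
  refine le_of_eq_of_le (sum_congr rfl fun e _ => ?_) h1
  rw [hS.Q_sym, mul_apply]
  exact congrArg (· ^ 2) (sum_congr rfl fun x _ => by rw [hS.sym x c])

theorem Side.B3_diag (hS : Side P s B) (c : ι) : |(B * B * B) c c| ≤ P.L * (B * B) c c := by
  have h1 := hS.bil_le (hS.rowV c) (hS.rowV c)
  rw [mul_assoc, Real.mul_self_sqrt (hS.y_nonneg c)] at h1
  refine le_of_eq_of_le (congrArg _ ?_) h1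
  simp only [mul_apply, sum_mul]
  rw [sum_comm]
  exact sum_congr rfl fun a _ => sum_congr rfl fun b _ => by rw [hS.sym b c]; ring

theorem Side.VB3 (hS : Side P s B) : V2 (fun c => (B * B * B) c c) (P.L * P.yb) := by
  have hL : 0 ≤ P.L := by linarith [hS.ok.L_ge]
  have h1 := hS.Y_le.const_mul P.L
  rw [abs_of_nonneg hL] at h1
  exact h1.of_abs_le fun c => (hS.B3_diag c).trans (le_abs_self _)

theorem Side.VR2 (hS : Side P s B) : V2 (fun c => R2 B c c) (3 * P.L * P.ps) := by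
  have hL := hS.ok.L_ge
  have hp : 0 ≤ P.ps := hS.ok.ka_pos.trans hS.ok.ka_ps
  have h1 := mul_le_mul_of_nonneg_left hS.ok.yb_ps (by linarith : 0 ≤ P.L)
  have h2 := mul_le_mul_of_nonneg_right hL hp
  rw [n1_R2]
  exact (hS.VB3.sub hS.V_le).mono (by linarith [hS.ok.nu_ps])

theorem Side.VR3 (hS : Side P s B) : V2 (fun c => R3 B c c) (3 * P.L ^ 2 * P.ps) := by
  have hL := hS.ok.L_ge
  have hp : 0 ≤ P.ps := hS.ok.ka_pos.trans hS.ok.ka_ps
  have h0 : 1 ≤ P.L ^ 2 := one_le_pow₀ hL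
  have h1 := hS.Y_le.const_mul (P.L ^ 2)
  rw [abs_of_nonneg (sq_nonneg P.L)] at h1
  have h2 := mul_le_mul_of_nonneg_left hS.ok.yb_ps (sq_nonneg P.L)
  have h3 := mul_nonneg (sq_nonneg P.L) hp
  refine (h1.of_abs_le fun c => le_trans ?_ (le_abs_self _)).mono (by linarith)
  have e1 : (B * B * (B * B)) c c = ∑ e, (B * B) c e ^ 2 := by
    rw [mul_apply]
    exact sum_congr rfl fun e _ => by rw [hS.Q_sym e c, pow_two]
  have h4 := hS.Qrow_le c
  have h5 : 0 ≤ ∑ e, (B * B) c e ^ 2 := sum_nonneg fun e _ => sq_nonneg _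
  have h6 := hS.y_nonneg c
  have h7 := mul_le_mul_of_nonneg_right h0 h6
  rw [n1_R3, Matrix.sub_apply, e1]
  exact abs_le.2 ⟨by linarith, by linarith⟩

theorem Side.VR4 (hS : Side P s B) : V2 (fun c => R4 B c c) (3 * P.L ^ 3 * P.ps) := by
  have hL := hS.ok.L_ge
  have hp : 0 ≤ P.ps := hS.ok.ka_pos.trans hS.ok.ka_ps
  have h0 : P.L ≤ P.L ^ 3 := le_self_pow₀ hL (by norm_num)
  have h00 : 0 ≤ P.L ^ 3 := by linarith
  have h1 := hS.Y_le.const_mul (2 * P.L ^ 3)
  rw [abs_of_nonneg (by linarith : 0 ≤ 2 * P.L ^ 3)] at h1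
  have h2 := mul_le_mul_of_nonneg_left hS.ok.yb_ps h00
  have h3 := mul_nonneg h00 hp
  refine (h1.of_abs_le fun c => le_trans ?_ (le_abs_self _)).mono (by linarith)
  have h6 := hS.y_nonneg c
  have hq : V2 (fun e => (B * B) c e) (P.L * √((B * B) c c)) :=
    ⟨mul_nonneg (by linarith) (Real.sqrt_nonneg _), by
      rw [mul_pow, Real.sq_sqrt h6]
      exact hS.Qrow_le c⟩
  have h4 := hS.bil_le hq hq
  have e1 : (B * B * B * (B * B)) c c = ∑ a, ∑ b, B a b * ((B * B) c a * (B * B) c b) := by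
    rw [mul_apply, sum_comm]
    refine sum_congr rfl fun b _ => ?_
    rw [mul_apply (M := B * B), sum_mul]
    exact sum_congr rfl fun a _ => by rw [hS.Q_sym b c]; ring
  have e2 : P.L * (P.L * √((B * B) c c)) * (P.L * √((B * B) c c)) = P.L ^ 3 * (B * B) c c := by
    linear_combination P.L ^ 3 * Real.mul_self_sqrt h6
  rw [← e1, e2] at h4
  have h5 := hS.B3_diag c
  have h7 := mul_le_mul_of_nonneg_right h0 h6
  rw [n1_R4, Matrix.sub_apply]
  exact (abs_sub _ _).trans (by linarith)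

theorem Side.R1row_le (hS : Side P s B) (c : ι) :
    ∑ e, R1 B c e ^ 2 ≤ P.L ^ 2 * (B * B) c c + 1 := by
  have e1 : ∀ e, R1 B c e ^ 2 = (B * B) c e ^ 2 +
      if c = e then 1 - 2 * (B * B) c c else 0 := fun e => by
    split_ifs with h
    · rw [← h, R1_diag]
      ring
    · rw [R1_off B h, add_zero]
  simp only [e1, sum_add_distrib, sum_ite_eq, mem_univ, if_true]
  linarith [hS.Qrow_le c, hS.y_nonneg c]

theorem Side.Q_ent (hS : Side P s B) (a b : ι) :
    (B * B) a b ^ 2 ≤ (B * B) a a * (B * B) b b := by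
  rw [hS.y_eq, hS.y_eq, mul_apply]
  refine le_of_eq_of_le ?_ (sum_mul_sq_le_sq_mul_sq univ (fun e => B a e) fun e => B b e)
  exact congrArg (· ^ 2) (sum_congr rfl fun e _ => by rw [hS.sym e b])


end Vale.Agent.P049.An
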