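import Vale.Agent.P049.SchP

/-! P049: elementary facts about `tau = k / (k + x)` and the generic scalar lemma.
PLAN.  Everything is elementary real algebra from `h.k_big` (`1000 q ≤ k`, `1000 q ≤ x`) and `h.big.ge`
(`10^12 ≤ q`).  `1 - tau = x / (k + x)`, `k (1 - tau) = x tau = k x / (k + x) ≥ min k x / 2 ≥ 500 q`.
`rho0 = 2 (1 - tau) (1 + 2 / (k + x - 2))`.  `cc = 2 - 2 x^2 / ((k+x)(k+x-2))`.
`sSig = sqrt (x^2 tau^3 / q^2) ≤ x tau / q` (`Real.sqrt_le_left`, `tau^3 ≤ tau^2`).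
`D_main`: with `X* = k (1 - tau)`, `D = dev x k T`, the expression inside the absolute value equals
`2 - 4 T + 4 X*^2 / (k+x-2)` and `0 ≤ X*^2 / (k+x-2) ≤ k tau`.
`vt_main`: `(tau - tau') k^2 = tau rho0 k`, `k - T = k (1 - tau) + D - 1`, `0 ≤ rho0 k - 2 k (1 - tau) ≤ 4`.
`gen`: `A F - ρ k F = A F (1 - ρ/k) + ρ F (A/k - k) ≤ A F (1 - ρ/k) + 10 θ k N`; the right side is nonnegative,
divide by `N' ≥ N (1 - ρ/k) > 0`, use `1 - ρ/k ≥ 39/40` and `k^2 (1 - θ) ≤ A`. -/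

namespace Vale.Agent.P049.An

noncomputable def rho0 (x : ℝ) (k : ℕ) : ℝ := 2 * x / (k + x - 2)
/-- decrease of the target `k tau` -/
noncomputable def cc (x : ℝ) (k : ℕ) : ℝ := k * tau x k - ((k - 2 : ℕ) : ℝ) * tau x (k - 2)

variable {q : ℕ} {x μ T : ℝ} {k : ℕ} {E : Ex}

private theorem rat1_facts (h : Reg q x μ k E) :
    (1000 : ℝ) ≤ q ∧ 1000 * (q : ℝ) ≤ k ∧ 1000 * (q : ℝ) ≤ x ∧ (1000000 : ℝ) ≤ k
      ∧ (1000000 : ℝ) ≤ x := by
  have h1 := h.big.ge
  have h2 := h.k_big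
  have h3 : (1000 : ℝ) ≤ q := le_trans (by norm_num) h1
  exact ⟨h3, h2.1, h2.2, by linarith [h2.1], by linarith [h2.2]⟩

private theorem rat1_ot (h : Reg q x μ k E) : 1 - tau x k = x / (k + x) := by
  obtain ⟨-, -, -, hk, hx⟩ := rat1_facts h
  have : (0 : ℝ) < k + x := by linarith
  rw [tau]
  field_simp
  ring

theorem Reg.two_le (h : Reg q x μ k E) : 400 ≤ k := by
  obtain ⟨-, -, -, hk, -⟩ := rat1_facts h
  have : (400 : ℝ) ≤ k := by linarith
  exact_mod_cast this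
theorem Reg.cast_sub (h : Reg q x μ k E) : ((k - 2 : ℕ) : ℝ) = k - 2 := by
  have := h.two_le
  rw [Nat.cast_sub (by omega)]
  norm_num
theorem Reg.th_le (h : Reg q x μ k E) : 0 < 1 / (q : ℝ) ∧ 1 / (q : ℝ) ≤ 1 / 100 := by
  obtain ⟨hq, -⟩ := rat1_facts h
  exact ⟨by positivity, one_div_le_one_div_of_le (by norm_num) (by linarith)⟩
theorem Reg.mu_pos (h : Reg q x μ k E) : 0 < μ := by
  exact h.lm.pos h.big
theorem Reg.tau_pos (h : Reg q x μ k E) : 0 < tau x k := by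
  obtain ⟨-, -, -, hk, hx⟩ := rat1_facts h
  rw [tau]
  apply div_pos <;> linarith
theorem Reg.tau_lt (h : Reg q x μ k E) : tau x k < 1 := by
  obtain ⟨-, -, -, hk, hx⟩ := rat1_facts h
  rw [tau, div_lt_one (by linarith)]
  linarith
theorem Reg.tau_step (h : Reg q x μ k E) : tau x (k - 2) = tau x k * (1 - rho0 x k / k) := by
  obtain ⟨-, -, -, hk, hx⟩ := rat1_facts h
  have h1 : (k : ℝ) + x ≠ 0 := by linarith
  have h2 : (k : ℝ) + x - 2 ≠ 0 := by linarith
  have h3 : (k : ℝ) - 2 + x ≠ 0 := by linarith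
  have h4 : (k : ℝ) ≠ 0 := by linarith
  rw [tau, tau, rho0, h.cast_sub]
  field_simp
  ring
theorem Reg.otau_step (h : Reg q x μ k E) :
    (1 - tau x k) * (1 + 2 * tau x k / k) ≤ 1 - tau x (k - 2) := by
  obtain ⟨-, -, -, hk, hx⟩ := rat1_facts h
  have h1 : (0 : ℝ) < k + x := by linarith
  have h3 : (0 : ℝ) < k - 2 + x := by linarith
  have h4 : (0 : ℝ) < k := by linarith
  have e1 : (1 - tau x k) * (1 + 2 * tau x k / k) = x * (k + x + 2) / (k + x) ^ 2 := by
    rw [rat1_ot h, tau]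
    field_simp
  have e2 : 1 - tau x (k - 2) = x / (k - 2 + x) := by
    rw [tau, h.cast_sub]
    field_simp
    ring
  rw [e1, e2, div_le_div_iff₀ (by positivity) h3]
  nlinarith
theorem Reg.rho0_ge (h : Reg q x μ k E) : 2 * (1 - tau x k) ≤ rho0 x k := by
  obtain ⟨-, -, -, hk, hx⟩ := rat1_facts h
  rw [rat1_ot h, rho0, ← mul_div_assoc]
  exact div_le_div_of_nonneg_left (by linarith) (by linarith) (by linarith)
theorem Reg.rho0_le (h : Reg q x μ k E) : rho0 x k ≤ 2 * (1 - tau x k) + 2 * (1 / q) := by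
  obtain ⟨hq, hk', hx', hk, hx⟩ := rat1_facts h
  have h1 : (0 : ℝ) < k + x := by linarith
  have h2 : (0 : ℝ) < k + x - 2 := by linarith
  have e : rho0 x k = 2 * (1 - tau x k) + 2 * (2 * x / ((k + x) * (k + x - 2))) := by
    rw [rat1_ot h, rho0]
    field_simp
    ring
  have h3 : 2 * x / ((k + x) * (k + x - 2)) ≤ 1 / q := by
    rw [div_le_div_iff₀ (by positivity) (by linarith)]
    have : x * (2 * q) ≤ (k + x) * (k + x - 2) :=
      mul_le_mul (by linarith) (by linarith) (by linarith) (by linarith)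
    linarith
  linarith
theorem Reg.rho0_abs (h : Reg q x μ k E) : 0 ≤ rho0 x k ∧ rho0 x k ≤ 3 := by
  obtain ⟨-, -, -, hk, hx⟩ := rat1_facts h
  have h2 : (0 : ℝ) < k + x - 2 := by linarith
  rw [rho0]
  refine ⟨div_nonneg (by linarith) h2.le, ?_⟩
  rw [div_le_iff₀ h2]
  linarith
theorem Reg.one_le (h : Reg q x μ k E) : 1 ≤ 1 / q * (k * (1 - tau x k)) := by
  obtain ⟨hq, hk', hx', hk, hx⟩ := rat1_facts h
  have h1 : (0 : ℝ) < k + x := by linarith
  have hq0 : (0 : ℝ) < q := by linarith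
  have e : 1 / (q : ℝ) * (k * (1 - tau x k)) = k * x / (q * (k + x)) := by
    rw [rat1_ot h]
    field_simp
  rw [e, le_div_iff₀ (by positivity)]
  have a1 : 1000 * (q : ℝ) * x ≤ k * x := mul_le_mul_of_nonneg_right hk' (by linarith)
  have a2 : (k : ℝ) * (1000 * q) ≤ k * x := mul_le_mul_of_nonneg_left hx' (by linarith)
  have a3 : 0 ≤ (q : ℝ) * x := by positivity
  have a4 : 0 ≤ (q : ℝ) * k := by positivity
  nlinarith
theorem Reg.kx_le (h : Reg q x μ k E) : k * (1 - tau x k) ≤ x := by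
  obtain ⟨-, -, -, hk, hx⟩ := rat1_facts h
  have h1 : (0 : ℝ) < k + x := by linarith
  rw [rat1_ot h, ← mul_div_assoc, div_le_iff₀ h1]
  nlinarith
theorem Reg.sig_nonneg (h : Reg q x μ k E) : 0 ≤ sSig q x k := by
  exact Real.sqrt_nonneg _
theorem Reg.sig_sq (h : Reg q x μ k E) : sSig q x k ^ 2 = nD q x k := by
  have := h.tau_pos
  rw [sSig, Real.sq_sqrt]
  rw [nD]
  positivity
theorem Reg.sig_le (h : Reg q x μ k E) : sSig q x k ≤ 1 / q * (k * (1 - tau x k)) := by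
  obtain ⟨hq, -, -, hk, hx⟩ := rat1_facts h
  have h1 : (0 : ℝ) < k + x := by linarith
  have hq0 : (0 : ℝ) < q := by linarith
  have t0 := h.tau_pos
  have t1 := h.tau_lt
  have e : 1 / (q : ℝ) * (k * (1 - tau x k)) = x * tau x k / q := by
    rw [rat1_ot h, tau]
    field_simp
  have hx0 : 0 < x := by linarith
  rw [e, sSig, Real.sqrt_le_left (by positivity), nD, div_pow]
  refine div_le_div_of_nonneg_right ?_ (by positivity)
  have : 0 ≤ (x * tau x k) ^ 2 * (1 - tau x k) := mul_nonneg (sq_nonneg _) (by linarith)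
  nlinarith
theorem Reg.dev_abs (h : Reg q x μ k E) (hD : dev x k T ^ 2 ≤ nD q x k) :
    |dev x k T| ≤ sSig q x k := by
  have _ := h.big
  exact Real.abs_le_sqrt hD
theorem Reg.T_le (h : Reg q x μ k E) (hD : dev x k T ^ 2 ≤ nD q x k) :
    T ≤ 1 + k * tau x k + sSig q x k := by
  have := (abs_le.1 (h.dev_abs hD)).1
  rw [dev] at this
  linarith
theorem Reg.T_le' (h : Reg q x μ k E) (hD : dev x k T ^ 2 ≤ nD q x k) :
    T ≤ k * (tau x k + 2 * (1 / q)) := by
  have h1 := h.T_le hD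
  have h2 := h.one_le
  have h3 := h.sig_le
  have h4 : 0 ≤ 1 / (q : ℝ) * (k * tau x k) := by
    have := h.tau_pos
    positivity
  nlinarith
theorem Reg.X_ge (h : Reg q x μ k E) (hD : dev x k T ^ 2 ≤ nD q x k) :
    k * (1 - tau x k) - 2 * (1 / q) * k ≤ k - T := by
  have := h.T_le' hD
  linarith
theorem Reg.X_nonneg (h : Reg q x μ k E) (hD : dev x k T ^ 2 ≤ nD q x k) : 0 ≤ k - T := by
  have h1 := h.T_le hD
  have h2 := h.one_le
  have h3 := h.sig_le
  have h4 : 0 ≤ (k : ℝ) * (1 - tau x k) := mul_nonneg (Nat.cast_nonneg _) (by linarith [h.tau_lt])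
  have h5 := mul_le_mul_of_nonneg_right h.th_le.2 h4
  linarith
theorem Reg.X_le (h : Reg q x μ k E) (hD : dev x k T ^ 2 ≤ nD q x k) : k - T ≤ 2 * x := by
  have h1 := (abs_le.1 (h.dev_abs hD)).2
  rw [dev] at h1
  have h2 := h.kx_le
  have h3 := h.sig_le
  have h4 : 0 ≤ (k : ℝ) * (1 - tau x k) := mul_nonneg (Nat.cast_nonneg _) (by linarith [h.tau_lt])
  have h5 := mul_le_mul_of_nonneg_right h.th_le.2 h4
  linarith
private theorem rat1_cc (h : Reg q x μ k E) :
    cc x k = 2 - 2 * (x ^ 2 / ((k + x) * (k + x - 2))) := by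
  obtain ⟨-, -, -, hk, hx⟩ := rat1_facts h
  have h1 : (k : ℝ) + x ≠ 0 := by linarith
  have h2 : (k : ℝ) + x - 2 ≠ 0 := by linarith
  have h3 : (k : ℝ) - 2 + x ≠ 0 := by linarith
  rw [cc, tau, tau, h.cast_sub]
  field_simp
  ring

private theorem rat1_x2 (h : Reg q x μ k E) : x ^ 2 / ((k + x) * (k + x - 2)) ≤ 1 := by
  obtain ⟨-, -, -, hk, hx⟩ := rat1_facts h
  have h1 : (0 : ℝ) < k + x := by linarith
  have h2 : (0 : ℝ) < k + x - 2 := by linarith
  rw [div_le_one (by positivity), sq]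
  exact mul_le_mul (by linarith) (by linarith) (by linarith) (by linarith)

theorem Reg.cc_bd (h : Reg q x μ k E) : 0 ≤ cc x k ∧ cc x k ≤ 4 * tau x k := by
  obtain ⟨-, -, -, hk, hx⟩ := rat1_facts h
  have h1 : (0 : ℝ) < k + x := by linarith
  have h2 : (0 : ℝ) < k + x - 2 := by linarith
  refine ⟨by rw [rat1_cc h]; linarith [rat1_x2 h], ?_⟩
  have e : 4 * tau x k - cc x k = (2 * k * (k - 2) + 4 * x) / ((k + x) * (k + x - 2)) := by
    rw [rat1_cc h, tau]
    field_simp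
    ring
  have h3 : 0 ≤ (2 * k * (k - 2) + 4 * x) / (((k : ℝ) + x) * (k + x - 2)) := by
    refine div_nonneg ?_ (by positivity)
    have : (0 : ℝ) ≤ 2 * k * (k - 2) := mul_nonneg (by linarith) (by linarith)
    linarith
  linarith
theorem dev_step (x : ℝ) (k : ℕ) (T T' : ℝ) :
    dev x (k - 2) T' = dev x k T - cc x k - (T' - T) := by
  rw [dev, dev, cc]
  ring
theorem Reg.D_main (h : Reg q x μ k E) (hT : 0 ≤ T) :
    |2 * (2 * k * T - T ^ 2 - 2 * k) - cc x k * k ^ 2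
      + 2 * (2 * (k * (1 - tau x k)) + dev x k T) * dev x k T| ≤ 4 * k * tau x k + 4 * T + 2 := by
  obtain ⟨-, -, -, hk, hx⟩ := rat1_facts h
  have h1 : (0 : ℝ) < k + x := by linarith
  have h2 : (0 : ℝ) < k + x - 2 := by linarith
  have e : 2 * (2 * k * T - T ^ 2 - 2 * k) - cc x k * k ^ 2
      + 2 * (2 * (k * (1 - tau x k)) + dev x k T) * dev x k T
      = 2 - 4 * T + 4 * (k * tau x k * (x ^ 2 / ((k + x) * (k + x - 2)))) := by
    rw [rat1_cc h, dev, tau]
    field_simp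
    ring
  have h3 : 0 ≤ (k : ℝ) * tau x k := mul_nonneg (by linarith) h.tau_pos.le
  have h4 : 0 ≤ k * tau x k * (x ^ 2 / (((k : ℝ) + x) * (k + x - 2))) := by positivity
  have h5 := mul_le_mul_of_nonneg_left (rat1_x2 h) h3
  rw [e, abs_le]
  constructor <;> linarith
theorem Reg.vt_bd (h : Reg q x μ k E) :
    0 ≤ tau x k - tau x (k - 2) ∧ tau x k - tau x (k - 2) ≤ sVt x k := by
  obtain ⟨-, -, -, hk, hx⟩ := rat1_facts h
  have h1 : (0 : ℝ) < k + x := by linarith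
  have h2 : (0 : ℝ) < k + x - 2 := by linarith
  have hk0 : (0 : ℝ) < k := by linarith
  have t0 := h.tau_pos
  have e : tau x k - tau x (k - 2) = tau x k * rho0 x k / k := by
    rw [h.tau_step]
    ring
  have h3 : rho0 x k ≤ 3 * (1 - tau x k) := by
    rw [rat1_ot h, rho0, ← mul_div_assoc, div_le_div_iff₀ h2 h1]
    nlinarith
  rw [e, sVt]
  refine ⟨div_nonneg (mul_nonneg t0.le h.rho0_abs.1) hk0.le, ?_⟩
  refine div_le_div_of_nonneg_right ?_ hk0.le
  have := mul_le_mul_of_nonneg_left h3 t0.le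
  linarith
theorem Reg.vt_main (h : Reg q x μ k E) (hD : dev x k T ^ 2 ≤ nD q x k) :
    |(tau x k - tau x (k - 2)) * k ^ 2 - 2 * (k - T) * tau x k|
      ≤ 6 * tau x k * (sSig q x k + 1) := by
  obtain ⟨-, -, -, hk, hx⟩ := rat1_facts h
  have h1 : (0 : ℝ) < k + x := by linarith
  have h2 : (0 : ℝ) < k + x - 2 := by linarith
  have hk0 : (0 : ℝ) < k := by linarith
  have t0 := h.tau_pos
  have e0 : rho0 x k * k - 2 * (k * (1 - tau x k)) = 4 * (k * x / ((k + x) * (k + x - 2))) := by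
    rw [rat1_ot h, rho0]
    field_simp
    ring
  have h3 : 0 ≤ (k : ℝ) * x / ((k + x) * (k + x - 2)) := by
    have : 0 < x := by linarith
    positivity
  have h4 : (k : ℝ) * x / ((k + x) * (k + x - 2)) ≤ 1 := by
    rw [div_le_one (by positivity)]
    exact mul_le_mul (by linarith) (by linarith) (by linarith) (by linarith)
  have e : (tau x k - tau x (k - 2)) * k ^ 2 - 2 * (k - T) * tau x k
      = tau x k * (rho0 x k * k - 2 * (k * (1 - tau x k)) - 2 * dev x k T + 2) := by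
    rw [h.tau_step, dev]
    field_simp
    ring
  have h5 := abs_le.1 (h.dev_abs hD)
  have h6 := h.sig_nonneg
  have h7 : |rho0 x k * k - 2 * (k * (1 - tau x k)) - 2 * dev x k T + 2|
      ≤ 6 * (sSig q x k + 1) := by
    rw [e0, abs_le]
    constructor <;> linarith [h5.1, h5.2]
  rw [e, abs_mul, abs_of_pos t0]
  have := mul_le_mul_of_nonneg_left h7 t0.le
  linarith

/-- the generic scalar step -/
theorem gen {F N N' S A ρ θ c κ : ℝ} (hF : 0 ≤ F) (hFN : F ≤ N) (hN : 0 < N) (hκ : 400 ≤ κ)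
    (hρ : |ρ| ≤ 10) (hN' : N * (1 - ρ / κ) ≤ N') (hθ : 0 < θ) (hθ' : θ ≤ 1 / 100)
    (hA : |A - κ ^ 2| ≤ θ * κ ^ 2) (hc : 0 ≤ c) (hc' : c ≤ 340)
    (hS : S ≤ A * F - ρ * κ * F + c * (θ * N * κ)) :
    S / N' ≤ A * (F / N + 700 * θ / κ) := by
  have hκ0 : 0 < κ := by linarith
  obtain ⟨l, hl⟩ : ∃ l, l = 1 - ρ / κ := ⟨_, rfl⟩
  have hρ' := abs_le.1 hρ
  have hA' := abs_le.1 hA
  have l1 : 39 / 40 ≤ l := by
    have : ρ / κ ≤ 1 / 40 := by
      rw [div_le_iff₀ hκ0]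
      linarith [hρ'.2]
    linarith
  rw [← hl] at hN'
  have hk2 : 0 < κ ^ 2 := by positivity
  have hA1 : 99 / 100 * κ ^ 2 ≤ A := by
    have := mul_le_mul_of_nonneg_right hθ' hk2.le
    linarith [hA'.1]
  have hA0 : 0 < A := by linarith
  have h1 : |ρ * F * ((A - κ ^ 2) / κ)| ≤ 10 * N * (θ * κ) := by
    rw [abs_mul, abs_mul, abs_of_nonneg hF, abs_div, abs_of_pos hκ0]
    refine mul_le_mul (mul_le_mul hρ hFN hF (by norm_num)) ?_ (by positivity) (by positivity)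
    rw [div_le_iff₀ hκ0]
    nlinarith
  have e1 : A * F - ρ * κ * F = A * F * l + ρ * F * ((A - κ ^ 2) / κ) := by
    rw [hl]
    field_simp
    ring
  have h2 : c * (θ * N * κ) ≤ 340 * (θ * N * κ) :=
    mul_le_mul_of_nonneg_right hc' (by positivity)
  have h3 : S ≤ A * F * l + 350 * (θ * N * κ) := by
    have := (abs_le.1 h1).2
    linarith
  have hl0 : 0 < l := by linarith
  have hNl : 0 < N * l := by positivity
  have hN0 : 0 < N' := lt_of_lt_of_le hNl hN'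
  have hR : 0 ≤ A * (F / N + 700 * θ / κ) := by positivity
  rw [div_le_iff₀ hN0]
  refine h3.trans (le_trans ?_ (mul_le_mul_of_nonneg_left hN' hR))
  have e2 : A * (F / N + 700 * θ / κ) * (N * l)
      = A * F * l + 350 * (θ * N * κ) * (2 * A * l / κ ^ 2) := by
    field_simp
    ring
  have h4 : 1 ≤ 2 * A * l / κ ^ 2 := by
    rw [le_div_iff₀ hk2]
    have := mul_le_mul_of_nonneg_left l1 hA0.le
    linarith
  have h5 : 0 ≤ 350 * (θ * N * κ) := by positivity
  have h6 := mul_le_mul_of_nonneg_left h4 h5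
  have _ := hc
  rw [e2]
  linarith

end Vale.Agent.P049.An
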