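import Vale.Agent.P049.Rat1

/-! P049: how the normalizers change from `k` to `k - 2`.
PLAN.  Unfold, `cast_sub`, `tau_step`, `otau_step`.  `nD`: `(1-z)^3 ≥ 1 - 3z` for `0 ≤ z ≤ 1`.
`nW`: the ratio is at least `(1 - 2/k)(1 - rho0/k)(1 + 2 tau/k)^2 ≥ 1 - (2 + rho0 - 4 tau)/k - 20/k^2`,
`rho0_le` and `20 / k ≤ 1 / q`.  `nV`: `1/(k-2) ≥ 1/k`.  `uh`: if `k ≤ kOne q` both values are `q^2040`; if
`2 kOne q + 2 ≤ k` both are `q^2040 + q^2197`; in general the clamp `min 1 (max 0 .)` is 1-Lipschitz, so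
`uh (k-2) ≥ uh k - 2 q^2197 / kOne q`, and `(u - δ)^2 ≥ u^2 (1 - 2δ/u)`; `q^2040 ≤ uh`, `kOne q = q^4750`.
`lam_gain`: in the window `k ≤ 3 kOne q`, `|U| ≤ uh` (as `tau ≤ 1`), `sBe μ = 72 q^2197 kOne q`.
`phase`: `kEnd q < kTwo q`, `kTwo q + 2 ≤ kOne q` for `q ≥ 2`. -/

namespace Vale.Agent.P049.An

/-- relative decrease of `uh ^ 2` -/
noncomputable def lam (q k : ℕ) : ℝ :=
  if win q k then 4 * (q : ℝ) ^ 2197 / (kOne q * uh ℝ q k) else 0

variable {q : ℕ} {x μ : ℝ} {k : ℕ} {E : Ex}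

private lemma kR (h : Reg q x μ k E) : (400 : ℝ) ≤ k := by exact_mod_cast h.two_le

private lemma kOne_cast (q : ℕ) : ((kOne q : ℕ) : ℝ) = (q : ℝ) ^ 4750 := by
  unfold kOne; push_cast; rfl

private lemma z_bd (h : Reg q x μ k E) : 0 ≤ rho0 x k / k ∧ rho0 x k / k ≤ 1 := by
  have hk := kR h
  have h1 := h.rho0_abs
  exact ⟨div_nonneg h1.1 (by linarith), by rw [div_le_one (by linarith)]; linarith⟩

private lemma clamp_lip (a d : ℝ) (hd : 0 ≤ d) :
    min 1 (max 0 a) - d ≤ min 1 (max 0 (a - d)) := by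
  simp only [min_def, max_def]
  split_ifs <;> linarith

private lemma nW_aux {e ρ τ θ : ℝ} (he : 0 ≤ e) (he1 : e ≤ 1 / 400) (he2 : 20 * e ≤ θ) (h0 : 0 ≤ ρ)
    (h3 : ρ ≤ 3) (h4 : ρ ≤ 2 * (1 - τ) + 2 * θ) (t0 : 0 ≤ τ) (t1 : τ ≤ 1) :
    1 - (4 - 6 * τ + 3 * θ) * e ≤ (1 - 2 * e) * (1 - ρ * e) * (1 + 2 * τ * e) ^ 2 := by
  have a1 : 1 - (2 + ρ) * e ≤ (1 - 2 * e) * (1 - ρ * e) := by
    nlinarith [mul_nonneg h0 (mul_nonneg he he)]
  have a2 : 1 + 4 * τ * e ≤ (1 + 2 * τ * e) ^ 2 := by nlinarith [sq_nonneg (τ * e)]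
  have a3 : 0 ≤ 1 - (2 + ρ) * e := by nlinarith
  have a4 : 0 ≤ 1 + 4 * τ * e := by positivity
  refine le_trans ?_ (mul_le_mul a1 a2 a4 (a3.trans a1))
  have a5 : τ * (2 + ρ) ≤ 1 * 5 := mul_le_mul t1 (by linarith) (by linarith) zero_le_one
  have a6 := mul_le_mul_of_nonneg_right a5 (mul_nonneg he he)
  have a7 := mul_le_mul_of_nonneg_right h4 he
  have a8 := mul_le_mul_of_nonneg_right he2 he
  nlinarith

theorem Reg.phase (h : Reg q x μ k E) : kTwo q + 2 ≤ kOne q := by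
  have h1 : 3 ≤ q := by
    have := h.big.ge
    have h2 : (3 : ℝ) ≤ q := le_trans (by norm_num) this
    exact_mod_cast h2
  have h2 : 3 ≤ q ^ 692 := h1.trans (Nat.le_self_pow (by norm_num) q)
  have h3 : 1 ≤ q ^ 4058 := Nat.one_le_pow _ _ (by omega)
  have h4 : kOne q = q ^ 4058 * q ^ 692 := by unfold kOne; rw [← pow_add]
  have h5 := Nat.mul_le_mul_left (q ^ 4058) h2
  rw [h4, kTwo]
  generalize q ^ 692 = r at h5 ⊢
  generalize q ^ 4058 = a at h3 h5 ⊢
  omega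
theorem Reg.uh_ge (h : Reg q x μ k E) (j : ℕ) : (q : ℝ) ^ 2040 ≤ uh ℝ q j := by
  unfold uh
  exact le_add_of_nonneg_right (mul_nonneg (pow_nonneg h.big.pos.le _)
    (le_min zero_le_one (le_max_left _ _)))
theorem Reg.nU_pos (h : Reg q x μ k E) : 0 < nU q x k := by
  unfold nU
  exact mul_pos (pow_pos ((pow_pos h.big.pos _).trans_le (h.uh_ge k)) 2) h.tau_pos
theorem Reg.nD_pos (h : Reg q x μ k E) : 0 < nD q x k := by
  unfold nD
  have h1 := h.big.pos
  have h2 : 0 < x := by linarith [h.k_big.2]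
  exact div_pos (mul_pos (pow_pos h2 2) (pow_pos h.tau_pos 3)) (pow_pos h1 2)
theorem Reg.nW_pos (h : Reg q x μ k E) : 0 < nW q x k := by
  unfold nW
  have h1 := kR h
  exact mul_pos (mul_pos (mul_pos (pow_pos h.big.pos _) (by linarith)) h.tau_pos)
    (pow_pos (sub_pos.2 h.tau_lt) 2)
theorem Reg.nV_pos (h : Reg q x μ k E) : 0 < nV q x k := by
  unfold nV
  have h1 := kR h
  exact mul_pos (pow_pos h.big.pos _) (add_pos h.tau_pos (div_pos one_pos (by linarith)))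
theorem Reg.n4_pos (h : Reg q x μ k E) : 0 < n4 ℝ q k := by
  unfold n4
  have h1 := kR h
  exact div_pos (pow_pos h.big.pos _) (by linarith)
theorem Reg.nC_pos (h : Reg q x μ k E) : 0 < nC q μ k := by
  unfold nC
  have h1 := kR h
  exact add_pos (mul_pos (pow_pos h.big.pos _) (by linarith)) (div_pos h.mu_pos h.big.pos)
theorem Reg.nC_ge (h : Reg q x μ k E) : (k : ℝ) ≤ nC q μ k := by
  unfold nC
  have h1 := kR h
  have h2 : (k : ℝ) ≤ (q : ℝ) ^ 30 * k :=
    le_mul_of_one_le_left (by linarith) (one_le_pow₀ h.big.one_le)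
  linarith [div_pos h.mu_pos h.big.pos]
theorem Reg.nD_step (h : Reg q x μ k E) :
    nD q x k * (1 - 3 * rho0 x k / k) ≤ nD q x (k - 2) := by
  have h0 := h.nD_pos
  have h1 := z_bd h
  have e : nD q x (k - 2) = nD q x k * (1 - rho0 x k / k) ^ 3 := by
    unfold nD; rw [h.tau_step]; ring
  rw [e, mul_div_assoc]
  refine mul_le_mul_of_nonneg_left ?_ h0.le
  generalize rho0 x k / k = z at h1
  nlinarith [mul_nonneg (sq_nonneg z) (by linarith [h1.2] : 0 ≤ 3 - z)]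
theorem Reg.nW_step (h : Reg q x μ k E) :
    nW q x k * (1 - (4 - 6 * tau x k + 3 * (1 / q)) / k) ≤ nW q x (k - 2) := by
  have hk := kR h
  have hk0 : (0 : ℝ) < k := by linarith
  have hq := h.big.pos
  have h1 := z_bd h
  have t0 := h.tau_pos
  have t1 := h.tau_lt
  have he2 : 20 * (1 / (k : ℝ)) ≤ 1 / q := by
    rw [mul_one_div, div_le_div_iff₀ hk0 hq]; linarith [h.k_big.1]
  have h2 := nW_aux (e := 1 / k) (by positivity) (one_div_le_one_div_of_le (by norm_num) hk) he2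
    h.rho0_abs.1 h.rho0_abs.2 h.rho0_le t0.le t1.le
  have h3 : ((1 - tau x k) * (1 + 2 * tau x k / k)) ^ 2 ≤ (1 - tau x (k - 2)) ^ 2 :=
    pow_le_pow_left₀ (mul_nonneg (by linarith) (by positivity)) h.otau_step 2
  have h4 : 0 ≤ (q : ℝ) ^ 25 * (k - 2) * tau x (k - 2) := by
    rw [h.tau_step]
    exact mul_nonneg (mul_nonneg (pow_nonneg hq.le _) (by linarith))
      (mul_nonneg t0.le (by linarith [h1.2]))
  have h5 := mul_le_mul_of_nonneg_left h3 h4
  have h6 := mul_le_mul_of_nonneg_left h2 h.nW_pos.le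
  unfold nW at h6 ⊢
  rw [h.cast_sub]
  refine le_trans ?_ h5
  rw [h.tau_step]
  refine le_trans (le_of_eq (by ring)) (h6.trans (le_of_eq ?_))
  field_simp
theorem Reg.nV_step (h : Reg q x μ k E) :
    nV q x k * (1 - rho0 x k / k) ≤ nV q x (k - 2) := by
  have hk := kR h
  have h1 := z_bd h
  unfold nV
  rw [h.tau_step, h.cast_sub, mul_assoc]
  refine mul_le_mul_of_nonneg_left ?_ (pow_nonneg h.big.pos.le _)
  have h2 : 1 / (k : ℝ) ≤ 1 / (k - 2) := one_div_le_one_div_of_le (by linarith) (by linarith)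
  have h3 : 0 ≤ 1 / (k : ℝ) * (rho0 x k / k) := mul_nonneg (by positivity) h1.1
  linarith
theorem Reg.n4_step (h : Reg q x μ k E) : n4 ℝ q k ≤ n4 ℝ q (k - 2) := by
  have hk := kR h
  unfold n4
  rw [h.cast_sub]
  exact div_le_div_of_nonneg_left (pow_nonneg h.big.pos.le _) (by linarith) (by linarith)
theorem Reg.nC_step (h : Reg q x μ k E) : nC q μ k * (1 - 2 / k) ≤ nC q μ (k - 2) := by
  have hk := kR h
  have hk0 : (0 : ℝ) < k := by linarith
  unfold nC
  rw [h.cast_sub]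
  have h1 : 0 ≤ μ / q * (2 / k) := mul_nonneg (div_pos h.mu_pos h.big.pos).le (by positivity)
  have h2 : (q : ℝ) ^ 30 * k * (1 - 2 / k) = (q : ℝ) ^ 30 * (k - 2) := by field_simp
  rw [add_mul, h2]
  linarith
theorem Reg.lam_bd (h : Reg q x μ k E) : 0 ≤ lam q k ∧ lam q k ≤ 1 / 10 := by
  unfold lam
  split_ifs with hw
  · have hq := h.big.pos
    have h1 : 1 ≤ uh ℝ q k := (one_le_pow₀ h.big.one_le).trans (h.uh_ge k)
    have h2 : (40 : ℝ) ≤ (q : ℝ) ^ 2553 :=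
      le_trans (le_trans (by norm_num) h.big.ge) (le_self_pow₀ h.big.one_le (by norm_num))
    have h3 : ((kOne q : ℕ) : ℝ) = (q : ℝ) ^ 2197 * (q : ℝ) ^ 2553 := by
      rw [kOne_cast, ← pow_add]
    have h4 : 0 < (q : ℝ) ^ 2197 := pow_pos hq _
    rw [h3]
    generalize (q : ℝ) ^ 2197 = Q at h4
    generalize (q : ℝ) ^ 2553 = R at h2
    generalize uh ℝ q k = u at h1
    refine ⟨by positivity, ?_⟩
    rw [div_le_iff₀ (by positivity)]
    have h5 : Q * 40 * 1 ≤ Q * R * u :=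
      mul_le_mul (mul_le_mul_of_nonneg_left h2 h4.le) h1 zero_le_one (by positivity)
    linarith
  · norm_num
theorem Reg.nU_step (h : Reg q x μ k E) :
    nU q x k * (1 - lam q k) * (1 - rho0 x k / k) ≤ nU q x (k - 2) := by
  have hk := kR h
  have h1 := z_bd h
  have hK : (0 : ℝ) < (kOne q : ℕ) := by rw [kOne_cast]; exact pow_pos h.big.pos _
  have hu : 0 < uh ℝ q k := (pow_pos h.big.pos _).trans_le (h.uh_ge k)
  have hQ : 0 < (q : ℝ) ^ 2197 := pow_pos h.big.pos _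
  have key : uh ℝ q k ^ 2 * (1 - lam q k) ≤ uh ℝ q (k - 2) ^ 2 := by
    unfold lam
    split_ifs with hw
    · have h2 : uh ℝ q k - (q : ℝ) ^ 2197 * (2 / (kOne q : ℕ)) ≤ uh ℝ q (k - 2) := by
        have h3 := mul_le_mul_of_nonneg_left
          (clamp_lip (((k : ℝ) - (kOne q : ℕ)) / (kOne q : ℕ)) (2 / (kOne q : ℕ)) (by positivity)) hQ.le
        have h4 : ((k : ℝ) - (kOne q : ℕ)) / (kOne q : ℕ) - 2 / (kOne q : ℕ)
            = (k - 2 - (kOne q : ℕ)) / (kOne q : ℕ) := by ring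
        unfold uh
        rw [h.cast_sub, ← h4]
        rw [mul_sub] at h3
        linarith
      generalize (q : ℝ) ^ 2197 = Q at h2 hQ
      generalize ((kOne q : ℕ) : ℝ) = K at h2 hK
      generalize uh ℝ q (k - 2) = v at h2
      generalize uh ℝ q k = u at h2 hu
      have h5 : u ^ 2 * (1 - 4 * Q / (K * u)) = u ^ 2 - 2 * u * (Q * (2 / K)) := by
        field_simp; ring
      have h6 := mul_le_mul_of_nonneg_left h2 hu.le
      rw [h5]
      nlinarith [sq_nonneg (v - u)]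
    · have h2 : uh ℝ q (k - 2) = uh ℝ q k := by
        unfold uh
        rw [h.cast_sub]
        unfold win at hw
        by_cases hc : k ≤ kOne q
        · have h3 : (k : ℝ) ≤ (kOne q : ℕ) := by exact_mod_cast hc
          rw [max_eq_left (div_nonpos_of_nonpos_of_nonneg (by linarith) hK.le),
            max_eq_left (div_nonpos_of_nonpos_of_nonneg (by linarith) hK.le)]
        · have h3 : 2 * kOne q + 2 ≤ k := by omega
          have h4 : 2 * ((kOne q : ℕ) : ℝ) + 2 ≤ k := by exact_mod_cast h3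
          rw [min_eq_left (le_max_of_le_right (by rw [le_div_iff₀ hK]; linarith)),
            min_eq_left (le_max_of_le_right (by rw [le_div_iff₀ hK]; linarith))]
      rw [h2, sub_zero, mul_one]
  have h7 := mul_le_mul_of_nonneg_right key
    (mul_nonneg h.tau_pos.le (by linarith [h1.2] : 0 ≤ 1 - rho0 x k / k))
  unfold nU
  rw [h.tau_step]
  refine le_trans (le_of_eq ?_) h7
  generalize uh ℝ q k = u
  ring
theorem Reg.lam_gain (h : Reg q x μ k E) {U A : ℝ} (hU : U ^ 2 ≤ nU q x k) (hA : A ≤ 2 * k ^ 2) :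
    A * (lam q k * U ^ 2) ≤ sBe q μ k * μ * |U| := by
  unfold lam sBe
  split_ifs with hw
  · have hK : (1 : ℝ) ≤ (kOne q : ℕ) := by rw [kOne_cast]; exact one_le_pow₀ h.big.one_le
    have hu : 0 < uh ℝ q k := (pow_pos h.big.pos _).trans_le (h.uh_ge k)
    have hQ : 0 < (q : ℝ) ^ 2197 := pow_pos h.big.pos _
    have hμ := h.mu_pos
    have h1 : (k : ℝ) ≤ 2 * (kOne q : ℕ) + 1 := by exact_mod_cast hw.2
    have h2 : |U| ≤ uh ℝ q k := by
      refine abs_le_of_sq_le_sq' (hU.trans ?_) hu.le |> abs_le.2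
      unfold nU
      exact mul_le_of_le_one_right (sq_nonneg _) h.tau_lt.le
    have hk0 : (0 : ℝ) ≤ k := Nat.cast_nonneg k
    generalize (q : ℝ) ^ 2197 = Q at hQ
    generalize ((kOne q : ℕ) : ℝ) = K at hK h1
    generalize uh ℝ q k = u at h2 hu
    have h3 : U ^ 2 ≤ u * |U| := by
      rw [← sq_abs, sq]; exact mul_le_mul_of_nonneg_right h2 (abs_nonneg U)
    have h4 : A ≤ 18 * K ^ 2 := by
      have := pow_le_pow_left₀ hk0 (by linarith : (k : ℝ) ≤ 3 * K) 2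
      linarith
    have h5 : 0 ≤ 4 * Q / (K * u) := by positivity
    calc A * (4 * Q / (K * u) * U ^ 2) ≤ 18 * K ^ 2 * (4 * Q / (K * u) * (u * |U|)) :=
          mul_le_mul h4 (mul_le_mul_of_nonneg_left h3 h5) (by positivity) (by positivity)
      _ = 72 * Q * K / μ * μ * |U| := by field_simp; ring
  · simp
theorem Reg.be_nonneg (h : Reg q x μ k E) : 0 ≤ sBe q μ k := by
  unfold sBe
  have h1 := h.mu_pos
  split_ifs
  · positivity
  · exact le_rfl
theorem Reg.wbar_late (h : Reg q x μ k E) (hk : k < kTwo q) : (sPar q x μ k).wbar = 1 := by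
  have h1 := h.phase
  have h2 : ¬ win q k := fun hw => by have := hw.1; omega
  simp only [sPar, if_neg h2]
theorem Reg.L4 (h : Reg q x μ k E) (hk : kTwo q ≤ k) : (sPar q x μ k).L ^ 4 = n4 ℝ q k := by
  simp only [sPar, sL, if_pos hk]
  rw [show 4 = 2 * 2 from rfl, pow_mul, Real.sq_sqrt (Real.sqrt_nonneg _), Real.sq_sqrt h.n4_pos.le]
theorem Reg.u_le (h : Reg q x μ k E) (hk : kOne q ≤ k) : (sPar q x μ k).u ≤ k := by
  have h1 := (h.one_x hk).2
  have h2 := mul_le_mul_of_nonneg_right h.th_le.2 (Nat.cast_nonneg k : (0 : ℝ) ≤ k)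
  have h3 : (0 : ℝ) ≤ k := Nat.cast_nonneg k
  linarith

end Vale.Agent.P049.An
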