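import Vale.Agent.P049.Calc2
import Vale.Agent.P049.Norm2

/-! P049: masked norms of the coefficients `rho1, rho2, rho3, rhoT`.
PLAN: pure use of the calculus (`H2.add`, `H2.mul_sup`, `F2.toH2`, `F2.rank`, `Wt.Hs_sr`), with
`R1 a b = (B*B) a b` on the support (`R1_off`, `H2.of_abs_le`).
`rho1`: `2.02 L^2 + 2 nu up`; sup `2.02 L + 2 L`.  `rho2`: `2.02 * 2 L^3 + L * L^2 + up^2 + 2 * nu * 3 L ps`.
`rho3`: `2.02 * 2 L^4 + 2 L * 2 L^3 + 2 up * 3 L ps + 2 nu * 3 L^2 ps`.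
`rhoT`: `2 ka yb + yb^2 + 2.02 L^3 + 2 nu L yb + nu^2 + th tb + L * L^2`.
`rho1_y`: `rho1^2 ≤ 3 (4.1 Q^2 + α^2 d_b^2 + β^2 d_a^2)`, then `Gam2`, `y ≤ yb`, `yd2`. -/

namespace Vale.Agent.P049.An

open Finset Matrix

variable {ι : Type} [Fintype ι] [DecidableEq ι]
variable {P : Par} {s : ℝ} {B : Matrix ι ι ℝ} {m w t : ι → ι → ℝ}

theorem rho1_symm (hS : Side P s B) (a b : ι) : rho1 s B a b = rho1 s B b a := by
  unfold rho1
  rw [hS.sym a b, hS.R1_sym a b]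
  ring

private theorem basic (hS : Side P s B) :
    1 ≤ P.L ∧ 0 ≤ P.nu ∧ 0 ≤ P.up ∧ 0 ≤ P.yb ∧ 0 ≤ P.ps ∧ P.up ≤ P.ps ∧ 0 ≤ P.ka :=
  ⟨hS.ok.L_ge, hS.V_le.1, hS.D_le.1, hS.Y_le.1, hS.ok.ka_pos.trans hS.ok.ka_ps, hS.ok.up_ps,
    hS.ok.ka_pos⟩

theorem Par.G_nonneg (hS : Side P s B) : 0 ≤ P.G := by
  obtain ⟨h1, h2, h3, h4, h5, h6, h7⟩ := basic hS
  unfold Par.G
  positivity

theorem Par.G1_nonneg (hS : Side P s B) : 0 ≤ P.G1 := by
  obtain ⟨h1, h2, h3, h4, h5, h6, h7⟩ := basic hS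
  unfold Par.G1
  positivity

theorem Par.G1_le (hS : Side P s B) : P.L * P.G1 ≤ P.G := by
  obtain ⟨h1, h2, h3, h4, h5, h6, h7⟩ := basic hS
  unfold Par.G Par.G1
  have h8 : P.nu * P.L * P.up ≤ P.nu * P.L * P.ps := by gcongr
  nlinarith [sq_nonneg P.ps]

private theorem sr2 (hS : Side P s B) (hW : Wt P s B m w t) :
    Hs m (fun a b => -2 * (s - B a b)) (202 / 100) :=
  ((hW.Hs_sr hS).const_mul (-2)).mono (by norm_num)

private theorem rk (hW : Wt P s B m w t) {p q : ι → ℝ} {c d : ℝ} (h1 : V2 p c) (h2 : V2 q d) :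
    H2 m (fun a b => p a * q b) (c * d) := (F2.rank h1 h2).toH2 hW.mask

private theorem rk' (hW : Wt P s B m w t) {p q : ι → ℝ} {c d : ℝ} (h1 : V2 p c) (h2 : V2 q d) :
    H2 m (fun a b => p b * q a) (c * d) := (F2.rank h1 h2).swap.toH2 hW.mask

private theorem r1H2 (hS : Side P s B) (hW : Wt P s B m w t) : H2 m (R1 B) (P.L ^ 2) :=
  (hS.M4_le.toH2 hW.mask).of_abs_le hW.mask fun a b h => by rw [R1_off B (hW.good a b h).ne]

private theorem qHs (hS : Side P s B) (hW : Wt P s B m w t) : Hs m (B * B) P.L :=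
  ⟨by linarith [hS.ok.L_ge], fun a b h => (hW.good a b h).Q_le⟩

private theorem r1Hs (hS : Side P s B) (hW : Wt P s B m w t) : Hs m (R1 B) P.L :=
  ⟨by linarith [hS.ok.L_ge], fun a b h => by
    rw [R1_off B (hW.good a b h).ne]; exact (hW.good a b h).Q_le⟩

theorem H2_rho1 (hS : Side P s B) (hW : Wt P s B m w t) :
    H2 m (rho1 s B) (202 / 100 * P.G1) := by
  obtain ⟨h1, h2, h3, h4, h5, h6, h7⟩ := basic hS
  have hm := hW.mask
  refine (((H2.mul_sup hm (sr2 hS hW) (r1H2 hS hW)).sub hm (rk hW hS.V_le hS.D_le)).sub hm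
    (rk' hW hS.V_le hS.D_le)).mono ?_
  unfold Par.G1
  nlinarith [mul_nonneg h2 h3]

theorem Hs_rho1 (hS : Side P s B) (hW : Wt P s B m w t) :
    Hs m (rho1 s B) (402 / 100 * P.L) := by
  have h0 : 0 ≤ P.L := by linarith [hS.ok.L_ge]
  have h1 : Hs m (fun a b => B a a * R1 B b b) P.L := ⟨h0, fun a b h => (hW.good a b h).ad_le⟩
  have h2 : Hs m (fun a b => B b b * R1 B a a) P.L := ⟨h0, fun a b h => (hW.good a b h).bd_le⟩
  refine (((Hs.mul (sr2 hS hW) (r1Hs hS hW)).sub h1).sub h2).mono (le_of_eq ?_)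
  ring

theorem H2_rho2 (hS : Side P s B) (hW : Wt P s B m w t) (h : P.ka ≤ P.L ^ 2) :
    H2 m (rho2 s B) (61 / 10 * P.G) := by
  obtain ⟨h1, h2, h3, h4, h5, h6, h7⟩ := basic hS
  have hm := hW.mask
  have h8 : H2 m (fun a b => R1 B a b ^ 2) (P.L * P.L ^ 2) := by
    simpa only [sq] using H2.mul_sup hm (r1Hs hS hW) (r1H2 hS hW)
  refine (((((H2.mul_sup hm (sr2 hS hW) ((hS.FR2 h).toH2 hm)).add hm h8).sub hm
    (rk hW hS.D_le hS.D_le)).sub hm (rk hW hS.V_le hS.VR2)).sub hm (rk' hW hS.V_le hS.VR2)).mono ?_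
  unfold Par.G
  have h9 : P.up * P.up ≤ P.ps * P.ps := by gcongr
  have h10 : 0 ≤ P.L ^ 3 := by positivity
  have h11 : 0 ≤ P.nu * P.L * P.ps := by positivity
  nlinarith [sq_nonneg P.ps]

theorem H2_rho3 (hS : Side P s B) (hW : Wt P s B m w t) (h : P.ka ≤ P.L ^ 2) :
    H2 m (rho3 s B) (81 / 10 * P.L * P.G) := by
  obtain ⟨h1, h2, h3, h4, h5, h6, h7⟩ := basic hS
  have hm := hW.mask
  refine ((((((H2.mul_sup hm (sr2 hS hW) ((hS.FR3 h).toH2 hm)).add hm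
    (H2.mul_sup hm ((r1Hs hS hW).const_mul 2) ((hS.FR2 h).toH2 hm))).sub hm
    (rk hW hS.D_le hS.VR2)).sub hm (rk hW hS.VR2 hS.D_le)).sub hm (rk hW hS.V_le hS.VR3)).sub hm
    (rk' hW hS.V_le hS.VR3)).mono ?_
  unfold Par.G
  have h9 : P.L * P.ps * P.up ≤ P.L * P.ps * P.ps := by gcongr
  have h10 : 0 ≤ P.L ^ 4 := by positivity
  have h11 : 0 ≤ P.nu * P.L ^ 2 * P.ps := by positivity
  have h12 : 0 ≤ P.L * P.ps * P.ps := by positivity
  rw [abs_two]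
  nlinarith

theorem H2_rhoT (hS : Side P s B) (hW : Wt P s B m w t) :
    H2 m (rhoT s B) (302 / 100 * P.GT) := by
  obtain ⟨h1, h2, h3, h4, h5, h6, h7⟩ := basic hS
  have hm := hW.mask
  have a1 : H2 m (fun a _ => (B * B) a a) (P.yb * P.ka) := by
    simpa only [mul_one] using rk hW hS.Y_le hS.one
  have a2 : H2 m (fun _ b => (B * B) b b) (P.yb * P.ka) := by
    simpa only [mul_one] using rk' hW hS.Y_le hS.one
  have a3 : H2 m (fun a b => 2 * (s - B a b) * (B * B * B) a b) (|2| * (101 / 100) * P.L ^ 3) :=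
    H2.mul_sup hm ((hW.Hs_sr hS).const_mul 2) (hS.FB3.toH2 hm)
  have a4 : H2 m (fun a b => B a b ^ 2) (P.th * P.tb) := by
    simpa only [sq] using H2.mul_sup hm (h := fun a b => B a b)
      ⟨hS.ok.th_pos.le, fun a b h => (hW.good a b h).r_le⟩ (hS.T_le.toH2 hm)
  have a5 : H2 m (fun a b => (B * B) a b ^ 2) (P.L * P.L ^ 2) := by
    simpa only [sq] using H2.mul_sup hm (qHs hS hW) (hS.M4_le.toH2 hm)
  refine (((((((((a1.add hm a2).sub hm (rk hW hS.Y_le hS.Y_le)).sub hm a3).sub hm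
    (rk hW hS.V_le hS.VB3)).sub hm (rk' hW hS.V_le hS.VB3)).add hm (rk hW hS.V_le hS.V_le)).sub hm
    a4).add hm a5)).mono ?_
  unfold Par.GT
  have h8 := hS.ok.tb_ge
  have h9 : P.th * P.tb ≤ 1 / 100 * P.tb := by gcongr; exact hS.ok.th_le
  have h10 : 0 ≤ P.ka * P.yb := by positivity
  have h11 : 0 ≤ P.nu * P.L * P.yb := by positivity
  rw [abs_two]
  nlinarith [sq_nonneg P.yb, sq_nonneg P.nu]

theorem rho1_y (hS : Side P s B) (hW : Wt P s B m w t) :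
    ∑ a, ∑ b, m a b * (rho1 s B a b ^ 2 * (B * B) a a)
      ≤ 50 * (P.L ^ 4 + P.L ^ 2 * P.wb ^ 2 + P.nu ^ 2 * P.yb * P.up ^ 2 + P.nu ^ 2 * P.tb ^ 2
        + P.nu ^ 2 * P.wb ^ 2 * P.yb) := by
  obtain ⟨h1, h2, h3, h4, h5, h6, h7⟩ := basic hS
  have key : ∀ a b, m a b * (rho1 s B a b ^ 2 * (B * B) a a) ≤
      123 / 10 * ((B * B) a a * (B * B) a b ^ 2) + 3 * P.yb * (B a a ^ 2 * R1 B b b ^ 2)
        + 3 * ((B * B) a a * R1 B a a ^ 2 * B b b ^ 2) := by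
    intro a b
    have y0 := hS.y_nonneg a
    have y1 := hS.y_le a
    rcases hW.mask.1 a b with h | h
    · rw [h, zero_mul]; positivity
    · have hg := hW.good a b (by rw [h]; exact one_ne_zero)
      have e1 : (s - B a b) ^ 2 ≤ (101 / 100) ^ 2 := sq_le_sq' (abs_le.1 (hg.sr_le hS)).1
        (abs_le.1 (hg.sr_le hS)).2
      have e2 : rho1 s B a b ^ 2 ≤ 123 / 10 * (B * B) a b ^ 2 + 3 * (B a a ^ 2 * R1 B b b ^ 2)
          + 3 * (R1 B a a ^ 2 * B b b ^ 2) := by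
        unfold rho1
        rw [R1_off B hg.ne]
        have e3 : (s - B a b) ^ 2 * (B * B) a b ^ 2 ≤ (101 / 100) ^ 2 * (B * B) a b ^ 2 := by
          gcongr
        nlinarith [sq_nonneg (2 * (s - B a b) * (B * B) a b - B a a * R1 B b b),
          sq_nonneg (2 * (s - B a b) * (B * B) a b - B b b * R1 B a a),
          sq_nonneg (B a a * R1 B b b - B b b * R1 B a a), sq_nonneg ((B * B) a b)]
      have e4 := mul_le_mul_of_nonneg_right e2 y0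
      have e5 : (B * B) a a * (B a a ^ 2 * R1 B b b ^ 2) ≤ P.yb * (B a a ^ 2 * R1 B b b ^ 2) := by
        gcongr
      rw [h, one_mul]
      nlinarith
  refine (sum_le_sum fun a _ => sum_le_sum fun b _ => key a b).trans ?_
  simp only [sum_add_distrib, ← mul_sum, ← sum_mul]
  have b1 := hS.Gam2
  have b2 := hS.yd2
  have b3 := hS.V_le.2
  have b4 := hS.D_le.2
  have b5 : (∑ a, B a a ^ 2) * ∑ b, R1 B b b ^ 2 ≤ P.nu ^ 2 * P.up ^ 2 := by
    gcongr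
  have b6 : (∑ a, (B * B) a a * R1 B a a ^ 2) * ∑ b, B b b ^ 2 ≤
      (P.tb ^ 2 + P.wb ^ 2 * P.yb) * P.nu ^ 2 := by
    gcongr
  have b7 := mul_le_mul_of_nonneg_left b5 h4
  have c1 : 0 ≤ P.L ^ 4 := by positivity
  have c2 : 0 ≤ P.L ^ 2 * P.wb ^ 2 := by positivity
  have c3 : 0 ≤ P.nu ^ 2 * P.yb * P.up ^ 2 := by positivity
  have c4 : 0 ≤ P.nu ^ 2 * P.tb ^ 2 := by positivity
  have c5 : 0 ≤ P.nu ^ 2 * P.wb ^ 2 * P.yb := by positivity
  nlinarith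

end Vale.Agent.P049.An
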