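import Vale.Agent.P049.Sch0

/-! P049: numerical verification of the error budgets, part D.
PLAN.  Purely mechanical (all margins were checked by a script, each is at least 1/2 in the exponent).
For every monomial `y` of the error expression prove `y ≤ z / 10 ^ 12` where `z` is the budget, by
`Ub.small h.big (Ub.mul h.big h.uvp (h.uL.pow h.big 2)) (Lb.mul ...) (by
  rcases h.cs with c | c | c | c | c | c <;> obtain ⟨c1, c2, c3, c4, c5, c6, c7, c8, c9, c10, c11, c12, c13⟩ := c <;>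
  simp only [Ex.wb, Ex.yb, Ex.up, Ex.sg] <;> push_cast <;> linarith [h.A_lo, h.A_hi, h.M_lo, h.M_hi, h.K_lo, h.K_hi])`
(use `h.main`, `h.late`, `h.one`, `h.wn` instead of `h.cs` when the regime is restricted).  If the budget is
`th * v^2 * k` and the monomial contains a factor `v`, cancel that factor first (upper and lower exponents of
`v` differ).  Then unfold the error expression and finish with `nlinarith` / `linarith`.
Squares of the square roots: `Real.sq_sqrt`.   -/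

namespace Vale.Agent.P049.An

variable {q : ℕ} {x μ : ℝ} {k : ℕ} {E : Ex}

private theorem ey (E : Ex) : E.yb = (25 + E.K + E.t1) / 2 + 1 / 10 := rfl
private theorem eu (E : Ex) : E.up = (25 + E.K + 2 * E.t2) / 2 + 1 / 10 := rfl
private theorem es (E : Ex) : E.sg = -1 + E.A + 3 / 2 * E.t1 := rfl

private theorem dA0 (h : Reg q x μ k E) :
    (sPar q x μ k).eta * (sPar q x μ k).ka * (sPar q x μ k).yb ≤
      ((sPar q x μ k).th * sSig q x k * k) / 10 ^ 12 := by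
  have b := h.big
  refine Ub.small b ((h.ueta.mul b h.uka).mul b h.uyb) ((h.lth.mul b h.lsg).mul b h.lk) ?_
  try push_cast
  rcases h.cs with c | c | c | c | c | c <;>
    obtain ⟨c1, c2, c3, c4, c5, c6, c7, c8, c9, c10, c11, c12, c13⟩ := c <;>
    linarith [h.A_lo, h.A_hi, h.M_lo, h.M_hi, h.K_lo, h.K_hi, ey E, eu E, es E]

private theorem dA1 (h : Reg q x μ k E) :
    (sPar q x μ k).eta * (sPar q x μ k).yb ^ 2 ≤
      ((sPar q x μ k).th * sSig q x k * k) / 10 ^ 12 := by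
  have b := h.big
  refine Ub.small b (h.ueta.mul b (h.uyb.pow b 2)) ((h.lth.mul b h.lsg).mul b h.lk) ?_
  try push_cast
  rcases h.cs with c | c | c | c | c | c <;>
    obtain ⟨c1, c2, c3, c4, c5, c6, c7, c8, c9, c10, c11, c12, c13⟩ := c <;>
    linarith [h.A_lo, h.A_hi, h.M_lo, h.M_hi, h.K_lo, h.K_hi, ey E, eu E, es E]

private theorem dA2 (h : Reg q x μ k E) :
    (sPar q x μ k).vp * (sPar q x μ k).L ^ 3 ≤
      ((sPar q x μ k).th * sSig q x k * k) / 10 ^ 12 := by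
  have b := h.big
  refine Ub.small b (h.uvp.mul b (h.uL.pow b 3)) ((h.lth.mul b h.lsg).mul b h.lk) ?_
  try push_cast
  rcases h.cs with c | c | c | c | c | c <;>
    obtain ⟨c1, c2, c3, c4, c5, c6, c7, c8, c9, c10, c11, c12, c13⟩ := c <;>
    linarith [h.A_lo, h.A_hi, h.M_lo, h.M_hi, h.K_lo, h.K_hi, ey E, eu E, es E]

private theorem dA3 (h : Reg q x μ k E) :
    (sPar q x μ k).xi * (sPar q x μ k).tb * (sPar q x μ k).L ^ 2 ≤
      ((sPar q x μ k).th * sSig q x k * k) / 10 ^ 12 := by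
  have b := h.big
  refine Ub.small b ((h.uxi.mul b h.utb).mul b (h.uL.pow b 2)) ((h.lth.mul b h.lsg).mul b h.lk) ?_
  try push_cast
  rcases h.cs with c | c | c | c | c | c <;>
    obtain ⟨c1, c2, c3, c4, c5, c6, c7, c8, c9, c10, c11, c12, c13⟩ := c <;>
    linarith [h.A_lo, h.A_hi, h.M_lo, h.M_hi, h.K_lo, h.K_hi, ey E, eu E, es E]

private theorem dA4 (h : Reg q x μ k E) :
    (sPar q x μ k).u * (sPar q x μ k).tb * (sPar q x μ k).L ^ 2 ≤
      ((sPar q x μ k).th * sSig q x k * k) / 10 ^ 12 := by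
  have b := h.big
  refine Ub.small b ((h.uu.mul b h.utb).mul b (h.uL.pow b 2)) ((h.lth.mul b h.lsg).mul b h.lk) ?_
  try push_cast
  rcases h.cs with c | c | c | c | c | c <;>
    obtain ⟨c1, c2, c3, c4, c5, c6, c7, c8, c9, c10, c11, c12, c13⟩ := c <;>
    linarith [h.A_lo, h.A_hi, h.M_lo, h.M_hi, h.K_lo, h.K_hi, ey E, eu E, es E]

private theorem dA5 (h : Reg q x μ k E) :
    (sPar q x μ k).eta * (sPar q x μ k).nu * (sPar q x μ k).L * (sPar q x μ k).yb ≤
      ((sPar q x μ k).th * sSig q x k * k) / 10 ^ 12 := by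
  have b := h.big
  refine Ub.small b (((h.ueta.mul b h.unu).mul b h.uL).mul b h.uyb) ((h.lth.mul b h.lsg).mul b h.lk) ?_
  try push_cast
  rcases h.cs with c | c | c | c | c | c <;>
    obtain ⟨c1, c2, c3, c4, c5, c6, c7, c8, c9, c10, c11, c12, c13⟩ := c <;>
    linarith [h.A_lo, h.A_hi, h.M_lo, h.M_hi, h.K_lo, h.K_hi, ey E, eu E, es E]

private theorem dA6 (h : Reg q x μ k E) :
    (sPar q x μ k).u ^ 2 ≤
      ((sPar q x μ k).th * sSig q x k * k) / 10 ^ 12 := by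
  have b := h.big
  refine Ub.small b (h.uu.pow b 2) ((h.lth.mul b h.lsg).mul b h.lk) ?_
  try push_cast
  rcases h.cs with c | c | c | c | c | c <;>
    obtain ⟨c1, c2, c3, c4, c5, c6, c7, c8, c9, c10, c11, c12, c13⟩ := c <;>
    linarith [h.A_lo, h.A_hi, h.M_lo, h.M_hi, h.K_lo, h.K_hi, ey E, eu E, es E]

private theorem dA7 (h : Reg q x μ k E) :
    (sPar q x μ k).eta * (sPar q x μ k).nu ^ 2 ≤
      ((sPar q x μ k).th * sSig q x k * k) / 10 ^ 12 := by
  have b := h.big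
  refine Ub.small b (h.ueta.mul b (h.unu.pow b 2)) ((h.lth.mul b h.lsg).mul b h.lk) ?_
  try push_cast
  rcases h.cs with c | c | c | c | c | c <;>
    obtain ⟨c1, c2, c3, c4, c5, c6, c7, c8, c9, c10, c11, c12, c13⟩ := c <;>
    linarith [h.A_lo, h.A_hi, h.M_lo, h.M_hi, h.K_lo, h.K_hi, ey E, eu E, es E]

private theorem dA8 (h : Reg q x μ k E) :
    (sPar q x μ k).tb ^ 2 ≤
      ((sPar q x μ k).th * sSig q x k * k) / 10 ^ 12 := by
  have b := h.big
  refine Ub.small b (h.utb.pow b 2) ((h.lth.mul b h.lsg).mul b h.lk) ?_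
  try push_cast
  rcases h.cs with c | c | c | c | c | c <;>
    obtain ⟨c1, c2, c3, c4, c5, c6, c7, c8, c9, c10, c11, c12, c13⟩ := c <;>
    linarith [h.A_lo, h.A_hi, h.M_lo, h.M_hi, h.K_lo, h.K_hi, ey E, eu E, es E]

private theorem dA9 (h : Reg q x μ k E) :
    (sPar q x μ k).tb * (sPar q x μ k).L ^ 3 ≤
      ((sPar q x μ k).th * sSig q x k * k) / 10 ^ 12 := by
  have b := h.big
  refine Ub.small b (h.utb.mul b (h.uL.pow b 3)) ((h.lth.mul b h.lsg).mul b h.lk) ?_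
  try push_cast
  rcases h.cs with c | c | c | c | c | c <;>
    obtain ⟨c1, c2, c3, c4, c5, c6, c7, c8, c9, c10, c11, c12, c13⟩ := c <;>
    linarith [h.A_lo, h.A_hi, h.M_lo, h.M_hi, h.K_lo, h.K_hi, ey E, eu E, es E]

private theorem dA10 (h : Reg q x μ k E) :
    (sPar q x μ k).L ^ 4 ≤
      ((sPar q x μ k).th * sSig q x k * k) / 10 ^ 12 := by
  have b := h.big
  refine Ub.small b (h.uL.pow b 4) ((h.lth.mul b h.lsg).mul b h.lk) ?_
  try push_cast
  rcases h.cs with c | c | c | c | c | c <;>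
    obtain ⟨c1, c2, c3, c4, c5, c6, c7, c8, c9, c10, c11, c12, c13⟩ := c <;>
    linarith [h.A_lo, h.A_hi, h.M_lo, h.M_hi, h.K_lo, h.K_hi, ey E, eu E, es E]

private theorem dA11 (h : Reg q x μ k E) :
    (sPar q x μ k).nu ^ 2 * (sPar q x μ k).up ^ 2 ≤
      ((sPar q x μ k).th * sSig q x k * k) / 10 ^ 12 := by
  have b := h.big
  refine Ub.small b ((h.unu.pow b 2).mul b (h.uup.pow b 2)) ((h.lth.mul b h.lsg).mul b h.lk) ?_
  try push_cast
  rcases h.cs with c | c | c | c | c | c <;>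
    obtain ⟨c1, c2, c3, c4, c5, c6, c7, c8, c9, c10, c11, c12, c13⟩ := c <;>
    linarith [h.A_lo, h.A_hi, h.M_lo, h.M_hi, h.K_lo, h.K_hi, ey E, eu E, es E]

private theorem dA12 (h : Reg q x μ k E) :
    tau x k * (sPar q x μ k).eta * (k : ℝ) ≤
      ((sPar q x μ k).th * sSig q x k * k) / 10 ^ 12 := by
  have b := h.big
  refine Ub.small b ((h.uta.mul b h.ueta).mul b h.uk) ((h.lth.mul b h.lsg).mul b h.lk) ?_
  try push_cast
  rcases h.cs with c | c | c | c | c | c <;>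
    obtain ⟨c1, c2, c3, c4, c5, c6, c7, c8, c9, c10, c11, c12, c13⟩ := c <;>
    linarith [h.A_lo, h.A_hi, h.M_lo, h.M_hi, h.K_lo, h.K_hi, ey E, eu E, es E]

private theorem dA13 (h : Reg q x μ k E) :
    (k : ℝ) * tau x k ≤
      ((sPar q x μ k).th * sSig q x k * k) / 10 ^ 12 := by
  have b := h.big
  refine Ub.small b (h.uk.mul b h.uta) ((h.lth.mul b h.lsg).mul b h.lk) ?_
  try push_cast
  rcases h.cs with c | c | c | c | c | c <;>
    obtain ⟨c1, c2, c3, c4, c5, c6, c7, c8, c9, c10, c11, c12, c13⟩ := c <;>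
    linarith [h.A_lo, h.A_hi, h.M_lo, h.M_hi, h.K_lo, h.K_hi, ey E, eu E, es E]

private theorem dA14 (h : Reg q x μ k E) :
    1 ≤
      ((sPar q x μ k).th * sSig q x k * k) / 10 ^ 12 := by
  have b := h.big
  refine Ub.small b (Ub.one q) ((h.lth.mul b h.lsg).mul b h.lk) ?_
  try push_cast
  rcases h.cs with c | c | c | c | c | c <;>
    obtain ⟨c1, c2, c3, c4, c5, c6, c7, c8, c9, c10, c11, c12, c13⟩ := c <;>
    linarith [h.A_lo, h.A_hi, h.M_lo, h.M_hi, h.K_lo, h.K_hi, ey E, eu E, es E]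

private theorem dB0 (h : Reg q x μ k E) :
    (k : ℝ) * (sPar q x μ k).yb ^ 2 ≤
      ((sPar q x μ k).th * sSig q x k ^ 2 * k) / 10 ^ 12 := by
  have b := h.big
  refine Ub.small b (h.uk.mul b (h.uyb.pow b 2)) ((h.lth.mul b (h.lsg.pow b 2)).mul b h.lk) ?_
  try push_cast
  rcases h.cs with c | c | c | c | c | c <;>
    obtain ⟨c1, c2, c3, c4, c5, c6, c7, c8, c9, c10, c11, c12, c13⟩ := c <;>
    linarith [h.A_lo, h.A_hi, h.M_lo, h.M_hi, h.K_lo, h.K_hi, ey E, eu E, es E]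

private theorem dB1 (h : Reg q x μ k E) :
    (sPar q x μ k).yb ^ 4 ≤
      ((sPar q x μ k).th * sSig q x k ^ 2 * k) / 10 ^ 12 := by
  have b := h.big
  refine Ub.small b (h.uyb.pow b 4) ((h.lth.mul b (h.lsg.pow b 2)).mul b h.lk) ?_
  try push_cast
  rcases h.cs with c | c | c | c | c | c <;>
    obtain ⟨c1, c2, c3, c4, c5, c6, c7, c8, c9, c10, c11, c12, c13⟩ := c <;>
    linarith [h.A_lo, h.A_hi, h.M_lo, h.M_hi, h.K_lo, h.K_hi, ey E, eu E, es E]

private theorem dB2 (h : Reg q x μ k E) :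
    (sPar q x μ k).L ^ 6 ≤
      ((sPar q x μ k).th * sSig q x k ^ 2 * k) / 10 ^ 12 := by
  have b := h.big
  refine Ub.small b (h.uL.pow b 6) ((h.lth.mul b (h.lsg.pow b 2)).mul b h.lk) ?_
  try push_cast
  rcases h.cs with c | c | c | c | c | c <;>
    obtain ⟨c1, c2, c3, c4, c5, c6, c7, c8, c9, c10, c11, c12, c13⟩ := c <;>
    linarith [h.A_lo, h.A_hi, h.M_lo, h.M_hi, h.K_lo, h.K_hi, ey E, eu E, es E]

private theorem dB3 (h : Reg q x μ k E) :
    (sPar q x μ k).nu ^ 2 * (sPar q x μ k).L ^ 2 * (sPar q x μ k).yb ^ 2 ≤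
      ((sPar q x μ k).th * sSig q x k ^ 2 * k) / 10 ^ 12 := by
  have b := h.big
  refine Ub.small b (((h.unu.pow b 2).mul b (h.uL.pow b 2)).mul b (h.uyb.pow b 2)) ((h.lth.mul b (h.lsg.pow b 2)).mul b h.lk) ?_
  try push_cast
  rcases h.cs with c | c | c | c | c | c <;>
    obtain ⟨c1, c2, c3, c4, c5, c6, c7, c8, c9, c10, c11, c12, c13⟩ := c <;>
    linarith [h.A_lo, h.A_hi, h.M_lo, h.M_hi, h.K_lo, h.K_hi, ey E, eu E, es E]

private theorem dB4 (h : Reg q x μ k E) :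
    (sPar q x μ k).nu ^ 4 ≤
      ((sPar q x μ k).th * sSig q x k ^ 2 * k) / 10 ^ 12 := by
  have b := h.big
  refine Ub.small b (h.unu.pow b 4) ((h.lth.mul b (h.lsg.pow b 2)).mul b h.lk) ?_
  try push_cast
  rcases h.cs with c | c | c | c | c | c <;>
    obtain ⟨c1, c2, c3, c4, c5, c6, c7, c8, c9, c10, c11, c12, c13⟩ := c <;>
    linarith [h.A_lo, h.A_hi, h.M_lo, h.M_hi, h.K_lo, h.K_hi, ey E, eu E, es E]

private theorem dB5 (h : Reg q x μ k E) :
    (sPar q x μ k).tb ^ 2 ≤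
      ((sPar q x μ k).th * sSig q x k ^ 2 * k) / 10 ^ 12 := by
  have b := h.big
  refine Ub.small b (h.utb.pow b 2) ((h.lth.mul b (h.lsg.pow b 2)).mul b h.lk) ?_
  try push_cast
  rcases h.cs with c | c | c | c | c | c <;>
    obtain ⟨c1, c2, c3, c4, c5, c6, c7, c8, c9, c10, c11, c12, c13⟩ := c <;>
    linarith [h.A_lo, h.A_hi, h.M_lo, h.M_hi, h.K_lo, h.K_hi, ey E, eu E, es E]

private theorem dB6 (h : Reg q x μ k E) :
    (sPar q x μ k).L ^ 2 * (sPar q x μ k).nu ^ 2 * (sPar q x μ k).up ^ 2 ≤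
      ((sPar q x μ k).th * sSig q x k ^ 2 * k) / 10 ^ 12 := by
  have b := h.big
  refine Ub.small b (((h.uL.pow b 2).mul b (h.unu.pow b 2)).mul b (h.uup.pow b 2)) ((h.lth.mul b (h.lsg.pow b 2)).mul b h.lk) ?_
  try push_cast
  rcases h.cs with c | c | c | c | c | c <;>
    obtain ⟨c1, c2, c3, c4, c5, c6, c7, c8, c9, c10, c11, c12, c13⟩ := c <;>
    linarith [h.A_lo, h.A_hi, h.M_lo, h.M_hi, h.K_lo, h.K_hi, ey E, eu E, es E]

private theorem dB7 (h : Reg q x μ k E) :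
    tau x k ^ 2 * (k : ℝ) ^ 2 ≤
      ((sPar q x μ k).th * sSig q x k ^ 2 * k) / 10 ^ 12 := by
  have b := h.big
  refine Ub.small b ((h.uta.pow b 2).mul b (h.uk.pow b 2)) ((h.lth.mul b (h.lsg.pow b 2)).mul b h.lk) ?_
  try push_cast
  rcases h.cs with c | c | c | c | c | c <;>
    obtain ⟨c1, c2, c3, c4, c5, c6, c7, c8, c9, c10, c11, c12, c13⟩ := c <;>
    linarith [h.A_lo, h.A_hi, h.M_lo, h.M_hi, h.K_lo, h.K_hi, ey E, eu E, es E]

theorem Reg.bud_D (h : Reg q x μ k E) :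
    2 * sSig q x k * (2 * (sPar q x μ k).eT + (sPar q x μ k).eU2
        + 4 * tau x k * (sPar q x μ k).eta * k + 4 * k * tau x k + 4 * (sPar q x μ k).tb ^ 2 + 2)
      + 64 * tau x k ^ 2 * k ^ 2 + 2 * (sPar q x μ k).eT2 ≤ 1 / q * nD q x k * k := by
  have b := h.big
  have hs : 0 < sSig q x k := h.lsg.pos b
  have h0 : nD q x k = sSig q x k ^ 2 := (Real.sq_sqrt (Real.sqrt_pos.1 hs).le).symm
  have h1 : (1 : ℝ) / q = (sPar q x μ k).th := rfl
  have hz : 0 < (sPar q x μ k).th * sSig q x k * k :=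
    ((h.lth.mul b h.lsg).mul b h.lk).pos b
  have h2 : 2 * (sPar q x μ k).eT + (sPar q x μ k).eU2
      + 4 * tau x k * (sPar q x μ k).eta * k + 4 * k * tau x k + 4 * (sPar q x μ k).tb ^ 2 + 2 ≤
      (sPar q x μ k).th * sSig q x k * k / 4 := by
    unfold Par.eT Par.eU2
    linarith [dA0 h, dA1 h, dA2 h, dA3 h, dA4 h, dA5 h, dA6 h, dA7 h, dA8 h, dA9 h, dA10 h, dA11 h, dA12 h, dA13 h, dA14 h]
  have h3 := mul_le_mul_of_nonneg_left h2 hs.le
  have h4 := mul_pos hz hs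
  have h5 : (sPar q x μ k).k = k := rfl
  rw [h0, h1]
  unfold Par.eT2
  rw [h5]
  linarith [dB0 h, dB1 h, dB2 h, dB3 h, dB4 h, dB5 h, dB6 h, dB7 h]

end Vale.Agent.P049.An
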