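import Vale.Agent.P049.St
import Vale.Agent.P049.DU
import Vale.Agent.P049.DT
import Vale.Agent.P049.SchU
import Vale.Agent.P049.SchD

/-! P049: scalar step for the terms `U ^ 2 / nU` and `dev ^ 2 / nD`.
General: `θ = 1 / q`, `A = tot w`, `τ = tau x k`, `X = k - T`.  Pull the constant denominator out with `av_div`,
apply `gen` (Rat1) with `κ = k`, `hA := h.tot_err hW`, and the `_step` lemma of Rat2 for `hN'`.  The fields of
`sPar q x μ k` unfold by `rfl` / `show` (`.k = k`, `.th = 1 / q`, `.ta = tau x k`).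
PLAN `sc_U`.  `drift_U` with `γ = sBe μ / 4`, `bud_U`, `lam_gain` (with `tot_bd`): `S ≤ A F (1 - lam) - 4 X F + θ N k`
for `F = U^2`, `N = nU`.  Apply `gen` to `F (1 - lam)`, `N (1 - lam)`, `ρ = rho0`, `c = 20`
(`X_ge`, `rho0_le`, `N ≤ (10/9) N (1 - lam)`), and cancel the factor `1 - lam > 0` in the quotient.
PLAN `sc_D`.  `dev_step` (under `av`, `congr`/`simp only`), `drift_D` with `D = dev x k T`, `c = cc x k`; write
`cc * A = cc * k^2 + cc * (A - k^2)`, `|cc (A - k^2)| ≤ 4 τ eta k` (`cc_bd`, `tot_eta`), `D_main`, `T ≤ tb^2` (`T_le'` of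
`Side`), `dev_abs`, `2 cc^2 A ≤ 64 τ^2 k^2`, `bud_D`: `S ≤ A F - 4 (2 k (1-τ) + D) F + θ N k`, `F = D^2`.
With `|D| ≤ sSig ≤ θ k` (`sig_le`) and `ρ = 3 rho0 ≤ 6 (1-τ) + 6 θ` take `c = 20`. -/

namespace Vale.Agent.P049.An

open Finset Matrix

variable {ι : Type} [Fintype ι] [DecidableEq ι]
variable {q : ℕ} {x μ : ℝ} {k : ℕ} {E : Ex} {s : ℝ} {B C : Matrix ι ι ℝ} {m w t : ι → ι → ℝ}

private theorem scU_core {S A F N X l g θ k τ ρ : ℝ} (h1 : S ≤ A * F - 4 * X * F - g + θ * N * k)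
    (h2 : A * (l * F) ≤ g) (hF : 0 ≤ F) (hFN : F ≤ N) (hl0 : 0 ≤ l) (hl : l ≤ 1 / 10)
    (hX : k * (1 - τ) - 2 * θ * k ≤ X) (hρ0 : 0 ≤ ρ) (hρ : ρ ≤ 2 * (1 - τ) + 2 * θ) (hτ : τ < 1)
    (hθ : 0 < θ) (hk : 0 ≤ k) :
    S ≤ A * (F * (1 - l)) - ρ * k * (F * (1 - l)) + 20 * (θ * (N * (1 - l)) * k) := by
  have hkF : 0 ≤ k * F := mul_nonneg hk hF
  have e1 : ρ * k * (F * (1 - l)) ≤ (2 * (1 - τ) + 2 * θ) * (k * F) := by
    have a1 : ρ * (k * F) ≤ (2 * (1 - τ) + 2 * θ) * (k * F) := mul_le_mul_of_nonneg_right hρ hkF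
    have a2 : 0 ≤ ρ * (k * F) * l := mul_nonneg (mul_nonneg hρ0 hkF) hl0
    nlinarith
  have e2 : (k * (1 - τ) - 2 * θ * k) * F ≤ X * F := mul_le_mul_of_nonneg_right hX hF
  have e3 : 0 ≤ (1 - τ) * (k * F) := mul_nonneg (by linarith) hkF
  have hθk : 0 ≤ θ * k := mul_nonneg hθ.le hk
  have e4 : θ * k * F ≤ θ * k * N := mul_le_mul_of_nonneg_left hFN hθk
  have e5 : 0 ≤ θ * k * N := mul_nonneg hθk (hF.trans hFN)
  have e6 : θ * k * N * l ≤ θ * k * N * (1 / 10) := mul_le_mul_of_nonneg_left hl e5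
  nlinarith

private theorem scD_core {S A D N Q c e1 e2 r η tb T σ θ k τ ρ : ℝ}
    (h1 : S ≤ A * D ^ 2 + 2 * D * (Q - c * A) + 2 * |D| * e1 + 2 * c ^ 2 * A + 2 * e2)
    (hQ : |Q - c * k ^ 2 + 2 * (2 * (k * (1 - τ)) + D) * D| ≤ 4 * k * τ + 4 * T + 2)
    (hT : T ≤ tb ^ 2) (hc0 : 0 ≤ c) (hc : c ≤ 4 * τ) (hA : |A - k ^ 2| ≤ η * k)
    (hA0 : 0 < A) (hA2 : A ≤ 2 * k ^ 2) (hD : |D| ≤ σ) (he1 : 0 ≤ e1)
    (hσ : σ ≤ θ * (k * (1 - τ))) (hFN : D ^ 2 ≤ N)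
    (hb : 2 * σ * (e1 + 4 * τ * η * k + 4 * k * τ + 4 * tb ^ 2 + 2) + 64 * τ ^ 2 * k ^ 2 + 2 * e2
      ≤ θ * N * k)
    (hρ : ρ ≤ 2 * (1 - τ) + 2 * θ) (hτ0 : 0 < τ) (hτ : τ < 1) (hθ : 0 < θ) (hk : 0 ≤ k)
    (hr : r = Q - c * k ^ 2 + 2 * (2 * (k * (1 - τ)) + D) * D) :
    S ≤ A * D ^ 2 - 3 * ρ * k * D ^ 2 + 20 * (θ * N * k) := by
  have hF : 0 ≤ D ^ 2 := sq_nonneg D
  have hσ0 : 0 ≤ σ := (abs_nonneg D).trans hD
  have hkτ : 0 ≤ k * τ := mul_nonneg hk hτ0.le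
  rw [← hr] at hQ
  have e1' : D * r ≤ σ * (4 * k * τ + 4 * tb ^ 2 + 2) := by
    calc D * r ≤ |D * r| := le_abs_self _
      _ = |D| * |r| := abs_mul _ _
      _ ≤ σ * (4 * k * τ + 4 * tb ^ 2 + 2) :=
        mul_le_mul hD (hQ.trans (by linarith)) (abs_nonneg _) hσ0
  have e2' : -(D * (c * (A - k ^ 2))) ≤ σ * (4 * τ * (η * k)) := by
    calc -(D * (c * (A - k ^ 2))) ≤ |D * (c * (A - k ^ 2))| := neg_le_abs _
      _ = |D| * (c * |A - k ^ 2|) := by rw [abs_mul, abs_mul, abs_of_nonneg hc0]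
      _ ≤ σ * (4 * τ * (η * k)) :=
        mul_le_mul hD (mul_le_mul hc hA (abs_nonneg _) (by linarith))
          (mul_nonneg hc0 (abs_nonneg _)) hσ0
  have e3 : |D| * e1 ≤ σ * e1 := mul_le_mul_of_nonneg_right hD he1
  have e4 : c ^ 2 * A ≤ (4 * τ) ^ 2 * (2 * k ^ 2) :=
    mul_le_mul (pow_le_pow_left₀ hc0 hc 2) hA2 hA0.le (sq_nonneg _)
  have e5 : S ≤ A * D ^ 2 - 4 * (2 * (k * (1 - τ)) + D) * D ^ 2 + θ * N * k := by
    have : 2 * D * (Q - c * A)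
        = 2 * (D * r) - 4 * (2 * (k * (1 - τ)) + D) * D ^ 2 - 2 * (D * (c * (A - k ^ 2))) := by
      rw [hr]; ring
    nlinarith
  have hkF : 0 ≤ k * D ^ 2 := mul_nonneg hk hF
  have e6 : ρ * (k * D ^ 2) ≤ (2 * (1 - τ) + 2 * θ) * (k * D ^ 2) :=
    mul_le_mul_of_nonneg_right hρ hkF
  have e7 : 0 ≤ (1 - τ) * (k * D ^ 2) := mul_nonneg (by linarith) hkF
  have hθk : 0 ≤ θ * k := mul_nonneg hθ.le hk
  have e8 : -D ≤ θ * k := by
    have a1 : θ * (k * (1 - τ)) ≤ θ * k := by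
      have := mul_nonneg hθ.le hkτ
      nlinarith
    have := neg_le_abs D
    linarith
  have e9 : -D * D ^ 2 ≤ θ * k * D ^ 2 := mul_le_mul_of_nonneg_right e8 hF
  have e10 : θ * k * D ^ 2 ≤ θ * k * N := mul_le_mul_of_nonneg_left hFN hθk
  have e11 : 0 ≤ θ * k * N := mul_nonneg hθk (hF.trans hFN)
  nlinarith

theorem sc_U (h : St q x μ k E s B C) (hW : Wt (sPar q x μ k) s B m w t)
    (hγ : sBe q μ k * μ / 4 * |sU B| ≤ sU B * (s * av t (R1 B))) :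
    av w (fun a b => sU (step s B a b) ^ 2 / nU q x (k - 2))
      ≤ tot w * (sU B ^ 2 / nU q x k + 700 * (1 / q) / k) := by
  have hr := h.reg
  rw [av_div]
  have h1 := drift_U h.side hW _ hγ
  have h2 := hr.bud_U
  have h3 := hr.lam_gain h.hU (h.tot_bd hW).2
  have hl := hr.lam_bd
  have hl1 : 0 < 1 - lam q k := by linarith [hl.2]
  have hk : (sPar q x μ k).k = k := rfl
  rw [hk] at h1
  have h4 := scU_core (S := av w fun a b => sU (step s B a b) ^ 2) (A := tot w) (F := sU B ^ 2)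
    (N := nU q x k) (X := k - sT B) (l := lam q k) (g := sBe q μ k * μ * |sU B|) (θ := 1 / q)
    (k := k) (τ := tau x k) (ρ := rho0 x k) (by linarith) h3 (sq_nonneg _) h.hU hl.1 hl.2
    (hr.X_ge h.hD) hr.rho0_abs.1 hr.rho0_le hr.tau_lt hr.th_le.1 (Nat.cast_nonneg k)
  have h5 := gen (mul_nonneg (sq_nonneg (sU B)) hl1.le)
    (mul_le_mul_of_nonneg_right h.hU hl1.le) (mul_pos hr.nU_pos hl1) h.k_ge
    (abs_le.2 ⟨by linarith [hr.rho0_abs.1], by linarith [hr.rho0_abs.2]⟩) hr.nU_step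
    hr.th_le.1 hr.th_le.2 (h.tot_err hW) (by norm_num) (by norm_num) h4
  rwa [mul_div_mul_right _ _ hl1.ne'] at h5

theorem sc_D (h : St q x μ k E s B C) (hW : Wt (sPar q x μ k) s B m w t) :
    av w (fun a b => dev x (k - 2) (sT (step s B a b)) ^ 2 / nD q x (k - 2))
      ≤ tot w * (dev x k (sT B) ^ 2 / nD q x k + 700 * (1 / q) / k) := by
  have hr := h.reg
  rw [av_div]
  have h0 : (fun a b => dev x (k - 2) (sT (step s B a b)) ^ 2)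
      = fun a b => (dev x k (sT B) - cc x k - (sT (step s B a b) - sT B)) ^ 2 := by
    funext a b
    rw [dev_step x k (sT B)]
  rw [h0]
  have h1 := drift_D h.side hW (dev x k (sT B)) (cc x k)
  have hk : (sPar q x μ k).k = k := rfl
  rw [hk] at h1
  have hb := hr.big
  have he1 : 0 ≤ 2 * (sPar q x μ k).eT + (sPar q x μ k).eU2 := by
    have a1 : 0 ≤ (sPar q x μ k).eT := (abs_nonneg _).trans (rhoT_mean h.side hW)
    have a2 : 0 ≤ (sPar q x μ k).eU2 := by unfold Par.eU2; positivity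
    linarith
  have h4 := scD_core h1 (hr.D_main h.side.T_nonneg) h.side.T_le' hr.cc_bd.1
    hr.cc_bd.2 (h.tot_eta hW) (h.tot_bd hW).1 (h.tot_bd hW).2 (hr.dev_abs h.hD) he1 hr.sig_le
    h.hD hr.bud_D hr.rho0_le hr.tau_pos hr.tau_lt hr.th_le.1 (Nat.cast_nonneg k) rfl
  exact gen (sq_nonneg _) h.hD hr.nD_pos h.k_ge
    (abs_le.2 ⟨by linarith [hr.rho0_abs.1], by linarith [hr.rho0_abs.2]⟩) hr.nD_step
    hr.th_le.1 hr.th_le.2 (h.tot_err hW) (by norm_num) (by norm_num) h4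

end Vale.Agent.P049.An
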