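import Mathlib.Analysis.SpecialFunctions.Pow.Real
import Mathlib.Analysis.SpecialFunctions.Sqrt
import Mathlib.Analysis.SpecialFunctions.Log.Base

/-! P049: a calculus of upper and lower bounds by real powers of a large base. -/

namespace Vale.Agent.P049.An

/-- `0 ≤ y ≤ q ^ e` -/
def Ub (q y e : ℝ) : Prop := 0 ≤ y ∧ y ≤ q ^ e
/-- `q ^ e ≤ y` -/
def Lb (q y e : ℝ) : Prop := q ^ e ≤ y
/-- the base is large -/
def Big (q : ℝ) : Prop := (2 : ℝ) ^ (200 : ℕ) ≤ q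

variable {q y z e f c : ℝ}

theorem Big.one_le (h : Big q) : 1 ≤ q := le_trans (one_le_pow₀ (by norm_num)) h
theorem Big.pos (h : Big q) : 0 < q := lt_of_lt_of_le one_pos h.one_le
theorem Big.ge (h : Big q) : (10 : ℝ) ^ 12 ≤ q := le_trans (by norm_num) h

theorem Big.two_pow_le (h : Big q) (n : ℕ) (he : (n : ℝ) ≤ 200 * e) : (2 : ℝ) ^ n ≤ q ^ e := by
  have he0 : 0 ≤ e := by have : (0 : ℝ) ≤ n := Nat.cast_nonneg n; linarith
  calc (2 : ℝ) ^ n = (2 : ℝ) ^ (n : ℝ) := (Real.rpow_natCast 2 n).symm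
    _ ≤ (2 : ℝ) ^ ((200 : ℕ) * e : ℝ) :=
        Real.rpow_le_rpow_of_exponent_le (by norm_num) (by push_cast; linarith)
    _ = ((2 : ℝ) ^ (200 : ℕ)) ^ e := by
        rw [Real.rpow_mul (by norm_num), Real.rpow_natCast]
    _ ≤ q ^ e := Real.rpow_le_rpow (by positivity) h he0

theorem Ub.nonneg (h : Ub q y e) : 0 ≤ y := h.1
theorem Lb.pos (hq : Big q) (h : Lb q y e) : 0 < y :=
  lt_of_lt_of_le (Real.rpow_pos_of_pos hq.pos e) h

theorem Ub.mono (hq : Big q) (h : Ub q y e) (he : e ≤ f) : Ub q y f :=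
  ⟨h.1, h.2.trans (Real.rpow_le_rpow_of_exponent_le hq.one_le he)⟩
theorem Lb.mono (hq : Big q) (h : Lb q y e) (he : f ≤ e) : Lb q y f :=
  le_trans (Real.rpow_le_rpow_of_exponent_le hq.one_le he) h
theorem Ub.of_le (h : Ub q y e) (h0 : 0 ≤ z) (hz : z ≤ y) : Ub q z e := ⟨h0, hz.trans h.2⟩
theorem Lb.of_le (h : Lb q y e) (hz : y ≤ z) : Lb q z e := le_trans h hz

theorem Ub.mul (hq : Big q) (h1 : Ub q y e) (h2 : Ub q z f) : Ub q (y * z) (e + f) :=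
  ⟨mul_nonneg h1.1 h2.1, by
    rw [Real.rpow_add hq.pos]
    exact mul_le_mul h1.2 h2.2 h2.1 (Real.rpow_nonneg hq.pos.le _)⟩
theorem Lb.mul (hq : Big q) (h1 : Lb q y e) (h2 : Lb q z f) : Lb q (y * z) (e + f) := by
  unfold Lb at *
  rw [Real.rpow_add hq.pos]
  exact mul_le_mul h1 h2 (Real.rpow_nonneg hq.pos.le _) (le_trans (Real.rpow_nonneg hq.pos.le _) h1)
theorem Ub.pow (hq : Big q) (h : Ub q y e) (n : ℕ) : Ub q (y ^ n) (n * e) :=
  ⟨pow_nonneg h.1 n, by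
    rw [mul_comm, Real.rpow_mul hq.pos.le, Real.rpow_natCast]
    exact pow_le_pow_left₀ h.1 h.2 n⟩
theorem Lb.pow (hq : Big q) (h : Lb q y e) (n : ℕ) : Lb q (y ^ n) (n * e) := by
  unfold Lb at *
  rw [mul_comm, Real.rpow_mul hq.pos.le, Real.rpow_natCast]
  exact pow_le_pow_left₀ (Real.rpow_nonneg hq.pos.le _) h n
theorem Ub.div (hq : Big q) (h1 : Ub q y e) (h2 : Lb q z f) : Ub q (y / z) (e - f) :=
  ⟨div_nonneg h1.1 (h2.pos hq).le, by
    rw [Real.rpow_sub hq.pos]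
    exact div_le_div₀ (Real.rpow_nonneg hq.pos.le _) h1.2 (Real.rpow_pos_of_pos hq.pos f) h2⟩
theorem Lb.div (hq : Big q) (h1 : Lb q y e) (h2 : Ub q z f) (hz : 0 < z) :
    Lb q (y / z) (e - f) := by
  unfold Lb at *
  rw [Real.rpow_sub hq.pos]
  exact div_le_div₀ (le_trans (Real.rpow_nonneg hq.pos.le _) h1) h1 hz h2.2
theorem Ub.sqrt (hq : Big q) (h : Ub q y e) : Ub q (√y) (e / 2) :=
  ⟨Real.sqrt_nonneg _, by
    rw [Real.sqrt_le_left (Real.rpow_nonneg hq.pos.le _), ← Real.rpow_natCast,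
      ← Real.rpow_mul hq.pos.le]
    have : e / 2 * ((2 : ℕ) : ℝ) = e := by push_cast; ring
    rw [this]; exact h.2⟩
theorem Lb.sqrt (hq : Big q) (h : Lb q y e) : Lb q (√y) (e / 2) := by
  unfold Lb at *
  apply Real.le_sqrt_of_sq_le
  rw [← Real.rpow_natCast, ← Real.rpow_mul hq.pos.le]
  have : e / 2 * ((2 : ℕ) : ℝ) = e := by push_cast; ring
  rw [this]; exact h
theorem Ub.const (hq : Big q) (h0 : 0 ≤ c) (hc : c ≤ 1000) : Ub q c (1 / 20) :=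
  ⟨h0, le_trans (le_trans hc (by norm_num)) (hq.two_pow_le 10 (by norm_num))⟩
theorem Lb.const (hq : Big q) (hc : 1 / 1000 ≤ c) : Lb q c (-(1 / 20)) := by
  unfold Lb
  rw [Real.rpow_neg hq.pos.le]
  have h := hq.two_pow_le (e := 1 / 20) 10 (by norm_num)
  refine le_trans (inv_anti₀ (by positivity) h) (le_trans (by norm_num) hc)
theorem Ub.one (q : ℝ) : Ub q 1 0 := ⟨zero_le_one, by rw [Real.rpow_zero]⟩
theorem Lb.one (q : ℝ) : Lb q 1 0 := by unfold Lb; rw [Real.rpow_zero]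
theorem Ub.zero (hq : Big q) (e : ℝ) : Ub q 0 e := ⟨le_rfl, Real.rpow_nonneg hq.pos.le _⟩
theorem Ub.base (hq : Big q) (n : ℕ) : Ub q (q ^ n) n :=
  ⟨pow_nonneg hq.pos.le n, by rw [Real.rpow_natCast]⟩
theorem Lb.base (q : ℝ) (n : ℕ) : Lb q (q ^ n) n := by unfold Lb; rw [Real.rpow_natCast]
theorem Ub.self (hq : Big q) : Ub q q 1 := ⟨hq.pos.le, by rw [Real.rpow_one]⟩
theorem Lb.self (q : ℝ) : Lb q q 1 := by unfold Lb; rw [Real.rpow_one]
theorem Ub.add (hq : Big q) (h1 : Ub q y e) (h2 : Ub q z e) : Ub q (y + z) (e + 1 / 200) :=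
  ⟨add_nonneg h1.1 h2.1, by
    rw [Real.rpow_add hq.pos]
    have h := hq.two_pow_le (e := 1 / 200) 1 (by norm_num)
    have h0 := Real.rpow_nonneg hq.pos.le e
    nlinarith [h1.2, h2.2]⟩
theorem Ub.le (hq : Big q) (h1 : Ub q y e) (h2 : Lb q z f) (h : e ≤ f) : y ≤ z :=
  le_trans (h1.mono hq h).2 h2
/-- a margin of one half in the exponent absorbs all constants -/
theorem Ub.small (hq : Big q) (h1 : Ub q y e) (h2 : Lb q z f) (h : e + 1 / 2 ≤ f) :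
    y ≤ z / 10 ^ 12 := by
  have h3 : (10 : ℝ) ^ 12 ≤ q ^ (1 / 2 : ℝ) :=
    le_trans (by norm_num) (hq.two_pow_le 100 (by norm_num))
  have h4 : q ^ (e + 1 / 2) ≤ z := le_trans (Real.rpow_le_rpow_of_exponent_le hq.one_le h) h2
  rw [Real.rpow_add hq.pos] at h4
  rw [le_div_iff₀ (by positivity)]
  have h0 := Real.rpow_nonneg hq.pos.le e
  calc y * 10 ^ 12 ≤ q ^ e * q ^ (1 / 2 : ℝ) := mul_le_mul h1.2 h3 (by positivity) h0
    _ ≤ z := h4
theorem exists_exp (hq : Big q) (hy : 0 < y) : ∃ e, Ub q y e ∧ Lb q y e := by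
  have h1 : q ≠ 1 := by
    have := hq.ge
    intro h; rw [h] at this; norm_num at this
  refine ⟨Real.logb q y, ⟨hy.le, ?_⟩, ?_⟩
  · rw [Real.rpow_logb hq.pos h1 hy]
  · unfold Lb; rw [Real.rpow_logb hq.pos h1 hy]
theorem exp_le (hq : Big q) (h1 : Lb q y e) (h2 : Ub q y f) : e ≤ f := by
  have h3 : 1 < q := lt_of_lt_of_le (by norm_num) hq.ge
  exact (Real.rpow_le_rpow_left_iff h3).1 (le_trans h1 h2.2)

end Vale.Agent.P049.An
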