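import Vale.Agent.P049.Ctx
import Vale.Agent.P049.Ub

/-! P049: the concrete parameters of the step at `k` alive half-edges, and their sizes. -/

namespace Vale.Agent.P049.An

noncomputable section

/-- ranges of all parameters of a step -/
structure Rng (q : ℕ) (x μ : ℝ) (k : ℕ) : Prop where
  big : Big q
  x_lo : (q : ℝ) ^ 4098 ≤ x
  x_hi : x ≤ (q : ℝ) ^ 4099
  mu_lo : (q : ℝ) ^ 6000 ≤ μ
  mu_hi : μ ≤ (q : ℝ) ^ 6001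
  k_lo : kEnd q ≤ k
  k_hi : k ≤ q ^ 6001

/-- the tilt window -/
def win (q k : ℕ) : Prop := kOne q < k ∧ k ≤ 2 * kOne q + 1

instance (q k : ℕ) : Decidable (win q k) := inferInstanceAs (Decidable (_ ∧ _))

def sL (q : ℕ) (x : ℝ) (k : ℕ) : ℝ :=
  if kTwo q ≤ k then √(√(n4 ℝ q k)) else √(q * k * √k / √x)
def sBe (q : ℕ) (μ : ℝ) (k : ℕ) : ℝ := if win q k then 72 * (q : ℝ) ^ 2197 * kOne q / μ else 0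
def sSig (q : ℕ) (x : ℝ) (k : ℕ) : ℝ := √(nD q x k)
/-- upper bound for the shift of the centre -/
def sVt (x : ℝ) (k : ℕ) : ℝ := 3 * tau x k * (1 - tau x k) / k

def sPar (q : ℕ) (x μ : ℝ) (k : ℕ) : Par where
  k := k
  ka := √k
  th := 1 / q
  L := sL q x k
  tb := if kTwo q ≤ k then √k else sL q x k
  nu := √(nV q x k)
  up := √(2 * nW q x k + 2 * k * (1 - tau x k) ^ 2)
  yb := √(2 * nW q x k + 2 * k * tau x k ^ 2)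
  ps := (q : ℝ) ^ 13 * √k
  wb := √(nW q x k)
  ta := tau x k
  u := √(nU q x k)
  vp := (q : ℝ) ^ 2 * √k
  vs := (q : ℝ) ^ 40 * √(√k)
  xi := sBe q μ k * (2 * sL q x k + 16 * sBe q μ k)
  xi2 := sBe q μ k * (2 * sL q x k ^ 2 + 6 * sL q x k * √(nW q x k) + 16 * sBe q μ k * √k)
  wbar := if win q k then 3 / 2 else 1

/-- the exponents -/
structure Ex where
  K : ℝ
  A : ℝ
  M : ℝ
  t1 : ℝ
  t2 : ℝ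
  L : ℝ
  tb : ℝ
  u : ℝ
  be : ℝ
  eta : ℝ
  xi : ℝ
  xi2 : ℝ
  nu : ℝ
  np : ℝ

namespace Ex
variable (E : Ex)
def Late1 : Prop := E.K ≤ E.A - 76 ∧ E.K ≤ 4058 ∧ E.t1 = E.K - E.A ∧ E.t2 = 0 ∧
  E.L = (1 + 3 / 2 * E.K - E.A / 2) / 2 ∧ E.tb = E.L ∧ E.u = 2040 + E.t1 / 2 ∧ E.be = 0 ∧
  E.eta = 2 + E.K / 2 ∧ E.xi = 0 ∧ E.xi2 = 0 ∧ E.nu = 19 + E.t1 / 4 ∧ E.np = 1 / 10
def Late2 : Prop := E.A - 76 ≤ E.K ∧ E.K ≤ 4058 ∧ E.t1 = E.K - E.A ∧ E.t2 = 0 ∧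
  E.L = (1 + 3 / 2 * E.K - E.A / 2) / 2 ∧ E.tb = E.L ∧ E.u = 2040 + E.t1 / 2 ∧ E.be = 0 ∧
  E.eta = 2 + E.K / 2 ∧ E.xi = 0 ∧ E.xi2 = 0 ∧ E.nu = 0 ∧ E.np = 1 / 10
def Low : Prop := 4058 ≤ E.K ∧ E.K ≤ E.A ∧ E.t1 = E.K - E.A ∧ E.t2 = 0 ∧
  E.L = (12066 - E.K) / 4 ∧ E.tb = E.K / 2 ∧ E.u = 2040 + E.t1 / 2 ∧ E.be = 0 ∧
  E.eta = 2 + E.K / 2 ∧ E.xi = 0 ∧ E.xi2 = 0 ∧ E.nu = 19 + E.t1 / 4 ∧ E.np = E.nu + 1 / 10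
def Mid : Prop := E.A ≤ E.K ∧ E.K ≤ 4750 ∧ E.t1 = 0 ∧ E.t2 = E.A - E.K ∧
  E.L = (12066 - E.K) / 4 ∧ E.tb = E.K / 2 ∧ E.u = 2040 + E.t1 / 2 ∧ E.be = 0 ∧
  E.eta = 2 + E.K / 2 ∧ E.xi = 0 ∧ E.xi2 = 0 ∧ E.nu = 19 + E.t1 / 4 ∧ E.np = E.nu + 1 / 10
def Win : Prop := 4750 ≤ E.K ∧ E.K ≤ 4750 + 1 / 10 ∧ E.t1 = 0 ∧ E.t2 = E.A - E.K ∧
  E.L = (12066 - E.K) / 4 ∧ E.tb = E.K / 2 ∧ E.u = 2197 + 1 / 10 ∧ E.be = 947 + 1 / 10 ∧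
  E.eta = E.be + E.L + 2 / 10 ∧ E.xi = E.be + E.L + 1 / 10 ∧ E.xi2 = E.be + 2 * E.L + 1 / 10 ∧
  E.nu = 19 + E.t1 / 4 ∧ E.np = E.nu + 1 / 10
def High : Prop := 4750 ≤ E.K ∧ E.K ≤ 6001 ∧ E.t1 = 0 ∧ E.t2 = E.A - E.K ∧
  E.L = (12066 - E.K) / 4 ∧ E.tb = E.K / 2 ∧ E.u = 2197 + 1 / 10 ∧ E.be = 0 ∧
  E.eta = 2 + E.K / 2 ∧ E.xi = 0 ∧ E.xi2 = 0 ∧ E.nu = 19 + E.t1 / 4 ∧ E.np = E.nu + 1 / 10
def wb : ℝ := (25 + E.K + E.t1 + 2 * E.t2) / 2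
def yb : ℝ := (25 + E.K + E.t1) / 2 + 1 / 10
def up : ℝ := (25 + E.K + 2 * E.t2) / 2 + 1 / 10
def sg : ℝ := -1 + E.A + 3 / 2 * E.t1
end Ex

/-- sizes of all parameters as powers of `q` -/
structure Reg (q : ℕ) (x μ : ℝ) (k : ℕ) (E : Ex) : Prop where
  big : Big q
  A_lo : 4098 ≤ E.A
  A_hi : E.A ≤ 4099
  M_lo : 6000 ≤ E.M
  M_hi : E.M ≤ 6001
  K_lo : 1366 ≤ E.K
  K_hi : E.K ≤ 6001
  cs : E.Late1 ∨ E.Late2 ∨ E.Low ∨ E.Mid ∨ E.Win ∨ E.High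
  late : k < kTwo q → E.Late1 ∨ E.Late2
  main : kTwo q ≤ k → E.Low ∨ E.Mid ∨ E.Win ∨ E.High
  one : kOne q ≤ k → 4750 ≤ E.K ∧ (E.Mid ∨ E.Win ∨ E.High)
  wn : win q k → E.Win
  uk : Ub q k E.K
  lk : Lb q k E.K
  ux : Ub q x E.A
  lx : Lb q x E.A
  um : Ub q μ E.M
  lm : Lb q μ E.M
  uka : Ub q (sPar q x μ k).ka (E.K / 2)
  lka : Lb q (sPar q x μ k).ka (E.K / 2)
  uth : Ub q (sPar q x μ k).th (-1)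
  lth : Lb q (sPar q x μ k).th (-1)
  uta : Ub q (tau x k) E.t1
  lta : Lb q (tau x k) (E.t1 - 1 / 10)
  uot : Ub q (1 - tau x k) E.t2
  lot : Lb q (1 - tau x k) (E.t2 - 1 / 10)
  uL : Ub q (sPar q x μ k).L E.L
  lL : Lb q (sPar q x μ k).L E.L
  utb : Ub q (sPar q x μ k).tb E.tb
  ltb : Lb q (sPar q x μ k).tb E.tb
  unu : Ub q (sPar q x μ k).nu E.nu
  unp : Ub q (1 + (sPar q x μ k).nu) E.np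
  lnu1 : Lb q (sPar q x μ k).nu ((37 + E.t1) / 2 - 1 / 10)
  lnu2 : Lb q (sPar q x μ k).nu ((37 - E.K) / 2)
  uup : Ub q (sPar q x μ k).up E.up
  uyb : Ub q (sPar q x μ k).yb E.yb
  ups : Ub q (sPar q x μ k).ps (13 + E.K / 2)
  lps : Lb q (sPar q x μ k).ps (13 + E.K / 2)
  uwb : Ub q (sPar q x μ k).wb E.wb
  lwb : Lb q (sPar q x μ k).wb (E.wb - 2 / 10)
  uu : Ub q (sPar q x μ k).u E.u
  lu : Lb q (sPar q x μ k).u (2040 + E.t1 / 2 - 1 / 10)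
  uvp : Ub q (sPar q x μ k).vp (2 + E.K / 2)
  lvp : Lb q (sPar q x μ k).vp (2 + E.K / 2)
  uvs : Ub q (sPar q x μ k).vs (40 + E.K / 4)
  lvs : Lb q (sPar q x μ k).vs (40 + E.K / 4)
  ube : Ub q (sBe q μ k) E.be
  uxi : Ub q (sPar q x μ k).xi E.xi
  uxi2 : Ub q (sPar q x μ k).xi2 E.xi2
  ueta : Ub q (sPar q x μ k).eta E.eta
  usg : Ub q (sSig q x k) E.sg
  lsg : Lb q (sSig q x k) (E.sg - 2 / 10)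

end

end Vale.Agent.P049.An
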