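import Vale.Agent.P049.Sch0

/-! P049: numerical verification of the error budgets, part P (structural conditions).
PLAN.  Purely mechanical (all margins were checked by a script, each is at least 1/2 in the exponent).
For every monomial `y` of the error expression prove `y ≤ z / 10 ^ 12` where `z` is the budget, by
`Ub.small h.big (Ub.mul h.big h.uvp (h.uL.pow h.big 2)) (Lb.mul ...) (by
  rcases h.cs with c | c | c | c | c | c <;> obtain ⟨c1, c2, c3, c4, c5, c6, c7, c8, c9, c10, c11, c12, c13⟩ := c <;>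
  simp only [Ex.wb, Ex.yb, Ex.up, Ex.sg] <;> push_cast <;> linarith [h.A_lo, h.A_hi, h.M_lo, h.M_hi, h.K_lo, h.K_hi])`
(use `h.main`, `h.late`, `h.one`, `h.wn` instead of `h.cs` when the regime is restricted).  If the budget is
`th * v^2 * k` and the monomial contains a factor `v`, cancel that factor first (upper and lower exponents of
`v` differ).  Then unfold the error expression and finish with `nlinarith` / `linarith`.
Squares of the square roots: `Real.sq_sqrt`.  For `ok` use `Ub.le`. -/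

namespace Vale.Agent.P049.An

variable {q : ℕ} {x μ : ℝ} {k : ℕ} {E : Ex}

theorem Reg.ok (h : Reg q x μ k E) : (sPar q x μ k).Ok := by
  refine ⟨Real.sq_sqrt (Nat.cast_nonneg k), Real.sqrt_nonneg _,
    Ub.le h.big (Ub.const h.big (by norm_num) (by norm_num)) h.lk (by linarith [h.K_lo]),
    h.lth.pos h.big, Ub.le h.big h.uth (Lb.const h.big (by norm_num)) (by norm_num),
    Ub.le h.big (Ub.one q) h.lL (by
      rcases h.cs with c | c | c | c | c | c <;>
      obtain ⟨c1, c2, c3, c4, c5, c6, c7, c8, c9, c10, c11, c12, c13⟩ := c <;>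
      (try simp only [Ex.wb, Ex.yb, Ex.up, Ex.sg]) <;> (try push_cast) <;>
      linarith [h.A_lo, h.A_hi, h.M_lo, h.M_hi, h.K_lo, h.K_hi]),
    Ub.le h.big h.uL h.lka (by
      rcases h.cs with c | c | c | c | c | c <;>
      obtain ⟨c1, c2, c3, c4, c5, c6, c7, c8, c9, c10, c11, c12, c13⟩ := c <;>
      (try simp only [Ex.wb, Ex.yb, Ex.up, Ex.sg]) <;> (try push_cast) <;>
      linarith [h.A_lo, h.A_hi, h.M_lo, h.M_hi, h.K_lo, h.K_hi]),
    Ub.le h.big (Ub.one q) h.ltb (by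
      rcases h.cs with c | c | c | c | c | c <;>
      obtain ⟨c1, c2, c3, c4, c5, c6, c7, c8, c9, c10, c11, c12, c13⟩ := c <;>
      (try simp only [Ex.wb, Ex.yb, Ex.up, Ex.sg]) <;> (try push_cast) <;>
      linarith [h.A_lo, h.A_hi, h.M_lo, h.M_hi, h.K_lo, h.K_hi]),
    Ub.le h.big h.utb h.lka (by
      rcases h.cs with c | c | c | c | c | c <;>
      obtain ⟨c1, c2, c3, c4, c5, c6, c7, c8, c9, c10, c11, c12, c13⟩ := c <;>
      (try simp only [Ex.wb, Ex.yb, Ex.up, Ex.sg]) <;> (try push_cast) <;>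
      linarith [h.A_lo, h.A_hi, h.M_lo, h.M_hi, h.K_lo, h.K_hi]),
    Ub.le h.big h.utb h.lvp (by
      rcases h.cs with c | c | c | c | c | c <;>
      obtain ⟨c1, c2, c3, c4, c5, c6, c7, c8, c9, c10, c11, c12, c13⟩ := c <;>
      (try simp only [Ex.wb, Ex.yb, Ex.up, Ex.sg]) <;> (try push_cast) <;>
      linarith [h.A_lo, h.A_hi, h.M_lo, h.M_hi, h.K_lo, h.K_hi]),
    Ub.le h.big h.uka h.lps (by linarith),
    Ub.le h.big h.uyb h.lps (by
      rcases h.cs with c | c | c | c | c | c <;>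
      obtain ⟨c1, c2, c3, c4, c5, c6, c7, c8, c9, c10, c11, c12, c13⟩ := c <;>
      (try simp only [Ex.wb, Ex.yb, Ex.up, Ex.sg]) <;> (try push_cast) <;>
      linarith [h.A_lo, h.A_hi, h.M_lo, h.M_hi, h.K_lo, h.K_hi]),
    Ub.le h.big h.uup h.lps (by
      rcases h.cs with c | c | c | c | c | c <;>
      obtain ⟨c1, c2, c3, c4, c5, c6, c7, c8, c9, c10, c11, c12, c13⟩ := c <;>
      (try simp only [Ex.wb, Ex.yb, Ex.up, Ex.sg]) <;> (try push_cast) <;>
      linarith [h.A_lo, h.A_hi, h.M_lo, h.M_hi, h.K_lo, h.K_hi]),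
    Ub.le h.big h.unu h.lps (by
      rcases h.cs with c | c | c | c | c | c <;>
      obtain ⟨c1, c2, c3, c4, c5, c6, c7, c8, c9, c10, c11, c12, c13⟩ := c <;>
      (try simp only [Ex.wb, Ex.yb, Ex.up, Ex.sg]) <;> (try push_cast) <;>
      linarith [h.A_lo, h.A_hi, h.M_lo, h.M_hi, h.K_lo, h.K_hi]),
    h.uta.1, by have := h.uot.1; change tau x k ≤ 1; linarith, h.uu.1, h.uvs.1, h.uxi.1, ?_, ?_⟩
  · change 1 ≤ (if win q k then (3 / 2 : ℝ) else 1)
    split_ifs <;> norm_num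
  · change (if win q k then (3 / 2 : ℝ) else 1) ≤ 3 / 2
    split_ifs <;> norm_num

theorem Reg.hvp (h : Reg q x μ k E) :
    100 * ((sPar q x μ k).k * ((q : ℝ) + 1)
      + ((sPar q x μ k).k + (sPar q x μ k).nu ^ 4) / (sPar q x μ k).th ^ 2 + (sPar q x μ k).L ^ 2
      + (sPar q x μ k).nu ^ 2 * (sPar q x μ k).up ^ 2 / (sPar q x μ k).L ^ 2)
      ≤ (sPar q x μ k).vp ^ 2 := by
  have z := h.lvp.pow h.big 2
  have uk : Ub q (sPar q x μ k).k E.K := h.uk
  have a1 := Ub.small h.big (Ub.mul h.big uk (Ub.add h.big (Ub.self h.big) ((Ub.one q).mono h.big zero_le_one))) z (by push_cast; linarith)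
  have a2 := Ub.small h.big (Ub.div h.big uk (h.lth.pow h.big 2)) z (by push_cast; linarith)
  have a3 := Ub.small h.big (Ub.div h.big (h.unu.pow h.big 4) (h.lth.pow h.big 2)) z (by
      rcases h.cs with c | c | c | c | c | c <;>
      obtain ⟨c1, c2, c3, c4, c5, c6, c7, c8, c9, c10, c11, c12, c13⟩ := c <;>
      (try simp only [Ex.wb, Ex.yb, Ex.up, Ex.sg]) <;> (try push_cast) <;>
      linarith [h.A_lo, h.A_hi, h.M_lo, h.M_hi, h.K_lo, h.K_hi])
  have a4 := Ub.small h.big (h.uL.pow h.big 2) z (by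
      rcases h.cs with c | c | c | c | c | c <;>
      obtain ⟨c1, c2, c3, c4, c5, c6, c7, c8, c9, c10, c11, c12, c13⟩ := c <;>
      (try simp only [Ex.wb, Ex.yb, Ex.up, Ex.sg]) <;> (try push_cast) <;>
      linarith [h.A_lo, h.A_hi, h.M_lo, h.M_hi, h.K_lo, h.K_hi])
  have a5 := Ub.small h.big (Ub.div h.big (Ub.mul h.big (h.unu.pow h.big 2) (h.uup.pow h.big 2))
    (h.lL.pow h.big 2)) z (by
      rcases h.cs with c | c | c | c | c | c <;>
      obtain ⟨c1, c2, c3, c4, c5, c6, c7, c8, c9, c10, c11, c12, c13⟩ := c <;>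
      (try simp only [Ex.wb, Ex.yb, Ex.up, Ex.sg]) <;> (try push_cast) <;>
      linarith [h.A_lo, h.A_hi, h.M_lo, h.M_hi, h.K_lo, h.K_hi])
  have z0 := (z.pos h.big).le
  rw [add_div]
  linarith

theorem Reg.hvs (h : Reg q x μ k E) :
    100 * ((q : ℝ) + 1 + ((sPar q x μ k).yb + (sPar q x μ k).nu ^ 4) / (sPar q x μ k).th ^ 2
      + (sPar q x μ k).nu ^ 2 * (sPar q x μ k).up ^ 2 / (sPar q x μ k).L ^ 2 + sBe q μ k ^ 2)
      ≤ (sPar q x μ k).vs ^ 2 := by
  have z := h.lvs.pow h.big 2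
  have a1 := Ub.small h.big (Ub.add h.big (Ub.self h.big) ((Ub.one q).mono h.big zero_le_one)) z (by push_cast; linarith [h.K_lo])
  have a2 := Ub.small h.big (Ub.div h.big h.uyb (h.lth.pow h.big 2)) z (by
      rcases h.cs with c | c | c | c | c | c <;>
      obtain ⟨c1, c2, c3, c4, c5, c6, c7, c8, c9, c10, c11, c12, c13⟩ := c <;>
      (try simp only [Ex.wb, Ex.yb, Ex.up, Ex.sg]) <;> (try push_cast) <;>
      linarith [h.A_lo, h.A_hi, h.M_lo, h.M_hi, h.K_lo, h.K_hi])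
  have a3 := Ub.small h.big (Ub.div h.big (h.unu.pow h.big 4) (h.lth.pow h.big 2)) z (by
      rcases h.cs with c | c | c | c | c | c <;>
      obtain ⟨c1, c2, c3, c4, c5, c6, c7, c8, c9, c10, c11, c12, c13⟩ := c <;>
      (try simp only [Ex.wb, Ex.yb, Ex.up, Ex.sg]) <;> (try push_cast) <;>
      linarith [h.A_lo, h.A_hi, h.M_lo, h.M_hi, h.K_lo, h.K_hi])
  have a4 := Ub.small h.big (h.ube.pow h.big 2) z (by
      rcases h.cs with c | c | c | c | c | c <;>
      obtain ⟨c1, c2, c3, c4, c5, c6, c7, c8, c9, c10, c11, c12, c13⟩ := c <;>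
      (try simp only [Ex.wb, Ex.yb, Ex.up, Ex.sg]) <;> (try push_cast) <;>
      linarith [h.A_lo, h.A_hi, h.M_lo, h.M_hi, h.K_lo, h.K_hi])
  have a5 := Ub.small h.big (Ub.div h.big (Ub.mul h.big (h.unu.pow h.big 2) (h.uup.pow h.big 2))
    (h.lL.pow h.big 2)) z (by
      rcases h.cs with c | c | c | c | c | c <;>
      obtain ⟨c1, c2, c3, c4, c5, c6, c7, c8, c9, c10, c11, c12, c13⟩ := c <;>
      (try simp only [Ex.wb, Ex.yb, Ex.up, Ex.sg]) <;> (try push_cast) <;>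
      linarith [h.A_lo, h.A_hi, h.M_lo, h.M_hi, h.K_lo, h.K_hi])
  have z0 := (z.pos h.big).le
  rw [add_div]
  linarith

theorem Reg.eta_le (h : Reg q x μ k E) : (sPar q x μ k).eta ≤ 1 / q * k := by
  exact Ub.le h.big h.ueta (Lb.mul h.big h.lth h.lk) (by
      rcases h.cs with c | c | c | c | c | c <;>
      obtain ⟨c1, c2, c3, c4, c5, c6, c7, c8, c9, c10, c11, c12, c13⟩ := c <;>
      (try simp only [Ex.wb, Ex.yb, Ex.up, Ex.sg]) <;> (try push_cast) <;>
      linarith [h.A_lo, h.A_hi, h.M_lo, h.M_hi, h.K_lo, h.K_hi])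

theorem Reg.late_T (h : Reg q x μ k E) (hk : k < kTwo q) :
    1 + k * tau x k + sSig q x k ≤ (sPar q x μ k).L ^ 2 := by
  have z := h.lL.pow h.big 2
  have a1 := Ub.small h.big (Ub.one q) z (by
      rcases h.late hk with c | c <;>
      obtain ⟨c1, c2, c3, c4, c5, c6, c7, c8, c9, c10, c11, c12, c13⟩ := c <;>
      (try simp only [Ex.wb, Ex.yb, Ex.up, Ex.sg]) <;> (try push_cast) <;>
      linarith [h.A_lo, h.A_hi, h.M_lo, h.M_hi, h.K_lo, h.K_hi])
  have a2 := Ub.small h.big (Ub.mul h.big h.uk h.uta) z (by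
      rcases h.late hk with c | c <;>
      obtain ⟨c1, c2, c3, c4, c5, c6, c7, c8, c9, c10, c11, c12, c13⟩ := c <;>
      (try simp only [Ex.wb, Ex.yb, Ex.up, Ex.sg]) <;> (try push_cast) <;>
      linarith [h.A_lo, h.A_hi, h.M_lo, h.M_hi, h.K_lo, h.K_hi])
  have a3 := Ub.small h.big h.usg z (by
      rcases h.late hk with c | c <;>
      obtain ⟨c1, c2, c3, c4, c5, c6, c7, c8, c9, c10, c11, c12, c13⟩ := c <;>
      (try simp only [Ex.wb, Ex.yb, Ex.up, Ex.sg]) <;> (try push_cast) <;>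
      linarith [h.A_lo, h.A_hi, h.M_lo, h.M_hi, h.K_lo, h.K_hi])
  have z0 := (z.pos h.big).le
  linarith

theorem Reg.main_L (h : Reg q x μ k E) (hk : kTwo q ≤ k) :
    (sPar q x μ k).ka ≤ (sPar q x μ k).L ^ 2 := by
  exact Ub.le h.big h.uka (h.lL.pow h.big 2) (by
      rcases h.main hk with c | c | c | c <;>
      obtain ⟨c1, c2, c3, c4, c5, c6, c7, c8, c9, c10, c11, c12, c13⟩ := c <;>
      (try simp only [Ex.wb, Ex.yb, Ex.up, Ex.sg]) <;> (try push_cast) <;>
      linarith [h.A_lo, h.A_hi, h.M_lo, h.M_hi, h.K_lo, h.K_hi])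

theorem Reg.kavs (h : Reg q x μ k E) : (sPar q x μ k).ka * (sPar q x μ k).vs ≤ 1 / q * k := by
  exact Ub.le h.big (Ub.mul h.big h.uka h.uvs) (Lb.mul h.big h.lth h.lk) (by linarith [h.K_lo])

theorem Reg.nuyb (h : Reg q x μ k E) :
    21 * (sPar q x μ k).nu ^ 2 * (sPar q x μ k).yb ≤ 1 / q * k := by
  exact Ub.le h.big (Ub.mul h.big (Ub.mul h.big (Ub.const h.big (by norm_num) (by norm_num))
    (h.unu.pow h.big 2)) h.uyb) (Lb.mul h.big h.lth h.lk) (by
      rcases h.cs with c | c | c | c | c | c <;>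
      obtain ⟨c1, c2, c3, c4, c5, c6, c7, c8, c9, c10, c11, c12, c13⟩ := c <;>
      (try simp only [Ex.wb, Ex.yb, Ex.up, Ex.sg]) <;> (try push_cast) <;>
      linarith [h.A_lo, h.A_hi, h.M_lo, h.M_hi, h.K_lo, h.K_hi])

theorem Reg.k_big (h : Reg q x μ k E) : 1000 * (q : ℝ) ≤ k ∧ 1000 * (q : ℝ) ≤ x := by
  have a := Ub.mul h.big (Ub.const (c := 1000) h.big (by norm_num) (by norm_num)) (Ub.self h.big)
  exact ⟨Ub.le h.big a h.lk (by linarith [h.K_lo]), Ub.le h.big a h.lx (by linarith [h.A_lo])⟩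

theorem Reg.gain (h : Reg q x μ k E) (hw : win q k) :
    2 * (sPar q x μ k).u + nC q μ k + k + 28 * (sPar q x μ k).L * (sPar q x μ k).wb ^ 2
      + 16 * sBe q μ k * k ≤ μ / 4 := by
  have a1 := Ub.small h.big h.uu h.lm (by
      obtain ⟨c1, c2, c3, c4, c5, c6, c7, c8, c9, c10, c11, c12, c13⟩ := h.wn hw
      try simp only [Ex.wb, Ex.yb, Ex.up, Ex.sg]
      try push_cast
      linarith [h.A_lo, h.A_hi, h.M_lo, h.M_hi, h.K_lo, h.K_hi])
  have a2 := Ub.small h.big (Ub.mul h.big (Ub.base h.big 30) h.uk) h.lm (by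
      obtain ⟨c1, c2, c3, c4, c5, c6, c7, c8, c9, c10, c11, c12, c13⟩ := h.wn hw
      try simp only [Ex.wb, Ex.yb, Ex.up, Ex.sg]
      try push_cast
      linarith [h.A_lo, h.A_hi, h.M_lo, h.M_hi, h.K_lo, h.K_hi])
  have a3 := Ub.small h.big (Ub.div h.big h.um (Lb.self q)) h.lm (by linarith)
  have a4 := Ub.small h.big h.uk h.lm (by
      obtain ⟨c1, c2, c3, c4, c5, c6, c7, c8, c9, c10, c11, c12, c13⟩ := h.wn hw
      try simp only [Ex.wb, Ex.yb, Ex.up, Ex.sg]
      try push_cast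
      linarith [h.A_lo, h.A_hi, h.M_lo, h.M_hi, h.K_lo, h.K_hi])
  have a5 := Ub.small h.big (Ub.mul h.big h.uL (h.uwb.pow h.big 2)) h.lm (by
      obtain ⟨c1, c2, c3, c4, c5, c6, c7, c8, c9, c10, c11, c12, c13⟩ := h.wn hw
      try simp only [Ex.wb, Ex.yb, Ex.up, Ex.sg]
      try push_cast
      linarith [h.A_lo, h.A_hi, h.M_lo, h.M_hi, h.K_lo, h.K_hi])
  have a6 := Ub.small h.big (Ub.mul h.big h.ube h.uk) h.lm (by
      obtain ⟨c1, c2, c3, c4, c5, c6, c7, c8, c9, c10, c11, c12, c13⟩ := h.wn hw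
      try simp only [Ex.wb, Ex.yb, Ex.up, Ex.sg]
      try push_cast
      linarith [h.A_lo, h.A_hi, h.M_lo, h.M_hi, h.K_lo, h.K_hi])
  have z0 := (h.lm.pos h.big).le
  unfold nC
  linarith

theorem Reg.one_x (h : Reg q x μ k E) (hk : kOne q ≤ k) :
    200 * x ≤ 1 / q * k ∧ 8 * (sPar q x μ k).u + 4 ≤ 1 / q * k := by
  have z : Lb q (1 / q * k) (-1 + E.K) := (Lb.mul h.big h.lth h.lk)
  have a1 := Ub.small h.big h.ux z (by linarith [(h.one hk).1, h.A_hi])
  have a2 := Ub.small h.big h.uu z (by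
      rcases (h.one hk).2 with c | c | c <;>
      obtain ⟨c1, c2, c3, c4, c5, c6, c7, c8, c9, c10, c11, c12, c13⟩ := c <;>
      (try simp only [Ex.wb, Ex.yb, Ex.up, Ex.sg]) <;> (try push_cast) <;>
      linarith [h.A_lo, h.A_hi, h.M_lo, h.M_hi, h.K_lo, h.K_hi])
  have a3 := Ub.small h.big (Ub.one q) z (by linarith [h.K_lo])
  have z0 := (z.pos h.big).le
  constructor <;> linarith

end Vale.Agent.P049.An
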