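import Vale.Agent.P049.Rat2
import Vale.Agent.P049.Calc2
import Vale.Agent.P049.Norm2

/-! P049: the state of one side when the potential is at most one. -/

namespace Vale.Agent.P049.An

open Finset Matrix

variable {ι : Type} [Fintype ι] [DecidableEq ι]

/-- what is known about the side `B` (sign `s`), the other side being `C` -/
structure St (q : ℕ) (x μ : ℝ) (k : ℕ) (E : Ex) (s : ℝ) (B C : Matrix ι ι ℝ) : Prop where
  reg : Reg q x μ k E
  side : Side (sPar q x μ k) s B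
  hU : sU B ^ 2 ≤ nU q x k
  hD : dev x k (sT B) ^ 2 ≤ nD q x k
  hW : sW (tau x k) B ≤ nW q x k
  hV : sV B ≤ nV q x k
  h4 : kTwo q ≤ k → sM4 B ≤ n4 ℝ q k
  h3 : kTwo q ≤ k → term3 q μ k (sM3 B) ≤ 1
  hC0 : 0 ≤ sChi B C + sT B
  hC : kOne q ≤ k → sChi B C + sT B ≤ nC q μ k
  tr : -((k : ℝ) / 2) - |sU B| - |sU C| - 1 ≤ (C * B).trace

variable {q : ℕ} {x μ : ℝ} {k : ℕ} {E : Ex} {s : ℝ} {B C : Matrix ι ι ℝ} {m w t : ι → ι → ℝ}

theorem St.tot_eta (h : St q x μ k E s B C) (hW : Wt (sPar q x μ k) s B m w t) :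
    |tot w - (k : ℝ) ^ 2| ≤ (sPar q x μ k).eta * k := hW.tot_err h.side

theorem St.tot_err (h : St q x μ k E s B C) (hW : Wt (sPar q x μ k) s B m w t) :
    |tot w - (k : ℝ) ^ 2| ≤ 1 / q * (k : ℝ) ^ 2 := by
  have h1 := h.tot_eta hW
  have h2 := h.reg.eta_le
  have h3 : (0 : ℝ) ≤ k := Nat.cast_nonneg k
  calc _ ≤ (sPar q x μ k).eta * k := h1
    _ ≤ 1 / q * k * k := mul_le_mul_of_nonneg_right h2 h3
    _ = _ := by ring

theorem St.k_ge (h : St q x μ k E s B C) : (400 : ℝ) ≤ k := by exact_mod_cast h.reg.two_le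

theorem St.tot_bd (h : St q x μ k E s B C) (hW : Wt (sPar q x μ k) s B m w t) :
    0 < tot w ∧ tot w ≤ 2 * (k : ℝ) ^ 2 := by
  have h1 := abs_le.1 (h.tot_err hW)
  have h2 := h.reg.th_le
  have h3 : (0 : ℝ) < (k : ℝ) ^ 2 := by have := h.k_ge; positivity
  constructor <;> nlinarith [h1.1, h1.2, h2.1, h2.2]

theorem St.Z_le (h : St q x μ k E s B C) :
    sZ B ≤ k * (55 / 100 * tau x k + 21 / 10 * (1 / q)) := by
  have h1 := h.side.Z_le
  have h2 := h.reg.nuyb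
  have h3 := h.reg.T_le' h.hD
  nlinarith

omit [DecidableEq ι] in
theorem sV_nonneg (B : Matrix ι ι ℝ) : 0 ≤ sV B := sum_nonneg fun _ _ => sq_nonneg _

end Vale.Agent.P049.An
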