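import Mathlib

/-! P049: the output format. -/

namespace Vale.Agent.P049

open Classical in
/-- the adjacency matrix of `G`, row by row, as a bit string of length `n ^ 2` -/
noncomputable def code {n : ℕ} (G : SimpleGraph (Fin n)) : List Bool :=
  (List.finRange n).flatMap fun u => (List.finRange n).map fun v => decide (G.Adj u v)

end Vale.Agent.P049
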