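import Vale.Agent.Lib.helper23.Rec
import Mathlib.Computability.TuringMachine.Computable

/-! P049: from polynomial time tree programs to Turing machines, unary input, raw output. -/

namespace Vale.Agent.P049

open Vale.Agent.Lib.H23 Turing

open Polynomial Enc

namespace TMx

theorem sz_un (N : ℕ) : sz (List.replicate N ()) = 2 * N + 1 := by
  induction N with
  | zero => rfl
  | succ N ih =>
    have hu : sz (() : Unit) = 1 := rfl
    rw [List.replicate_succ, sz_cons, ih]; omega

/-- conversion of the input -/
def conv : Cmd :=
  Cmd.seq (Cmd.loop K.m (Cmd.push K.a true) (Cmd.push K.a true))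
    (Cmd.seq (Cmd.push K.m false)
      (Cmd.loop K.a Cmd.skip (Cmd.seq (Cmd.push K.m false) (Cmd.push K.m true))))

theorem conv_exec (n : ℕ) :
    Exec conv ⟨List.replicate n true, [], [], []⟩ ⟨ser (enc (List.replicate n ())), [], [], []⟩
      (5 * n + 3) := by
  have h1 : ∀ n k, Exec (Cmd.loop K.m (Cmd.push K.a true) (Cmd.push K.a true))
      ⟨List.replicate n true, List.replicate k true, [], []⟩
      ⟨[], List.replicate (k + n) true, [], []⟩ (2 * n + 1) := by
    intro n
    induction n with
    | zero => intro k; exact Exec.loop0 rfl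
    | succ n ih =>
      intro k
      have := ih (k + 1)
      rw [show k + 1 + n = k + (n + 1) by omega] at this
      exact Exec.mono (t := 1 + (2 * n + 1) + 1)
        (Exec.loopt (l := List.replicate n true) rfl (Exec.push K.a true _) this) (by omega)
  have h2 : ∀ n k, Exec (Cmd.loop K.a Cmd.skip (Cmd.seq (Cmd.push K.m false) (Cmd.push K.m true)))
      ⟨ser (enc (List.replicate k ())), List.replicate n true, [], []⟩
      ⟨ser (enc (List.replicate (k + n) ())), [], [], []⟩ (3 * n + 1) := by
    intro n
    induction n with
    | zero => intro k; exact Exec.loop0 rfl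
    | succ n ih =>
      intro k
      have := ih (k + 1)
      rw [show k + 1 + n = k + (n + 1) by omega] at this
      exact Exec.mono (t := (1 + 1) + (3 * n + 1) + 1)
        (Exec.loopt (l := List.replicate n true) rfl
          (Exec.seq (Exec.push K.m false _) (Exec.push K.m true _)) this) (by omega)
  have h3 := h1 n 0
  have h4 := h2 n 0
  rw [Nat.zero_add] at h3 h4
  exact (Exec.seq h3 (Exec.seq (Exec.push K.m false _) h4)).mono (by omega)

def drop1 : Cmd := Cmd.br K.m Cmd.skip Cmd.skip Cmd.skip

def unwrap : Cmd := Cmd.loop K.m Cmd.skip (Cmd.br K.m Cmd.skip (Cmd.push K.a false)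
  (Cmd.seq drop1 (Cmd.seq drop1 (Cmd.push K.a true))))

theorem unwrap_exec (y : List Bool) : ∀ A : List Bool,
    Exec unwrap ⟨ser (enc y), A, [], []⟩ ⟨[], y.reverse ++ A, [], []⟩ (7 * y.length + 3) := by
  induction y with
  | nil =>
    intro A
    exact Exec.loopf (l := []) (t := 1) (t' := 1) rfl (Exec.skip _) (Exec.loop0 rfl)
  | cons x y ih =>
    intro A
    have e : (x :: y).reverse ++ A = y.reverse ++ (x :: A) := by simp
    rw [e]
    cases x
    · exact Exec.mono (t := 1 + 1 + (7 * y.length + 3) + 1)
        (Exec.loopt (l := false :: ser (enc y)) rfl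
          (Exec.brf (l := ser (enc y)) rfl (Exec.push K.a false _)) (ih (false :: A)))
        (by simp; omega)
    · exact Exec.mono (t := 1 + 1 + (1 + 1 + 1) + 1 + (7 * y.length + 3) + 1)
        (Exec.loopt (l := true :: false :: false :: ser (enc y)) rfl
          (Exec.brt (l := false :: false :: ser (enc y)) rfl
            (Exec.seq (Exec.brf (l := false :: ser (enc y)) rfl (Exec.skip _))
              (Exec.seq (Exec.brf (l := ser (enc y)) rfl (Exec.skip _)) (Exec.push K.a true _))))
          (ih (true :: A))) (by simp; omega)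

/-- conversion of the output -/
def decC : Cmd := Cmd.seq unwrap backA

theorem decC_exec (y : List Bool) :
    Exec decC ⟨ser (enc y), [], [], []⟩ ⟨y, [], [], []⟩ (9 * y.length + 4) := by
  have h := backA_exec (y.reverse ++ []) [] [] []
  have h' := unwrap_exec y []
  simp only [List.append_nil, List.reverse_reverse, List.length_reverse] at h h'
  exact (Exec.seq h' h).mono (by omega)

end TMx

open TMx in
theorem tm_of_pt {F : List Unit → List Bool} (hF : PT F) {g : ℕ → List Bool}
    (hg : ∀ n, g n = F (List.replicate n ())) :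
    ∃ M : TM2ComputableInPolyTime (fun n : ℕ => List.replicate n true)
      (fun s : List Bool => s) g, ∀ k, Finite (M.tm.Γ k) := by
  obtain rfl : g = fun n => F (List.replicate n ()) := funext hg
  obtain ⟨Q, hQ⟩ := hF.size_le
  obtain ⟨c, P, h⟩ := hF
  refine ⟨⟨⟨compile (Cmd.seq conv (Cmd.seq c decC)), Equiv.refl Bool, Equiv.refl Bool⟩,
    5 * X + 8 + P.comp (2 * X + 1) + 9 * Q.comp (2 * X + 1), fun n => ?_⟩,
    fun _ => (inferInstance : Finite Bool)⟩
  have h1 := h (List.replicate n ()) []
  rw [List.append_nil, List.append_nil, sz_un] at h1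
  have h3 := hQ (List.replicate n ())
  have h4 := length_lt_sz (F (List.replicate n ()))
  rw [sz_un] at h3
  have h2 := compile_outputs ((Exec.seq (conv_exec n) (Exec.seq h1 (decC_exec _))).mono
    (t' := 5 * n + 7 + P.eval (2 * n + 1) + 9 * Q.eval (2 * n + 1)) (by omega))
  have key : ∀ (x x' y y' : List Bool) (T T' : ℕ), x = x' → y = y' → T = T' →
      TM2OutputsInTime (compile (Cmd.seq conv (Cmd.seq c decC))) x' (some y') T' →
      TM2OutputsInTime (compile (Cmd.seq conv (Cmd.seq c decC))) x (some y) T := by
    intro x x' y y' T T' hx hy hT H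
    subst hx hy hT
    exact H
  refine key _ _ _ _ _ _ (List.map_id _) (List.map_id _) ?_ (Classical.choice h2)
  simp only [List.length_replicate, eval_add, eval_mul, eval_ofNat, eval_X, eval_comp, eval_one]
  omega

end Vale.Agent.P049
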